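import Vale.Agent.P230.L.Quantile

open MeasureTheory Set Filter Topology
open scoped ENNReal NNReal

namespace Vale.Agent.P230.L.PL

/-- Additive form of the Prekopa-Leindler inequality (dual form of the Knothe coupling). -/
def APL {E : Type} [MeasurableSpace E] [AddCommGroup E] [Module ℝ E] (m : Measure E) : Prop :=
  ∀ (α β h u w : E → ℝ≥0∞) (c : ℝ≥0∞), Measurable α → Measurable β → Measurable h →
    Measurable u → Measurable w → c ≠ 0 → ∫⁻ x, α x ∂m = 1 → ∫⁻ x, β x ∂m = 1 →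
    (∀ x y, (u x + w y) * (α x * β y) ^ (1 / 2 : ℝ) ≤
      h ((1 / 2 : ℝ) • (x + y)) + c * (α x * β y) ^ (1 / 2 : ℝ)) →
    ∫⁻ x, u x * α x ∂m + ∫⁻ x, w x * β x ∂m ≤ ∫⁻ x, h x ∂m + c

lemma div_step {U H c s : ℝ≥0∞} (hs0 : s ≠ 0) (hs1 : s ≠ ∞) (h : U * s ≤ H + c * s) :
    U ≤ H * s⁻¹ + c := by
  have := mul_le_mul_left h s⁻¹
  rw [add_mul, mul_assoc, mul_assoc, ENNReal.mul_inv_cancel hs0 hs1, mul_one, mul_one] at this
  exact this

lemma mul_step {U H c s : ℝ≥0∞} (hs0 : s ≠ 0) (hs1 : s ≠ ∞) (h : U ≤ H * s⁻¹ + c) :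
    U * s ≤ H + c * s := by
  have := mul_le_mul_left h s
  rw [add_mul, mul_assoc, ENNReal.inv_mul_cancel hs0 hs1, mul_one] at this
  exact this

lemma sqrt_ne_zero' {a b : ℝ≥0∞} (ha : a ≠ 0) (hb : b ≠ 0) : (a * b) ^ (1 / 2 : ℝ) ≠ 0 := by
  have : a * b ≠ 0 := mul_ne_zero ha hb
  intro h
  rw [ENNReal.rpow_eq_zero_iff] at h
  rcases h with h | h
  · exact this h.1
  · linarith [h.2]

lemma sqrt_ne_top' {a b : ℝ≥0∞} (ha : a ≠ ∞) (hb : b ≠ ∞) : (a * b) ^ (1 / 2 : ℝ) ≠ ∞ :=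
  ENNReal.rpow_ne_top_of_nonneg (by norm_num) (ENNReal.mul_ne_top ha hb)

lemma inv_sqrt_le {a b : ℝ≥0∞} (ha : a ≠ 0) (hb : b ≠ 0) (ha' : a ≠ ∞) (hb' : b ≠ ∞) :
    ((a * b) ^ (1 / 2 : ℝ))⁻¹ ≤ ENNReal.ofReal ((1 / 2 : ℝ) * (a.toReal⁻¹ + b.toReal⁻¹)) := by
  have hA : 0 < a.toReal := ENNReal.toReal_pos ha ha'
  have hB : 0 < b.toReal := ENNReal.toReal_pos hb hb'
  set A := a.toReal
  set B := b.toReal
  have e1 : a = ENNReal.ofReal A := (ENNReal.ofReal_toReal ha').symm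
  have e2 : b = ENNReal.ofReal B := (ENNReal.ofReal_toReal hb').symm
  rw [e1, e2, ← ENNReal.ofReal_mul hA.le, ENNReal.ofReal_rpow_of_nonneg (by positivity)
    (by norm_num), ← ENNReal.ofReal_inv_of_pos (by positivity)]
  apply ENNReal.ofReal_le_ofReal
  rw [← Real.sqrt_eq_rpow, Real.sqrt_mul hA.le, mul_inv]
  have h1 : (√A)⁻¹ ^ 2 = A⁻¹ := by rw [inv_pow, Real.sq_sqrt hA.le]
  have h2 : (√B)⁻¹ ^ 2 = B⁻¹ := by rw [inv_pow, Real.sq_sqrt hB.le]
  rw [← h1, ← h2]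
  nlinarith [sq_nonneg ((√A)⁻¹ - (√B)⁻¹)]

theorem apl_real : APL (volume : Measure ℝ) := by
  intro α β h u w c hα hβ hh hu hw _ h1 h2 hyp
  obtain ⟨X, hXm, hXmap, hXd⟩ := exists_quantile α hα h1
  obtain ⟨X', hXm', hXmap', hXd'⟩ := exists_quantile β hβ h2
  have hae : AEMeasurable X (volume.restrict (Ioo (0:ℝ) 1)) :=
    aemeasurable_restrict_of_monotoneOn measurableSet_Ioo hXm
  have hae' : AEMeasurable X' (volume.restrict (Ioo (0:ℝ) 1)) :=
    aemeasurable_restrict_of_monotoneOn measurableSet_Ioo hXm'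
  have e1 : ∫⁻ x, u x * α x = ∫⁻ t in Ioo (0:ℝ) 1, u (X t) := by
    rw [← lintegral_map' hu.aemeasurable hae, hXmap, lintegral_withDensity_eq_lintegral_mul _ hα hu]
    simp [mul_comm]
  have e2 : ∫⁻ x, w x * β x = ∫⁻ t in Ioo (0:ℝ) 1, w (X' t) := by
    rw [← lintegral_map' hw.aemeasurable hae', hXmap',
      lintegral_withDensity_eq_lintegral_mul _ hβ hw]
    simp [mul_comm]
  have hall := hXd.and hXd'
  rw [ae_restrict_iff' measurableSet_Ioo] at hall
  obtain ⟨N, hNsub, hNm, hN0⟩ := exists_measurable_superset_of_null hall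
  set S : Set ℝ := Ioo 0 1 \ N with hS
  have hSm : MeasurableSet S := measurableSet_Ioo.diff hNm
  have hSgood : ∀ t ∈ S, (α (X t) ≠ 0 ∧ α (X t) ≠ ∞ ∧ HasDerivAt X ((α (X t)).toReal)⁻¹ t) ∧
      (β (X' t) ≠ 0 ∧ β (X' t) ≠ ∞ ∧ HasDerivAt X' ((β (X' t)).toReal)⁻¹ t) := by
    intro t ht
    by_contra hcon
    exact ht.2 (hNsub (fun hh => hcon (hh ht.1)))
  have hSeq : volume.restrict S = volume.restrict (Ioo (0:ℝ) 1) :=
    Measure.restrict_congr_set (sdiff_null_ae_eq_self hN0)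
  set Z : ℝ → ℝ := fun t => (1 / 2 : ℝ) • (X t + X' t) with hZ
  set Z' : ℝ → ℝ := fun t => (1 / 2 : ℝ) * (((α (X t)).toReal)⁻¹ + ((β (X' t)).toReal)⁻¹) with hZ'
  have hZd : ∀ t ∈ S, HasDerivWithinAt Z (Z' t) S t := by
    intro t ht
    have := ((hSgood t ht).1.2.2.add (hSgood t ht).2.2.2).const_mul (1 / 2 : ℝ)
    exact this.hasDerivWithinAt
  have hZm : MonotoneOn Z S := by
    intro s hs t ht hst
    have a1 := hXm hs.1 ht.1 hst
    have a2 := hXm' hs.1 ht.1 hst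
    simp only [hZ, smul_eq_mul]
    linarith
  have e3 := lintegral_image_eq_lintegral_deriv_mul_of_monotoneOn hSm hZd hZm h
  rw [e1, e2, ← lintegral_add_left' (f := fun t => u (X t)) (hu.comp_aemeasurable hae), ← hSeq]
  calc ∫⁻ t in S, u (X t) + w (X' t)
      ≤ ∫⁻ t in S, (ENNReal.ofReal (Z' t) * h (Z t) + c) := by
        refine setLIntegral_mono' hSm fun t ht => ?_
        obtain ⟨⟨a0, a1, -⟩, ⟨b0, b1, -⟩⟩ := hSgood t ht
        have := div_step (sqrt_ne_zero' a0 b0) (sqrt_ne_top' a1 b1) (hyp (X t) (X' t))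
        refine this.trans ?_
        rw [mul_comm]
        gcongr
        exact inv_sqrt_le a0 b0 a1 b1
    _ = (∫⁻ t in S, ENNReal.ofReal (Z' t) * h (Z t)) + c := by
        rw [lintegral_add_right _ measurable_const, lintegral_const, hSeq]
        simp
    _ ≤ (∫⁻ x, h x) + c := by
        rw [← e3]
        gcongr
        exact Measure.restrict_le_self

theorem apl_prod {E F : Type} [MeasurableSpace E] [AddCommGroup E] [Module ℝ E]
    [MeasurableSpace F] [AddCommGroup F] [Module ℝ F] (m : Measure E) (n : Measure F)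
    [SFinite m] [SFinite n] (hm : APL m) (hn : APL n) : APL (m.prod n) := by
  intro α β h u w c hα hβ hh hu hw hc h1 h2 hyp
  set α1 : E → ℝ≥0∞ := fun s => ∫⁻ ξ, α (s, ξ) ∂n with hα1
  set β1 : E → ℝ≥0∞ := fun s => ∫⁻ ξ, β (s, ξ) ∂n with hβ1
  set H : E → ℝ≥0∞ := fun s => ∫⁻ ξ, h (s, ξ) ∂n with hH
  set U : E → ℝ≥0∞ := fun s => (∫⁻ ξ, u (s, ξ) * α (s, ξ) ∂n) * (α1 s)⁻¹ with hU
  set W : E → ℝ≥0∞ := fun s => (∫⁻ ξ, w (s, ξ) * β (s, ξ) ∂n) * (β1 s)⁻¹ with hW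
  have mα1 : Measurable α1 := hα.lintegral_prod_right'
  have mβ1 : Measurable β1 := hβ.lintegral_prod_right'
  have mH : Measurable H := hh.lintegral_prod_right'
  have mU : Measurable U := (hu.fun_mul hα).lintegral_prod_right'.mul mα1.inv
  have mW : Measurable W := (hw.fun_mul hβ).lintegral_prod_right'.mul mβ1.inv
  have iα : ∫⁻ s, α1 s ∂m = 1 := by rw [← h1, lintegral_prod _ hα.aemeasurable]
  have iβ : ∫⁻ s, β1 s ∂m = 1 := by rw [← h2, lintegral_prod _ hβ.aemeasurable]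
  have key := hm α1 β1 H U W c mα1 mβ1 mH mU mW hc iα iβ (by
    intro s s'
    by_cases a0 : α1 s = 0
    · simp [a0]
    by_cases b0 : β1 s' = 0
    · simp [b0]
    by_cases a1 : α1 s = ∞
    · have : (α1 s * β1 s') ^ (1 / 2 : ℝ) = ∞ := by
        rw [a1, ENNReal.top_mul b0]; simp
      rw [this, ENNReal.mul_top hc]
      simp
    by_cases b1 : β1 s' = ∞
    · have : (α1 s * β1 s') ^ (1 / 2 : ℝ) = ∞ := by
        rw [b1, ENNReal.mul_top a0]; simp
      rw [this, ENNReal.mul_top hc]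
      simp
    have k0 := sqrt_ne_zero' a0 b0
    have k1 := sqrt_ne_top' a1 b1
    set k := (α1 s * β1 s') ^ (1 / 2 : ℝ) with hk
    apply mul_step k0 k1
    have ms : Measurable (fun ξ : F => (s, ξ)) := measurable_prodMk_left
    have ms' : Measurable (fun ξ : F => (s', ξ)) := measurable_prodMk_left
    have mr : Measurable (fun ξ : F => ((1 / 2 : ℝ) • (s + s'), ξ)) := measurable_prodMk_left
    have inner := hn (fun ξ => α (s, ξ) * (α1 s)⁻¹) (fun ξ => β (s', ξ) * (β1 s')⁻¹)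
      (fun ξ => h ((1 / 2 : ℝ) • (s + s'), ξ) * k⁻¹) (fun ξ => u (s, ξ)) (fun ξ => w (s', ξ)) c
      ((hα.comp ms).mul_const _) ((hβ.comp ms').mul_const _) ((hh.comp mr).mul_const _)
      (hu.comp ms) (hw.comp ms') hc
      (by rw [lintegral_mul_const _ (f := fun ξ => α (s, ξ)) (by fun_prop)]; exact ENNReal.mul_inv_cancel a0 a1)
      (by rw [lintegral_mul_const _ (f := fun ξ => β (s', ξ)) (by fun_prop)]; exact ENNReal.mul_inv_cancel b0 b1)
      (by
        intro ξ ξ'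
        have e : (α (s, ξ) * (α1 s)⁻¹ * (β (s', ξ') * (β1 s')⁻¹)) ^ (1 / 2 : ℝ) =
            (α (s, ξ) * β (s', ξ')) ^ (1 / 2 : ℝ) * k⁻¹ := by
          rw [hk, ← ENNReal.inv_rpow, ← ENNReal.mul_rpow_of_nonneg _ _ (by norm_num),
            ENNReal.mul_inv (Or.inl a0) (Or.inl a1)]
          congr 1
          ring
        have := mul_le_mul_left (hyp (s, ξ) (s', ξ')) k⁻¹
        rw [e, ← mul_assoc, ← mul_assoc, ← add_mul]
        exact this)
    simp only [← mul_assoc] at inner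
    rw [lintegral_mul_const _ (f := fun ξ => u (s, ξ) * α (s, ξ)) (by fun_prop),
      lintegral_mul_const _ (f := fun ξ => w (s', ξ) * β (s', ξ)) (by fun_prop),
      lintegral_mul_const _ (f := fun ξ => h ((1 / 2 : ℝ) • (s + s'), ξ)) (by fun_prop)] at inner
    exact inner)
  have gen : ∀ (a v : E × F → ℝ≥0∞), Measurable a → Measurable v →
      ∫⁻ s, (∫⁻ ξ, a (s, ξ) ∂n) ∂m = 1 →
      ∫⁻ x, v x * a x ∂(m.prod n) ≤
        ∫⁻ s, (∫⁻ ξ, v (s, ξ) * a (s, ξ) ∂n) * (∫⁻ ξ, a (s, ξ) ∂n)⁻¹ * (∫⁻ ξ, a (s, ξ) ∂n) ∂m := by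
    intro a v ha hv hi
    rw [lintegral_prod _ (hv.fun_mul ha).aemeasurable]
    have hfin : ∀ᵐ s ∂m, (∫⁻ ξ, a (s, ξ) ∂n) < ∞ :=
      ae_lt_top ha.lintegral_prod_right' (by simp [hi])
    refine lintegral_mono_ae ?_
    filter_upwards [hfin] with s hs
    by_cases a0 : (∫⁻ ξ, a (s, ξ) ∂n) = 0
    · have ms : Measurable (fun ξ : F => (s, ξ)) := measurable_prodMk_left
      have : (fun ξ => a (s, ξ)) =ᵐ[n] 0 := (lintegral_eq_zero_iff (ha.comp ms)).1 a0
      have h0 : ∫⁻ ξ, v (s, ξ) * a (s, ξ) ∂n = 0 := by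
        rw [lintegral_eq_zero_iff (by fun_prop)]
        filter_upwards [this] with ξ hξ
        simp [hξ]
      rw [h0]
      exact zero_le
    · rw [mul_assoc, ENNReal.inv_mul_cancel a0 hs.ne, mul_one]
  have g1 := gen α u hα hu iα
  have g2 := gen β w hβ hw iβ
  rw [lintegral_prod _ hh.aemeasurable]
  exact (add_le_add g1 g2).trans key

theorem apl_equiv {E F : Type} [MeasurableSpace E] [AddCommGroup E] [Module ℝ E]
    [MeasurableSpace F] [AddCommGroup F] [Module ℝ F] (m : Measure E) (n : Measure F)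
    (e : E ≃ᵐ F) (he : MeasurePreserving e m n)
    (hlin : ∀ x y, e ((1 / 2 : ℝ) • (x + y)) = (1 / 2 : ℝ) • (e x + e y))
    (hm : APL m) : APL n := by
  intro α β h u w c hα hβ hh hu hw hc h1 h2 hyp
  have me := e.measurable
  have := hm (α ∘ e) (β ∘ e) (h ∘ e) (u ∘ e) (w ∘ e) c (hα.comp me) (hβ.comp me) (hh.comp me)
    (hu.comp me) (hw.comp me) hc (by rw [← h1, ← he.lintegral_comp hα]; rfl)
    (by rw [← h2, ← he.lintegral_comp hβ]; rfl)
    (by
      intro x y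
      simp only [Function.comp, hlin]
      exact hyp _ _)
  rw [← he.lintegral_comp (hu.fun_mul hα), ← he.lintegral_comp (hw.fun_mul hβ), ← he.lintegral_comp hh]
  exact this

theorem apl_pi (d : ℕ) : APL (volume : Measure (Fin d → ℝ)) := by
  induction d with
  | zero =>
    intro α β h u w c hα hβ hh hu hw hc h1 h2 hyp
    rw [Measure.volume_pi_eq_dirac 0] at h1 h2 ⊢
    simp only [lintegral_dirac] at h1 h2 ⊢
    have := hyp 0 0
    rw [h1, h2] at this ⊢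
    simpa using this
  | succ d ih =>
    have hp := apl_prod (volume : Measure ℝ) (volume : Measure (Fin d → ℝ)) apl_real ih
    have he := (volume_preserving_piFinSuccAbove (fun _ : Fin (d + 1) => ℝ) 0).symm
    refine apl_equiv _ _ _ he ?_ hp
    intro x y
    apply (MeasurableEquiv.piFinSuccAbove (fun _ : Fin (d + 1) => ℝ) 0).injective
    rw [MeasurableEquiv.apply_symm_apply]
    ext
    · simp [MeasurableEquiv.piFinSuccAbove]
    · simp [MeasurableEquiv.piFinSuccAbove, Fin.tail]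

theorem apl_euclidean (d : ℕ) : APL (volume : Measure (EuclideanSpace ℝ (Fin d))) := by
  refine apl_equiv _ _ (MeasurableEquiv.toLp 2 (Fin d → ℝ)) (PiLp.volume_preserving_toLp _) ?_
    (apl_pi d)
  intro x y
  simp

end Vale.Agent.P230.L.PL
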