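import Vale.Agent.P230.L.BL1

/-! Additive energy bound in any dimension.

bl_fun: induction on the dimension (Fin d, then transport along Fintype.equivFin): split off the
first coordinate, apply the inductive bound to the remaining coordinates and bl_one to the
marginals.  bl_set: indicators; signs are removed by the substitutions x -> -x, the shift by
translating S0.
en_lift: for each coordinate c the open interval (s c + lo - 5/8, s c + hi - 3/8), where
(lo, hi) is the open interval of length 3/4 containing all signed sums of three points of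
(3/8, 5/8), has length 1, so it contains at most one integer e c; take s' = s - e.
en_prod: drop the condition on the first block of the fourth point, then Tonelli. -/

namespace Vale.Agent.P230.L

open MeasureTheory ProbabilityTheory Set
open scoped ENNReal

namespace BLAux

theorem mp_shuffle {A B C D : Type} [MeasurableSpace A] [MeasurableSpace B] [MeasurableSpace C]
    [MeasurableSpace D] (a : Measure A) (b : Measure B) (c : Measure C) (d : Measure D)
    [SFinite a] [SFinite b] [SFinite c] [SFinite d] :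
    MeasurePreserving (fun p : (A × C) × (B × D) => ((p.1.1, p.2.1), (p.1.2, p.2.2)))
      ((a.prod c).prod (b.prod d)) ((a.prod b).prod (c.prod d)) :=
  (measurePreserving_prodAssoc a b (c.prod d)).symm.comp <|
    ((MeasurePreserving.id a).prod ((measurePreserving_prodAssoc b c d).comp
      ((Measure.measurePreserving_swap.prod (MeasurePreserving.id d)).comp
        (measurePreserving_prodAssoc c b d).symm))).comp
      (measurePreserving_prodAssoc a c (b.prod d))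

theorem mp_three {E F : Type} [MeasurableSpace E] [MeasurableSpace F] (m : Measure E)
    (n : Measure F) [SFinite m] [SFinite n] :
    MeasurePreserving (fun p : (E × F) × (E × F) × (E × F) =>
      ((p.1.1, p.2.1.1, p.2.2.1), (p.1.2, p.2.1.2, p.2.2.2)))
      ((m.prod n).prod ((m.prod n).prod (m.prod n)))
      ((m.prod (m.prod m)).prod (n.prod (n.prod n))) :=
  (mp_shuffle m (m.prod m) n (n.prod n)).comp
    ((MeasurePreserving.id (m.prod n)).prod (mp_shuffle m m n n))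

/-- the four function inequality with constant `C` -/
def BL {E : Type} [MeasurableSpace E] [Add E] (m : Measure E) (C : ℝ≥0∞) : Prop :=
  ∀ f₁ f₂ f₃ f₀ : E → ℝ≥0∞, Measurable f₁ → Measurable f₂ → Measurable f₃ → Measurable f₀ →
    ∫⁻ p : E × E × E, (f₁ p.1 * f₂ p.2.1 * f₃ p.2.2 * f₀ (p.1 + p.2.1 + p.2.2)) ^ (3 / 4 : ℝ)
        ∂(m.prod (m.prod m)) ≤
      C * ((∫⁻ x, f₁ x ∂m) * (∫⁻ x, f₂ x ∂m) * (∫⁻ x, f₃ x ∂m) * ∫⁻ x, f₀ x ∂m) ^ (3 / 4 : ℝ)

theorem bl_prod {E F : Type} [MeasurableSpace E] [Add E] [MeasurableAdd₂ E] [MeasurableSpace F]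
    [Add F] [MeasurableAdd₂ F] (m : Measure E) (n : Measure F) [SFinite m] [SFinite n]
    {C D : ℝ≥0∞} (hm : BL m C) (hn : BL n D) : BL (m.prod n) (D * C) := by
  intro f₁ f₂ f₃ f₀ h₁ h₂ h₃ h₀
  have hG : Measurable fun r : (E × E × E) × (F × F × F) =>
      (f₁ (r.1.1, r.2.1) * f₂ (r.1.2.1, r.2.2.1) * f₃ (r.1.2.2, r.2.2.2) *
        f₀ (r.1.1 + r.1.2.1 + r.1.2.2, r.2.1 + r.2.2.1 + r.2.2.2)) ^ (3 / 4 : ℝ) := by
    fun_prop
  refine le_trans (le_of_eq ((mp_three m n).lintegral_comp hG)) ?_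
  have m₁ := h₁.lintegral_prod_right' (ν := n)
  have m₂ := h₂.lintegral_prod_right' (ν := n)
  have m₃ := h₃.lintegral_prod_right' (ν := n)
  have m₀ := h₀.lintegral_prod_right' (ν := n)
  rw [lintegral_prod _ hG.aemeasurable, lintegral_prod _ h₁.aemeasurable,
    lintegral_prod _ h₂.aemeasurable, lintegral_prod _ h₃.aemeasurable,
    lintegral_prod _ h₀.aemeasurable, mul_assoc D]
  refine le_trans ?_ (mul_le_mul_right (hm _ _ _ _ m₁ m₂ m₃ m₀) D)
  rw [← lintegral_const_mul]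
  · exact lintegral_mono fun p => hn (fun y => f₁ (p.1, y)) (fun y => f₂ (p.2.1, y))
      (fun y => f₃ (p.2.2, y)) (fun y => f₀ (p.1 + p.2.1 + p.2.2, y)) (by fun_prop) (by fun_prop)
      (by fun_prop) (by fun_prop)
  · exact ((((m₁.comp measurable_fst).mul (m₂.comp measurable_snd.fst)).mul
      (m₃.comp measurable_snd.snd)).mul (m₀.comp (by fun_prop))).pow_const _

theorem bl_equiv {E F : Type} [MeasurableSpace E] [Add E] [MeasurableSpace F] [Add F]
    [MeasurableAdd₂ F] (m : Measure E) (n : Measure F) [SFinite m] [SFinite n] (e : E → F)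
    (he : MeasurePreserving e m n) (hadd : ∀ x y, e (x + y) = e x + e y) {C : ℝ≥0∞}
    (hm : BL m C) : BL n C := by
  intro f₁ f₂ f₃ f₀ h₁ h₂ h₃ h₀
  have h := hm (fun x => f₁ (e x)) (fun x => f₂ (e x)) (fun x => f₃ (e x)) (fun x => f₀ (e x))
    (h₁.comp he.measurable) (h₂.comp he.measurable) (h₃.comp he.measurable)
    (h₀.comp he.measurable)
  rw [he.lintegral_comp h₁, he.lintegral_comp h₂, he.lintegral_comp h₃, he.lintegral_comp h₀] at h
  rw [← (he.prod (he.prod he)).lintegral_comp (by fun_prop)]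
  simpa only [hadd, Prod.map] using h

theorem bl_pi (d : ℕ) : BL (volume : Measure (Fin d → ℝ)) (ENNReal.ofReal ((9 / 10) ^ d)) := by
  induction d with
  | zero =>
    intro f₁ f₂ f₃ f₀ h₁ h₂ h₃ h₀
    rw [Measure.volume_pi_eq_dirac 0, Measure.dirac_prod_dirac, Measure.dirac_prod_dirac]
    simp only [lintegral_dirac]
    simp
  | succ d ih =>
    have hp := bl_prod (volume : Measure ℝ) (volume : Measure (Fin d → ℝ)) bl_one ih
    rw [← ENNReal.ofReal_mul (by positivity), ← pow_succ] at hp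
    have he := (volume_preserving_piFinSuccAbove (fun _ : Fin (d + 1) => ℝ) 0).symm
    refine bl_equiv _ _ _ he ?_ hp
    intro x y
    apply (MeasurableEquiv.piFinSuccAbove (fun _ : Fin (d + 1) => ℝ) 0).injective
    rw [MeasurableEquiv.apply_symm_apply]
    ext
    · simp [MeasurableEquiv.piFinSuccAbove]
    · simp [MeasurableEquiv.piFinSuccAbove, Fin.tail]

theorem mp_sign {ι : Type} [Fintype ι] {e : ℤ} (he : e = 1 ∨ e = -1) :
    MeasurePreserving (fun x : ι → ℝ => e • x) volume volume := by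
  rcases he with rfl | rfl
  · simp only [one_smul]
    exact MeasurePreserving.id _
  · simp only [neg_smul, one_smul]
    exact Measure.measurePreserving_neg _

theorem sign_smul {G : Type} [AddCommGroup G] {e : ℤ} (he : e = 1 ∨ e = -1) (x : G) :
    e • e • x = x := by
  rcases he with rfl | rfl <;> simp

end BLAux

open BLAux

theorem bl_fun {ι : Type} [Fintype ι] (f₁ f₂ f₃ f₀ : (ι → ℝ) → ℝ≥0∞) (h₁ : Measurable f₁)
    (h₂ : Measurable f₂) (h₃ : Measurable f₃) (h₀ : Measurable f₀) :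
    ∫⁻ p : (ι → ℝ) × (ι → ℝ) × (ι → ℝ),
        (f₁ p.1 * f₂ p.2.1 * f₃ p.2.2 * f₀ (p.1 + p.2.1 + p.2.2)) ^ (3 / 4 : ℝ) ≤
      ENNReal.ofReal ((9 / 10) ^ Fintype.card ι) *
        ((∫⁻ x, f₁ x) * (∫⁻ x, f₂ x) * (∫⁻ x, f₃ x) * ∫⁻ x, f₀ x) ^ (3 / 4 : ℝ) := by
  exact bl_equiv _ _ _ (volume_preserving_arrowCongr' (Fintype.equivFin ι).symm
    (MeasurableEquiv.refl ℝ) (MeasurePreserving.id _)) (fun _ _ => rfl) (bl_pi _) f₁ f₂ f₃ f₀
    h₁ h₂ h₃ h₀

theorem measurableSet_En {ι : Type} [Fintype ι] {S₁ S₂ S₃ S₀ : Set (ι → ℝ)}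
    (h₁ : MeasurableSet S₁) (h₂ : MeasurableSet S₂) (h₃ : MeasurableSet S₃)
    (h₀ : MeasurableSet S₀) (σ : Fin 3 → ℤ) (s : ι → ℝ) :
    MeasurableSet (En S₁ S₂ S₃ S₀ σ s) := by
  have hm : Measurable fun p : (ι → ℝ) × (ι → ℝ) × (ι → ℝ) => ssum σ p.1 p.2.1 p.2.2 + s := by
    unfold ssum
    fun_prop
  exact (measurable_fst h₁).inter ((measurable_snd.fst h₂).inter
    ((measurable_snd.snd h₃).inter (hm h₀)))

theorem bl_set {ι : Type} [Fintype ι] {S₁ S₂ S₃ S₀ : Set (ι → ℝ)} (h₁ : MeasurableSet S₁)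
    (h₂ : MeasurableSet S₂) (h₃ : MeasurableSet S₃) (h₀ : MeasurableSet S₀)
    {σ : Fin 3 → ℤ} (hσ : IsSign σ) (s : ι → ℝ) {v : ℝ≥0∞} (hv₁ : volume S₁ ≤ v)
    (hv₂ : volume S₂ ≤ v) (hv₃ : volume S₃ ≤ v) (hv₀ : volume S₀ ≤ v) :
    volume (En S₁ S₂ S₃ S₀ σ s) ≤ ENNReal.ofReal ((9 / 10) ^ Fintype.card ι) * v ^ 3 := by
  have p₁ := mp_sign (ι := ι) (hσ 0)
  have p₂ := mp_sign (ι := ι) (hσ 1)
  have p₃ := mp_sign (ι := ι) (hσ 2)
  have p₀ := measurePreserving_add_right (volume : Measure (ι → ℝ)) s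
  have m₁ := p₁.measurable h₁
  have m₂ := p₂.measurable h₂
  have m₃ := p₃.measurable h₃
  have m₀ := p₀.measurable h₀
  have i₁ := (measurable_one (α := ℝ≥0∞)).indicator m₁
  have i₂ := (measurable_one (α := ℝ≥0∞)).indicator m₂
  have i₃ := (measurable_one (α := ℝ≥0∞)).indicator m₃
  have i₀ := (measurable_one (α := ℝ≥0∞)).indicator m₀
  have h := bl_fun _ _ _ _ i₁ i₂ i₃ i₀
  rw [lintegral_indicator_one m₁, lintegral_indicator_one m₂, lintegral_indicator_one m₃,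
    lintegral_indicator_one m₀, p₁.measure_preimage h₁.nullMeasurableSet,
    p₂.measure_preimage h₂.nullMeasurableSet, p₃.measure_preimage h₃.nullMeasurableSet,
    p₀.measure_preimage h₀.nullMeasurableSet, Measure.volume_eq_prod, Measure.volume_eq_prod,
    ← (p₁.prod (p₂.prod p₃)).lintegral_comp (by fun_prop)] at h
  rw [← lintegral_indicator_one (measurableSet_En h₁ h₂ h₃ h₀ σ s)]
  refine le_trans (lintegral_mono fun p => ?_) (h.trans (mul_le_mul_right ?_ _))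
  · by_cases hp : p ∈ En S₁ S₂ S₃ S₀ σ s
    · obtain ⟨a1, a2, a3, a0⟩ := id hp
      rw [indicator_of_mem hp, indicator_of_mem, indicator_of_mem, indicator_of_mem,
        indicator_of_mem]
      · simp
      · exact a0
      · simpa only [mem_preimage, Prod.map, sign_smul (hσ 2)] using a3
      · simpa only [mem_preimage, Prod.map, sign_smul (hσ 1)] using a2
      · simpa only [mem_preimage, Prod.map, sign_smul (hσ 0)] using a1
    · rw [indicator_of_notMem hp]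
      exact zero_le
  · have e : v ^ 3 = (v * v * v * v) ^ (3 / 4 : ℝ) := by
      rw [show v * v * v * v = v ^ 4 by ring, ← ENNReal.rpow_natCast, ← ENNReal.rpow_natCast,
        ← ENNReal.rpow_mul]
      norm_num
    rw [e]
    exact ENNReal.rpow_le_rpow (mul_le_mul' (mul_le_mul' (mul_le_mul' hv₁ hv₂) hv₃) hv₀)
      (by norm_num)

theorem en_lift {κ : Type} {σ : Fin 3 → ℤ} (hσ : IsSign σ) (s : κ → ℝ) :
    ∃ s' : κ → ℝ, ∀ S₁ S₂ S₃ S₀ : Set (κ → ℝ), (∀ x ∈ S₁, ∀ c, |x c - 1 / 2| < 1 / 8) →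
      (∀ x ∈ S₂, ∀ c, |x c - 1 / 2| < 1 / 8) → (∀ x ∈ S₃, ∀ c, |x c - 1 / 2| < 1 / 8) →
      (∀ x ∈ S₀, ∀ c, |x c - 1 / 2| < 1 / 8) →
      En S₁ S₂ S₃ (fr ⁻¹' S₀) σ s ⊆ En S₁ S₂ S₃ S₀ σ s' := by
  refine ⟨fun c => s c - ⌊((σ 0 : ℝ) + σ 1 + σ 2) / 2 + s c⌋, ?_⟩
  rintro S₁ S₂ S₃ S₀ b₁ b₂ b₃ b₀ ⟨x, y, z⟩ ⟨a1, a2, a3, a0⟩
  refine ⟨a1, a2, a3, ?_⟩
  have e : (ssum σ x y z + fun c => s c - ⌊((σ 0 : ℝ) + σ 1 + σ 2) / 2 + s c⌋) =
      fr (ssum σ x y z + s) := by
    funext c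
    have c1 := abs_lt.1 (b₁ x a1 c)
    have c2 := abs_lt.1 (b₂ y a2 c)
    have c3 := abs_lt.1 (b₃ z a3 c)
    have c0 := abs_lt.1 (b₀ _ a0 c)
    have d : |ssum σ x y z c - ((σ 0 : ℝ) + σ 1 + σ 2) / 2| < 3 / 8 := by
      simp only [ssum, Pi.add_apply, zsmul_eq_mul, Pi.mul_apply, Pi.intCast_apply]
      rw [abs_lt]
      rcases hσ 0 with h0 | h0 <;> rcases hσ 1 with h1 | h1 <;> rcases hσ 2 with h2 | h2 <;>
        rw [h0, h1, h2] <;> push_cast <;> constructor <;> linarith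
    rw [abs_lt] at d
    simp only [fr, Int.fract, Pi.add_apply] at c0 ⊢
    have e1 : ⌊((σ 0 : ℝ) + σ 1 + σ 2) / 2 + s c⌋ = ⌊ssum σ x y z c + s c⌋ := by
      rw [Int.floor_eq_iff]
      constructor <;> linarith [c0.1, c0.2, d.1, d.2]
    rw [e1]
    ring
  change _ ∈ S₀
  rw [e]
  exact a0

theorem en_prod {α β : Type} [Fintype α] [Fintype β] {C : Set (α → ℝ)} {M : Set (β → ℝ)}
    (hC : MeasurableSet C) (hM : MeasurableSet M) (hw : ∀ x ∈ M, ∀ c, |x c - 1 / 2| < 1 / 8)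
    {σ : Fin 3 → ℤ} (hσ : IsSign σ) (s : α ⊕ β → ℝ) :
    volume (En {x : α ⊕ β → ℝ | x ∘ Sum.inl ∈ C ∧ x ∘ Sum.inr ∈ M}
        {x | x ∘ Sum.inl ∈ C ∧ x ∘ Sum.inr ∈ M} {x | x ∘ Sum.inl ∈ C ∧ x ∘ Sum.inr ∈ M}
        (fr ⁻¹' {x | x ∘ Sum.inl ∈ C ∧ x ∘ Sum.inr ∈ M}) σ s) ≤
      ENNReal.ofReal ((9 / 10) ^ Fintype.card β) * (volume C * volume M) ^ 3 := by
  obtain ⟨s', hs'⟩ := en_lift hσ (s ∘ Sum.inr)
  have q := volume_measurePreserving_sumPiEquivProdPi fun _ : α ⊕ β => ℝ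
  have hp := (mp_three (volume : Measure (α → ℝ)) (volume : Measure (β → ℝ))).comp
    (q.prod (q.prod q))
  have hE := measurableSet_En hM hM hM hM σ s'
  have h1 := hp.measure_preimage ((hC.prod (hC.prod hC)).prod hE).nullMeasurableSet
  refine le_trans (le_trans (measure_mono ?_) h1.le) ?_
  · rintro ⟨x, y, z⟩ ⟨a1, a2, a3, a0⟩
    exact ⟨⟨a1.1, a2.1, a3.1⟩, hs' M M M M hw hw hw hw ⟨a1.2, a2.2, a3.2, a0.2⟩⟩
  · rw [Measure.prod_prod, Measure.prod_prod, Measure.prod_prod]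
    refine (mul_le_mul_right (bl_set hM hM hM hM hσ s' le_rfl le_rfl le_rfl le_rfl) _).trans
      (le_of_eq ?_)
    ring

end Vale.Agent.P230.L
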