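import Vale.Agent.P230.L.Defs

/-! A four-function Brascamp-Lieb inequality on the line with constant below one.

Proof (Barthe). If some integral is 0 the left side vanishes; if none is 0 and one is infinite
the right side is infinite; so normalise all four integrals to 1.  Let F_l be the distribution
function of f_l, Phi that of the standard normal law, T_l = Phi^(-1) o F_l where 0 < F_l < 1.
For a.e. x with f_l x <> 0: f_l x finite, 0 < F_l x < 1, T_l has derivative t_l x > 0 at x with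
f_l x = phi (T_l x) * t_l x  (LocallyIntegrable.ae_hasDerivAt_integral; inverse function rule).
On the measurable set s of triples p where this holds at x, y, z and w = x + y + z put
Theta p = (T1 x + T0 w, T2 y + T0 w, T3 z + T0 w).  Its Jacobian is
t1 t2 t3 + t0 (t1 t2 + t1 t3 + t2 t3) >= 4 (t1 t2 t3 t0)^(3/4) (AM-GM).  Theta is injective on s
(sum over l of (T_l a_l - T_l b_l)(a_l - b_l) = inner (Theta p - Theta q) (p - q), each term is
nonnegative, and T_l is strictly increasing at points of positive derivative).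
With Q v = |v|^2 - (v1+v2+v3)^2/4 one has Q (Theta p) <= T1^2 + T2^2 + T3^2 + T0^2, hence the
integrand is at most (2 pi)^(-3/2) exp (-3/8 Q (Theta p)) * det / 4, and
lintegral_image_eq_lintegral_abs_det_fderiv_mul bounds the integral by
(2 pi)^(-3/2) / 4 * int exp (-3/8 Q) = (4/3)^(3/2) / 2 = 0.7698 <= 9/10
(substitute v = a + (a1+a2+a3)/3 * (1,1,1), determinant 2, Q v = |a|^2).
Any other proof is welcome. -/

namespace Vale.Agent.P230.L

open MeasureTheory ProbabilityTheory Set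
open scoped ENNReal

namespace BL1

open Real Filter Topology

/-- The inverse of the distribution function of the density `exp (-π u²)`, centred at `0`. -/
theorem exists_ginv : ∃ G H : ℝ → ℝ, StrictMono H ∧
    (∀ y ∈ Ioo (-(1 / 2) : ℝ) (1 / 2), H (G y) = y) ∧
    ∀ a, HasDerivAt G (exp (-π * a ^ 2))⁻¹ (H a) := by
  let H : ℝ → ℝ := fun u => ∫ x in (0 : ℝ)..u, exp (-π * x ^ 2)
  have hc : Continuous fun x : ℝ => exp (-π * x ^ 2) := by fun_prop
  have hd : ∀ a, HasStrictDerivAt H (exp (-π * a ^ 2)) a := fun a =>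
    hc.integral_hasStrictDerivAt 0 a
  have hm : StrictMono H := strictMono_of_hasDerivAt_pos (fun a => (hd a).hasDerivAt)
    fun a => exp_pos _
  have hodd : ∀ u, H (-u) = -H u := by
    intro u
    have := intervalIntegral.integral_comp_neg (a := u) (b := 0) fun x => exp (-π * x ^ 2)
    simp only [even_two, Even.neg_pow, neg_zero] at this
    simp only [H]
    rw [← this, intervalIntegral.integral_symm]
  have hl : Tendsto H atTop (𝓝 (1 / 2)) := by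
    have := intervalIntegral_tendsto_integral_Ioi 0
      (integrable_exp_neg_mul_sq pi_pos).integrableOn tendsto_id
    rwa [integral_gaussian_Ioi, div_self pi_ne_zero, sqrt_one] at this
  refine ⟨Function.invFun H, H, hm, fun y hy => Function.invFun_eq ?_, fun a =>
    ((hd a).to_local_left_inverse (exp_pos _).ne'
      (Eventually.of_forall (Function.leftInverse_invFun hm.injective))).hasDerivAt⟩
  obtain ⟨u, hu⟩ := (hl.eventually (lt_mem_nhds (abs_lt.2 hy))).exists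
  have hcont : Continuous H := continuous_iff_continuousAt.2 fun a => (hd a).hasDerivAt.continuousAt
  refine intermediate_value_univ (-u) u hcont ⟨?_, ?_⟩
  · rw [hodd]; linarith [neg_abs_le y]
  · linarith [le_abs_self y]

theorem strict_of_deriv {F : ℝ → ℝ} (hF : Monotone F) {x d : ℝ} (h : HasDerivAt F d x)
    (hd : 0 < d) : (∀ y, x < y → F x < F y) ∧ ∀ y, y < x → F y < F x := by
  constructor
  · intro y hy
    by_contra hc
    have h1 : F =ᶠ[𝓝[>] x] fun _ => F x := by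
      filter_upwards [Ioo_mem_nhdsGT hy] with z hz
      exact le_antisymm ((hF hz.2.le).trans (not_lt.1 hc)) (hF hz.1.le)
    have h2 := (hasDerivWithinAt_const x (Ioi x) (F x)).congr_of_eventuallyEq h1 rfl
    exact hd.ne' ((uniqueDiffWithinAt_Ioi x).eq_deriv _ h.hasDerivWithinAt h2)
  · intro y hy
    by_contra hc
    have h1 : F =ᶠ[𝓝[<] x] fun _ => F x := by
      filter_upwards [Ioo_mem_nhdsLT hy] with z hz
      exact le_antisymm (hF hz.2.le) ((not_lt.1 hc).trans (hF hz.1.le))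
    have h2 := (hasDerivWithinAt_const x (Iio x) (F x)).congr_of_eventuallyEq h1 rfl
    exact hd.ne' ((uniqueDiffWithinAt_Iio x).eq_deriv _ h.hasDerivWithinAt h2)

/-- Monotone transport of `f` to a Gaussian. -/
structure Tr (f : ℝ → ℝ≥0∞) (c : ℝ≥0∞) (S : Set ℝ) (T t : ℝ → ℝ) : Prop where
  meas : MeasurableSet S
  ae : ∀ᵐ x, x ∉ S → f x = 0
  mono : StrictMonoOn T S
  der : ∀ x ∈ S, HasDerivAt T (t x) x
  pos : ∀ x ∈ S, 0 < t x
  eq : ∀ x ∈ S, f x = c * ENNReal.ofReal (exp (-π * T x ^ 2) * t x)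

theorem exists_tr {f : ℝ → ℝ≥0∞} (hf : Measurable f) (h0 : ∫⁻ x, f x ≠ 0) (h1 : ∫⁻ x, f x ≠ ∞) :
    ∃ S T t, Tr f (∫⁻ x, f x) S T t := by
  obtain ⟨G, H, hH, hHG, hG⟩ := exists_ginv
  set c := ∫⁻ x, f x with hc
  set α : ℝ → ℝ≥0∞ := fun x => c⁻¹ * f x with hα
  have hαm : Measurable α := hf.const_mul _
  have hα1 : ∫⁻ x, α x = 1 := by
    rw [lintegral_const_mul _ hf, ← hc, ENNReal.inv_mul_cancel h0 h1]
  have hfα : ∀ x, f x = c * α x := fun x => by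
    rw [← mul_assoc, ENNReal.mul_inv_cancel h0 h1, one_mul]
  set P : Measure ℝ := volume.withDensity α with hP
  have : IsProbabilityMeasure P := ⟨by simp [hP, hα1]⟩
  have hg : ∀ᵐ x, α x ≠ ∞ ∧ HasDerivAt (cdf P) (α x).toReal x := by
    have e3 := (cdf P).ae_hasDerivAt
    rw [measure_cdf] at e3
    filter_upwards [ae_lt_top hαm (by simp [hα1]), e3, Measure.rnDeriv_withDensity volume hαm]
      with x b c' d
    exact ⟨b.ne, d ▸ c'⟩
  obtain ⟨N, hN, hNm, hN0⟩ := exists_measurable_superset_of_null (ae_iff.1 hg)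
  have hS : ∀ x ∈ {x | α x ≠ 0} \ N, α x ≠ ∞ ∧ 0 < (α x).toReal ∧
      HasDerivAt (cdf P) (α x).toReal x ∧ H (G (cdf P x - 1 / 2)) = cdf P x - 1 / 2 := by
    intro x hx
    obtain ⟨a, b⟩ : α x ≠ ∞ ∧ HasDerivAt (cdf P) (α x).toReal x := by
      by_contra h
      exact hx.2 (hN h)
    have hp := ENNReal.toReal_pos hx.1 a
    obtain ⟨s1, s2⟩ := strict_of_deriv (monotone_cdf P) b hp
    refine ⟨a, hp, b, hHG _ ⟨?_, ?_⟩⟩
    · linarith [s2 (x - 1) (by linarith), cdf_nonneg P (x - 1)]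
    · linarith [s1 (x + 1) (by linarith), cdf_le_one P (x + 1)]
  refine ⟨{x | α x ≠ 0} \ N, fun x => G (cdf P x - 1 / 2),
    fun x => (exp (-π * G (cdf P x - 1 / 2) ^ 2))⁻¹ * (α x).toReal,
    (hαm (measurableSet_singleton 0).compl).diff hNm, ?_, fun x hx y hy hxy => ?_,
    fun x hx => ?_, fun x hx => mul_pos (inv_pos.2 (exp_pos _)) (hS x hx).2.1, fun x hx => ?_⟩
  · filter_upwards [measure_eq_zero_iff_ae_notMem.1 hN0] with x hx h
    rw [hfα, show α x = 0 by by_contra h'; exact h ⟨h', hx⟩, mul_zero]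
  · refine hH.lt_iff_lt.1 ?_
    obtain ⟨-, a, b, e⟩ := hS x hx
    rw [e, (hS y hy).2.2.2]
    linarith [(strict_of_deriv (monotone_cdf P) b a).1 y hxy]
  · obtain ⟨-, -, b, e⟩ := hS x hx
    have := hG (G (cdf P x - 1 / 2))
    rw [e] at this
    exact HasDerivAt.comp (h := fun x => cdf P x - 1 / 2) x this (b.sub_const _)
  · rw [mul_inv_cancel_left₀ (exp_pos _).ne', ENNReal.ofReal_toReal (hS x hx).1, hfα]

theorem ae_lin {L : (Fin 3 → ℝ) →ₗ[ℝ] ℝ} (hL : Function.Surjective L) {P : ℝ → Prop}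
    (h : ∀ᵐ x, P x) : ∀ᵐ p, P (L p) := by
  obtain ⟨N, hN, hNm, hN0⟩ := exists_measurable_superset_of_null (ae_iff.1 h)
  filter_upwards [(ae_comp_linearMap_mem_iff L volume volume hL hNm.compl).2
    (measure_eq_zero_iff_ae_notMem.1 hN0)] with p hp
  by_contra h'
  exact hp (hN h')

theorem ae_four {P₁ P₂ P₃ P₀ : ℝ → Prop} (h₁ : ∀ᵐ x, P₁ x) (h₂ : ∀ᵐ x, P₂ x) (h₃ : ∀ᵐ x, P₃ x)
    (h₀ : ∀ᵐ x, P₀ x) :
    ∀ᵐ p : Fin 3 → ℝ, P₁ (p 0) ∧ P₂ (p 1) ∧ P₃ (p 2) ∧ P₀ (p 0 + p 1 + p 2) := by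
  let q : Fin 3 → (Fin 3 → ℝ) →ₗ[ℝ] ℝ := fun i => LinearMap.proj i
  have h : ∀ i : Fin 3, Function.Surjective (q i) := fun i x => ⟨fun _ => x, rfl⟩
  exact (ae_lin (h 0) h₁).and ((ae_lin (h 1) h₂).and ((ae_lin (h 2) h₃).and
    (ae_lin (L := q 0 + q 1 + q 2) (fun x => ⟨![x, 0, 0], by simp [q]⟩) h₀)))

theorem lint_three {F : ℝ × ℝ × ℝ → ℝ≥0∞} (hF : Measurable F) :
    ∫⁻ p, F p = ∫⁻ p : Fin 3 → ℝ, F (p 0, p 1, p 2) :=
  ((((MeasurePreserving.id volume).prod (volume_preserving_finTwoArrow ℝ)).comp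
    (volume_preserving_piFinSuccAbove (fun _ : Fin 3 => ℝ) 0)).lintegral_comp hF).symm

theorem gauss_three : ∫⁻ a : Fin 3 → ℝ, ENNReal.ofReal
    (exp (-(3 / 4 * π) * (a 0 ^ 2 + a 1 ^ 2 + a 2 ^ 2))) ≤ ENNReal.ofReal (9 / 5) := by
  let g : ℝ → ℝ≥0∞ := fun x => ENNReal.ofReal (exp (-(3 / 4 * π) * x ^ 2))
  have hg : Measurable g := by fun_prop
  have h1 : ∫⁻ x, g x ≤ ENNReal.ofReal (6 / 5) := by
    rw [← ofReal_integral_eq_lintegral_ofReal (integrable_exp_neg_mul_sq (by positivity))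
      (Eventually.of_forall fun _ => (exp_pos _).le), integral_gaussian]
    refine ENNReal.ofReal_le_ofReal (sqrt_le_iff.2 ⟨by norm_num, ?_⟩)
    rw [div_le_iff₀ (by positivity)]
    nlinarith [pi_pos]
  calc _ = ∫⁻ a : Fin 3 → ℝ, g (a 0) * (g (a 1) * g (a 2)) := by
        refine lintegral_congr fun a => ?_
        rw [← ENNReal.ofReal_mul (exp_pos _).le, ← ENNReal.ofReal_mul (exp_pos _).le, ← exp_add,
          ← exp_add]
        congr 2
        ring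
    _ = ∫⁻ p : ℝ × ℝ × ℝ, g p.1 * (g p.2.1 * g p.2.2) :=
        (lint_three (F := fun p => g p.1 * (g p.2.1 * g p.2.2)) (by fun_prop)).symm
    _ = (∫⁻ x, g x) * ((∫⁻ x, g x) * ∫⁻ x, g x) := by
        rw [← lintegral_prod_mul hg.aemeasurable hg.aemeasurable]
        exact lintegral_prod_mul (g := fun q : ℝ × ℝ => g q.1 * g q.2) hg.aemeasurable
          (by fun_prop)
    _ ≤ ENNReal.ofReal (6 / 5) * (ENNReal.ofReal (6 / 5) * ENNReal.ofReal (6 / 5)) := by gcongr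
    _ ≤ _ := by
        rw [← ENNReal.ofReal_mul (by norm_num), ← ENNReal.ofReal_mul (by norm_num)]
        exact ENNReal.ofReal_le_ofReal (by norm_num)

theorem point {a b c d u v w z : ℝ} (ha : 0 < a) (hb : 0 < b) (hc : 0 < c) (hd : 0 < d) :
    (exp (-π * u ^ 2) * a * (exp (-π * v ^ 2) * b) * (exp (-π * w ^ 2) * c) *
      (exp (-π * z ^ 2) * d)) ^ (3 / 4 : ℝ) ≤
      1 / 2 * (|(a * b * c + d * (a * b + a * c + b * c)) / 2| * exp (-(3 / 4 * π) *
        ((u - (u + v + w) / 6 + z / 2) ^ 2 + (v - (u + v + w) / 6 + z / 2) ^ 2 +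
          (w - (u + v + w) / 6 + z / 2) ^ 2))) := by
  have h1 : (a * b * c * d) ^ (3 / 4 : ℝ) ≤
      1 / 2 * |(a * b * c + d * (a * b + a * c + b * c)) / 2| := by
    have h := geom_mean_le_arith_mean4_weighted (w₁ := 1 / 4) (w₂ := 1 / 4) (w₃ := 1 / 4)
      (w₄ := 1 / 4) (p₁ := a * b * c) (p₂ := d * a * b) (p₃ := d * a * c) (p₄ := d * b * c)
      (by norm_num) (by norm_num) (by norm_num) (by norm_num) (by positivity) (by positivity)
      (by positivity) (by positivity) (by norm_num)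
    rw [← mul_rpow (by positivity) (by positivity), ← mul_rpow (by positivity) (by positivity),
      ← mul_rpow (by positivity) (by positivity),
      show a * b * c * (d * a * b) * (d * a * c) * (d * b * c) = (a * b * c * d) ^ 3 by ring,
      ← rpow_natCast, ← rpow_mul (by positivity)] at h
    rw [abs_of_pos (by positivity), show (3 / 4 : ℝ) = ((3 : ℕ) : ℝ) * (1 / 4) by norm_num]
    linarith
  rw [show exp (-π * u ^ 2) * a * (exp (-π * v ^ 2) * b) * (exp (-π * w ^ 2) * c) *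
      (exp (-π * z ^ 2) * d) = a * b * c * d * exp (-π * (u ^ 2 + v ^ 2 + w ^ 2 + z ^ 2)) by
    rw [mul_add, mul_add, mul_add, exp_add, exp_add, exp_add]; ring,
    mul_rpow (by positivity) (exp_pos _).le, ← exp_mul, ← mul_assoc]
  refine mul_le_mul h1 (exp_le_exp.2 ?_) (exp_pos _).le (by positivity)
  nlinarith [mul_nonneg pi_pos.le (sq_nonneg (u + v + w - z))]

theorem mono_prod {T : ℝ → ℝ} {S : Set ℝ} (h : StrictMonoOn T S) {x y : ℝ} (hx : x ∈ S)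
    (hy : y ∈ S) : 0 ≤ (T x - T y) * (x - y) ∧ ((T x - T y) * (x - y) ≤ 0 → x = y) := by
  rcases lt_trichotomy x y with e | e | e
  · have := mul_pos_of_neg_of_neg (sub_neg.2 (h hx hy e)) (sub_neg.2 e)
    exact ⟨this.le, fun h' => absurd this (not_lt.2 h')⟩
  · simp [e]
  · have := mul_pos (sub_pos.2 (h hy hx e)) (sub_pos.2 e)
    exact ⟨this.le, fun h' => absurd this (not_lt.2 h')⟩

theorem main {f₁ f₂ f₃ f₀ : ℝ → ℝ≥0∞} {c₁ c₂ c₃ c₀ : ℝ≥0∞} {S₁ S₂ S₃ S₀ : Set ℝ}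
    {T₁ T₂ T₃ T₀ t₁ t₂ t₃ t₀ : ℝ → ℝ} (h₁ : Tr f₁ c₁ S₁ T₁ t₁) (h₂ : Tr f₂ c₂ S₂ T₂ t₂)
    (h₃ : Tr f₃ c₃ S₃ T₃ t₃) (h₀ : Tr f₀ c₀ S₀ T₀ t₀) (hc : c₁ * c₂ * c₃ * c₀ ≠ ∞) :
    ∫⁻ p : Fin 3 → ℝ, (f₁ (p 0) * f₂ (p 1) * f₃ (p 2) * f₀ (p 0 + p 1 + p 2)) ^ (3 / 4 : ℝ) ≤
      ENNReal.ofReal (9 / 10) * (c₁ * c₂ * c₃ * c₀) ^ (3 / 4 : ℝ) := by
  let s : Set (Fin 3 → ℝ) := {p | p 0 ∈ S₁ ∧ p 1 ∈ S₂ ∧ p 2 ∈ S₃ ∧ p 0 + p 1 + p 2 ∈ S₀}
  have hs : MeasurableSet s :=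
    (measurable_pi_apply 0 h₁.meas).inter ((measurable_pi_apply 1 h₂.meas).inter
      ((measurable_pi_apply 2 h₃.meas).inter
        ((by fun_prop : Measurable fun p : Fin 3 → ℝ => p 0 + p 1 + p 2) h₀.meas)))
  let Θ : (Fin 3 → ℝ) → Fin 3 → ℝ := fun p i => ![T₁ (p 0), T₂ (p 1), T₃ (p 2)] i -
    (T₁ (p 0) + T₂ (p 1) + T₃ (p 2)) / 6 + T₀ (p 0 + p 1 + p 2) / 2
  let M : (Fin 3 → ℝ) → Matrix (Fin 3) (Fin 3) ℝ := fun p =>
    Matrix.diagonal ![t₁ (p 0), t₂ (p 1), t₃ (p 2)] + Matrix.of fun _ j =>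
      -![t₁ (p 0), t₂ (p 1), t₃ (p 2)] j / 6 + t₀ (p 0 + p 1 + p 2) / 2
  let D : (Fin 3 → ℝ) → (Fin 3 → ℝ) →L[ℝ] Fin 3 → ℝ := fun p =>
    LinearMap.toContinuousLinearMap (Matrix.toLin' (M p))
  have hD : ∀ p ∈ s, HasFDerivWithinAt Θ (D p) s p := by
    intro p hp
    have e : ∀ i : Fin 3, HasFDerivAt (fun q : Fin 3 → ℝ => q i)
        (ContinuousLinearMap.proj (R := ℝ) (φ := fun _ : Fin 3 => ℝ) i) p := fun i =>
      (ContinuousLinearMap.proj (R := ℝ) (φ := fun _ : Fin 3 => ℝ) i).hasFDerivAt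
    have d1 := (h₁.der _ hp.1).comp_hasFDerivAt p (e 0)
    have d2 := (h₂.der _ hp.2.1).comp_hasFDerivAt p (e 1)
    have d3 := (h₃.der _ hp.2.2.1).comp_hasFDerivAt p (e 2)
    have d0 := (h₀.der _ hp.2.2.2).comp_hasFDerivAt
      (f := fun q : Fin 3 → ℝ => q 0 + q 1 + q 2) p (((e 0).add (e 1)).add (e 2))
    have d4 := ((d1.add d2).add d3).mul_const (6 : ℝ)⁻¹
    have d5 := d0.mul_const (2 : ℝ)⁻¹
    refine (hasFDerivAt_pi'.2 fun i => ?_).hasFDerivWithinAt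
    fin_cases i
    · refine ((d1.sub d4).add d5).congr_fderiv (ContinuousLinearMap.ext fun v => ?_)
      simp [D, M, Matrix.mulVec, dotProduct, Fin.sum_univ_three]
      ring
    · refine ((d2.sub d4).add d5).congr_fderiv (ContinuousLinearMap.ext fun v => ?_)
      simp [D, M, Matrix.mulVec, dotProduct, Fin.sum_univ_three]
      ring
    · refine ((d3.sub d4).add d5).congr_fderiv (ContinuousLinearMap.ext fun v => ?_)
      simp [D, M, Matrix.mulVec, dotProduct, Fin.sum_univ_three]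
      ring
  have hdet : ∀ p, (D p).det = (t₁ (p 0) * t₂ (p 1) * t₃ (p 2) + t₀ (p 0 + p 1 + p 2) *
      (t₁ (p 0) * t₂ (p 1) + t₁ (p 0) * t₃ (p 2) + t₂ (p 1) * t₃ (p 2))) / 2 := by
    intro p
    rw [ContinuousLinearMap.det, LinearMap.coe_toContinuousLinearMap, LinearMap.det_toLin',
      Matrix.det_fin_three]
    simp [M]
    ring
  have hinj : InjOn Θ s := by
    intro p hp q hq h
    have e0 : T₁ (p 0) - _ + _ = T₁ (q 0) - _ + _ := congrFun h 0
    have e1 : T₂ (p 1) - _ + _ = T₂ (q 1) - _ + _ := congrFun h 1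
    have e2 : T₃ (p 2) - _ + _ = T₃ (q 2) - _ + _ := congrFun h 2
    obtain ⟨a1, b1⟩ := mono_prod h₁.mono hp.1 hq.1
    obtain ⟨a2, b2⟩ := mono_prod h₂.mono hp.2.1 hq.2.1
    obtain ⟨a3, b3⟩ := mono_prod h₃.mono hp.2.2.1 hq.2.2.1
    obtain ⟨a0, -⟩ := mono_prod h₀.mono hp.2.2.2 hq.2.2.2
    have g0 : T₁ (p 0) - T₁ (q 0) = -(T₀ (p 0 + p 1 + p 2) - T₀ (q 0 + q 1 + q 2)) := by linarith
    have g1 : T₂ (p 1) - T₂ (q 1) = -(T₀ (p 0 + p 1 + p 2) - T₀ (q 0 + q 1 + q 2)) := by linarith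
    have g2 : T₃ (p 2) - T₃ (q 2) = -(T₀ (p 0 + p 1 + p 2) - T₀ (q 0 + q 1 + q 2)) := by linarith
    rw [g0] at a1 b1
    rw [g1] at a2 b2
    rw [g2] at a3 b3
    funext i
    fin_cases i
    exacts [b1 (by linarith), b2 (by linarith), b3 (by linarith)]
  let g : (Fin 3 → ℝ) → ℝ≥0∞ := fun a =>
    ENNReal.ofReal (exp (-(3 / 4 * π) * (a 0 ^ 2 + a 1 ^ 2 + a 2 ^ 2)))
  have hK : (c₁ * c₂ * c₃ * c₀) ^ (3 / 4 : ℝ) * ENNReal.ofReal (1 / 2) ≠ ∞ :=
    ENNReal.mul_ne_top (ENNReal.rpow_ne_top_of_nonneg (by norm_num) hc) ENNReal.ofReal_ne_top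
  calc _ ≤ ∫⁻ p, s.indicator (fun p => (c₁ * c₂ * c₃ * c₀) ^ (3 / 4 : ℝ) * ENNReal.ofReal (1 / 2) *
        (ENNReal.ofReal |(D p).det| * g (Θ p))) p := by
        refine lintegral_mono_ae ?_
        filter_upwards [ae_four h₁.ae h₂.ae h₃.ae h₀.ae] with p hp
        by_cases h : p ∈ s
        · have p1 := h₁.pos _ h.1
          have p2 := h₂.pos _ h.2.1
          have p3 := h₃.pos _ h.2.2.1
          have p0 := h₀.pos _ h.2.2.2
          rw [indicator_of_mem h, h₁.eq _ h.1, h₂.eq _ h.2.1, h₃.eq _ h.2.2.1, h₀.eq _ h.2.2.2,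
            mul_mul_mul_comm c₁, mul_mul_mul_comm (c₁ * c₂), mul_mul_mul_comm (c₁ * c₂ * c₃),
            ENNReal.mul_rpow_of_nonneg _ _ (by norm_num), mul_assoc _ (ENNReal.ofReal (1 / 2)),
            ← ENNReal.ofReal_mul (by positivity), ← ENNReal.ofReal_mul (by positivity),
            ← ENNReal.ofReal_mul (by positivity), ← ENNReal.ofReal_mul (abs_nonneg _),
            ← ENNReal.ofReal_mul (by norm_num), ENNReal.ofReal_rpow_of_nonneg (by positivity)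
              (by norm_num), hdet]
          exact mul_le_mul_right (ENNReal.ofReal_le_ofReal (point p1 p2 p3 p0)) _
        · have : f₁ (p 0) * f₂ (p 1) * f₃ (p 2) * f₀ (p 0 + p 1 + p 2) = 0 := by
            simp only [s, mem_ofPred_eq, not_and_or] at h
            rcases h with h | h | h | h
            · simp [hp.1 h]
            · simp [hp.2.1 h]
            · simp [hp.2.2.1 h]
            · simp [hp.2.2.2 h]
          simp [this]
    _ = (c₁ * c₂ * c₃ * c₀) ^ (3 / 4 : ℝ) * ENNReal.ofReal (1 / 2) * ∫⁻ a in Θ '' s, g a := by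
        rw [lintegral_indicator hs, lintegral_const_mul' _ _ hK,
          lintegral_image_eq_lintegral_abs_det_fderiv_mul volume hs hD hinj]
    _ ≤ (c₁ * c₂ * c₃ * c₀) ^ (3 / 4 : ℝ) * ENNReal.ofReal (1 / 2) * ENNReal.ofReal (9 / 5) :=
        mul_le_mul_right ((setLIntegral_le_lintegral _ _).trans gauss_three) _
    _ = _ := by
        rw [mul_assoc, ← ENNReal.ofReal_mul (by norm_num), mul_comm]
        norm_num

end BL1

theorem bl_one (f₁ f₂ f₃ f₀ : ℝ → ℝ≥0∞) (h₁ : Measurable f₁) (h₂ : Measurable f₂)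
    (h₃ : Measurable f₃) (h₀ : Measurable f₀) :
    ∫⁻ p : ℝ × ℝ × ℝ, (f₁ p.1 * f₂ p.2.1 * f₃ p.2.2 * f₀ (p.1 + p.2.1 + p.2.2)) ^ (3 / 4 : ℝ) ≤
      ENNReal.ofReal (9 / 10) *
        ((∫⁻ x, f₁ x) * (∫⁻ x, f₂ x) * (∫⁻ x, f₃ x) * ∫⁻ x, f₀ x) ^ (3 / 4 : ℝ) := by
  rw [BL1.lint_three (by fun_prop)]
  by_cases hz : (∫⁻ x, f₁ x) * (∫⁻ x, f₂ x) * (∫⁻ x, f₃ x) * ∫⁻ x, f₀ x = 0
  · have h : ∀ {f : ℝ → ℝ≥0∞}, Measurable f → ∀ᵐ x, ∫⁻ x, f x = 0 → f x = 0 := fun hf =>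
      Filter.eventually_imp_distrib_left.2 (lintegral_eq_zero_iff hf).1
    refine le_trans (le_of_eq ((lintegral_congr_ae ?_).trans lintegral_zero)) zero_le
    filter_upwards [BL1.ae_four (h h₁) (h h₂) (h h₃) (h h₀)] with p hp
    simp only [mul_eq_zero] at hz
    rcases hz with ((hz | hz) | hz) | hz
    · simp [hp.1 hz]
    · simp [hp.2.1 hz]
    · simp [hp.2.2.1 hz]
    · simp [hp.2.2.2 hz]
  by_cases ht : (∫⁻ x, f₁ x) * (∫⁻ x, f₂ x) * (∫⁻ x, f₃ x) * ∫⁻ x, f₀ x = ∞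
  · rw [ht, ENNReal.top_rpow_of_pos (by norm_num), ENNReal.mul_top (by simp)]
    exact le_top
  simp only [mul_eq_zero, not_or] at hz
  obtain ⟨⟨⟨z1, z2⟩, z3⟩, z0⟩ := hz
  obtain ⟨S₁, T₁, t₁, k₁⟩ := BL1.exists_tr h₁ z1 fun h => ht (by simp [h, z2, z3, z0])
  obtain ⟨S₂, T₂, t₂, k₂⟩ := BL1.exists_tr h₂ z2 fun h => ht (by simp [h, z1, z3, z0])
  obtain ⟨S₃, T₃, t₃, k₃⟩ := BL1.exists_tr h₃ z3 fun h => ht (by simp [h, z1, z2, z0])
  obtain ⟨S₀, T₀, t₀, k₀⟩ := BL1.exists_tr h₀ z0 fun h => ht (by simp [h, z1, z2, z3])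
  exact BL1.main k₁ k₂ k₃ k₀ ht

end Vale.Agent.P230.L
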