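import Vale.Agent.P230.L.Defs
import Vale.Agent.P230.L.APL

/-! Midpoint Brunn-Minkowski and section volumes.

bm_mid: from PL.apl_pi (transport along an equivalence of the index type with Fin d, see
PL.apl_equiv) with alpha = 1_A / vol A, beta = 1_B / vol B, u = w = c = 1,
h = 1_C / sqrt (vol A * vol B).
convex_sec_level: the level set is closed (upper semicontinuity of section volumes of a compact
set: for s_n -> s the sections decrease, e.g. use the closed sets
F_N = sec K-image of K inter {x | dist (x o inr) s <= 1/N}) and midpoint convex (sec_mid), hence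
convex (dyadic rationals are dense; or take the closest failing point).
sec_sup: for s' in [0,1]^k, phiV s' >= 5^(-k); sec_mid gives
f s * (c 5^(-k) V) <= f((s+s')/2)^2; integrate the square root over s' in [0,1]^k, using
int f((s+s')/2) ds' <= 2^k V.
orthant: induction on a finset of coordinates already fixed. -/

namespace Vale.Agent.P230.L

open MeasureTheory ProbabilityTheory Set
open scoped ENNReal

variable {α β : Type} [Fintype α] [Fintype β]

namespace BMAux

theorem apl_any (ι : Type) [Fintype ι] : PL.APL (volume : Measure (ι → ℝ)) :=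
  PL.apl_equiv _ _ _ (volume_preserving_arrowCongr' (Fintype.equivFin ι).symm
    (MeasurableEquiv.refl ℝ) (MeasurePreserving.id _)) (fun _ _ => rfl) (PL.apl_pi _)

theorem mem_of_mid {T : Set ℝ} (hT : IsClosed T) (h0 : (0 : ℝ) ∈ T) (h1 : (1 : ℝ) ∈ T)
    (hm : ∀ a ∈ T, ∀ b ∈ T, (a + b) / 2 ∈ T) {t : ℝ} (ht0 : 0 ≤ t) (ht1 : t ≤ 1) : t ∈ T := by
  obtain ⟨a, ⟨ha, haT⟩, ha'⟩ := ((isCompact_Icc (a := 0) (b := t)).inter_right hT).exists_isGreatest
    ⟨0, ⟨le_rfl, ht0⟩, h0⟩
  obtain ⟨b, ⟨hb, hbT⟩, hb'⟩ := ((isCompact_Icc (a := t) (b := 1)).inter_right hT).exists_isLeast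
    ⟨1, ⟨ht1, le_rfl⟩, h1⟩
  have hab := hm a haT b hbT
  rcases le_total ((a + b) / 2) t with h | h
  · have := ha' ⟨⟨by linarith [ha.1, ha.2, hb.1], h⟩, hab⟩
    have e : t = a := by linarith [ha.2, hb.1]
    exact e ▸ haT
  · have := hb' ⟨⟨h, by linarith [ha.2, hb.1, hb.2]⟩, hab⟩
    have e : t = b := by linarith [ha.2, hb.1]
    exact e ▸ hbT

theorem convex_of_mid {E : Type} [NormedAddCommGroup E] [NormedSpace ℝ E] {S : Set E}
    (hS : IsClosed S) (hm : ∀ x ∈ S, ∀ y ∈ S, (1 / 2 : ℝ) • (x + y) ∈ S) : Convex ℝ S := by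
  intro x hx y hy a b ha hb hab
  have h := mem_of_mid (T := {t : ℝ | (1 - t) • x + t • y ∈ S})
    (hS.preimage (by fun_prop)) (by simpa using hx) (by simpa using hy) (fun u hu v hv => by
      have h1 := hm _ hu _ hv
      have e : (1 - (u + v) / 2) • x + ((u + v) / 2) • y =
          (1 / 2 : ℝ) • ((1 - u) • x + u • y + ((1 - v) • x + v • y)) := by module
      change (1 - (u + v) / 2) • x + ((u + v) / 2) • y ∈ S
      rw [e]
      exact h1) hb (by linarith)
  have e : a = 1 - b := by linarith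
  rw [e]
  exact h

omit [Fintype α] [Fintype β] in
theorem measurable_elim : Measurable fun p : (α → ℝ) × (β → ℝ) => Sum.elim p.1 p.2 := by
  refine measurable_pi_lambda _ fun i => ?_
  cases i with
  | inl a => exact (measurable_pi_apply a).comp measurable_fst
  | inr b => exact (measurable_pi_apply b).comp measurable_snd

omit [Fintype α] [Fintype β] in
theorem continuous_elim (s : β → ℝ) : Continuous fun y : α → ℝ => Sum.elim y s := by
  refine continuous_pi fun i => ?_
  cases i with
  | inl a => exact continuous_apply a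
  | inr b => exact continuous_const

theorem phi_ge {x : ℝ} (hx : |x| ≤ 1) : 1 / 20 ≤ phi x := by
  unfold phi
  have h1 : x ^ 2 ≤ 1 := by rwa [sq_le_one_iff_abs_le_one]
  have h2 := Real.add_one_le_exp (-x ^ 2 / 2)
  have h3 : √(2 * Real.pi) ≤ 10 := by
    rw [Real.sqrt_le_left (by norm_num)]
    linarith [Real.pi_le_four]
  rw [le_div_iff₀ (Real.sqrt_pos.2 (by positivity))]
  linarith

end BMAux

open BMAux

theorem bm_mid {ι : Type} [Fintype ι] {A B C : Set (ι → ℝ)} (hA : MeasurableSet A)
    (hB : MeasurableSet B) (hC : MeasurableSet C) (hA' : volume A ≠ ∞) (hB' : volume B ≠ ∞)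
    (h : ∀ a ∈ A, ∀ b ∈ B, (1 / 2 : ℝ) • (a + b) ∈ C) :
    volume A * volume B ≤ volume C ^ 2 := by
  by_cases ha : volume A = 0
  · simp [ha]
  by_cases hb : volume B = 0
  · simp [hb]
  set s := (volume A * volume B) ^ (1 / 2 : ℝ) with hs
  have hs0 : s ≠ 0 := PL.sqrt_ne_zero' ha hb
  have hs1 : s ≠ ∞ := PL.sqrt_ne_top' hA' hB'
  have e1 : ∫⁻ x, A.indicator (fun _ => (volume A)⁻¹) x = 1 := by
    rw [lintegral_indicator_const hA, ENNReal.inv_mul_cancel ha hA']
  have e2 : ∫⁻ x, B.indicator (fun _ => (volume B)⁻¹) x = 1 := by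
    rw [lintegral_indicator_const hB, ENNReal.inv_mul_cancel hb hB']
  have h1 := apl_any ι (A.indicator fun _ => (volume A)⁻¹) (B.indicator fun _ => (volume B)⁻¹)
    (C.indicator fun _ => s⁻¹) (fun _ => 1) (fun _ => 1) 1 (measurable_const.indicator hA)
    (measurable_const.indicator hB) (measurable_const.indicator hC) measurable_const
    measurable_const one_ne_zero e1 e2 fun x y => by
      by_cases hx : x ∈ A
      · by_cases hy : y ∈ B
        · rw [indicator_of_mem hx, indicator_of_mem hy, indicator_of_mem (h x hx y hy),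
            ← ENNReal.mul_inv (Or.inl ha) (Or.inl hA'), ENNReal.inv_rpow, add_mul, one_mul]
        · rw [indicator_of_notMem hy]; simp
      · rw [indicator_of_notMem hx]; simp
  simp only [one_mul, e1, e2] at h1
  rw [lintegral_indicator_const hC, ENNReal.add_le_add_iff_right ENNReal.one_ne_top] at h1
  have h2 : s ≤ volume C := by
    have := mul_le_mul_right h1 s
    rwa [mul_one, ← mul_assoc, ENNReal.mul_inv_cancel hs0 hs1, one_mul] at this
  have e3 : volume A * volume B = s ^ 2 := by
    rw [hs, ← ENNReal.rpow_natCast, ← ENNReal.rpow_mul]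
    norm_num
  rw [e3]
  exact pow_le_pow_left' h2 2

theorem measurableSet_sec {K : Set (α ⊕ β → ℝ)} (hK : MeasurableSet K) (s : β → ℝ) :
    MeasurableSet (sec K s) := by
  exact (measurable_elim.comp measurable_prodMk_right) hK

theorem isCompact_sec {K : Set (α ⊕ β → ℝ)} (hK : IsCompact K) (s : β → ℝ) :
    IsCompact (sec K s) := by
  refine (hK.image (f := fun x => x ∘ Sum.inl) (by fun_prop)).of_isClosed_subset
    (hK.isClosed.preimage (continuous_elim s)) fun y hy => ⟨_, hy, rfl⟩

theorem measurable_volume_sec {K : Set (α ⊕ β → ℝ)} (hK : MeasurableSet K) :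
    Measurable fun s => volume (sec K s) := by
  exact measurable_measure_prodMk_right (measurable_elim hK)

theorem volume_inter_eq {K : Set (α ⊕ β → ℝ)} (hK : MeasurableSet K) {Q : Set (β → ℝ)}
    (hQ : MeasurableSet Q) :
    volume (K ∩ {x | x ∘ Sum.inr ∈ Q}) = ∫⁻ s in Q, volume (sec K s) := by
  have hm : MeasurableSet (K ∩ {x | x ∘ Sum.inr ∈ Q}) :=
    hK.inter ((measurable_pi_lambda _ fun b => measurable_pi_apply (Sum.inr b)) hQ)
  have hp := volume_measurePreserving_sumPiEquivProdPi_symm fun _ : α ⊕ β => ℝ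
  rw [← hp.measure_preimage hm.nullMeasurableSet, Measure.volume_eq_prod,
    Measure.prod_apply_symm (hp.measurable hm), ← lintegral_indicator hQ]
  refine lintegral_congr fun s => ?_
  have e : ∀ y : α → ℝ, (MeasurableEquiv.sumPiEquivProdPi fun _ : α ⊕ β => ℝ).symm (y, s) =
      Sum.elim y s := fun y => by
    funext i
    cases i <;> rfl
  by_cases hs : s ∈ Q
  · rw [indicator_of_mem hs]
    congr 1
    ext y
    simp only [mem_preimage, e, mem_inter_iff]
    exact ⟨fun h => h.1, fun h => ⟨h, hs⟩⟩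
  · rw [indicator_of_notMem hs, ← measure_empty (μ := (volume : Measure (α → ℝ)))]
    congr 1
    ext y
    simp only [mem_preimage, e, mem_inter_iff]
    exact ⟨fun h => hs h.2, False.elim⟩

theorem volume_sec_smul (K : Set (α ⊕ β → ℝ)) {t : ℝ} (ht : 0 < t) (s : β → ℝ) :
    volume (sec ((fun x => t • x) '' K) s) =
      ENNReal.ofReal (t ^ Fintype.card α) * volume (sec K (t⁻¹ • s)) := by
  have e : sec ((fun x => t • x) '' K) s = (fun y => t • y) '' sec K (t⁻¹ • s) := by
    ext y
    constructor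
    · rintro ⟨x, hx, h⟩
      refine ⟨t⁻¹ • y, ?_, smul_inv_smul₀ ht.ne' y⟩
      have e1 : Sum.elim (t⁻¹ • y) (t⁻¹ • s) = x := by
        rw [← inv_smul_smul₀ ht.ne' x]
        beta_reduce at h
        rw [h]
        funext i
        cases i <;> rfl
      change Sum.elim (t⁻¹ • y) (t⁻¹ • s) ∈ K
      rwa [e1]
    · rintro ⟨z, hz, rfl⟩
      refine ⟨_, hz, ?_⟩
      funext i
      cases i with
      | inl a => rfl
      | inr b => simp [ht.ne']
  rw [e, Set.image_smul, Measure.addHaar_smul_of_nonneg _ ht.le, Module.finrank_fintype_fun_eq_card]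

theorem sec_mid {K : Set (α ⊕ β → ℝ)} (hK : IsCompact K) (hc : Convex ℝ K) (s s' : β → ℝ) :
    volume (sec K s) * volume (sec K s') ≤ volume (sec K ((1 / 2 : ℝ) • (s + s'))) ^ 2 := by
  refine bm_mid (measurableSet_sec hK.measurableSet _) (measurableSet_sec hK.measurableSet _)
    (measurableSet_sec hK.measurableSet _) (isCompact_sec hK _).measure_lt_top.ne
    (isCompact_sec hK _).measure_lt_top.ne fun a ha b hb => ?_
  have h := hc ha hb (a := 1 / 2) (b := 1 / 2) (by norm_num) (by norm_num) (by norm_num)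
  have e : Sum.elim ((1 / 2 : ℝ) • (a + b)) ((1 / 2 : ℝ) • (s + s')) =
      (1 / 2 : ℝ) • Sum.elim a s + (1 / 2 : ℝ) • Sum.elim b s' := by
    funext i
    cases i <;> simp
  change Sum.elim _ _ ∈ K
  rwa [e]

theorem convex_sec_level {K : Set (α ⊕ β → ℝ)} (hK : IsCompact K) (hc : Convex ℝ K)
    (l : ℝ≥0∞) : Convex ℝ {s | l ≤ volume (sec K s)} := by
  refine convex_of_mid ?_ fun s hs s' hs' => ?_
  · rw [← isOpen_compl_iff, isOpen_iff_mem_nhds]
    intro s hs
    obtain ⟨U, hU, hUo, hUl⟩ := Set.exists_isOpen_lt_of_lt (sec K s) l (not_le.1 hs)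
    have h1 : IsClosed ((fun x : α ⊕ β → ℝ => x ∘ Sum.inr) '' (K ∩ {x | x ∘ Sum.inl ∉ U})) :=
      ((hK.inter_right (hUo.isClosed_compl.preimage (f := fun x : α ⊕ β → ℝ => x ∘ Sum.inl)
        (by fun_prop))).image (by fun_prop)).isClosed
    have h2 : s ∈ ((fun x : α ⊕ β → ℝ => x ∘ Sum.inr) '' (K ∩ {x | x ∘ Sum.inl ∉ U}))ᶜ := by
      rintro ⟨x, ⟨hx, hx'⟩, rfl⟩
      refine hx' (hU ?_)
      change Sum.elim (x ∘ Sum.inl) (x ∘ Sum.inr) ∈ K
      rwa [Sum.elim_comp_inl_inr]
    filter_upwards [h1.isOpen_compl.mem_nhds h2] with s' hs'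
    refine not_le.2 (lt_of_le_of_lt (measure_mono fun y hy => ?_) hUl)
    by_contra hy'
    exact hs' ⟨Sum.elim y s', ⟨hy, hy'⟩, rfl⟩
  · have h := (mul_le_mul' hs hs').trans (sec_mid hK hc s s')
    rw [← pow_two] at h
    exact (ENNReal.pow_right_strictMono two_ne_zero).le_iff_le.1 h

theorem sec_sup {K : Set (α ⊕ β → ℝ)} (hK : IsCompact K) (hc : Convex ℝ K)
    (h0 : volume K ≠ 0) {c : ℝ} (hc0 : 0 < c)
    (h : ∀ s ∈ box β 1, ENNReal.ofReal (c * phiV s) * volume K ≤ volume (sec K s))
    (s : β → ℝ) :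
    volume (sec K s) ≤ ENNReal.ofReal (20 ^ Fintype.card β / c) * volume K := by
  have hV : volume K ≠ ∞ := hK.measure_lt_top.ne
  have hQ : volume (Metric.closedBall ((1 / 2 : ℝ) • s) (1 / 2)) = 1 := by
    rw [Real.volume_pi_closedBall _ (by norm_num)]
    simp
  obtain ⟨z, hz, h1⟩ := exists_le_setLAverage (μ := volume) (f := fun s => volume (sec K s))
    (s := Metric.closedBall ((1 / 2 : ℝ) • s) (1 / 2)) (by rw [hQ]; exact one_ne_zero)
    (by rw [hQ]; exact ENNReal.one_ne_top) (measurable_volume_sec hK.measurableSet).aemeasurable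
  rw [setLAverage_eq, hQ, div_one,
    ← volume_inter_eq hK.measurableSet measurableSet_closedBall] at h1
  have h2 : volume (sec K z) ≤ volume K := h1.trans (measure_mono inter_subset_left)
  have h3 : (2 : ℝ) • z - s ∈ box β 1 := fun i => by
    have := (dist_pi_le_iff (by norm_num)).1 (Metric.mem_closedBall.1 hz) i
    rw [Real.dist_eq, abs_le] at this
    simp only [Pi.smul_apply, smul_eq_mul, Pi.sub_apply] at this ⊢
    rw [abs_le]
    constructor <;> linarith [this.1, this.2]
  have h4 := sec_mid hK hc s ((2 : ℝ) • z - s)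
  have e : (1 / 2 : ℝ) • (s + ((2 : ℝ) • z - s)) = z := by module
  rw [e] at h4
  have h5 := ((mul_le_mul_right (h _ h3) _).trans h4).trans (pow_le_pow_left' h2 2)
  rw [pow_two, ← mul_assoc, ENNReal.mul_le_mul_iff_left h0 hV] at h5
  have h6 : (1 / 20 : ℝ) ^ Fintype.card β ≤ phiV ((2 : ℝ) • z - s) := by
    rw [← Finset.card_univ, ← Finset.prod_const]
    exact Finset.prod_le_prod (fun _ _ => by norm_num) fun i _ => phi_ge (h3 i)
  have h7 : 1 ≤ ENNReal.ofReal (20 ^ Fintype.card β / c) *
      ENNReal.ofReal (c * phiV ((2 : ℝ) • z - s)) := by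
    rw [← ENNReal.ofReal_mul (by positivity), ENNReal.one_le_ofReal, ← mul_assoc,
      div_mul_cancel₀ _ hc0.ne']
    refine le_trans (le_of_eq ?_) (mul_le_mul_of_nonneg_left h6 (by positivity))
    rw [← mul_pow]
    norm_num
  calc volume (sec K s) ≤ (ENNReal.ofReal (20 ^ Fintype.card β / c) *
        ENNReal.ofReal (c * phiV ((2 : ℝ) • z - s))) * volume (sec K s) :=
        le_mul_of_one_le_left' h7
    _ ≤ _ := by
      rw [mul_assoc, mul_comm _ (volume (sec K s))]
      exact mul_le_mul_right h5 _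

theorem orthant {C : Set (β → ℝ)} (hC : Convex ℝ C) (s : β → ℝ)
    (h : ∀ σ : β → Bool, ∃ p ∈ C, ∀ i, if σ i then s i ≤ p i else p i ≤ s i) : s ∈ C := by
  classical
  have key : ∀ (S : Finset β) (σ : β → Bool), ∃ p ∈ C, (∀ i ∈ S, p i = s i) ∧
      ∀ i, if σ i then s i ≤ p i else p i ≤ s i := by
    intro S
    induction S using Finset.induction_on with
    | empty =>
      intro σ
      obtain ⟨p, hp, h1⟩ := h σ
      exact ⟨p, hp, by simp, h1⟩
    | insert j S hj ih =>
      intro σ
      obtain ⟨p, hp, p1, p2⟩ := ih (Function.update σ j true)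
      obtain ⟨q, hq, q1, q2⟩ := ih (Function.update σ j false)
      have a1 : s j ≤ p j := by simpa using p2 j
      have a2 : q j ≤ s j := by simpa using q2 j
      obtain ⟨a, b, ha, hb, hab, e⟩ := (Convex.mem_Icc (a2.trans a1)).1 ⟨a2, a1⟩
      have e1 : ∀ i, s i = a * s i + b * s i := fun i => by rw [← add_mul, hab, one_mul]
      refine ⟨a • q + b • p, hC hq hp ha hb hab, fun i hi => ?_, fun i => ?_⟩
      · rcases Finset.mem_insert.1 hi with rfl | hi
        · exact e
        · simp only [Pi.add_apply, Pi.smul_apply, smul_eq_mul, p1 i hi, q1 i hi]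
          exact (e1 i).symm
      · simp only [Pi.add_apply, Pi.smul_apply, smul_eq_mul]
        by_cases hi : i = j
        · subst hi
          rw [e]
          simp
        · have b1 := p2 i
          have b2 := q2 i
          rw [Function.update_of_ne hi] at b1 b2
          split_ifs at b1 b2 ⊢
          · rw [e1 i]
            exact add_le_add (mul_le_mul_of_nonneg_left b2 ha) (mul_le_mul_of_nonneg_left b1 hb)
          · rw [e1 i]
            exact add_le_add (mul_le_mul_of_nonneg_left b2 ha) (mul_le_mul_of_nonneg_left b1 hb)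
  obtain ⟨p, hp, h1, -⟩ := key Finset.univ fun _ => true
  have e : s = p := funext fun i => (h1 i (Finset.mem_univ i)).symm
  exact e ▸ hp

end Vale.Agent.P230.L
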