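import Vale.Agent.P230.L.Defs

/-! Two almost orthogonal normal projections are almost independent.

gauss_pair: write v = b u + v2 with b = u.v / u.u and u.v2 = 0.  The variables g.u and g.v2 are
jointly normal and uncorrelated, hence independent
(HasGaussianLaw.indepFun_of_covariance_eq_zero or similar).  With
e = (u.v)^2/(r^2 eps^2) Chebyshev gives P(|b g.u| > eps) <= e.  Then
P(g.u in J, g.v in J') <= P(g.u in J) P(g.v2 in J' + [-eps, eps]) + e and
P(g.v2 in J' + [-eps, eps]) <= P(g.v in J' + [-2 eps, 2 eps]) + e <= P(g.v in J') + 2 eps / r + e,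
since the density of g.v is at most 1/(2r). -/

namespace Vale.Agent.P230.L

open MeasureTheory ProbabilityTheory Set
open scoped ENNReal

theorem pair_cont {α : Type} [Fintype α] (u : α → ℝ) : Continuous fun g : α → ℝ => g ⬝ᵥ u :=
  continuous_id.dotProduct continuous_const

theorem pair_meas {α : Type} [Fintype α] (u : α → ℝ) : Measurable fun g : α → ℝ => g ⬝ᵥ u :=
  (pair_cont u).measurable

theorem pair_dot_nonneg {α : Type} [Fintype α] (u : α → ℝ) : 0 ≤ u ⬝ᵥ u :=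
  Finset.sum_nonneg fun i _ => mul_self_nonneg (u i)

theorem gauss_dot_law {α : Type} [Fintype α] (u : α → ℝ) :
    (gaussV α).map (fun g => g ⬝ᵥ u) = gaussianReal 0 (u ⬝ᵥ u).toNNReal := by
  haveI := Measure.isProbabilityMeasure_map (μ := gaussV α) (pair_meas u).aemeasurable
  apply Measure.ext_of_charFun
  ext t
  rw [charFun_apply_real, integral_map (pair_meas u).aemeasurable (by fun_prop),
    charFun_gaussianReal]
  have e : ∀ g : α → ℝ, Complex.exp (t * ((g ⬝ᵥ u : ℝ) : ℂ) * Complex.I) =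
      ∏ i, Complex.exp (((t * u i : ℝ) : ℂ) * g i * Complex.I) := by
    intro g
    rw [← Complex.exp_sum, dotProduct]
    congr 1
    push_cast
    rw [Finset.mul_sum, Finset.sum_mul]
    exact Finset.sum_congr rfl fun i _ => by ring
  simp only [e]
  rw [gaussV, integral_fintype_prod_eq_prod
    (f := fun i (x : ℝ) => Complex.exp (((t * u i : ℝ) : ℂ) * x * Complex.I))]
  simp only [← charFun_apply_real, charFun_gaussianReal]
  rw [← Complex.exp_sum, Real.coe_toNNReal _ (pair_dot_nonneg u), dotProduct]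
  congr 1
  push_cast
  simp only [mul_zero, zero_mul, zero_sub, one_mul]
  rw [Finset.sum_mul, Finset.sum_div, ← Finset.sum_neg_distrib]
  exact Finset.sum_congr rfl fun i _ => by ring

theorem pair_law {α : Type} [Fintype α] (u : α → ℝ) :
    HasLaw (fun g => g ⬝ᵥ u) (gaussianReal 0 (u ⬝ᵥ u).toNNReal) (gaussV α) :=
  ⟨(pair_meas u).aemeasurable, gauss_dot_law u⟩

theorem pair_real {α : Type} [Fintype α] (u : α → ℝ) {s : Set ℝ} (hs : MeasurableSet s) :
    (gaussV α).real {g | g ⬝ᵥ u ∈ s} = (gaussianReal 0 (u ⬝ᵥ u).toNNReal).real s := by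
  rw [← gauss_dot_law, map_measureReal_apply (pair_meas u) hs]
  rfl

theorem pair_var {α : Type} [Fintype α] (u : α → ℝ) :
    Var[fun g => g ⬝ᵥ u; gaussV α] = u ⬝ᵥ u := by
  rw [(pair_law u).variance_eq, variance_id_gaussianReal, Real.coe_toNNReal _ (pair_dot_nonneg u)]

theorem pair_indep {α : Type} [Fintype α] {u w : α → ℝ} (h : u ⬝ᵥ w = 0) :
    IndepFun (fun g => g ⬝ᵥ u) (fun g => g ⬝ᵥ w) (gaussV α) := by
  have h1 : HasGaussianLaw (fun (g : α → ℝ) i => g i) (gaussV α) :=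
    iIndepFun.hasGaussianLaw (X := fun (i : α) (g : α → ℝ) => g i)
      (fun i => (measurePreserving_eval (fun _ : α => gaussianReal 0 1) i).hasLaw.hasGaussianLaw)
      (iIndepFun_pi (X := fun _ x => x) fun _ => aemeasurable_id)
  let D : (α → ℝ) → (α → ℝ) →L[ℝ] ℝ := fun z =>
    ⟨⟨⟨fun g => g ⬝ᵥ z, fun a b => add_dotProduct a b z⟩, fun c a => smul_dotProduct c a z⟩,
      pair_cont z⟩
  have h2 : HasGaussianLaw (fun g : α → ℝ => (g ⬝ᵥ u, g ⬝ᵥ w)) (gaussV α) :=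
    h1.map_fun ((D u).prod (D w))
  refine h2.indepFun_of_covariance_eq_zero ?_
  have h3 := variance_fun_add h2.fst.memLp_two h2.snd.memLp_two
  simp only [← dotProduct_add, pair_var] at h3
  rw [add_dotProduct, dotProduct_add, dotProduct_add, dotProduct_comm w u, h] at h3
  linarith

theorem pair_cheb {α : Type} [Fintype α] (u : α → ℝ) {ε : ℝ} (hε : 0 < ε) :
    (gaussV α).real {g | ε ≤ |g ⬝ᵥ u|} ≤ u ⬝ᵥ u / ε ^ 2 := by
  have h := meas_ge_le_variance_div_sq (pair_law u).hasGaussianLaw.memLp_two hε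
  rw [(pair_law u).integral_eq, integral_id_gaussianReal, pair_var] at h
  simp only [sub_zero] at h
  exact ENNReal.toReal_le_of_le_ofReal (div_nonneg (pair_dot_nonneg u) (sq_nonneg _)) h

theorem pair_pdf {r : ℝ} (hr : 0 < r) (x : ℝ) :
    gaussianPDFReal 0 (r ^ 2).toNNReal x = phi (x / r) / r := by
  rw [gaussianPDFReal, Real.coe_toNNReal _ (sq_nonneg r), Real.sqrt_mul' _ (sq_nonneg r),
    Real.sqrt_sq hr.le, phi, sub_zero, div_pow]
  have e : -x ^ 2 / (2 * r ^ 2) = -(x ^ 2 / r ^ 2) / 2 := by ring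
  rw [e]
  field_simp

theorem pair_int {r : ℝ} (hr : 0 < r) (s : Set ℝ) :
    (gaussianReal 0 (r ^ 2).toNNReal).real s = ∫ x in s, gaussianPDFReal 0 (r ^ 2).toNNReal x := by
  rw [measureReal_def, gaussianReal_apply_eq_integral _ (by simpa using hr.ne'),
    ENNReal.toReal_ofReal (integral_nonneg fun x => gaussianPDFReal_nonneg _ _ x)]

theorem pair_ge {r a d c : ℝ} (hr : 0 < r) (hd : 0 ≤ d) (h : ∀ x ∈ Icc a (a + d), c ≤ phi (x / r)) :
    d / r * c ≤ (gaussianReal 0 (r ^ 2).toNNReal).real (Icc a (a + d)) := by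
  have h1 := setIntegral_mono_on (μ := volume) (f := fun _ : ℝ => c / r)
    (g := gaussianPDFReal 0 (r ^ 2).toNNReal) (s := Icc a (a + d))
    (integrableOn_const measure_Icc_lt_top.ne) (integrable_gaussianPDFReal _ _).integrableOn
    measurableSet_Icc fun x hx => by
      rw [pair_pdf hr]
      exact div_le_div_of_nonneg_right (h x hx) hr.le
  rw [setIntegral_const, Real.volume_real_Icc_of_le (by linarith), smul_eq_mul] at h1
  rw [pair_int hr]
  refine le_trans (le_of_eq ?_) h1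
  ring

theorem pair_le {r a d c : ℝ} (hr : 0 < r) (hd : 0 ≤ d) (h : ∀ x ∈ Icc a (a + d), phi (x / r) ≤ c) :
    (gaussianReal 0 (r ^ 2).toNNReal).real (Icc a (a + d)) ≤ d / r * c := by
  have h1 := setIntegral_mono_on (μ := volume) (g := fun _ : ℝ => c / r)
    (f := gaussianPDFReal 0 (r ^ 2).toNNReal) (s := Icc a (a + d))
    (integrable_gaussianPDFReal _ _).integrableOn (integrableOn_const measure_Icc_lt_top.ne)
    measurableSet_Icc fun x hx => by
      rw [pair_pdf hr]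
      exact div_le_div_of_nonneg_right (h x hx) hr.le
  rw [setIntegral_const, Real.volume_real_Icc_of_le (by linarith), smul_eq_mul] at h1
  rw [pair_int hr]
  refine h1.trans (le_of_eq ?_)
  ring

theorem pair_phi_anti {x y : ℝ} (h : |x| ≤ |y|) : phi y ≤ phi x := by
  have h1 : x ^ 2 ≤ y ^ 2 := sq_le_sq.2 h
  unfold phi
  gcongr

theorem pair_phi_le (x : ℝ) : phi x ≤ 1 / 2 := by
  have h1 : Real.exp (-x ^ 2 / 2) ≤ 1 := Real.exp_le_one_iff.2 (by nlinarith [sq_nonneg x])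
  have h2 : 2 ≤ √(2 * Real.pi) := Real.le_sqrt_of_sq_le (by nlinarith [Real.pi_gt_three])
  unfold phi
  gcongr

theorem pair_small {α : Type} [Fintype α] {v : α → ℝ} {r d : ℝ} (hr : 0 < r)
    (hv : r ^ 2 ≤ v ⬝ᵥ v) (hd : 0 ≤ d) (a : ℝ) :
    (gaussV α).real {g | g ⬝ᵥ v ∈ Icc a (a + d)} ≤ d / (2 * r) := by
  have h1 : r ≤ √(v ⬝ᵥ v) := Real.le_sqrt_of_sq_le hv
  have h2 := pair_le (a := a) (hr.trans_le h1) hd fun x _ => pair_phi_le _
  rw [Real.sq_sqrt (pair_dot_nonneg v)] at h2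
  rw [pair_real v measurableSet_Icc]
  refine h2.trans ?_
  rw [mul_comm 2 r, ← div_div, div_eq_mul_one_div (d / r)]
  gcongr

theorem gauss_pair {α : Type} [Fintype α] (u v : α → ℝ) {r ε : ℝ} (hr : 0 < r)
    (hu : r ^ 2 ≤ u ⬝ᵥ u) (hv : r ^ 2 ≤ v ⬝ᵥ v) (hε : 0 < ε) (a b a' b' : ℝ) :
    (gaussV α).real {g | g ⬝ᵥ u ∈ Icc a b ∧ g ⬝ᵥ v ∈ Icc a' b'} ≤
      (gaussV α).real {g | g ⬝ᵥ u ∈ Icc a b} * (gaussV α).real {g | g ⬝ᵥ v ∈ Icc a' b'} +
        2 * ε / r + 2 * (u ⬝ᵥ v) ^ 2 / (r ^ 2 * ε ^ 2) := by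
  have hu0 : 0 < u ⬝ᵥ u := (pow_pos hr 2).trans_le hu
  obtain ⟨β, hβ⟩ : ∃ β : ℝ, β = u ⬝ᵥ v / (u ⬝ᵥ u) := ⟨_, rfl⟩
  have hw : u ⬝ᵥ (v - β • u) = 0 := by
    rw [dotProduct_sub, dotProduct_smul, hβ, smul_eq_mul, div_mul_cancel₀ _ hu0.ne', sub_self]
  have he : (gaussV α).real {g | ε ≤ |g ⬝ᵥ (β • u)|} ≤ (u ⬝ᵥ v) ^ 2 / (r ^ 2 * ε ^ 2) := by
    refine (pair_cheb _ hε).trans ?_
    have e : (β • u) ⬝ᵥ (β • u) = (u ⬝ᵥ v) ^ 2 / (u ⬝ᵥ u) := by
      rw [smul_dotProduct, dotProduct_smul, hβ, smul_eq_mul, smul_eq_mul]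
      field_simp
    rw [e, div_div]
    gcongr
  have h1 : (gaussV α).real {g | g ⬝ᵥ u ∈ Icc a b ∧ g ⬝ᵥ v ∈ Icc a' b'} ≤
      (gaussV α).real ((fun g => g ⬝ᵥ u) ⁻¹' Icc a b ∩
        (fun g => g ⬝ᵥ (v - β • u)) ⁻¹' Icc (a' - ε) (b' + ε)) +
      (gaussV α).real {g | ε ≤ |g ⬝ᵥ (β • u)|} := by
    refine (measureReal_mono fun g hg => ?_).trans (measureReal_union_le _ _)
    by_cases h : ε ≤ |g ⬝ᵥ (β • u)|
    · exact Or.inr h
    · obtain ⟨h2, h3⟩ := abs_lt.1 (not_le.1 h)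
      refine Or.inl ⟨hg.1, ?_⟩
      rw [mem_preimage, dotProduct_sub]
      exact ⟨by linarith [hg.2.1], by linarith [hg.2.2]⟩
  have h2 : (gaussV α).real ((fun g => g ⬝ᵥ (v - β • u)) ⁻¹' Icc (a' - ε) (b' + ε)) ≤
      (gaussV α).real {g | g ⬝ᵥ v ∈ Icc a' b'} +
      (gaussV α).real {g | g ⬝ᵥ v ∈ Icc (a' - 2 * ε) (a' - 2 * ε + 2 * ε)} +
      (gaussV α).real {g | g ⬝ᵥ v ∈ Icc b' (b' + 2 * ε)} +
      (gaussV α).real {g | ε ≤ |g ⬝ᵥ (β • u)|} := by
    refine (measureReal_mono fun g hg => ?_).trans ((measureReal_union_le _ _).trans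
      (add_le_add ((measureReal_union_le _ _).trans
        (add_le_add (measureReal_union_le _ _) le_rfl)) le_rfl))
    by_cases h : ε ≤ |g ⬝ᵥ (β • u)|
    · exact Or.inr h
    · obtain ⟨h2, h3⟩ := abs_lt.1 (not_le.1 h)
      rw [mem_preimage, dotProduct_sub] at hg
      rcases le_total (g ⬝ᵥ v) a' with h4 | h4
      · exact Or.inl (Or.inl (Or.inr ⟨by linarith [hg.1], by linarith⟩))
      rcases le_total (g ⬝ᵥ v) b' with h5 | h5
      · exact Or.inl (Or.inl (Or.inl ⟨h4, h5⟩))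
      · exact Or.inl (Or.inr ⟨h5, by linarith [hg.2]⟩)
  have h3 := pair_small hr hv (d := 2 * ε) (by positivity) (a' - 2 * ε)
  have h4 := pair_small hr hv (d := 2 * ε) (by positivity) b'
  have h5 := congrArg ENNReal.toReal ((pair_indep hw).measure_inter_preimage_eq_mul
    (Icc a b) (Icc (a' - ε) (b' + ε)) measurableSet_Icc measurableSet_Icc)
  rw [ENNReal.toReal_mul, ← measureReal_def, ← measureReal_def, ← measureReal_def] at h5
  rw [h5] at h1
  have h6 : (gaussV α).real ((fun g => g ⬝ᵥ u) ⁻¹' Icc a b) ≤ 1 := measureReal_le_one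
  have h7 : 0 ≤ (gaussV α).real ((fun g => g ⬝ᵥ u) ⁻¹' Icc a b) := measureReal_nonneg
  have h8 : 2 * ε / (2 * r) + 2 * ε / (2 * r) = 2 * ε / r := by field_simp; ring
  have h9 : 0 ≤ 2 * ε / r + (u ⬝ᵥ v) ^ 2 / (r ^ 2 * ε ^ 2) := by positivity
  have h10 := mul_le_mul_of_nonneg_left (h2.trans (show _ ≤ (gaussV α).real
    {g | g ⬝ᵥ v ∈ Icc a' b'} + (2 * ε / r + (u ⬝ᵥ v) ^ 2 / (r ^ 2 * ε ^ 2)) by linarith)) h7
  have h11 := mul_le_mul_of_nonneg_right h6 h9
  change _ ≤ (gaussV α).real ((fun g => g ⬝ᵥ u) ⁻¹' Icc a b) * _ + _ + _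
  rw [mul_div_assoc 2 ((u ⬝ᵥ v) ^ 2)]
  linarith

/-- Lower and upper bounds for the normal mass of an interval of positive numbers. -/
theorem gauss_Icc_bounds {r a d : ℝ} (hr : 0 < r) (ha : 0 ≤ a) (hd : 0 ≤ d) :
    d / r * phi ((a + d) / r) ≤ (gaussianReal 0 (r ^ 2).toNNReal).real (Icc a (a + d)) ∧
      (gaussianReal 0 (r ^ 2).toNNReal).real (Icc a (a + d)) ≤ d / r * phi (a / r) := by
  refine ⟨pair_ge hr hd fun x hx => pair_phi_anti ?_, pair_le hr hd fun x hx => pair_phi_anti ?_⟩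
  · exact abs_le_abs_of_nonneg (div_nonneg (ha.trans hx.1) hr.le)
      (div_le_div_of_nonneg_right hx.2 hr.le)
  · exact abs_le_abs_of_nonneg (div_nonneg ha hr.le) (div_le_div_of_nonneg_right hx.1 hr.le)

theorem gauss_Icc_ge {r a d M : ℝ} (hr : 0 < r) (hd : 0 ≤ d) (h1 : |a| ≤ M)
    (h2 : |a + d| ≤ M) :
    d / r * phi (M / r) ≤ (gaussianReal 0 (r ^ 2).toNNReal).real (Icc a (a + d)) := by
  refine pair_ge hr hd fun x hx => pair_phi_anti ?_
  rw [abs_div, abs_div]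
  refine div_le_div_of_nonneg_right (le_trans ?_ (le_abs_self M)) (abs_nonneg r)
  exact abs_le.2 ⟨(abs_le.1 h1).1.trans hx.1, hx.2.trans (abs_le.1 h2).2⟩

end Vale.Agent.P230.L
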