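import Vale.Agent.P230.L.Small
import Vale.Agent.P230.L.Pair

/-! Mean and second moment of the mass of a cell under a random marginal.

Mean: Fubini, the rows of G are independent, gauss_dot_law.
Second moment: cellMass^2 is the P x P measure of the pairs (x, x') both in the cell; Fubini
gives the P x P average of prod_i gaussV {g | g.y + zeta i x in I_i and g.y' + zeta i x' in I_i}.
If hsq x, hsq x' >= m / w^2 use gauss_pair with r = sqrt m / w, eps = sqrt m / w^2: each factor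
is at most a_i a'_i + e with e = 2/w + 2 (y.y')^2 w^6 / m^2, and all numbers lie in [0,1], so the
product is at most prod a_i a'_i + k e.  Otherwise bound by 1 (probability at most 28 / w by
hsq_small).  The average of (y.y')^2 is m (cov with theta = Sum.elim y 0, integral_hsq). -/

namespace Vale.Agent.P230.L

open MeasureTheory ProbabilityTheory Set
open scoped ENNReal

variable {α β γ : Type} [Fintype α] [Fintype β] [Fintype γ] {K : Set (α ⊕ β → ℝ)}
  {ζ : γ → (α ⊕ β → ℝ) → ℝ}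

namespace CellVarAux

theorem swap_real {A B : Type} [MeasurableSpace A] [MeasurableSpace B] (μ : Measure A)
    (ν : Measure B) [IsFiniteMeasure μ] [IsFiniteMeasure ν] {S : Set (A × B)}
    (hS : MeasurableSet S) :
    ∫ a, ν.real {b | (a, b) ∈ S} ∂μ = ∫ b, μ.real {a | (a, b) ∈ S} ∂ν := by
  have h1 := integral_toReal (μ := μ) (measurable_measure_prodMk_left (ν := ν) hS).aemeasurable
    (Filter.Eventually.of_forall fun a => measure_lt_top _ _)
  have h2 := integral_toReal (μ := ν) (measurable_measure_prodMk_right (μ := μ) hS).aemeasurable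
    (Filter.Eventually.of_forall fun a => measure_lt_top _ _)
  rw [← Measure.prod_apply hS] at h1
  rw [← Measure.prod_apply_symm hS] at h2
  exact h1.trans h2.symm

theorem gaussM_real (T : γ → Set (α → ℝ)) :
    (gaussM γ α).real {G | ∀ i, G i ∈ T i} = ∏ i, (gaussV α).real (T i) := by
  have e : {G : γ → α → ℝ | ∀ i, G i ∈ T i} = Set.univ.pi T := by
    ext G; simp
  rw [e, Measure.real, gaussM, Measure.pi_pi, ENNReal.toReal_prod]
  rfl

omit [Fintype β] in
theorem hsq_eq (x : α ⊕ β → ℝ) : hsq x = (x ∘ Sum.inl) ⬝ᵥ (x ∘ Sum.inl) := by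
  simp only [hsq, dotProduct, pow_two, Function.comp_apply]

omit [Fintype β] in
theorem gauss_cell (x : α ⊕ β → ℝ) (a b : ℝ) :
    (gaussianReal 0 (hsq x).toNNReal).real (Icc a b) =
      (gaussV α).real {g | g ⬝ᵥ (x ∘ Sum.inl) ∈ Icc a b} := by
  rw [hsq_eq, ← gauss_dot_law, map_measureReal_apply _ measurableSet_Icc]
  · rfl
  · unfold dotProduct
    fun_prop

theorem mem_shift {t z a b : ℝ} : t + z ∈ Icc a b ↔ t ∈ Icc (a - z) (b - z) := by
  simp only [mem_Icc, sub_le_iff_le_add, le_sub_iff_add_le]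

theorem meas_row {z : (α ⊕ β → ℝ) → ℝ} (hz : Measurable z) (a b : ℝ) :
    MeasurableSet {p : (α → ℝ) × (α ⊕ β → ℝ) | p.1 ⬝ᵥ (p.2 ∘ Sum.inl) + z p.2 ∈ Icc a b} := by
  refine Measurable.add ?_ (hz.comp measurable_snd) measurableSet_Icc
  simp only [dotProduct, Function.comp_apply]
  fun_prop

theorem meas_cell (hζ : ∀ i, Measurable (ζ i)) (lo hi : γ → ℝ) :
    MeasurableSet {p : (γ → α → ℝ) × (α ⊕ β → ℝ) |
      ∀ i, p.1 i ⬝ᵥ (p.2 ∘ Sum.inl) + ζ i p.2 ∈ Icc (lo i) (hi i)} := by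
  rw [Set.ofPred_forall]
  refine MeasurableSet.iInter fun i => ?_
  have h : Measurable fun p : (γ → α → ℝ) × (α ⊕ β → ℝ) => (p.1 i, p.2) := by fun_prop
  exact h (meas_row (hζ i) (lo i) (hi i))

theorem prod_le_add {ι : Type} (S : Finset ι) {b c : ι → ℝ} {e : ℝ} (he : 0 ≤ e)
    (hb0 : ∀ i, 0 ≤ b i) (hb1 : ∀ i, b i ≤ 1) (hc0 : ∀ i, 0 ≤ c i) (hc1 : ∀ i, c i ≤ 1)
    (h : ∀ i, c i ≤ b i + e) : ∏ i ∈ S, c i ≤ ∏ i ∈ S, b i + S.card * e := by
  classical
  induction S using Finset.induction_on with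
  | empty => simp
  | insert j S hj ih =>
    rw [Finset.prod_insert hj, Finset.prod_insert hj, Finset.card_insert_of_notMem hj]
    have h1 : 0 ≤ ∏ i ∈ S, b i := Finset.prod_nonneg fun i _ => hb0 i
    have h2 : ∏ i ∈ S, b i ≤ 1 := Finset.prod_le_one (fun i _ => hb0 i) fun i _ => hb1 i
    have h3 := mul_le_mul_of_nonneg_left ih (hc0 j)
    have h4 := mul_le_mul_of_nonneg_right (h j) h1
    have h5 := mul_le_mul_of_nonneg_left h2 he
    have h6 := mul_le_mul_of_nonneg_right (hc1 j) (mul_nonneg (Nat.cast_nonneg S.card) he)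
    push_cast
    nlinarith

theorem integrable_dot (hK : Iso K) :
    Integrable (fun p : (α ⊕ β → ℝ) × (α ⊕ β → ℝ) => ((p.1 ∘ Sum.inl) ⬝ᵥ (p.2 ∘ Sum.inl)) ^ 2)
      ((cond volume K).prod (cond volume K)) := by
  have := hK.isProb
  have e : ∀ p : (α ⊕ β → ℝ) × (α ⊕ β → ℝ), ((p.1 ∘ Sum.inl) ⬝ᵥ (p.2 ∘ Sum.inl)) ^ 2 =
      ∑ a, ∑ b, (p.1 (Sum.inl a) * p.1 (Sum.inl b)) * (p.2 (Sum.inl a) * p.2 (Sum.inl b)) := by
    intro p
    rw [pow_two, dotProduct, Finset.sum_mul_sum]
    refine Finset.sum_congr rfl fun a _ => Finset.sum_congr rfl fun b _ => ?_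
    simp only [Function.comp_apply]
    ring
  simp only [e]
  refine integrable_finsetSum _ fun a _ => integrable_finsetSum _ fun b _ => ?_
  have h := hK.integrable_of_continuous (f := fun x => x (Sum.inl a) * x (Sum.inl b))
    (by fun_prop)
  exact h.mul_prod h

theorem integral_dot (hK : Iso K) :
    ∫ p : (α ⊕ β → ℝ) × (α ⊕ β → ℝ), ((p.1 ∘ Sum.inl) ⬝ᵥ (p.2 ∘ Sum.inl)) ^ 2
      ∂((cond volume K).prod (cond volume K)) = Fintype.card α := by
  have := hK.isProb
  rw [integral_prod _ (integrable_dot hK), ← hK.integral_hsq]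
  refine integral_congr_ae (Filter.Eventually.of_forall fun x => ?_)
  have h := hK.cov (Sum.elim (x ∘ Sum.inl) 0)
  simp only [dotProduct, Fintype.sum_sum_type, Sum.elim_inl, Sum.elim_inr, Pi.zero_apply,
    zero_mul, Finset.sum_const_zero, add_zero] at h
  simp only [hsq_eq, dotProduct]
  exact h

omit [Fintype β] in
theorem pair_bound (lo hi : γ → ℝ) {w : ℝ} (hw : 0 < w) (hm : (0 : ℝ) < Fintype.card α)
    {x x' : α ⊕ β → ℝ} (hx : ¬ hsq x < (1 / w) ^ 2 * Fintype.card α)
    (hx' : ¬ hsq x' < (1 / w) ^ 2 * Fintype.card α) :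
    ∏ i, (gaussV α).real {g | g ⬝ᵥ (x ∘ Sum.inl) + ζ i x ∈ Icc (lo i) (hi i) ∧
        g ⬝ᵥ (x' ∘ Sum.inl) + ζ i x' ∈ Icc (lo i) (hi i)} ≤
      (∏ i, (gaussianReal 0 (hsq x).toNNReal).real (Icc (lo i - ζ i x) (hi i - ζ i x))) *
        (∏ i, (gaussianReal 0 (hsq x').toNNReal).real (Icc (lo i - ζ i x') (hi i - ζ i x'))) +
      Fintype.card γ * (2 / w + 2 * w ^ 6 / (Fintype.card α : ℝ) ^ 2 *
        ((x ∘ Sum.inl) ⬝ᵥ (x' ∘ Sum.inl)) ^ 2) := by
  rw [← Finset.prod_mul_distrib, ← Finset.card_univ (α := γ)]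
  refine prod_le_add _ (by positivity) (fun i => by positivity)
    (fun i => mul_le_one₀ measureReal_le_one measureReal_nonneg measureReal_le_one)
    (fun i => measureReal_nonneg) (fun i => measureReal_le_one) fun i => ?_
  have hs : 0 < √(Fintype.card α : ℝ) := Real.sqrt_pos.2 hm
  have e1 : (√(Fintype.card α : ℝ) / w) ^ 2 = (1 / w) ^ 2 * Fintype.card α := by
    rw [div_pow, Real.sq_sqrt hm.le]
    ring
  have h := gauss_pair (x ∘ Sum.inl) (x' ∘ Sum.inl) (r := √(Fintype.card α : ℝ) / w)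
    (ε := √(Fintype.card α : ℝ) / w ^ 2) (by positivity) (by rw [e1, ← hsq_eq]; exact not_lt.1 hx)
    (by rw [e1, ← hsq_eq]; exact not_lt.1 hx') (by positivity) (lo i - ζ i x) (hi i - ζ i x)
    (lo i - ζ i x') (hi i - ζ i x')
  simp only [mem_shift, gauss_cell]
  refine h.trans (le_of_eq ?_)
  rw [div_pow, div_pow, Real.sq_sqrt hm.le]
  field_simp
  ring

end CellVarAux

open CellVarAux

theorem measurable_cellMass (hK : Iso K) (hζ : ∀ i, Measurable (ζ i)) (lo hi : γ → ℝ) :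
    Measurable (cellMass K ζ lo hi) := by
  have := hK.isProb
  exact (measurable_measure_prodMk_left (meas_cell hζ lo hi)).ennreal_toReal

theorem cellMass_nonneg (lo hi : γ → ℝ) (G : γ → α → ℝ) : 0 ≤ cellMass K ζ lo hi G :=
  measureReal_nonneg

theorem cellMass_le_one (hK : Iso K) (lo hi : γ → ℝ) (G : γ → α → ℝ) :
    cellMass K ζ lo hi G ≤ 1 := by
  have := hK.isProb
  exact measureReal_le_one

theorem cellMass_mean (hK : Iso K) (hζ : ∀ i, Measurable (ζ i)) (lo hi : γ → ℝ) :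
    ∫ G, cellMass K ζ lo hi G ∂(gaussM γ α) =
      ∫ x, ∏ i, (gaussianReal 0 (hsq x).toNNReal).real (Icc (lo i - ζ i x) (hi i - ζ i x))
        ∂(cond volume K) := by
  have := hK.isProb
  refine (swap_real (gaussM γ α) (cond volume K) (meas_cell hζ lo hi)).trans ?_
  refine integral_congr_ae (Filter.Eventually.of_forall fun x => ?_)
  refine (gaussM_real fun i => {g | g ⬝ᵥ (x ∘ Sum.inl) + ζ i x ∈ Icc (lo i) (hi i)}).trans ?_
  simp only [mem_shift, gauss_cell]

theorem measurable_cell_prod (hζ : ∀ i, Measurable (ζ i)) (lo hi : γ → ℝ) :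
    Measurable fun x : α ⊕ β → ℝ =>
      ∏ i, (gaussianReal 0 (hsq x).toNNReal).real (Icc (lo i - ζ i x) (hi i - ζ i x)) := by
  refine Finset.measurable_prod _ fun i _ => ?_
  simp only [gauss_cell, ← mem_shift]
  exact (measurable_measure_prodMk_right (meas_row (hζ i) (lo i) (hi i))).ennreal_toReal

theorem cellMass_sq (hK : Iso K) (hζ : ∀ i, Measurable (ζ i)) (lo hi : γ → ℝ) {w : ℝ}
    (hw : 1 ≤ w) (hm : w ^ 7 ≤ Fintype.card α) :
    ∫ G, cellMass K ζ lo hi G ^ 2 ∂(gaussM γ α) ≤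
      (∫ G, cellMass K ζ lo hi G ∂(gaussM γ α)) ^ 2 + 32 * (Fintype.card γ + 1) / w := by
  have := hK.isProb
  have hw0 : 0 < w := by linarith
  have hm0 : (0 : ℝ) < Fintype.card α := lt_of_lt_of_le (by positivity) hm
  set A : (α ⊕ β → ℝ) → ℝ := fun x =>
    ∏ i, (gaussianReal 0 (hsq x).toNNReal).real (Icc (lo i - ζ i x) (hi i - ζ i x)) with hA
  set B : Set (α ⊕ β → ℝ) := {x | hsq x < (1 / w) ^ 2 * Fintype.card α} with hB
  have mB : MeasurableSet B := measurableSet_lt (by unfold hsq; fun_prop) measurable_const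
  have iA : Integrable A (cond volume K) :=
    Integrable.of_bound (measurable_cell_prod hζ lo hi).aestronglyMeasurable 1
      (Filter.Eventually.of_forall fun x => by
        rw [Real.norm_of_nonneg (Finset.prod_nonneg fun i _ => measureReal_nonneg)]
        exact Finset.prod_le_one (fun i _ => measureReal_nonneg) fun i _ => measureReal_le_one)
  have iB : Integrable (B.indicator (1 : (α ⊕ β → ℝ) → ℝ)) (cond volume K) :=
    (integrable_const 1).indicator mB
  have mS : MeasurableSet {q : (γ → α → ℝ) × ((α ⊕ β → ℝ) × (α ⊕ β → ℝ)) |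
      (∀ i, q.1 i ⬝ᵥ (q.2.1 ∘ Sum.inl) + ζ i q.2.1 ∈ Icc (lo i) (hi i)) ∧
        ∀ i, q.1 i ⬝ᵥ (q.2.2 ∘ Sum.inl) + ζ i q.2.2 ∈ Icc (lo i) (hi i)} :=
    ((measurable_fst.prodMk measurable_snd.fst) (meas_cell hζ lo hi)).inter
      ((measurable_fst.prodMk measurable_snd.snd) (meas_cell hζ lo hi))
  have h1 := swap_real (gaussM γ α) ((cond volume K).prod (cond volume K)) mS
  have e1 : ∀ G : γ → α → ℝ, cellMass K ζ lo hi G ^ 2 =
      ((cond volume K).prod (cond volume K)).real {p |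
        (∀ i, G i ⬝ᵥ (p.1 ∘ Sum.inl) + ζ i p.1 ∈ Icc (lo i) (hi i)) ∧
          ∀ i, G i ⬝ᵥ (p.2 ∘ Sum.inl) + ζ i p.2 ∈ Icc (lo i) (hi i)} := fun G => by
    rw [pow_two, cellMass, ← measureReal_prod_prod]
    rfl
  have i1 := iA.mul_prod iA
  have i2 : Integrable (fun p : (α ⊕ β → ℝ) × (α ⊕ β → ℝ) => Fintype.card γ *
      (2 / w + 2 * w ^ 6 / (Fintype.card α : ℝ) ^ 2 * ((p.1 ∘ Sum.inl) ⬝ᵥ (p.2 ∘ Sum.inl)) ^ 2))
      ((cond volume K).prod (cond volume K)) :=
    ((integrable_const _).add ((integrable_dot hK).const_mul _)).const_mul _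
  have i3 := iB.comp_fst (cond volume K)
  have i4 := iB.comp_snd (cond volume K)
  have h2 : ∫ G, cellMass K ζ lo hi G ^ 2 ∂(gaussM γ α) ≤
      ∫ p : (α ⊕ β → ℝ) × (α ⊕ β → ℝ), (A p.1 * A p.2 + Fintype.card γ *
        (2 / w + 2 * w ^ 6 / (Fintype.card α : ℝ) ^ 2 * ((p.1 ∘ Sum.inl) ⬝ᵥ (p.2 ∘ Sum.inl)) ^ 2) +
        B.indicator 1 p.1 + B.indicator 1 p.2) ∂((cond volume K).prod (cond volume K)) := by
    simp only [e1]
    refine (le_of_eq h1).trans (integral_mono_of_nonneg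
      (Filter.Eventually.of_forall fun p => measureReal_nonneg) (((i1.add i2).add i3).add i4)
      (Filter.Eventually.of_forall fun p => ?_))
    have a0 : ∀ x, 0 ≤ A x := fun x => Finset.prod_nonneg fun i _ => measureReal_nonneg
    have a1 : 0 ≤ A p.1 * A p.2 + Fintype.card γ * (2 / w + 2 * w ^ 6 / (Fintype.card α : ℝ) ^ 2 *
        ((p.1 ∘ Sum.inl) ⬝ᵥ (p.2 ∘ Sum.inl)) ^ 2) :=
      add_nonneg (mul_nonneg (a0 _) (a0 _)) (by positivity)
    have a2 : ∀ x, (0 : ℝ) ≤ B.indicator 1 x := fun x => indicator_nonneg (fun _ _ => zero_le_one) x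
    beta_reduce
    by_cases b1 : p.1 ∈ B
    · rw [indicator_of_mem b1, Pi.one_apply]
      exact measureReal_le_one.trans (by linarith [a2 p.2])
    by_cases b2 : p.2 ∈ B
    · rw [indicator_of_mem b2, Pi.one_apply]
      exact measureReal_le_one.trans (by linarith [a2 p.1])
    rw [indicator_of_notMem b1, indicator_of_notMem b2, add_zero, add_zero]
    refine le_trans (le_of_eq ?_) (pair_bound lo hi hw0 hm0 b1 b2)
    rw [← gaussM_real]
    simp only [mem_ofPred_eq, forall_and]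
  rw [integral_add ((i1.fun_add i2).fun_add i3) i4, integral_add (i1.fun_add i2) i3,
    integral_add i1 i2,
    integral_prod_mul A A, integral_const_mul,
    integral_add (integrable_const _) ((integrable_dot hK).const_mul _), integral_const_mul,
    integral_dot hK, integral_fun_fst (B.indicator 1), integral_fun_snd (B.indicator 1),
    integral_indicator_one mB] at h2
  simp only [integral_const, probReal_univ, one_smul] at h2
  have h3 := hK.hsq_small (η := 1 / w) (by positivity)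
  have h4 : 2 * w ^ 6 / (Fintype.card α : ℝ) ^ 2 * Fintype.card α ≤ 2 / w := by
    rw [le_div_iff₀ hw0]
    have e : 2 * w ^ 6 / (Fintype.card α : ℝ) ^ 2 * Fintype.card α * w =
        2 * (w ^ 7 / Fintype.card α) := by field_simp
    rw [e]
    linarith [(div_le_one hm0).2 hm]
  have h5 := mul_le_mul_of_nonneg_left h4 (Nat.cast_nonneg (Fintype.card γ))
  have h6 : 0 ≤ (Fintype.card γ : ℝ) * (1 / w) := by positivity
  have h7 : 0 ≤ 1 / w := by positivity
  rw [cellMass_mean hK hζ, pow_two]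
  have e2 : 32 * ((Fintype.card γ : ℝ) + 1) / w =
      32 * (Fintype.card γ * (1 / w)) + 32 * (1 / w) := by ring
  have e3 : (Fintype.card γ : ℝ) * (2 / w) = 2 * (Fintype.card γ * (1 / w)) := by ring
  rw [mul_add] at h2
  rw [e2]
  linarith

end Vale.Agent.P230.L
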