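import Vale.Agent.P230.Defs2

/-! Common definitions for the lattice upper bound. -/

namespace Vale.Agent.P230.L

open MeasureTheory ProbabilityTheory Set
open scoped ENNReal

/-- The circle of length one. -/
abbrev T := UnitAddCircle

instance instProbT : IsProbabilityMeasure (volume : Measure T) := ⟨UnitAddCircle.measure_univ⟩

/-- Standard normal density. -/
noncomputable def phi (x : ℝ) : ℝ := Real.exp (-x ^ 2 / 2) / √(2 * Real.pi)

/-- Standard normal density in several variables. -/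
noncomputable def phiV {ι : Type} [Fintype ι] (x : ι → ℝ) : ℝ := ∏ i, phi (x i)

/-- Closed cube of radius `r`. -/
def box (ι : Type) (r : ℝ) : Set (ι → ℝ) := {x | ∀ i, |x i| ≤ r}

/-- Half-open unit cube. -/
def ucube (κ : Type) : Set (κ → ℝ) := Set.univ.pi fun _ => Set.Ico 0 1

/-- Coordinatewise fractional part. -/
noncomputable def fr {κ : Type} (x : κ → ℝ) : κ → ℝ := fun c => Int.fract (x c)

/-- Integer vector as a real vector. -/
def cst {ι : Type} (a : ι → ℤ) : ι → ℝ := fun i => (a i : ℝ)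

/-- Integer combination of vectors. -/
def comb {ι G : Type} [Fintype ι] [AddCommGroup G] (a : ι → ℤ) (v : ι → G) : G :=
  ∑ l, a l • v l

/-- Section of a body at height `s`. -/
def sec {α β : Type} (K : Set (α ⊕ β → ℝ)) (s : β → ℝ) : Set (α → ℝ) :=
  {y | Sum.elim y s ∈ K}

/-- A triple of signs. -/
def IsSign (σ : Fin 3 → ℤ) : Prop := ∀ l, σ l = 1 ∨ σ l = -1

/-- Signed sum of three points. -/
def ssum {G : Type} [AddCommGroup G] (σ : Fin 3 → ℤ) (x y z : G) : G :=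
  σ 0 • x + σ 1 • y + σ 2 • z

/-- Additive quadruples. -/
def En {G : Type} [AddCommGroup G] (S₁ S₂ S₃ S₀ : Set G) (σ : Fin 3 → ℤ) (s : G) :
    Set (G × G × G) :=
  {p | p.1 ∈ S₁ ∧ p.2.1 ∈ S₂ ∧ p.2.2 ∈ S₃ ∧ ssum σ p.1 p.2.1 p.2.2 + s ∈ S₀}

/-- Binary tree condition: two members that agree on all lower levels differ by at most one. -/
def IsTree {ι : Type} (lv : ι → ℕ) (A : Finset (ι → ℤ)) : Prop :=
  ∀ a ∈ A, ∀ a' ∈ A, ∀ i, (∀ j, lv j < lv i → a j = a' j) → |a i - a' i| ≤ 1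

/-- Isotropic convex body. -/
structure Iso {ι : Type} [Fintype ι] (K : Set (ι → ℝ)) : Prop where
  compact : IsCompact K
  convex : Convex ℝ K
  vol_ne : volume K ≠ 0
  mean : ∀ θ : ι → ℝ, ∫ x, θ ⬝ᵥ x ∂(cond volume K) = 0
  cov : ∀ θ : ι → ℝ, ∫ x, (θ ⬝ᵥ x) ^ 2 ∂(cond volume K) = θ ⬝ᵥ θ

/-- Convex body of polynomial size whose marginal dominates a multiple of the normal density. -/
structure Nice {α β : Type} [Fintype α] [Fintype β] (n : ℕ) (c A : ℝ)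
    (K : Set (α ⊕ β → ℝ)) : Prop where
  compact : IsCompact K
  convex : Convex ℝ K
  inner : box (α ⊕ β) (1 / (n : ℝ) ^ 5) ⊆ K
  outer : K ⊆ box (α ⊕ β) ((n : ℝ) ^ 5)
  sec_ge : ∀ s ∈ box β A, ENNReal.ofReal (c * phiV s) * volume K ≤ volume (sec K s)

/-- Standard normal random vector. -/
noncomputable def gaussV (α : Type) [Fintype α] : Measure (α → ℝ) :=
  Measure.pi fun _ => gaussianReal 0 1

/-- Standard normal random matrix. -/
noncomputable def gaussM (β α : Type) [Fintype β] [Fintype α] : Measure (β → α → ℝ) :=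
  Measure.pi fun _ => gaussV α

instance (α : Type) [Fintype α] : IsProbabilityMeasure (gaussV α) := by
  unfold gaussV; infer_instance

instance (β α : Type) [Fintype β] [Fintype α] : IsProbabilityMeasure (gaussM β α) := by
  unfold gaussM; infer_instance

/-- Squared length of the horizontal part. -/
def hsq {α β : Type} [Fintype α] (x : α ⊕ β → ℝ) : ℝ := ∑ a, x (Sum.inl a) ^ 2

/-- Mass of a cell for the random marginal. -/
noncomputable def cellMass {α β γ : Type} [Fintype α] [Fintype β] (K : Set (α ⊕ β → ℝ))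
    (ζ : γ → (α ⊕ β → ℝ) → ℝ) (lo hi : γ → ℝ) (G : γ → α → ℝ) : ℝ :=
  (cond volume K).real {x | ∀ i, G i ⬝ᵥ (x ∘ Sum.inl) + ζ i x ∈ Icc (lo i) (hi i)}

/-- Average over the horizontal torus of the product of the leaf functions in `N`. -/
noncomputable def Psi {ι κ Ω : Type} [Fintype ι] [Fintype κ]
    (F : (ι → ℤ) → Ω → (κ → T) → ℝ≥0∞) (N : Finset (ι → ℤ)) (x : (ι → κ → T) × Ω) : ℝ≥0∞ :=
  ∫⁻ y, ∏ a ∈ N, F a x.2 (y + comb a x.1)

/-- A weighted tree system for the normal density. -/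
structure Sys (k : ℕ) (R c : ℝ) where
  ι : Type
  [fι : Fintype ι]
  [dι : DecidableEq ι]
  lv : ι → ℕ
  B : Matrix ι ι ℝ
  J : Type
  [fJ : Fintype J]
  A : J → Finset (ι → ℤ)
  w : J → (ι → ℤ) → ℝ
  lv_inj : Function.Injective lv
  lv_lt : ∀ i, lv i < k
  det_pos : 0 < B.det
  det_le : B.det ≤ Real.exp k
  card_J : (Fintype.card J : ℝ) ≤ Real.exp k
  tree : ∀ j, IsTree lv (A j)
  card_A : ∀ j, (A j).card ≤ 2 ^ k
  w_nonneg : ∀ j a, 0 ≤ w j a
  w_le : ∀ j a, w j a ≤ Real.exp (-R)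
  sum_w : ∀ j, 1 ≤ ∑ a ∈ A j, w j a
  cover : ∀ t : ι → ℝ, ∃ j, ∃ a₀ : ι → ℤ, ∀ a ∈ A j,
    t - B.mulVec (cst (a + a₀)) ∈ box ι k ∧
      c * w j a ≤ B.det * phiV (t - B.mulVec (cst (a + a₀)))

attribute [instance] Sys.fι Sys.dι Sys.fJ

/-- Integer vector as a rational vector. -/
def qv {δ : Type} (a : δ → ℤ) : δ → ℚ := fun l => (a l : ℚ)

/-- The smoothed window function of the thin shell argument. -/
noncomputable def gk (k : ℕ) (a r : ℝ) : ℝ :=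
  (a / r) ^ k * Real.exp (k / 2 - k * a ^ 2 / (2 * r ^ 2))

/-- Leaf function: one minus the largest weight of a fine index. -/
noncomputable def leafF {ι φ κ : Type} [Fintype φ] (Z : (ι → ℤ) → Finset (φ → ℤ))
    (π : (ι → ℤ) → (φ → ℤ) → (κ → T) → ℝ) (a : ι → ℤ) (g : φ → κ → T) (y : κ → T) : ℝ≥0∞ :=
  1 - ⨆ z ∈ Z a, ENNReal.ofReal (π a z (y + comb z g))

/-- Typical set of the normal distribution. -/
def typ (m : ℕ) (s : ℝ) : Set (Fin m → ℝ) := {x | |∑ i, x i ^ 2 - m| ≤ s}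

/-- Zero-one integer vectors. -/
def bits (ι : Type) [Fintype ι] [DecidableEq ι] : Finset (ι → ℤ) :=
  Fintype.piFinset fun _ => {0, 1}

/-- Integer vectors in a cube. -/
noncomputable def boxZ (ι : Type) [Fintype ι] [DecidableEq ι] (L : ℕ) : Finset (ι → ℤ) :=
  Fintype.piFinset fun _ => Finset.Icc (-(L : ℤ)) L

/-- The constant vector one half. -/
noncomputable def half (κ : Type) : κ → ℝ := fun _ => 1 / 2

/-- Rescaled slice of a set at a fine grid point. -/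
def slice {φ κ : Type} (ε H : ℝ) (E : Set (φ ⊕ κ → ℝ)) (z : φ → ℤ) : Set (κ → ℝ) :=
  {x | Sum.elim ((-ε) • cst z) (H • (x - half κ)) ∈ E}

/-- Fine gadget. -/
structure GadF (m L : ℕ) (ε η bx lo hi : ℝ) where
  Tf : Finset (Fin m → ℤ)
  ω : (Fin m → ℤ) → ℝ
  bdd : ∀ z ∈ Tf, ∀ l, |z l| ≤ L
  nonneg : ∀ z, 0 ≤ ω z
  le_hi : ∀ z ∈ Tf, ω z ≤ hi
  card_le : (Tf.card : ℝ) * lo ≤ 2
  sum_ge : 1 - η ≤ ∑ z ∈ Tf, ω z
  pert : ∀ z ∈ Tf, ∀ r ∈ box (Fin m) ε, r - ε • cst z ∈ box (Fin m) bx ∧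
    Real.exp (-η) * ω z ≤ ε ^ m * phiV (r - ε • cst z)

/-- Two-layer gadget. -/
structure GadC (m r : ℕ) (h δ η bx lo hi : ℝ) where
  ω : (Fin m → ℝ) → ℝ
  S : Set (Fin m → ℝ)
  meas : Measurable ω
  nonneg : ∀ x, 0 ≤ ω x
  measS : MeasurableSet S
  sub : S ⊆ ucube (Fin m)
  supp : ∀ x ∈ ucube (Fin m), ∑ b ∈ bits (Fin m), ω (x - cst b) ≠ 0 → x ∈ S
  vol_le : volume.real S * lo ≤ 1
  le_hi : ∀ x ∈ ucube (Fin m), ∑ b ∈ bits (Fin m), ω (x - cst b) ≤ hi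
  leaf_le : ∀ x ∈ ucube (Fin m), ∀ b ∈ bits (Fin m), ω (x - cst b) ≤ hi / 2 ^ r
  int_ge : 1 - η ≤ ∫ x in ucube (Fin m), ∑ b ∈ bits (Fin m), ω (x - cst b)
  pert : ∀ x ∈ box (Fin m) 1, ∀ e ∈ box (Fin m) δ, h • (x + e) ∈ box (Fin m) bx ∧
    Real.exp (-η) * ω x ≤ h ^ m * phiV (h • (x + e))

/-- Marker gadget. -/
structure GadM (m : ℕ) (H δ η bx lo hi : ℝ) where
  ω : (Fin m → ℝ) → ℝ
  S : Set (Fin m → ℝ)
  meas : Measurable ω
  nonneg : ∀ x, 0 ≤ ω x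
  measS : MeasurableSet S
  win : ∀ x ∈ S, ∀ c, |x c - 1 / 2| < 1 / 8
  supp : ∀ x, ω x ≠ 0 → x ∈ S
  vol_le : volume.real S * lo ≤ 1
  le_hi : ∀ x, ω x ≤ hi
  int_ge : 1 - η ≤ ∫ x in ucube (Fin m), ω x
  pert : ∀ x ∈ S, ∀ e ∈ box (Fin m) δ, H • (x - half (Fin m) + e) ∈ box (Fin m) bx ∧
    Real.exp (-η) * ω x ≤ H ^ m * phiV (H • (x - half (Fin m) + e))

end Vale.Agent.P230.L
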