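import Vale.Agent.P230.L.Defs

/-! Random points on a torus: independence and the two dependent cases.

equi: the map is a continuous additive homomorphism of compact groups, onto because for
independent vectors there are rational dual vectors (lam t . iota t' = 1 if t = t', else 0) and
points of T lift to reals; use AddMonoidHom.measurePreserving.
vol_window: S is empty or inside a product of arcs of length 1/2 in the coordinates of D.
caseB: take a rational vector lam with lam . iota j = 1 and lam . iota t = 0 for the other t in U,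
and an integer k with norm (k * c j : T) >= 1/4.  For D' a subset of D shift x l c by k * lam l
if c is in D'.  These 2^|D| shifts preserve volume and the event for U, and the shifted events
for i are pairwise disjoint by the window condition.
caseA: for an admissible quadruple apply equi to the family U, i1, i2, i3 (index type
U + Fin 3 or similar) to write the volume as the integral over x'' in prod (S t) of
volume (En (S i1) (S i2) (S i3) (S i0) sigma (sum c t . x'' t)); then sum under the integral and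
use hA with w = sum c t . iota t. -/

namespace Vale.Agent.P230.L

open MeasureTheory ProbabilityTheory Set
open scoped ENNReal

variable {δ κ I : Type} [Fintype δ] [Fintype κ] [Fintype I] [DecidableEq I] [DecidableEq δ]

instance instBorelT : BorelSpace T := inferInstance

instance instSecondT : SecondCountableTopology T := inferInstance

instance instMeasAddT : MeasurableAdd T := inferInstance

theorem continuous_comb {τ : Type} [Fintype τ] (a : τ → ℤ) :
    Continuous fun x : τ → κ → T => comb a x := by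
  unfold comb; fun_prop

omit [Fintype κ] [DecidableEq δ] in
theorem comb_coe (a : δ → ℤ) (X : δ → κ → ℝ) (c : κ) :
    comb a (fun l c => ((X l c : ℝ) : T)) c = ((∑ l, (a l : ℝ) * X l c : ℝ) : T) := by
  unfold comb
  rw [Finset.sum_apply, QuotientAddGroup.mk_sum]
  refine Finset.sum_congr rfl fun l _ => ?_
  rw [← zsmul_eq_mul, AddCircle.coe_zsmul]
  rfl

omit [DecidableEq δ] in
theorem comb_add_right {G : Type} [AddCommGroup G] (a : δ → ℤ) (x y : δ → G) :
    comb a (x + y) = comb a x + comb a y := by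
  simp [comb, Finset.sum_add_distrib]

omit [DecidableEq δ] in
theorem comb_rel {G τ : Type} [AddCommGroup G] (σ : Fin 3 → ℤ) (a₁ a₂ a₃ : δ → ℤ) (U : Finset τ)
    (c : τ → ℤ) (a : τ → δ → ℤ) (x : δ → G) :
    comb (ssum σ a₁ a₂ a₃ + ∑ t ∈ U, c t • a t) x =
      ssum σ (comb a₁ x) (comb a₂ x) (comb a₃ x) + ∑ t ∈ U, c t • comb (a t) x := by
  simp only [comb, ssum, Pi.add_apply, Pi.smul_apply, Finset.sum_apply, smul_eq_mul, add_smul,
    Finset.sum_add_distrib, Finset.smul_sum, Finset.sum_smul, mul_smul]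
  rw [Finset.sum_comm]

theorem exists_dual {τ : Type} [Fintype τ] [DecidableEq τ] (v : τ → δ → ℚ)
    (h : LinearIndependent ℚ v) :
    ∃ lam : τ → δ → ℚ, ∀ t t', ∑ l, v t' l * lam t l = if t = t' then 1 else 0 := by
  have hinj := linearIndependent_iff_injective_fintypeLinearCombination.1 h
  obtain ⟨g, hg⟩ := (Fintype.linearCombination ℚ v).exists_leftInverse_of_injective
    (LinearMap.ker_eq_bot.2 hinj)
  refine ⟨fun t l => g (fun j => if l = j then 1 else 0) t, fun t t' => ?_⟩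
  have h1 : g (v t') = Pi.single t' 1 := by
    have h2 := LinearMap.congr_fun hg (Pi.single t' 1)
    simpa using h2
  have h3 := congrFun (LinearMap.pi_apply_eq_sum_univ g (v t')) t
  rw [h1, Finset.sum_apply, Pi.single_apply] at h3
  exact h3.symm

theorem comb_surj {τ : Type} [Fintype τ] (ι : τ → δ → ℤ)
    (h : LinearIndependent ℚ fun t => qv (ι t)) (y : τ → κ → T) :
    ∃ x : δ → κ → T, ∀ t, comb (ι t) x = y t := by
  classical
  obtain ⟨lam, hlam⟩ := exists_dual _ h
  choose r hr using fun (t : τ) (c : κ) => QuotientAddGroup.mk_surjective (y t c)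
  refine ⟨fun l c => ((∑ t, (lam t l : ℝ) * r t c : ℝ) : T), fun t' => funext fun c => ?_⟩
  rw [comb_coe, ← hr t' c]
  refine congrArg _ ?_
  have h1 : ∀ t, ∑ l, (ι t' l : ℝ) * (lam t l : ℝ) = if t = t' then 1 else 0 := by
    intro t
    have h2 := congrArg (fun q : ℚ => (q : ℝ)) (hlam t t')
    simp only [qv] at h2
    push_cast at h2
    rw [h2]
    split_ifs <;> simp
  simp only [Finset.mul_sum, ← mul_assoc]
  rw [Finset.sum_comm]
  simp only [← Finset.sum_mul, h1, ite_mul, one_mul, zero_mul, Finset.sum_ite_eq',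
    Finset.mem_univ, if_true]

theorem equi {τ : Type} [Fintype τ] (ι : τ → δ → ℤ)
    (h : LinearIndependent ℚ fun t => qv (ι t)) :
    MeasurePreserving (fun (x : δ → κ → T) (t : τ) => comb (ι t) x) volume volume := by
  let f : (δ → κ → T) →+ (τ → κ → T) := AddMonoidHom.mk' (fun x t => comb (ι t) x)
    fun x y => funext fun t => comb_add_right _ x y
  have hc : Continuous f := continuous_pi fun t => continuous_comb (ι t)
  have hs : Function.Surjective f := fun y => by
    obtain ⟨x, hx⟩ := comb_surj ι h y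
    exact ⟨x, funext hx⟩
  exact AddMonoidHom.measurePreserving hc hs (by rw [measure_univ, measure_univ])

omit [Fintype I] [DecidableEq I] in
theorem prob_indep' (ι : I → δ → ℤ) (S : I → Set (κ → T)) (hS : ∀ i, MeasurableSet (S i))
    (U : Finset I) (hU : LinearIndepOn ℚ (fun i => qv (ι i)) U) :
    volume {x : δ → κ → T | ∀ t ∈ U, comb (ι t) x ∈ S t} = ∏ t ∈ U, volume (S t) := by
  have h1 := equi (κ := κ) (τ := U) (fun t => ι t) hU
  have h2 := h1.measure_preimage
    (MeasurableSet.univ_pi fun t : U => hS t).nullMeasurableSet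
  rw [volume_pi_pi, Finset.prod_coe_sort U fun t => volume (S t)] at h2
  rw [← h2]
  refine congrArg _ ?_
  ext x
  simp

theorem prob_indep (ι : I → δ → ℤ) (S : I → Set (κ → T)) (hS : ∀ i, MeasurableSet (S i))
    (U : Finset I) (hU : LinearIndepOn ℚ (fun i => qv (ι i)) U) :
    volume.real {x : δ → κ → T | ∀ t ∈ U, comb (ι t) x ∈ S t} = ∏ t ∈ U, volume.real (S t) := by
  simp only [Measure.real]
  rw [prob_indep' ι S hS U hU, ENNReal.toReal_prod]

theorem vol_window (D : Finset κ) {S : Set (κ → T)}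
    (hw : ∀ x ∈ S, ∀ x' ∈ S, ∀ c ∈ D, ‖x c - x' c‖ < 1 / 4) :
    volume.real S ≤ (1 / 2) ^ D.card := by
  classical
  rcases S.eq_empty_or_nonempty with rfl | ⟨x₀, hx₀⟩
  · rw [measureReal_empty]; positivity
  have h1 : S ⊆ Set.univ.pi fun c =>
      if c ∈ D then Metric.closedBall (x₀ c) (1 / 4) else Set.univ := by
    intro x hx c _
    by_cases hc : c ∈ D
    · simp only [hc, if_true, Metric.mem_closedBall, dist_eq_norm]
      exact (hw x hx x₀ hx₀ c hc).le
    · simp [hc]
  refine (measureReal_mono h1).trans (le_of_eq ?_)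
  have h2 : ∀ c, (volume (if c ∈ D then Metric.closedBall (x₀ c) (1 / 4) else
      (Set.univ : Set T))).toReal = if c ∈ D then (1 / 2 : ℝ) else 1 := by
    intro c
    split_ifs
    · rw [AddCircle.volume_closedBall, ENNReal.toReal_ofReal (by norm_num)]
      norm_num
    · rw [measure_univ, ENNReal.toReal_one]
  rw [Measure.real, volume_pi_pi, ENNReal.toReal_prod]
  simp only [h2]
  rw [Finset.prod_ite_mem, Finset.univ_inter, Finset.prod_const]

theorem exists_far {q : ℝ} (hq : ∀ z : ℤ, q ≠ z) : ∃ k : ℤ, 1 / 4 ≤ ‖((k * q : ℝ) : T)‖ := by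
  have h0 : 0 < |q - round q| := abs_pos.2 (sub_ne_zero.2 (hq _))
  have h1 : |q - round q| ≤ 1 / 2 := abs_sub_round q
  by_cases h2 : 1 / 4 ≤ |q - round q|
  · refine ⟨1, ?_⟩
    rw [Int.cast_one, one_mul, UnitAddCircle.norm_eq]
    exact h2
  set r := q - round q with hr
  set n := ⌈1 / (4 * |r|)⌉₊ with hn
  have h3 : 1 / (4 * |r|) ≤ n := Nat.le_ceil _
  have h4 : (n : ℝ) < 1 / (4 * |r|) + 1 := Nat.ceil_lt_add_one (by positivity)
  have h5 : 1 / (4 * |r|) * |r| = 1 / 4 := by field_simp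
  have h6 : 1 / 4 ≤ n * |r| := by nlinarith
  have h7 : n * |r| ≤ 1 / 2 := by nlinarith
  refine ⟨n, ?_⟩
  have h8 : ((((n : ℤ) : ℝ) * q : ℝ) : T) = ((n * r : ℝ) : T) := by
    have h9 : ((n : ℤ) : ℝ) * q = n * r + ((n * round q : ℤ) : ℝ) := by
      rw [hr]; push_cast; ring
    have h11 : ((((n * round q : ℤ) : ℝ) : ℝ) : T) = 0 :=
      (AddCircle.coe_eq_zero_iff 1).2 ⟨n * round q, by simp⟩
    rw [h9, AddCircle.coe_add, h11, add_zero]
  have h10 : |(n : ℝ) * r| = n * |r| := by rw [abs_mul, Nat.abs_cast]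
  rw [h8, (AddCircle.norm_coe_eq_abs_iff 1 one_ne_zero).2 (by rw [h10, abs_one]; exact h7), h10]
  exact h6

theorem caseB (D : Finset κ) (ι : I → δ → ℤ) (S : I → Set (κ → T))
    (hS : ∀ i, MeasurableSet (S i)) (U : Finset I) (hU : LinearIndepOn ℚ (fun i => qv (ι i)) U)
    (i : I) (hw : ∀ x ∈ S i, ∀ x' ∈ S i, ∀ c ∈ D, ‖x c - x' c‖ < 1 / 4) (c : I → ℚ)
    (hc : qv (ι i) = ∑ t ∈ U, c t • qv (ι t)) {j : I} (hj : j ∈ U) (hcj : ∀ z : ℤ, c j ≠ z) :
    volume.real {x : δ → κ → T | (∀ t ∈ U, comb (ι t) x ∈ S t) ∧ comb (ι i) x ∈ S i} ≤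
      (1 / 2) ^ D.card * ∏ t ∈ U, volume.real (S t) := by
  classical
  obtain ⟨lam, hlam⟩ := exists_dual (τ := U) (fun t => qv (ι t)) hU
  obtain ⟨k, hk⟩ := exists_far (q := (c j : ℝ)) fun z hz => hcj z (by exact_mod_cast hz)
  have h1 : ∀ t ∈ U, ∑ l, qv (ι t) l * lam ⟨j, hj⟩ l = if j = t then 1 else 0 := by
    intro t ht
    rw [hlam ⟨j, hj⟩ ⟨t, ht⟩]
    simp only [Subtype.mk.injEq]
  have h2 : ∑ l, qv (ι i) l * lam ⟨j, hj⟩ l = c j := by
    rw [hc]
    simp only [Finset.sum_apply, Pi.smul_apply, smul_eq_mul, Finset.sum_mul, mul_assoc]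
    rw [Finset.sum_comm]
    simp only [← Finset.mul_sum]
    rw [Finset.sum_congr rfl fun t ht => by rw [h1 t ht]]
    simp [hj]
  let sh : Finset κ → δ → κ → T := fun D' l e =>
    ((if e ∈ D' then (k : ℝ) * (lam ⟨j, hj⟩ l : ℝ) else 0 : ℝ) : T)
  have h3 : ∀ (a : δ → ℤ) (D' : Finset κ) (e : κ), comb a (sh D') e =
      if e ∈ D' then (((k : ℝ) * ((∑ l, qv a l * lam ⟨j, hj⟩ l : ℚ) : ℝ) : ℝ) : T) else 0 := by
    intro a D' e
    rw [comb_coe]
    split_ifs
    · refine congrArg _ ?_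
      simp only [qv]
      push_cast
      rw [Finset.mul_sum]
      exact Finset.sum_congr rfl fun l _ => by ring
    · simp
  have h4 : ∀ t ∈ U, ∀ D', comb (ι t) (sh D') = 0 := by
    intro t ht D'
    funext e
    rw [h3, h1 t ht, Pi.zero_apply]
    split_ifs
    · exact (AddCircle.coe_eq_zero_iff 1).2 ⟨k, by simp⟩
    · simp
    · rfl
  have hm : ∀ t, MeasurableSet {x : δ → κ → T | comb (ι t) x ∈ S t} :=
    fun t => (continuous_comb (ι t)).measurable (hS t)
  set F := {x : δ → κ → T | (∀ t ∈ U, comb (ι t) x ∈ S t) ∧ comb (ι i) x ∈ S i} with hF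
  have hFm : MeasurableSet F := by
    have h' : F = (⋂ t ∈ U, {x : δ → κ → T | comb (ι t) x ∈ S t}) ∩
        {x : δ → κ → T | comb (ι i) x ∈ S i} := by
      ext x; simp [hF]
    rw [h']
    exact (Finset.measurableSet_biInter U fun t _ => hm t).inter (hm i)
  have h5 : ∀ D', volume.real ((fun x => x + sh D') ⁻¹' F) = volume.real F := by
    intro D'
    simp only [Measure.real]
    rw [measure_preimage_add_right]
  have h6 : (D.powerset : Set (Finset κ)).PairwiseDisjoint
      fun D' => (fun x => x + sh D') ⁻¹' F := by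
    intro D₁ hD₁ D₂ hD₂ hne
    refine Set.disjoint_left.2 fun x hx₁ hx₂ => hne ?_
    have a1 := hx₁.2
    have a2 := hx₂.2
    rw [comb_add_right] at a1 a2
    have s1 : D₁ ⊆ D := Finset.mem_powerset.1 hD₁
    have s2 : D₂ ⊆ D := Finset.mem_powerset.1 hD₂
    ext e
    constructor
    · intro he
      by_contra he'
      have := hw _ a1 _ a2 e (s1 he)
      rw [Pi.add_apply, Pi.add_apply, add_sub_add_left_eq_sub, h3, h3, if_pos he, if_neg he', h2,
        sub_zero] at this
      linarith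
    · intro he
      by_contra he'
      have := hw _ a2 _ a1 e (s2 he)
      rw [Pi.add_apply, Pi.add_apply, add_sub_add_left_eq_sub, h3, h3, if_pos he, if_neg he', h2,
        sub_zero] at this
      linarith
  have h7 := measureReal_biUnion_finset (μ := (volume : Measure (δ → κ → T))) h6
    fun D' _ => measurable_add_const (sh D') hFm
  have h8 : (⋃ D' ∈ D.powerset, (fun x => x + sh D') ⁻¹' F) ⊆
      {x : δ → κ → T | ∀ t ∈ U, comb (ι t) x ∈ S t} := by
    intro x hx
    obtain ⟨D', _, hx'⟩ := Set.mem_iUnion₂.1 hx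
    intro t ht
    have := hx'.1 t ht
    rwa [comb_add_right, h4 t ht, add_zero] at this
  have h9 := measureReal_mono (μ := (volume : Measure (δ → κ → T))) h8
  rw [h7, prob_indep ι S hS U hU] at h9
  simp only [h5, Finset.sum_const, Finset.card_powerset, nsmul_eq_mul] at h9
  push_cast at h9
  rw [one_div, inv_pow, le_inv_mul_iff₀ (by positivity)]
  exact h9

theorem sum_lintegral_le {α β : Type} [MeasurableSpace α] (μ : Measure α) (s : Finset β)
    (f : β → α → ℝ≥0∞) : ∑ b ∈ s, ∫⁻ a, f b a ∂μ ≤ ∫⁻ a, ∑ b ∈ s, f b a ∂μ := by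
  classical
  induction s using Finset.induction_on with
  | empty => simp
  | insert b s hb ih =>
    simp only [Finset.sum_insert hb]
    exact (add_le_add le_rfl ih).trans (le_lintegral_add _ _)

omit [Fintype I] in
theorem vol_quad (ι : I → δ → ℤ) (S : I → Set (κ → T)) (hS : ∀ i, MeasurableSet (S i))
    (σ : Fin 3 → ℤ) (U : Finset I) (c : I → ℤ) {i₁ i₂ i₃ i₀ : I} (n1 : i₁ ∉ U) (n2 : i₂ ∉ U)
    (n3 : i₃ ∉ U) (h12 : i₁ ≠ i₂) (h13 : i₁ ≠ i₃) (h23 : i₂ ≠ i₃)
    (hU : LinearIndepOn ℚ (fun i => qv (ι i)) (insert i₁ (insert i₂ (insert i₃ U)) : Finset I))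
    (hr : ι i₀ = ssum σ (ι i₁) (ι i₂) (ι i₃) + ∑ t ∈ U, c t • ι t) :
    volume {x : δ → κ → T | (∀ t ∈ U, comb (ι t) x ∈ S t) ∧ comb (ι i₁) x ∈ S i₁ ∧
        comb (ι i₂) x ∈ S i₂ ∧ comb (ι i₃) x ∈ S i₃ ∧ comb (ι i₀) x ∈ S i₀} =
      ∫⁻ y : U → κ → T, (Set.univ.pi fun t : U => S t).indicator
        (fun y => volume (En (S i₁) (S i₂) (S i₃) (S i₀) σ (∑ t : U, c t • y t))) y := by
  let f : (δ → κ → T) →+ (U → κ → T) × (κ → T) × (κ → T) × (κ → T) := AddMonoidHom.mk'
    (fun x => (fun t => comb (ι t) x, comb (ι i₁) x, comb (ι i₂) x, comb (ι i₃) x))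
    fun x y => by
      simp only [comb_add_right]
      rfl
  have hc : Continuous f := (continuous_pi fun t : U => continuous_comb (ι t)).prodMk
    ((continuous_comb _).prodMk ((continuous_comb _).prodMk (continuous_comb _)))
  have hs : Function.Surjective f := by
    rintro ⟨y, y₁, y₂, y₃⟩
    obtain ⟨x, hx⟩ := comb_surj (κ := κ) (τ := (insert i₁ (insert i₂ (insert i₃ U)) : Finset I))
      (fun t => ι t) hU fun t => if t.1 = i₁ then y₁ else if t.1 = i₂ then y₂ else
        if h : t.1 ∈ U then y ⟨t.1, h⟩ else y₃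
    have e1 := hx ⟨i₁, by simp⟩
    have e2 := hx ⟨i₂, by simp⟩
    have e3 := hx ⟨i₃, by simp⟩
    simp only [if_true] at e1
    simp only [h12.symm, if_true, if_false] at e2
    simp only [h13.symm, h23.symm, n3, if_false, dif_neg, not_false_eq_true] at e3
    refine ⟨x, Prod.ext (funext fun t => ?_) (Prod.ext e1 (Prod.ext e2 e3))⟩
    have e4 := hx ⟨t.1, by simp [t.2]⟩
    have a1 : t.1 ≠ i₁ := fun h => n1 (h ▸ t.2)
    have a2 : t.1 ≠ i₂ := fun h => n2 (h ▸ t.2)
    simp only [a1, a2, if_false, t.2, dif_pos] at e4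
    exact e4
  have a1 : Measure.IsAddHaarMeasure (volume : Measure ((κ → T) × (κ → T))) :=
    Measure.prod.instIsAddHaarMeasure _ _
  have a2 : Measure.IsAddHaarMeasure (volume : Measure ((κ → T) × (κ → T) × (κ → T))) :=
    Measure.prod.instIsAddHaarMeasure _ _
  have a3 : Measure.IsAddHaarMeasure
      (volume : Measure ((U → κ → T) × (κ → T) × (κ → T) × (κ → T))) :=
    Measure.prod.instIsAddHaarMeasure _ _
  have hf : MeasurePreserving f volume volume :=
    AddMonoidHom.measurePreserving hc hs (by rw [measure_univ, measure_univ])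
  let M : Set ((U → κ → T) × (κ → T) × (κ → T) × (κ → T)) :=
    {p | p.1 ∈ (Set.univ.pi fun t : U => S t) ∧
      p.2 ∈ En (S i₁) (S i₂) (S i₃) (S i₀) σ (∑ t : U, c t • p.1 t)}
  have hM : MeasurableSet M := by
    have c0 : Continuous fun p : (U → κ → T) × (κ → T) × (κ → T) × (κ → T) =>
        ssum σ p.2.1 p.2.2.1 p.2.2.2 + ∑ t : U, c t • p.1 t := by
      unfold ssum; fun_prop
    exact (measurable_fst (MeasurableSet.univ_pi fun t : U => hS t)).inter
      ((measurable_snd.fst (hS i₁)).inter ((measurable_snd.snd.fst (hS i₂)).inter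
        ((measurable_snd.snd.snd (hS i₃)).inter (c0.measurable (hS i₀)))))
  have h1 : {x : δ → κ → T | (∀ t ∈ U, comb (ι t) x ∈ S t) ∧ comb (ι i₁) x ∈ S i₁ ∧
      comb (ι i₂) x ∈ S i₂ ∧ comb (ι i₃) x ∈ S i₃ ∧ comb (ι i₀) x ∈ S i₀} = f ⁻¹' M := by
    ext x
    have e : comb (ι i₀) x = ssum σ (comb (ι i₁) x) (comb (ι i₂) x) (comb (ι i₃) x) +
        ∑ t : U, c t • comb (ι t) x := by
      rw [hr, comb_rel, Finset.sum_coe_sort U fun t => c t • comb (ι t) x]
    rw [mem_ofPred_eq, e]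
    exact and_congr (by simp [f]) Iff.rfl
  rw [h1, hf.measure_preimage hM.nullMeasurableSet, Measure.volume_eq_prod, Measure.prod_apply hM]
  refine lintegral_congr fun y => ?_
  by_cases hy : y ∈ Set.univ.pi fun t : U => S t
  · rw [indicator_of_mem hy]
    refine congrArg _ ?_
    ext p
    exact and_iff_right hy
  · rw [indicator_of_notMem hy]
    have : Prod.mk y ⁻¹' M = ∅ := Set.eq_empty_of_forall_notMem fun p hp => hy hp.1
    rw [this, measure_empty]

open Classical in
theorem caseA (ι : I → δ → ℤ) (S : I → Set (κ → T)) (hS : ∀ i, MeasurableSet (S i))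
    {εA : ℝ} (hε : 0 ≤ εA) {σ : Fin 3 → ℤ} (U : Finset I) (c : I → ℤ)
    (hA : ∀ s : κ → T, ∑ i₁, ∑ i₂, ∑ i₃, ∑ i₀,
      (if ι i₀ = ssum σ (ι i₁) (ι i₂) (ι i₃) + ∑ t ∈ U, c t • ι t then
        volume (En (S i₁) (S i₂) (S i₃) (S i₀) σ s) else 0) ≤ ENNReal.ofReal εA) :
    ∑ i₁, ∑ i₂, ∑ i₃, ∑ i₀,
      (if i₁ ∉ U ∧ i₂ ∉ U ∧ i₃ ∉ U ∧ i₁ ≠ i₂ ∧ i₁ ≠ i₃ ∧ i₂ ≠ i₃ ∧
          LinearIndepOn ℚ (fun i => qv (ι i)) (insert i₁ (insert i₂ (insert i₃ U)) : Finset I) ∧
          ι i₀ = ssum σ (ι i₁) (ι i₂) (ι i₃) + ∑ t ∈ U, c t • ι t then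
        volume.real {x : δ → κ → T | (∀ t ∈ U, comb (ι t) x ∈ S t) ∧ comb (ι i₁) x ∈ S i₁ ∧
          comb (ι i₂) x ∈ S i₂ ∧ comb (ι i₃) x ∈ S i₃ ∧ comb (ι i₀) x ∈ S i₀} else 0) ≤
      εA * ∏ t ∈ U, volume.real (S t) := by
  let P : Set (U → κ → T) := Set.univ.pi fun t : U => S t
  have hP : MeasurableSet P := MeasurableSet.univ_pi fun t : U => hS t
  let g : I × I × I × I → (U → κ → T) → ℝ≥0∞ := fun q y =>
    if ι q.2.2.2 = ssum σ (ι q.1) (ι q.2.1) (ι q.2.2.1) + ∑ t ∈ U, c t • ι t then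
      volume (En (S q.1) (S q.2.1) (S q.2.2.1) (S q.2.2.2) σ (∑ t : U, c t • y t)) else 0
  have h1 : ∑ q, ∫⁻ y, P.indicator (g q) y ≤ ENNReal.ofReal εA * ∏ t ∈ U, volume (S t) := by
    refine (sum_lintegral_le _ _ _).trans ?_
    have h2 : ∀ y, ∑ q, P.indicator (g q) y ≤ P.indicator (fun _ => ENNReal.ofReal εA) y := by
      intro y
      by_cases hy : y ∈ P
      · simp only [indicator_of_mem hy, Fintype.sum_prod_type]
        exact hA _
      · simp only [indicator_of_notMem hy, Finset.sum_const_zero, le_refl]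
    refine (lintegral_mono h2).trans (le_of_eq ?_)
    rw [lintegral_indicator_const hP, volume_pi_pi, Finset.prod_coe_sort U fun t => volume (S t)]
  have hfin : ENNReal.ofReal εA * ∏ t ∈ U, volume (S t) ≠ ⊤ :=
    ENNReal.mul_ne_top ENNReal.ofReal_ne_top
      (ENNReal.prod_ne_top fun t _ => measure_ne_top _ _)
  have h3 := ENNReal.toReal_mono hfin h1
  rw [ENNReal.toReal_sum fun q _ => ne_top_of_le_ne_top hfin
    ((Finset.single_le_sum (f := fun q => ∫⁻ y, P.indicator (g q) y) (fun _ _ => zero_le)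
      (Finset.mem_univ q)).trans h1), ENNReal.toReal_mul, ENNReal.toReal_ofReal hε,
    ENNReal.toReal_prod] at h3
  refine le_trans ?_ h3
  simp only [Fintype.sum_prod_type]
  refine Finset.sum_le_sum fun i₁ _ => Finset.sum_le_sum fun i₂ _ => Finset.sum_le_sum fun i₃ _ =>
    Finset.sum_le_sum fun i₀ _ => ?_
  split_ifs with h
  · obtain ⟨n1, n2, n3, h12, h13, h23, hU, hr⟩ := h
    rw [Measure.real, vol_quad ι S hS σ U c n1 n2 n3 h12 h13 h23 hU hr]
    have h4 : g (i₁, i₂, i₃, i₀) = fun y =>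
        volume (En (S i₁) (S i₂) (S i₃) (S i₀) σ (∑ t : U, c t • y t)) :=
      funext fun y => if_pos hr
    rw [h4]
  · exact ENNReal.toReal_nonneg

end Vale.Agent.P230.L
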