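import Vale.Agent.P230.L.GadM

/-! One stage of the recursion: building the new system from good shifts. -/

namespace Vale.Agent.P230.L

open MeasureTheory ProbabilityTheory Set
open scoped ENNReal

/-- Retained weight of a cluster. -/
noncomputable def Zt {m L r : ℕ} {ε h H δ η bx lf hf lc hc lm hm : ℝ}
    (gF : GadF m L ε η bx lf hf) (gC : GadC m r h δ η bx lc hc) (gM : GadM m H δ η bx lm hm)
    (z : Fin m → ℤ) (x : Fin m ⊕ Fin m → ℝ) : ℝ :=
  gF.ω z * (∑ b ∈ bits (Fin m), gC.ω (x ∘ Sum.inl - cst b)) * gM.ω (x ∘ Sum.inr)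

/-- The matrix of the extended lattice. -/
noncomputable def extM {ι φ κ : Type} [DecidableEq φ] [DecidableEq κ] (B : Matrix ι ι ℝ) (ε : ℝ)
    (sc : κ → ℝ) (Vv : ι → κ → ℝ) (W : φ → κ → ℝ) :
    Matrix (ι ⊕ (φ ⊕ κ)) (ι ⊕ (φ ⊕ κ)) ℝ :=
  Matrix.fromBlocks B 0 (Matrix.of (Sum.elim (fun _ _ => 0) (fun c i => -(sc c * Vv i c))))
    (Matrix.fromBlocks (Matrix.diagonal fun _ => ε) 0 (Matrix.of fun c l => -(sc c * W l c))
      (Matrix.diagonal sc))

theorem extM_det {ι φ κ : Type} [Fintype ι] [DecidableEq ι] [Fintype φ] [DecidableEq φ]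
    [Fintype κ] [DecidableEq κ] (B : Matrix ι ι ℝ) (ε : ℝ) (sc : κ → ℝ) (Vv : ι → κ → ℝ)
    (W : φ → κ → ℝ) :
    (extM B ε sc Vv W).det = B.det * (ε ^ Fintype.card φ * ∏ c, sc c) := by
  unfold extM
  rw [Matrix.det_fromBlocks_zero₁₂, Matrix.det_fromBlocks_zero₁₂, Matrix.det_diagonal,
    Matrix.det_diagonal]
  simp

theorem comb_apply {ι κ : Type} [Fintype ι] (a : ι → ℤ) (v : ι → κ → ℝ) (c : κ) :
    comb a v c = ∑ l, (a l : ℝ) * v l c := by
  simp [comb, Finset.sum_apply]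

theorem comb_add {ι G : Type} [Fintype ι] [AddCommGroup G] (a a' : ι → ℤ) (v : ι → G) :
    comb (a + a') v = comb a v + comb a' v := by
  simp [comb, add_smul, Finset.sum_add_distrib]

theorem extM_inl {ι φ κ : Type} [Fintype ι] [Fintype φ] [DecidableEq φ]
    [Fintype κ] [DecidableEq κ] (B : Matrix ι ι ℝ) (ε : ℝ) (sc : κ → ℝ) (Vv : ι → κ → ℝ)
    (W : φ → κ → ℝ) (b : ι ⊕ (φ ⊕ κ) → ℤ) (i : ι) :
    (extM B ε sc Vv W).mulVec (cst b) (Sum.inl i) = B.mulVec (cst (b ∘ Sum.inl)) i := by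
  simp [extM, Matrix.mulVec, dotProduct, Fintype.sum_sum_type, cst]

theorem extM_fine {ι φ κ : Type} [Fintype ι] [Fintype φ] [DecidableEq φ]
    [Fintype κ] [DecidableEq κ] (B : Matrix ι ι ℝ) (ε : ℝ) (sc : κ → ℝ) (Vv : ι → κ → ℝ)
    (W : φ → κ → ℝ) (b : ι ⊕ (φ ⊕ κ) → ℤ) (l : φ) :
    (extM B ε sc Vv W).mulVec (cst b) (Sum.inr (Sum.inl l)) =
      ε * b (Sum.inr (Sum.inl l)) := by
  simp [extM, Matrix.mulVec, dotProduct, Fintype.sum_sum_type, cst, Matrix.diagonal_apply]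

theorem extM_tor {ι φ κ : Type} [Fintype ι] [Fintype φ] [DecidableEq φ]
    [Fintype κ] [DecidableEq κ] (B : Matrix ι ι ℝ) (ε : ℝ) (sc : κ → ℝ) (Vv : ι → κ → ℝ)
    (W : φ → κ → ℝ) (b : ι ⊕ (φ ⊕ κ) → ℤ) (c : κ) :
    (extM B ε sc Vv W).mulVec (cst b) (Sum.inr (Sum.inr c)) =
      sc c * (b (Sum.inr (Sum.inr c)) - comb (b ∘ Sum.inl) Vv c -
        comb (b ∘ Sum.inr ∘ Sum.inl) W c) := by
  simp only [extM, Matrix.mulVec, dotProduct, Fintype.sum_sum_type, cst, comb_apply,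
    Matrix.fromBlocks_apply₂₁, Matrix.fromBlocks_apply₂₂, Matrix.of_apply, Sum.elim_inr,
    Matrix.diagonal_apply, Function.comp]
  simp only [ite_mul, zero_mul, Finset.sum_ite_eq, Finset.mem_univ, if_true, mul_sub,
    Finset.mul_sum, neg_mul, Finset.sum_neg_distrib]
  have h1 : ∑ i, sc c * Vv i c * (b (Sum.inl i) : ℝ) = ∑ i, sc c * ((b (Sum.inl i) : ℝ) * Vv i c) :=
    Finset.sum_congr rfl fun i _ => by ring
  have h2 : ∑ i, sc c * W i c * (b (Sum.inr (Sum.inl i)) : ℝ) =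
      ∑ i, sc c * ((b (Sum.inr (Sum.inl i)) : ℝ) * W i c) :=
    Finset.sum_congr rfl fun i _ => by ring
  rw [h1, h2]; ring

theorem phiV_sum {α β : Type} [Fintype α] [Fintype β] (x : α ⊕ β → ℝ) :
    phiV x = phiV (x ∘ Sum.inl) * phiV (x ∘ Sum.inr) := by
  simp [phiV, Fintype.prod_sum_type]

theorem box_mono {ι : Type} {r r' : ℝ} (h : r ≤ r') : box ι r ⊆ box ι r' :=
  fun _ hx i => le_trans (hx i) h

theorem fr_mem_ucube {κ : Type} (x : κ → ℝ) : fr x ∈ ucube κ :=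
  fun _ _ => ⟨Int.fract_nonneg _, Int.fract_lt_one _⟩

theorem mem_bits {ι : Type} [Fintype ι] [DecidableEq ι] {b : ι → ℤ} :
    b ∈ bits ι ↔ ∀ i, b i = 0 ∨ b i = 1 := by
  simp [bits]

theorem card_bits (ι : Type) [Fintype ι] [DecidableEq ι] :
    (bits ι).card = 2 ^ Fintype.card ι := by
  simp [bits]

theorem exists_cell {κ : Type} {Q : ℕ} (hQ : 1 ≤ Q) (y : κ → ℝ) :
    ∃ q : κ → Fin Q, (fr y - fun c => ((q c : ℕ) : ℝ) / Q) ∈ box κ (1 / Q) := by
  have hQ' : (0 : ℝ) < Q := by exact_mod_cast hQ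
  have h : ∀ c, ∃ q : Fin Q, |fr y c - ((q : ℕ) : ℝ) / Q| ≤ 1 / Q := by
    intro c
    have h0 : 0 ≤ fr y c := Int.fract_nonneg _
    have h1 : fr y c < 1 := Int.fract_lt_one _
    have h2 : ⌊fr y c * Q⌋₊ < Q := by
      rw [Nat.floor_lt (by positivity)]
      nlinarith
    refine ⟨⟨_, h2⟩, ?_⟩
    have h3 := Nat.floor_le (show 0 ≤ fr y c * Q by positivity)
    have h4 := Nat.lt_floor_add_one (fr y c * Q)
    have e : fr y c - (⌊fr y c * Q⌋₊ : ℝ) / Q = (fr y c * Q - ⌊fr y c * Q⌋₊) / Q := by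
      field_simp
    simp only
    rw [e, abs_of_nonneg (div_nonneg (by linarith) hQ'.le)]
    exact div_le_div_of_nonneg_right (by linarith) hQ'.le
  choose q hq using h
  exact ⟨q, hq⟩

/-- A leaf of the extended tree. -/
noncomputable def leafV {ι : Type} {m : ℕ} (a : ι → ℤ) (z : Fin m → ℤ) (p : Fin m ⊕ Fin m → ℝ)
    (β : Fin m → ℤ) : ι ⊕ (Fin m ⊕ (Fin m ⊕ Fin m)) → ℤ :=
  Sum.elim a (Sum.elim z (Sum.elim (fun l => ⌊p (Sum.inl l)⌋ + β l) fun l => ⌊p (Sum.inr l)⌋))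

/-- Levels of the extended tree. -/
def extLv {ι : Type} {m : ℕ} (lv : ι → ℕ) (k' : ℕ) : ι ⊕ (Fin m ⊕ (Fin m ⊕ Fin m)) → ℕ :=
  Sum.elim lv (Sum.elim (fun l => k' + l) (Sum.elim (fun l => k' + m + l) fun l => k' + 2 * m + l))

theorem extLv_inj {ι : Type} {m k' : ℕ} {lv : ι → ℕ} (h : Function.Injective lv)
    (hlt : ∀ i, lv i < k') : Function.Injective (extLv (m := m) lv k') := by
  rintro (i | l | l | l) (i' | l' | l' | l') e <;>
    simp only [extLv, Sum.elim_inl, Sum.elim_inr] at e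
  · rw [h e]
  all_goals first
    | (have := hlt i; omega)
    | (have := hlt i'; omega)
    | (have := l.2; have := l'.2; omega)
    | (have : l = l' := Fin.ext (by omega); rw [this])

theorem extLv_lt {ι : Type} {m k' k : ℕ} {lv : ι → ℕ} (hlt : ∀ i, lv i < k')
    (hk : k' + 3 * m ≤ k) (i) : extLv (m := m) lv k' i < k := by
  rcases i with (i | l | l | l) <;> simp only [extLv, Sum.elim_inl, Sum.elim_inr]
  · have := hlt i; omega
  all_goals (have := l.2; omega)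

theorem leaf_tree {ι : Type} [DecidableEq ι] {m k' : ℕ} {lv : ι → ℕ} (hlt : ∀ i, lv i < k')
    {A : Finset (ι → ℤ)} (hA : IsTree lv A) (z : (ι → ℤ) → Fin m → ℤ)
    (p : (ι → ℤ) → Fin m ⊕ Fin m → ℝ) {X : Finset (ι ⊕ (Fin m ⊕ (Fin m ⊕ Fin m)) → ℤ)}
    (hX : ∀ b ∈ X, ∃ a ∈ A, ∃ β ∈ bits (Fin m), b = leafV a (z a) (p a) β) :
    IsTree (extLv lv k') X := by
  intro b hb b' hb' i hi
  obtain ⟨a, ha, β, hβ, rfl⟩ := hX b hb
  obtain ⟨a', ha', β', hβ', rfl⟩ := hX b' hb'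
  rcases i with (i | l)
  · exact hA a ha a' ha' i fun j hj => hi (Sum.inl j) hj
  · have e : a = a' := by
      funext j
      refine hi (Sum.inl j) ?_
      have := hlt j
      rcases l with (l | l | l) <;> simp only [extLv, Sum.elim_inl, Sum.elim_inr] <;> omega
    subst e
    rcases l with (l | l | l) <;> simp only [leafV, Sum.elim_inl, Sum.elim_inr]
    · simp
    · rcases mem_bits.1 hβ l with h | h <;> rcases mem_bits.1 hβ' l with h' | h' <;>
        simp [h, h']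
    · simp

end Vale.Agent.P230.L
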