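import Vale.Agent.P230.L.Slice
import Vale.Agent.P230.L.BM
import Vale.Agent.P230.L.StageB

/-! Auxiliary facts for the covering lattice of a nice body. -/

namespace Vale.Agent.P230.L

open MeasureTheory ProbabilityTheory Set
open scoped ENNReal

/-- Dilation. -/
def dil {ι : Type} (t : ℝ) (K : Set (ι → ℝ)) : Set (ι → ℝ) := (fun x => t • x) '' K

theorem isCompact_dil {ι : Type} {K : Set (ι → ℝ)} (hK : IsCompact K) (t : ℝ) :
    IsCompact (dil t K) := hK.image (continuous_const_smul t)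

theorem dil_one {ι : Type} (K : Set (ι → ℝ)) : dil 1 K = K := by simp [dil]

/-- The matrix of the covering lattice. -/
noncomputable def covM {ι φ κ : Type} [DecidableEq φ] [DecidableEq κ] (B : Matrix ι ι ℝ)
    (ε H : ℝ) (Vv : ι → κ → ℝ) (W : φ → κ → ℝ) : Matrix ((φ ⊕ κ) ⊕ ι) ((φ ⊕ κ) ⊕ ι) ℝ :=
  Matrix.fromBlocks
    (Matrix.fromBlocks (Matrix.diagonal fun _ => ε) 0 (Matrix.of fun c l => -(H * W l c))
      (Matrix.diagonal fun _ => H))
    (Matrix.of (Sum.elim (fun _ _ => 0) (fun c i => -(H * Vv i c)))) 0 B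

section
variable {ι φ κ : Type} [Fintype ι] [Fintype φ] [DecidableEq φ] [Fintype κ] [DecidableEq κ]

theorem covM_det [DecidableEq ι] (B : Matrix ι ι ℝ) (ε H : ℝ) (Vv : ι → κ → ℝ) (W : φ → κ → ℝ) :
    (covM B ε H Vv W).det = ε ^ Fintype.card φ * H ^ Fintype.card κ * B.det := by
  unfold covM
  rw [Matrix.det_fromBlocks_zero₂₁, Matrix.det_fromBlocks_zero₁₂, Matrix.det_diagonal,
    Matrix.det_diagonal]
  simp

theorem covM_resid (B : Matrix ι ι ℝ) {ε H : ℝ} (hH : H ≠ 0) (Vv : ι → κ → ℝ) (W : φ → κ → ℝ)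
    (x : (φ ⊕ κ) ⊕ ι → ℝ) (a₀ a : ι → ℤ) (z₀ z : φ → ℤ) (y y' : κ → ℝ) (t : ι → ℝ)
    (hy : y = (fun c => x (Sum.inl (Sum.inr c)) / H + 1 / 2) + comb a₀ Vv + comb z₀ W) :
    x - (covM B ε H Vv W).mulVec (cst (Sum.elim
      (Sum.elim (z + z₀) fun c => ⌊(y' + comb a Vv + comb z W) c⌋) (a + a₀))) =
    Sum.elim (Sum.elim ((-ε) • cst z) (H • (fr (y' + comb a Vv + comb z W) - half κ)))
        (t - B.mulVec (cst a)) +
      Sum.elim (Sum.elim (fun l => x (Sum.inl (Sum.inl l)) - ε * z₀ l) (H • (y - y')))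
        (x ∘ Sum.inr - B.mulVec (cst a₀) - t) := by
  funext i
  rcases i with ((l | c) | i)
  · simp [covM, Matrix.mulVec, dotProduct, Fintype.sum_sum_type, cst, Matrix.diagonal_apply]
    ring
  · have h1 := congrFun hy c
    simp only [Pi.add_apply] at h1
    have ht : x (Sum.inl (Sum.inr c)) = H * (y c - 1 / 2 - comb a₀ Vv c - comb z₀ W c) := by
      rw [h1]; field_simp; ring
    have h2 : (covM B ε H Vv W).mulVec (cst (Sum.elim
        (Sum.elim (z + z₀) fun c => ⌊(y' + comb a Vv + comb z W) c⌋) (a + a₀)))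
        (Sum.inl (Sum.inr c)) = H * (⌊(y' + comb a Vv + comb z W) c⌋ - comb (a + a₀) Vv c -
          comb (z + z₀) W c) := by
      simp only [covM, Matrix.mulVec, dotProduct, Fintype.sum_sum_type, cst, comb_apply,
        Matrix.fromBlocks_apply₁₁, Matrix.fromBlocks_apply₁₂, Matrix.fromBlocks_apply₂₁,
        Matrix.fromBlocks_apply₂₂, Matrix.of_apply, Sum.elim_inr, Sum.elim_inl,
        Matrix.diagonal_apply]
      simp only [ite_mul, zero_mul, Finset.sum_ite_eq, Finset.mem_univ, if_true, mul_sub,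
        Finset.mul_sum, neg_mul, Finset.sum_neg_distrib]
      have e1 : ∑ i, H * Vv i c * ((a + a₀) i : ℝ) = ∑ i, H * (((a + a₀) i : ℝ) * Vv i c) :=
        Finset.sum_congr rfl fun i _ => by ring
      have e2 : ∑ i, H * W i c * ((z + z₀) i : ℝ) = ∑ i, H * (((z + z₀) i : ℝ) * W i c) :=
        Finset.sum_congr rfl fun i _ => by ring
      rw [e1, e2]; ring
    rw [Pi.sub_apply, h2, ht, comb_add, comb_add]
    simp only [Pi.add_apply, Sum.elim_inl, Sum.elim_inr, Pi.smul_apply, Pi.sub_apply, fr, half,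
      Int.fract, smul_eq_mul]
    ring
  · simp [covM, Matrix.mulVec, dotProduct, Fintype.sum_sum_type, cst, mul_add,
      Finset.sum_add_distrib]
    ring

end

section
variable {α β : Type} [Fintype α] [Fintype β] {n : ℕ} {c₁ A ε : ℝ} {K : Set (α ⊕ β → ℝ)}

theorem Nice.vol_ne (hK : Nice n c₁ A K) (hn : 1 ≤ n) : volume K ≠ 0 := by
  have h0 : (0 : ℝ) < 1 / (n : ℝ) ^ 5 := by
    have : (0 : ℝ) < n := by exact_mod_cast hn
    positivity
  refine ne_of_gt (lt_of_lt_of_le ?_ (measure_mono hK.inner))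
  refine lt_of_lt_of_le (Metric.measure_ball_pos volume 0 h0) (measure_mono fun x hx i => ?_)
  rw [mem_ball_zero_iff] at hx
  exact le_trans (norm_le_pi_norm x i) hx.le

theorem Nice.dil_add' (hK : Nice n c₁ A K) (hn : 1 ≤ n) {t l e : ℝ} (ht : 0 < t)
    (hl : 0 < l) (he : e * n ^ 5 ≤ l) {y r : α ⊕ β → ℝ} (hy : y ∈ dil t K)
    (hr : r ∈ box (α ⊕ β) e) : y + r ∈ dil (t + l) K := by
  have h0 : (0 : ℝ) < n := by exact_mod_cast hn
  refine dil_add hK.convex hK.inner ht hl hy (box_mono ?_ hr)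
  rw [mul_one_div, le_div_iff₀ (by positivity)]
  exact he

theorem Nice.sec_add (hK : Nice n c₁ A K) (hn : 1 ≤ n) {t l e : ℝ} (he0 : 0 ≤ e) (ht : 0 < t)
    (hl : 0 < l) (he : e * n ^ 5 ≤ l) (s : β → ℝ) :
    ∀ y ∈ sec (dil t K) s, ∀ r ∈ box α e, y + r ∈ sec (dil (t + l) K) s := by
  intro y hy r hr
  have h := hK.dil_add' hn ht hl he (r := Sum.elim r 0) hy (by
    rintro (i | i)
    · exact hr i
    · simpa using he0)
  have e : Sum.elim y s + Sum.elim r 0 = Sum.elim (y + r) s := by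
    funext i; rcases i with (i | i) <;> simp
  rwa [e] at h

theorem Nice.dil_sub (hK : Nice n c₁ A K) {t : ℝ} (ht : 0 ≤ t) (ht' : t ≤ 2) :
    dil t K ⊆ box (α ⊕ β) (2 * (n : ℝ) ^ 5) := by
  rintro _ ⟨x, hx, rfl⟩ i
  have := hK.outer hx i
  simp only [Pi.smul_apply, smul_eq_mul, abs_mul, abs_of_nonneg ht]
  exact mul_le_mul ht' this (abs_nonneg _) (by norm_num)

theorem Nice.vol_sec_dil (hK : Nice n c₁ A K) (hn : 1 ≤ n) (hc₁ : 0 < c₁) (hA : 1 ≤ A)
    (hα : Fintype.card α ≤ n) {k : ℕ} (hβ : Fintype.card β ≤ k) {t : ℝ} (ht : 0 < t)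
    (ht' : t ≤ 1 + 1 / n) (s : β → ℝ) :
    volume (sec (dil t K) s) ≤ ENNReal.ofReal (3 * 20 ^ k / c₁ * volume.real K) := by
  have h0 : (0 : ℝ) < n := by exact_mod_cast hn
  have h1 := sec_sup hK.compact hK.convex (hK.vol_ne hn) hc₁
    (fun s hs => hK.sec_ge s (box_mono hA hs)) (t⁻¹ • s)
  have h2 : t ^ Fintype.card α ≤ 3 := by
    calc t ^ Fintype.card α ≤ (1 + 1 / (n : ℝ)) ^ Fintype.card α := by gcongr
      _ ≤ (1 + 1 / (n : ℝ)) ^ n := pow_le_pow_right₀ (by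
          have : (0 : ℝ) ≤ 1 / n := by positivity
          linarith) hα
      _ ≤ Real.exp (1 / n) ^ n := by
          gcongr; linarith [Real.add_one_le_exp (1 / (n : ℝ))]
      _ = Real.exp 1 := by rw [← Real.exp_nat_mul]; congr 1; field_simp
      _ ≤ 3 := by linarith [Real.exp_one_lt_d9]
  have h3 : (20 : ℝ) ^ Fintype.card β ≤ 20 ^ k := pow_le_pow_right₀ (by norm_num) hβ
  unfold dil
  rw [volume_sec_smul K ht, measureReal_def, ENNReal.ofReal_mul (by positivity),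
    ENNReal.ofReal_toReal hK.compact.measure_lt_top.ne, mul_div_assoc,
    ENNReal.ofReal_mul (by norm_num), mul_assoc]
  refine mul_le_mul' (ENNReal.ofReal_le_ofReal h2) (le_trans h1 ?_)
  gcongr

end

section
variable {φ κ β : Type} [Fintype φ] [DecidableEq φ] [Fintype κ] [Fintype β] {n : ℕ}
  {c₁ A ε H : ℝ} {K : Set ((φ ⊕ κ) ⊕ β → ℝ)}

omit [DecidableEq φ] in
theorem Nice.win (hK : Nice n c₁ A K) (hH : 16 * (n : ℝ) ^ 5 < H) {t : ℝ} (ht : 0 ≤ t)
    (ht' : t ≤ 2) (s : β → ℝ) (z : φ → ℤ) :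
    ∀ x ∈ slice ε H (sec (dil t K) s) z, ∀ c, |x c - 1 / 2| < 1 / 8 := by
  intro x hx c
  have h := hK.dil_sub ht ht' hx (Sum.inl (Sum.inr c))
  have hH0 : 0 < H := lt_of_le_of_lt (by positivity) hH
  simp only [Sum.elim_inl, Sum.elim_inr, Pi.smul_apply, Pi.sub_apply, half, smul_eq_mul, abs_mul,
    abs_of_pos hH0] at h
  refine lt_of_mul_lt_mul_left ?_ hH0.le
  linarith

theorem Nice.mass (hK : Nice n c₁ A K) (hn : 1 ≤ n) (hε : 0 < ε) (hH : 16 * (n : ℝ) ^ 5 < H)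
    (hεn : ε * n ^ 5 ≤ 1) {L : ℕ} (hL : (n : ℝ) ^ 5 / ε + 1 ≤ L) {s : β → ℝ} (hs : s ∈ box β A) :
    c₁ * phiV s * volume.real K ≤ ε ^ Fintype.card φ * H ^ Fintype.card κ *
      ∑ z ∈ boxZ φ L, volume.real (slice ε H (sec (dil (1 + ε * n ^ 5) K) s) z) := by
  have h0 : (0 : ℝ) < n := by exact_mod_cast hn
  have hH0 : 0 < H := lt_of_le_of_lt (by positivity) hH
  have h1 := slice_sum_ge hε hH0 hL (E₀ := sec K s)
    (measurableSet_sec (isCompact_dil hK.compact (1 + ε * n ^ 5)).measurableSet s)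
    (fun y hy i => hK.outer hy (Sum.inl i))
    (by
      have := hK.sec_add hn hε.le one_pos (by positivity : 0 < ε * n ^ 5) le_rfl s
      rwa [dil_one] at this)
  have h2 := le_trans (hK.sec_ge s hs) h1
  have hfin : ∀ z ∈ boxZ φ L, volume (slice ε H (sec (dil (1 + ε * n ^ 5) K) s) z) ≠ ∞ := by
    intro z _
    refine ne_top_of_le_ne_top ?_ (measure_mono fun x hx => mem_ucube_of_win
      (hK.win hH (by positivity) (by linarith) s z x hx))
    simp [ucube, Real.volume_pi_Ico]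
  have h3 := ENNReal.toReal_mono (ENNReal.mul_ne_top ENNReal.ofReal_ne_top
    (ENNReal.sum_ne_top.2 hfin)) h2
  rw [ENNReal.toReal_mul, ENNReal.toReal_mul, ENNReal.toReal_sum hfin,
    ENNReal.toReal_ofReal (show 0 ≤ ε ^ Fintype.card φ * H ^ Fintype.card κ by positivity)] at h3
  refine le_trans (mul_le_mul_of_nonneg_right ?_ measureReal_nonneg) h3
  exact ENNReal.toReal_ofReal' ▸ le_max_left _ _

theorem Nice.energy (hK : Nice n c₁ A K) (hn : 1 ≤ n) (hc₁ : 0 < c₁) (hA : 1 ≤ A)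
    (hα : Fintype.card φ + Fintype.card κ ≤ n) {k : ℕ} (hβ : Fintype.card β ≤ k) (hε : 0 < ε)
    (hH : 16 * (n : ℝ) ^ 5 < H) (hεn : 5 * ε * n ^ 5 ≤ 1 / n) (s₁ s₂ s₃ s₀ : β → ℝ)
    {σ : Fin 3 → ℤ} (hσ : IsSign σ) (z' : φ → ℤ) (s : κ → ℝ) (Z₁ Z₂ Z₃ : Finset (φ → ℤ)) :
    ∑ z₁ ∈ Z₁, ∑ z₂ ∈ Z₂, ∑ z₃ ∈ Z₃,
      volume (En (slice ε H (sec (dil (1 + ε * n ^ 5) K) s₁) z₁)
        (slice ε H (sec (dil (1 + ε * n ^ 5) K) s₂) z₂)
        (slice ε H (sec (dil (1 + ε * n ^ 5) K) s₃) z₃)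
        (fr ⁻¹' slice ε H (sec (dil (1 + ε * n ^ 5) K) s₀) (ssum σ z₁ z₂ z₃ + z')) σ s) ≤
      ENNReal.ofReal ((9 / 10) ^ (Fintype.card φ + Fintype.card κ) *
        (3 * 20 ^ k / c₁ * volume.real K / (ε ^ Fintype.card φ * H ^ Fintype.card κ)) ^ 3) := by
  have h0 : (0 : ℝ) < n := by exact_mod_cast hn
  have hn1 : (1 : ℝ) ≤ n := by exact_mod_cast hn
  have hH0 : 0 < H := lt_of_le_of_lt (by positivity) hH
  have hl : 0 < ε * n ^ 5 := by positivity
  have hl1 : 1 / (n : ℝ) ≤ 1 := by rw [div_le_one h0]; exact hn1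
  obtain ⟨s', hs'⟩ := en_lift hσ s
  have hw := hK.win (ε := ε) hH (t := 1 + ε * n ^ 5) (by positivity) (by linarith)
  have hm : ∀ t s, MeasurableSet (sec (dil t K) s) := fun t s =>
    measurableSet_sec (isCompact_dil hK.compact t).measurableSet s
  have ha := hK.sec_add hn (e := 3 * ε) (t := 1 + ε * n ^ 5) (l := 3 * ε * n ^ 5)
    (by positivity) (by positivity) (by positivity) le_rfl
  have ha' : ∀ s, ∀ y ∈ sec (dil (1 + ε * n ^ 5) K) s, ∀ r ∈ box (φ ⊕ κ) ε,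
      y + r ∈ sec (dil (1 + ε * n ^ 5 + 3 * ε * n ^ 5) K) s :=
    fun s y hy r hr => ha s y hy r (box_mono (by linarith) hr)
  obtain ⟨s₄, h4⟩ := slice_energy hε hH0 (hm _ s₁) (hm _ s₂) (hm _ s₃) (hm _ s₀) (ha' s₁) (ha' s₂)
    (ha' s₃) (ha s₀) hσ z' s' Z₁ Z₂ Z₃
  have hv := hK.vol_sec_dil hn hc₁ hA (by simpa using hα) hβ
    (t := 1 + ε * n ^ 5 + 3 * ε * n ^ 5) (by positivity) (by linarith)
  have h5 := le_trans h4 (bl_set (hm _ s₁) (hm _ s₂) (hm _ s₃) (hm _ s₀) hσ s₄ (hv s₁) (hv s₂)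
    (hv s₃) (hv s₀))
  have hP : 0 < ε ^ Fintype.card φ * H ^ Fintype.card κ := by positivity
  refine le_trans (Finset.sum_le_sum fun z₁ _ => Finset.sum_le_sum fun z₂ _ =>
    Finset.sum_le_sum fun z₃ _ => measure_mono (hs' _ _ _ _ (hw s₁ z₁) (hw s₂ z₂) (hw s₃ z₃)
      (hw s₀ _))) ?_
  have hv0 : 0 ≤ 3 * 20 ^ k / c₁ * volume.real K :=
    mul_nonneg (by positivity) measureReal_nonneg
  rw [Fintype.card_sum, ← ENNReal.ofReal_pow hv0, ← ENNReal.ofReal_mul (by positivity), mul_comm,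
    ← ENNReal.le_div_iff_mul_le (Or.inl (by simp [hP])) (Or.inl ENNReal.ofReal_ne_top),
    ← ENNReal.ofReal_div_of_pos (by positivity)] at h5
  refine le_trans h5 (le_of_eq (congrArg _ ?_))
  rw [div_pow _ _ 3, mul_div_assoc]

end

end Vale.Agent.P230.L
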