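import Vale.Agent.P230.L.GadCAux

/-! The two-layer gadget.

Y x = - log (exp (-x^2/2) + exp (-(h - |x|)^2/2)) lies in [- log 2, x^2/2]; nu = E Y under the
normal law, E Y^2 <= 100.  Tc = {X | |sum Y (X i) - m nu| <= s and r <= card {i | h/2 <= |X i|}},
omega x = indicator (h . x in Tc) (h^m phiV (h . x)), S = {x in ucube | |sum Y (h x i) - m nu| <= s}.
For x in [0,1) and b in {0,1}: Y (h (x - b)) = Y (h x), and
sum over b of h^m phiV (h . (x - b)) = prod h (phi (h x i) + phi (h (1 - x i)))
 = exp (m (log h - log (2 pi)/2) - sum Y (h x i)) (Finset.prod_univ_sum).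
The integral over ucube of the sum over bits of f (x - b) is the integral of f over [-1,1)^m.
leaf_le: if h/2 <= |X| <= h then phi X <= phi (h - |X|), so that factor is at most half the sum.
int_ge: normal mass of Tc inter [-h,h)^m: three bad events of probability at most eta/3 each
(tail P(|x| >= h) <= 2 exp (-h^2/2), Chebyshev for sum Y, Chebyshev for the count, whose mean
m q' has q' >= phi (h/2 + 1) and whose variance is at most m q'). -/

namespace Vale.Agent.P230.L

open MeasureTheory ProbabilityTheory Set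
open scoped ENNReal

namespace GadCAux

/-- rescaled normal density restricted to `T` -/
noncomputable def G {m : ℕ} (h : ℝ) (T : Set (Fin m → ℝ)) (x : Fin m → ℝ) : ℝ :=
  h ^ m * T.indicator phiV (h • x)

theorem integrable_G {m : ℕ} {h : ℝ} (hh : 0 < h) {T : Set (Fin m → ℝ)} (hT : MeasurableSet T) :
    Integrable (G h T) :=
  ((integrable_phiV.indicator hT).comp_smul hh.ne').const_mul _

theorem integral_G {m : ℕ} {h : ℝ} (hh : 0 < h) {T : Set (Fin m → ℝ)} (hT : MeasurableSet T) :
    ∫ x, G h T x = (gaussV (Fin m)).real T := by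
  unfold G
  rw [integral_const_mul, Measure.integral_comp_smul volume (T.indicator phiV) h,
    integral_indicator hT, gaussV_real_eq hT, Module.finrank_fin_fun,
    abs_of_nonneg (by positivity), smul_eq_mul, mul_inv_cancel_left₀ (by positivity)]

theorem G_nonneg {m : ℕ} {h : ℝ} (hh : 0 < h) (T : Set (Fin m → ℝ)) (x : Fin m → ℝ) :
    0 ≤ G h T x :=
  mul_nonneg (by positivity) (indicator_nonneg (fun y _ => (phiV_pos y).le) _)

theorem G_le {m : ℕ} {h : ℝ} (hh : 0 < h) (T : Set (Fin m → ℝ)) (x : Fin m → ℝ) :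
    G h T x ≤ h ^ m * phiV (h • x) :=
  mul_le_mul_of_nonneg_left (indicator_le_self' (fun y _ => (phiV_pos y).le) _) (by positivity)

theorem mem_of_G {m : ℕ} {h : ℝ} {T : Set (Fin m → ℝ)} {x : Fin m → ℝ} (hx : G h T x ≠ 0) :
    h • x ∈ T := by
  by_contra h0
  exact hx (by rw [G, indicator_of_notMem h0, mul_zero])

theorem mem_bits {m : ℕ} {b : Fin m → ℤ} : b ∈ bits (Fin m) ↔ ∀ i, b i = 0 ∨ b i = 1 := by
  simp [bits]

theorem measurableSet_ucube (m : ℕ) : MeasurableSet (ucube (Fin m)) :=
  MeasurableSet.univ_pi fun _ => measurableSet_Ico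

theorem unfold_bits {m : ℕ} {f : (Fin m → ℝ) → ℝ} (hf : Integrable f) :
    ∫ x in ucube (Fin m), ∑ b ∈ bits (Fin m), f (x - cst b) =
      ∫ x in Set.univ.pi fun _ => Ico (-1) 1, f x := by
  have e : (Set.univ.pi fun _ : Fin m => Ico (-1 : ℝ) 1) =
      ⋃ b ∈ bits (Fin m), (fun y => y + cst b) ⁻¹' ucube (Fin m) := by
    ext y
    simp only [mem_iUnion, mem_preimage, ucube, mem_univ_pi, mem_Ico, Pi.add_apply, cst, mem_bits,
      exists_prop]
    constructor
    · intro hy
      refine ⟨fun i => if y i < 0 then 1 else 0, fun i => ?_, fun i => ?_⟩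
      · beta_reduce
        split_ifs <;> simp
      · have := hy i
        beta_reduce
        split_ifs with h <;> push_cast <;> constructor <;> linarith [this.1, this.2]
    · rintro ⟨b, hb, hy⟩ i
      have := hy i
      rcases hb i with h | h <;> rw [h] at this <;> push_cast at this <;> constructor <;>
        linarith [this.1, this.2]
  rw [e, integral_biUnion_finset _
    (fun b _ => (measurable_add_const (cst b)) (measurableSet_ucube m)) ?_
    fun b _ => hf.integrableOn, integral_finsetSum _ fun b _ =>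
      (hf.comp_sub_right (cst b)).integrableOn]
  · refine Finset.sum_congr rfl fun b _ => ?_
    rw [← (measurePreserving_add_right volume (cst b)).setIntegral_preimage_emb
      (measurableEmbedding_addRight (cst b)) (fun x => f (x - cst b))]
    simp only [add_sub_cancel_right]
  · intro b hb b' hb' hne
    refine Set.disjoint_left.2 fun y h1 h2 => hne (funext fun i => ?_)
    have a1 := h1 i (mem_univ i)
    have a2 := h2 i (mem_univ i)
    simp only [mem_Ico, Pi.add_apply, cst] at a1 a2
    have a3 : (b i : ℝ) < b' i + 1 := by linarith [a1.2, a2.1]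
    have a4 : (b' i : ℝ) < b i + 1 := by linarith [a1.1, a2.2]
    have a5 : b i < b' i + 1 := by exact_mod_cast a3
    have a6 : b' i < b i + 1 := by exact_mod_cast a4
    omega

theorem fold {h : ℝ} (hh : 0 < h) (x : ℝ) : h * (phi x + phi (h - |x|)) =
    Real.exp (Real.log h - Real.log (2 * Real.pi) / 2 - Y h x) := by
  rw [Y, sub_neg_eq_add, Real.exp_add, Real.exp_sub, Real.exp_log hh, Real.exp_half,
    Real.exp_log (by positivity), Real.exp_log (by positivity), phi, phi]
  ring

theorem phi_abs (x : ℝ) : phi |x| = phi x := by rw [phi, phi, sq_abs]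

theorem Y_shift {h x : ℝ} (hh : 0 < h) (h0 : 0 ≤ x) (h1 : x < 1) {b : ℤ} (hb : b = 0 ∨ b = 1) :
    Y h (h * (x - b)) = Y h (h * x) := by
  rcases hb with rfl | rfl
  · simp
  · rw [Y, Y, abs_of_nonneg (mul_nonneg hh.le h0), abs_of_nonpos
      (mul_nonpos_of_nonneg_of_nonpos hh.le (by push_cast; linarith)), add_comm]
    congr 5 <;> push_cast <;> ring

theorem sum_bits {m : ℕ} {h : ℝ} (hh : 0 < h) {x : Fin m → ℝ} (hx : x ∈ ucube (Fin m)) :
    ∑ b ∈ bits (Fin m), h ^ m * phiV (h • (x - cst b)) =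
      Real.exp (m * (Real.log h - Real.log (2 * Real.pi) / 2) - ∑ i, Y h (h * x i)) := by
  have e1 : ∀ b : Fin m → ℤ, h ^ m * phiV (h • (x - cst b)) =
      ∏ i, h * phi (h * (x i - b i)) := fun b => by
    rw [Finset.prod_mul_distrib, Finset.prod_const, Finset.card_univ, Fintype.card_fin]
    rfl
  have e2 : ∀ i, ∑ j ∈ ({0, 1} : Finset ℤ), h * phi (h * (x i - j)) =
      Real.exp (Real.log h - Real.log (2 * Real.pi) / 2 - Y h (h * x i)) := fun i => by
    rw [Finset.sum_pair zero_ne_one, ← fold hh, ← mul_add,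
      abs_of_nonneg (mul_nonneg hh.le (hx i (mem_univ i)).1), ← phi_abs (h - h * x i),
      abs_sub_comm, phi_abs]
    congr 3 <;> push_cast <;> ring
  simp only [e1, bits]
  rw [← Finset.prod_univ_sum (fun _ => ({0, 1} : Finset ℤ)) fun i j => h * phi (h * (x i - j))]
  simp only [e2]
  rw [← Real.exp_sum, Finset.sum_sub_distrib, Finset.sum_const, Finset.card_univ,
    Fintype.card_fin, nsmul_eq_mul]

theorem leaf {m : ℕ} {h : ℝ} (hh : 0 < h) (X : Fin m → ℝ) :
    h ^ m * phiV X ≤
      Real.exp (m * (Real.log h - Real.log (2 * Real.pi) / 2) - ∑ i, Y h (X i)) /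
        2 ^ cnt h X := by
  have e1 : h ^ m * phiV X = ∏ i, h * phi (X i) := by
    rw [Finset.prod_mul_distrib, Finset.prod_const, Finset.card_univ, Fintype.card_fin]
    rfl
  have e2 : Real.exp (m * (Real.log h - Real.log (2 * Real.pi) / 2) - ∑ i, Y h (X i)) /
      2 ^ cnt h X = ∏ i, Real.exp (Real.log h - Real.log (2 * Real.pi) / 2 - Y h (X i)) /
        if h / 2 ≤ |X i| then 2 else 1 := by
    rw [Finset.prod_div_distrib, ← Real.exp_sum, Finset.sum_sub_distrib, Finset.sum_const,
      Finset.card_univ, Fintype.card_fin, nsmul_eq_mul, Finset.prod_ite, Finset.prod_const,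
      Finset.prod_const_one, mul_one, cnt]
  rw [e1, e2]
  refine Finset.prod_le_prod (fun i _ => mul_nonneg hh.le (phi_pos _).le) fun i _ => ?_
  rw [← fold hh, mul_div_assoc]
  refine mul_le_mul_of_nonneg_left ?_ hh.le
  split_ifs with hi
  · have : phi (X i) ≤ phi (h - |X i|) := by
      unfold phi
      refine div_le_div_of_nonneg_right (Real.exp_le_exp.2 ?_) (Real.sqrt_nonneg _)
      rw [← sq_abs (X i)]
      nlinarith
    linarith
  · linarith [phi_pos (h - |X i|)]

end GadCAux

open GadCAux in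
theorem gadC {m r : ℕ} {h δ η bx s : ℝ} (hs : 0 < s) (hh : 0 < h) (hδ : 0 ≤ δ)
    (h1 : 6 * m * Real.exp (-h ^ 2 / 2) ≤ η) (h2 : 300 * m / s ^ 2 ≤ η)
    (h3 : 2 * r ≤ m * phi (h / 2 + 1)) (h4 : 12 ≤ η * (m * phi (h / 2 + 1)))
    (hp : m * (2 * h * (h * δ) + (h * δ) ^ 2) ≤ 2 * η) (hb : h + h * δ ≤ bx) :
    ∃ ν : ℝ, -1 ≤ ν ∧ ν ≤ 1 / 2 ∧ Nonempty (GadC m r h δ η bx
      (Real.exp (m * (Real.log h - Real.log (2 * Real.pi) / 2 - ν) - s))
      (Real.exp (m * (Real.log h - Real.log (2 * Real.pi) / 2 - ν) + s))) := by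
  refine ⟨∫ x, Y h x ∂(gaussianReal 0 1), (integral_Y h).1, (integral_Y h).2, ?_⟩
  have mT := measurableSet_Tc m r h s
  have hmass := Tc_mass hs hh h1 h2 h3 h4
  have hshift : ∀ x ∈ ucube (Fin m), ∀ b ∈ bits (Fin m),
      ∑ i, Y h ((h • (x - cst b)) i) = ∑ i, Y h (h * x i) := fun x hx b hb =>
    Finset.sum_congr rfl fun i _ =>
      Y_shift hh (hx i (mem_univ i)).1 (hx i (mem_univ i)).2 (mem_bits.1 hb i)
  have hsupp : ∀ x ∈ ucube (Fin m), ∑ b ∈ bits (Fin m), G h (Tc m r h s) (x - cst b) ≠ 0 →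
      |∑ i, Y h (h * x i) - m * ∫ x, Y h x ∂(gaussianReal 0 1)| ≤ s := fun x hx h0 => by
    obtain ⟨b, hb, h5⟩ := Finset.exists_ne_zero_of_sum_ne_zero h0
    rw [← hshift x hx b hb]
    exact (mem_of_G h5).1
  have mS : MeasurableSet (ucube (Fin m) ∩
      {x | |∑ i, Y h (h * x i) - m * ∫ x, Y h x ∂(gaussianReal 0 1)| ≤ s}) := by
    have := (continuous_Y h).measurable
    have h5 : Measurable fun x : Fin m → ℝ =>
      |∑ i, Y h (h * x i) - m * ∫ x, Y h x ∂(gaussianReal 0 1)| := by fun_prop
    exact (measurableSet_ucube m).inter (measurableSet_le h5 measurable_const)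
  refine ⟨⟨G h (Tc m r h s), _, ?_, G_nonneg hh _, mS, inter_subset_left,
    fun x hx h0 => ⟨hx, hsupp x hx h0⟩, ?_, fun x hx => ?_, fun x hx b hb => ?_, ?_,
    fun x hx e he => ⟨fun i => ?_, ?_⟩⟩⟩
  · exact ((continuous_phiV.measurable.indicator mT).comp (measurable_const_smul h)).const_mul _
  · have iG := integrable_G (m := m) hh MeasurableSet.univ
    have iW : Integrable fun x => ∑ b ∈ bits (Fin m), G h univ (x - cst b) :=
      integrable_finsetSum _ fun b _ => iG.comp_sub_right (cst b)
    have hfin : volume (ucube (Fin m) ∩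
        {x | |∑ i, Y h (h * x i) - m * ∫ x, Y h x ∂(gaussianReal 0 1)| ≤ s}) ≠ ∞ := by
      refine measure_ne_top_of_subset inter_subset_left ?_
      simp [ucube, volume_pi_pi]
    have a1 := setIntegral_ge_of_const_le_real mS hfin (fun x hx => ?_) iW.integrableOn
      (c := Real.exp (m * (Real.log h - Real.log (2 * Real.pi) / 2 -
        ∫ x, Y h x ∂(gaussianReal 0 1)) - s))
    · rw [mul_comm]
      refine a1.trans ((setIntegral_mono_set iW.integrableOn (Filter.Eventually.of_forall
        fun x => Finset.sum_nonneg fun b _ => G_nonneg hh _ _)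
        inter_subset_left.eventuallyLE).trans ?_)
      rw [unfold_bits iG]
      refine (setIntegral_le_integral iG
        (Filter.Eventually.of_forall fun x => G_nonneg hh _ x)).trans ?_
      rw [integral_G hh MeasurableSet.univ, probReal_univ]
    · simp only [G, indicator_univ]
      rw [sum_bits hh hx.1, Real.exp_le_exp]
      linarith [(abs_le.1 (show |∑ i, Y h (h * x i) - m * ∫ x, Y h x ∂(gaussianReal 0 1)| ≤ s
        from hx.2)).2]
  · by_cases h0 : ∑ b ∈ bits (Fin m), G h (Tc m r h s) (x - cst b) = 0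
    · rw [h0]
      exact (Real.exp_pos _).le
    refine (Finset.sum_le_sum fun b _ => G_le hh _ _).trans ?_
    rw [sum_bits hh hx, Real.exp_le_exp]
    linarith [(abs_le.1 (hsupp x hx h0)).1]
  · by_cases h0 : G h (Tc m r h s) (x - cst b) = 0
    · rw [h0]
      positivity
    obtain ⟨a1, a2⟩ := mem_of_G h0
    refine (G_le hh _ _).trans ((leaf hh _).trans ?_)
    refine div_le_div₀ (Real.exp_pos _).le (Real.exp_le_exp.2 ?_) (by positivity)
      (pow_le_pow_right₀ one_le_two (by exact_mod_cast a2))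
    linarith [(abs_le.1 a1).1]
  · have mC : MeasurableSet (Set.univ.pi fun _ : Fin m => Ico (-1 : ℝ) 1) :=
      MeasurableSet.univ_pi fun _ => measurableSet_Ico
    rw [unfold_bits (integrable_G hh mT), ← integral_indicator mC]
    refine hmass.trans (le_of_eq ?_)
    rw [← integral_G hh (mT.inter (MeasurableSet.univ_pi fun _ => measurableSet_Ico))]
    refine integral_congr_ae (Filter.Eventually.of_forall fun x => ?_)
    have e : (h • x ∈ Set.univ.pi fun _ : Fin m => Ico (-h) h) ↔
        x ∈ Set.univ.pi fun _ : Fin m => Ico (-1 : ℝ) 1 := by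
      simp only [mem_univ_pi, mem_Ico, Pi.smul_apply, smul_eq_mul]
      refine forall_congr' fun i => and_congr ?_ (mul_lt_iff_lt_one_right hh)
      rw [← mul_neg_one h, mul_le_mul_iff_right₀ hh]
    beta_reduce
    by_cases hx : x ∈ Set.univ.pi fun _ : Fin m => Ico (-1 : ℝ) 1
    · rw [indicator_of_mem hx, G, G, inter_comm, ← indicator_indicator,
        indicator_of_mem (e.2 hx)]
    · rw [indicator_of_notMem hx, G, indicator_of_notMem fun h5 => hx (e.1 h5.2), mul_zero]
  · rw [Pi.smul_apply, smul_eq_mul, abs_mul, abs_of_pos hh, Pi.add_apply]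
    refine le_trans ?_ hb
    rw [← mul_one_add]
    exact mul_le_mul_of_nonneg_left ((abs_add_le _ _).trans (add_le_add (hx i) (he i))) hh.le
  · have a1 : h • x ∈ box (Fin m) h := fun i => by
      rw [Pi.smul_apply, smul_eq_mul, abs_mul, abs_of_pos hh]
      exact mul_le_of_le_one_right hh.le (hx i)
    have a2 : h • e ∈ box (Fin m) (h * δ) := fun i => by
      rw [Pi.smul_apply, smul_eq_mul, abs_mul, abs_of_pos hh]
      exact mul_le_mul_of_nonneg_left (he i) hh.le
    have a3 := phiV_pert a1 a2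
    rw [Fintype.card_fin, ← smul_add] at a3
    refine le_trans ?_ (mul_le_mul_of_nonneg_left a3 (by positivity))
    rw [mul_left_comm]
    exact mul_le_mul (Real.exp_le_exp.2 (by linarith)) (G_le hh _ x) (G_nonneg hh _ x)
      (Real.exp_pos _).le

end Vale.Agent.P230.L
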