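import Vale.Agent.P230.L.StageB

/-! One stage of the recursion: the new system. -/

namespace Vale.Agent.P230.L

open MeasureTheory ProbabilityTheory Set
open scoped ENNReal

theorem leafV_inj {ι : Type} {m : ℕ} (z : (ι → ℤ) → Fin m → ℤ)
    (p : (ι → ℤ) → Fin m ⊕ Fin m → ℝ) {x x' : (ι → ℤ) × (Fin m → ℤ)}
    (h : leafV x.1 (z x.1) (p x.1) x.2 = leafV x'.1 (z x'.1) (p x'.1) x'.2) : x = x' := by
  obtain ⟨a, β⟩ := x
  obtain ⟨a', β'⟩ := x'
  have e : a = a' := funext fun j => congrFun h (Sum.inl j)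
  subst e
  have e : β = β' := funext fun l => by
    have := congrFun h (Sum.inr (Sum.inr (Sum.inl l)))
    simpa [leafV] using this
  rw [e]

theorem exp_le_one_sub {η : ℝ} (hη : 0 < η) (hη' : η ≤ 1 / 20) :
    Real.exp (-21 * η) ≤ (1 - 9 * η) * Real.exp (-η) ^ 3 := by
  have h1 : Real.exp (-21 * η) = Real.exp (-(18 * η)) * Real.exp (-η) ^ 3 := by
    rw [← Real.exp_nat_mul, ← Real.exp_add]; congr 1; push_cast; ring
  rw [h1]
  refine mul_le_mul_of_nonneg_right ?_ (by positivity)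
  rw [Real.exp_neg, inv_le_iff_one_le_mul₀ (Real.exp_pos _)]
  have := Real.add_one_le_exp (18 * η)
  nlinarith

/-- The residual of a point against a leaf. -/
theorem resid {ι : Type} [Fintype ι] {m : ℕ} (B : Matrix ι ι ℝ) {ε h H : ℝ} (hh : h ≠ 0)
    (hH : H ≠ 0) (Vv : ι → Fin m ⊕ Fin m → ℝ) (W : Fin m → Fin m ⊕ Fin m → ℝ)
    (t : ι ⊕ (Fin m ⊕ (Fin m ⊕ Fin m)) → ℝ) (a₀ a : ι → ℤ) (z₀ z β : Fin m → ℤ)
    (y y' : Fin m ⊕ Fin m → ℝ)
    (hy : y = Sum.elim (fun l => t (Sum.inr (Sum.inr (Sum.inl l))) / h)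
      (fun l => t (Sum.inr (Sum.inr (Sum.inr l))) / H + 1 / 2) + comb a₀ Vv + comb z₀ W) :
    t - (extM B ε (Sum.elim (fun _ => h) fun _ => H) Vv W).mulVec
      (cst (leafV a z (y' + comb a Vv + comb z W) β +
        Sum.elim a₀ (Sum.elim z₀ fun c => ⌊y c⌋))) =
    Sum.elim (t ∘ Sum.inl - B.mulVec (cst (a + a₀)))
      (Sum.elim ((fun l => t (Sum.inr (Sum.inl l)) - ε * z₀ l) - ε • cst z)
        (Sum.elim (h • ((fr (y' + comb a Vv + comb z W) ∘ Sum.inl - cst β) + (fr y - y') ∘ Sum.inl))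
          (H • (fr (y' + comb a Vv + comb z W) ∘ Sum.inr - half (Fin m) +
            (fr y - y') ∘ Sum.inr)))) := by
  have e1 : (leafV a z (y' + comb a Vv + comb z W) β +
        Sum.elim a₀ (Sum.elim z₀ fun c => ⌊y c⌋)) ∘ Sum.inl = a + a₀ := by
    funext i; simp [leafV]
  have e2 : (leafV a z (y' + comb a Vv + comb z W) β +
        Sum.elim a₀ (Sum.elim z₀ fun c => ⌊y c⌋)) ∘ Sum.inr ∘ Sum.inl = z + z₀ := by
    funext i; simp [leafV]
  funext i
  rcases i with (i | l | l | l)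
  · rw [Pi.sub_apply, extM_inl, e1]; simp
  · rw [Pi.sub_apply, extM_fine]; simp [leafV, cst]; ring
  · rw [Pi.sub_apply, extM_tor, e1, e2, comb_add, comb_add]
    have := congrFun hy (Sum.inl l)
    simp only [Pi.add_apply, Sum.elim_inl] at this
    have ht : t (Sum.inr (Sum.inr (Sum.inl l))) =
        h * (y (Sum.inl l) - comb a₀ Vv (Sum.inl l) - comb z₀ W (Sum.inl l)) := by
      rw [this]; field_simp; ring
    rw [ht]
    simp only [leafV, Pi.add_apply, Sum.elim_inl, Sum.elim_inr, Pi.smul_apply, Pi.sub_apply,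
      Function.comp, fr, cst, Int.fract, smul_eq_mul]
    push_cast; ring
  · rw [Pi.sub_apply, extM_tor, e1, e2, comb_add, comb_add]
    have := congrFun hy (Sum.inr l)
    simp only [Pi.add_apply, Sum.elim_inr] at this
    have ht : t (Sum.inr (Sum.inr (Sum.inr l))) =
        H * (y (Sum.inr l) - 1 / 2 - comb a₀ Vv (Sum.inr l) - comb z₀ W (Sum.inr l)) := by
      rw [this]; field_simp; ring
    rw [ht]
    simp only [leafV, Pi.add_apply, Sum.elim_inr, Pi.smul_apply, Pi.sub_apply,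
      Function.comp, fr, half, Int.fract, smul_eq_mul]
    push_cast; ring

theorem elim_mem_box {α β : Type} {r : ℝ} {x : α → ℝ} {y : β → ℝ} (hx : x ∈ box α r)
    (hy : y ∈ box β r) : Sum.elim x y ∈ box (α ⊕ β) r := by
  rintro (i | i)
  · exact hx i
  · exact hy i

theorem phiV_elim {α β : Type} [Fintype α] [Fintype β] (x : α → ℝ) (y : β → ℝ) :
    phiV (Sum.elim x y) = phiV x * phiV y := by
  rw [phiV_sum]; rfl

theorem stage_build {k' k m r L Q : ℕ} {R' R c η ε h H bx lf hf lc hc lm hm : ℝ}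
    (S : Sys k' R' c) (gF : GadF m L ε η bx lf hf) (gC : GadC m r h (2 / Q) η bx lc hc)
    (gM : GadM m H (2 / Q) η bx lm hm) (hc0 : 0 ≤ c) (hη : 0 < η) (hη' : η ≤ 1 / 20)
    (hε : 0 < ε) (hh : 0 < h) (hH : 0 < H) (hQ : 1 ≤ Q) (hk : k' + 3 * m ≤ k) (hbx : bx ≤ k)
    (hdet : Real.exp k' * (ε * h * H) ^ m ≤ Real.exp k)
    (hJ : Real.exp k' * (Q : ℝ) ^ (2 * m) ≤ Real.exp k)
    (hR : 2 * Real.exp (-R') * (hf * hc * hm) / 2 ^ r ≤ Real.exp (-R))
    (A' : S.J → Finset (S.ι → ℤ)) (hA' : ∀ j, A' j ⊆ S.A j)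
    (Vv : S.ι → Fin m ⊕ Fin m → ℝ) (W : Fin m → Fin m ⊕ Fin m → ℝ)
    (hmid : ∀ j (y : Fin m ⊕ Fin m → ℝ), ∃ y', y - y' ∈ box _ (1 / Q) ∧
      ∃ sel : (S.ι → ℤ) → Fin m → ℤ, (∀ a ∈ A' j, sel a ∈ gF.Tf) ∧
        1 - 9 * η ≤ ∑ a ∈ A' j, S.w j a *
          Zt gF gC gM (sel a) (fr (y' + comb a Vv + comb (sel a) W))) :
    Nonempty (Sys k R (c * Real.exp (-21 * η))) := by
  classical
  choose y' hy' sel hsel hsum using fun (jq : S.J × (Fin m ⊕ Fin m → Fin Q)) =>
    hmid jq.1 fun c => ((jq.2 c : ℕ) : ℝ) / Q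
  set p : S.J × (Fin m ⊕ Fin m → Fin Q) → (S.ι → ℤ) → Fin m ⊕ Fin m → ℝ :=
    fun jq a => y' jq + comb a Vv + comb (sel jq a) W with hp
  set X : S.J × (Fin m ⊕ Fin m → Fin Q) → Finset ((S.ι → ℤ) × (Fin m → ℤ)) :=
    fun jq => ((A' jq.1).filter fun a => fr (p jq a) ∘ Sum.inr ∈ gM.S) ×ˢ bits (Fin m) with hX
  set lf' : S.J × (Fin m ⊕ Fin m → Fin Q) → (S.ι → ℤ) × (Fin m → ℤ) →
      (S.ι ⊕ (Fin m ⊕ (Fin m ⊕ Fin m)) → ℤ) :=
    fun jq x => leafV x.1 (sel jq x.1) (p jq x.1) x.2 with hlf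
  set wf : S.J × (Fin m ⊕ Fin m → Fin Q) → (S.ι → ℤ) × (Fin m → ℤ) → ℝ :=
    fun jq x => S.w jq.1 x.1 * gF.ω (sel jq x.1) * gC.ω (fr (p jq x.1) ∘ Sum.inl - cst x.2) *
      gM.ω (fr (p jq x.1) ∘ Sum.inr) / (1 - 9 * η) with hwf
  have hc1 : 1 / 2 ≤ 1 - 9 * η := by linarith
  have hwf0 : ∀ jq x, 0 ≤ wf jq x := fun jq x => by
    have := S.w_nonneg jq.1 x.1
    have := gF.nonneg (sel jq x.1)
    have := gC.nonneg (fr (p jq x.1) ∘ Sum.inl - cst x.2)
    have := gM.nonneg (fr (p jq x.1) ∘ Sum.inr)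
    have : 0 < 1 - 9 * η := by linarith
    simp only [hwf]; positivity
  have hwfle : ∀ jq, ∀ x ∈ X jq, wf jq x ≤ Real.exp (-R) := fun jq x hx => by
    have hx' := Finset.mem_product.1 hx
    have h1 := S.w_le jq.1 x.1
    have h2 := gF.le_hi _ (hsel jq x.1 (Finset.mem_filter.1 hx'.1).1)
    have h3 := gC.leaf_le (fr (p jq x.1) ∘ Sum.inl) (fr_mem_ucube (p jq x.1 ∘ Sum.inl)) x.2 hx'.2
    have h4 := gM.le_hi (fr (p jq x.1) ∘ Sum.inr)
    have g2 := gF.nonneg (sel jq x.1)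
    have g3 := gC.nonneg (fr (p jq x.1) ∘ Sum.inl - cst x.2)
    have g4 := gM.nonneg (fr (p jq x.1) ∘ Sum.inr)
    have h5 : S.w jq.1 x.1 * gF.ω (sel jq x.1) * gC.ω (fr (p jq x.1) ∘ Sum.inl - cst x.2) *
        gM.ω (fr (p jq x.1) ∘ Sum.inr) ≤ Real.exp (-R') * hf * (hc / 2 ^ r) * hm := by
      have g1 := (Real.exp_pos (-R')).le
      have := le_trans g2 h2
      have := le_trans g3 h3
      gcongr
    have h6 : 0 ≤ Real.exp (-R') * hf * (hc / 2 ^ r) * hm := le_trans (by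
      have := S.w_nonneg jq.1 x.1
      positivity) h5
    simp only [hwf]
    rw [div_le_iff₀ (by linarith)]
    have h7 : Real.exp (-R') * hf * (hc / 2 ^ r) * hm =
        2 * Real.exp (-R') * (hf * hc * hm) / 2 ^ r / 2 := by ring
    have := Real.exp_pos (-R)
    nlinarith
  set wn : S.J × (Fin m ⊕ Fin m → Fin Q) → (S.ι ⊕ (Fin m ⊕ (Fin m ⊕ Fin m)) → ℤ) → ℝ :=
    fun jq b => if hb : ∃ x ∈ X jq, lf' jq x = b then wf jq hb.choose else 0 with hwn
  have hwn_eq : ∀ jq, ∀ x ∈ X jq, wn jq (lf' jq x) = wf jq x := fun jq x hx => by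
    have hb : ∃ x' ∈ X jq, lf' jq x' = lf' jq x := ⟨x, hx, rfl⟩
    simp only [hwn]
    rw [dif_pos hb, leafV_inj (sel jq) (p jq) hb.choose_spec.2]
  have hkk : k' ≤ k := by omega
  refine ⟨{ ι := S.ι ⊕ (Fin m ⊕ (Fin m ⊕ Fin m))
            lv := extLv S.lv k'
            B := extM S.B ε (Sum.elim (fun _ => h) fun _ => H) Vv W
            J := S.J × (Fin m ⊕ Fin m → Fin Q)
            A := fun jq => (X jq).image (lf' jq)
            w := wn
            lv_inj := extLv_inj S.lv_inj S.lv_lt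
            lv_lt := extLv_lt S.lv_lt hk
            det_pos := ?_
            det_le := ?_
            card_J := ?_
            tree := ?_
            card_A := ?_
            w_nonneg := ?_
            w_le := ?_
            sum_w := ?_
            cover := ?_ }⟩
  · rw [extM_det]
    have := S.det_pos
    simp only [Fintype.prod_sum_type, Sum.elim_inl, Sum.elim_inr, Finset.prod_const]
    positivity
  · rw [extM_det]
    simp only [Fintype.prod_sum_type, Sum.elim_inl, Sum.elim_inr, Finset.prod_const,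
      Finset.card_univ, Fintype.card_fin]
    refine le_trans ?_ hdet
    rw [mul_pow, mul_pow, mul_assoc (ε ^ m)]
    exact mul_le_mul_of_nonneg_right S.det_le (by positivity)
  · refine le_trans ?_ hJ
    simp only [Fintype.card_prod, Fintype.card_fun, Fintype.card_fin, Fintype.card_sum]
    push_cast
    rw [two_mul]
    exact mul_le_mul_of_nonneg_right S.card_J (by positivity)
  · intro jq
    refine leaf_tree S.lv_lt (S.tree jq.1) (sel jq) (p jq) ?_
    intro b hb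
    obtain ⟨x, hx, rfl⟩ := Finset.mem_image.1 hb
    have hx' := Finset.mem_product.1 hx
    exact ⟨x.1, hA' _ (Finset.mem_filter.1 hx'.1).1, x.2, hx'.2, rfl⟩
  · intro jq
    refine le_trans Finset.card_image_le ?_
    simp only [hX, Finset.card_product, card_bits, Fintype.card_fin]
    have h1 := le_trans (Finset.card_filter_le (A' jq.1) fun a => fr (p jq a) ∘ Sum.inr ∈ gM.S)
      (le_trans (Finset.card_le_card (hA' jq.1)) (S.card_A jq.1))
    calc _ ≤ 2 ^ k' * 2 ^ m := Nat.mul_le_mul_right _ h1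
      _ = 2 ^ (k' + m) := by rw [pow_add]
      _ ≤ 2 ^ k := Nat.pow_le_pow_right (by norm_num) (by omega)
  · intro jq b
    simp only [hwn]
    split_ifs
    · exact hwf0 _ _
    · exact le_rfl
  · intro jq b
    simp only [hwn]
    split_ifs with hb
    · exact hwfle _ _ hb.choose_spec.1
    · exact (Real.exp_pos _).le
  · intro jq
    rw [Finset.sum_image fun x _ x' _ e => leafV_inj (sel jq) (p jq) e,
      Finset.sum_congr rfl (hwn_eq jq)]
    simp only [hX, hwf]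
    rw [← Finset.sum_div, le_div_iff₀ (by linarith), one_mul, Finset.sum_product,
      Finset.sum_filter]
    refine le_trans (hsum jq) (le_of_eq (Finset.sum_congr rfl fun a _ => ?_))
    split_ifs with ha
    · simp only [Zt, hp, Finset.mul_sum, Finset.sum_mul]
      exact Finset.sum_congr rfl fun b _ => by ring
    · have : gM.ω (fr (p jq a) ∘ Sum.inr) = 0 := by
        by_contra h0
        exact ha (gM.supp _ h0)
      simp only [hp] at this
      simp only [Zt, this, mul_zero]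
  · intro t
    obtain ⟨j, a₀, hja⟩ := S.cover (t ∘ Sum.inl)
    set z₀ : Fin m → ℤ := fun l => ⌊t (Sum.inr (Sum.inl l)) / ε⌋ with hz₀
    set y : Fin m ⊕ Fin m → ℝ := Sum.elim (fun l => t (Sum.inr (Sum.inr (Sum.inl l))) / h)
      (fun l => t (Sum.inr (Sum.inr (Sum.inr l))) / H + 1 / 2) + comb a₀ Vv + comb z₀ W with hy
    obtain ⟨q, hq⟩ := exists_cell hQ y
    refine ⟨(j, q), Sum.elim a₀ (Sum.elim z₀ fun c => ⌊y c⌋), fun b hb => ?_⟩
    obtain ⟨x, hx, rfl⟩ := Finset.mem_image.1 hb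
    have hx' := Finset.mem_product.1 hx
    have hxa := (Finset.mem_filter.1 hx'.1).1
    have hxM := (Finset.mem_filter.1 hx'.1).2
    rw [hwn_eq _ x hx]
    have hres := resid S.B (ε := ε) hh.ne' hH.ne' Vv W t a₀ x.1 z₀ (sel (j, q) x.1) x.2 y
      (y' (j, q)) hy
    simp only [hlf, hp]
    rw [hres]
    have hΔ : fr y - y' (j, q) ∈ box (Fin m ⊕ Fin m) (2 / Q) := fun c => by
      have h1 := hq c
      have h2 := hy' (j, q) c
      simp only [Pi.sub_apply] at h1 h2 ⊢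
      have h3 := abs_sub_le (fr y c) (((q c : ℕ) : ℝ) / Q) (y' (j, q) c)
      have : (2 : ℝ) / Q = 1 / Q + 1 / Q := by ring
      linarith
    have hr : (fun l => t (Sum.inr (Sum.inl l)) - ε * z₀ l) ∈ box (Fin m) ε := fun l => by
      have h1 := Int.floor_le (t (Sum.inr (Sum.inl l)) / ε)
      have h2 := Int.lt_floor_add_one (t (Sum.inr (Sum.inl l)) / ε)
      rw [le_div_iff₀ hε] at h1
      rw [div_lt_iff₀ hε] at h2
      simp only [hz₀]
      rw [abs_le]; constructor <;> nlinarith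
    have hb1 : fr (p (j, q) x.1) ∘ Sum.inl - cst x.2 ∈ box (Fin m) 1 := fun l => by
      have h1 : 0 ≤ fr (p (j, q) x.1) (Sum.inl l) := Int.fract_nonneg _
      have h2 : fr (p (j, q) x.1) (Sum.inl l) < 1 := Int.fract_lt_one _
      simp only [Pi.sub_apply, Function.comp, cst]
      rcases mem_bits.1 hx'.2 l with e | e <;> rw [e, abs_le] <;> push_cast <;>
        constructor <;> linarith
    obtain ⟨b1, i1⟩ := hja x.1 (hA' _ hxa)
    obtain ⟨b2, i2⟩ := gF.pert _ (hsel (j, q) x.1 hxa) _ hr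
    obtain ⟨b3, i3⟩ := gC.pert _ hb1 ((fr y - y' (j, q)) ∘ Sum.inl) fun l => hΔ _
    obtain ⟨b4, i4⟩ := gM.pert _ hxM ((fr y - y' (j, q)) ∘ Sum.inr) fun l => hΔ _
    simp only [hp] at b3 i3 b4 i4
    refine ⟨elim_mem_box (box_mono (by exact_mod_cast hkk) b1) (elim_mem_box (box_mono hbx b2)
      (elim_mem_box (box_mono hbx b3) (box_mono hbx b4))), ?_⟩
    rw [phiV_elim, phiV_elim, phiV_elim, extM_det]
    simp only [Fintype.prod_sum_type, Sum.elim_inl, Sum.elim_inr, Finset.prod_const,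
      Finset.card_univ, Fintype.card_fin]
    have g1 := S.w_nonneg j x.1
    have g2 := gF.nonneg (sel (j, q) x.1)
    have g3 := gC.nonneg (fr (p (j, q) x.1) ∘ Sum.inl - cst x.2)
    have g4 := gM.nonneg (fr (p (j, q) x.1) ∘ Sum.inr)
    have ge := (Real.exp_pos (-η)).le
    have h1 := mul_le_mul (mul_le_mul i1 i2 (by positivity) (le_trans (by positivity) i1))
      (mul_le_mul i3 i4 (by simp only [hp] at g4; positivity)
        (le_trans (by simp only [hp] at g3; positivity) i3))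
      (by simp only [hp] at g3 g4; positivity)
      (mul_nonneg (le_trans (by positivity) i1) (le_trans (by positivity) i2))
    have h2 : c * Real.exp (-21 * η) * wf (j, q) x ≤
        c * ((1 - 9 * η) * Real.exp (-η) ^ 3) * wf (j, q) x :=
      mul_le_mul_of_nonneg_right (mul_le_mul_of_nonneg_left (exp_le_one_sub hη hη') hc0)
        (hwf0 _ _)
    refine le_trans h2 (le_trans (le_of_eq ?_) (le_trans h1 (le_of_eq ?_)))
    · simp only [hwf, hp]
      have : (1 - 9 * η) ≠ 0 := by linarith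
      field_simp
    · ring

end Vale.Agent.P230.L
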