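import Vale.Agent.P230.L.Master
import Vale.Agent.P230.L.BL
import Vale.Agent.P230.L.GadC
import Vale.Agent.P230.L.StageC

/-! One stage of the recursion, abstract form. -/

namespace Vale.Agent.P230.L

open MeasureTheory ProbabilityTheory Set
open scoped ENNReal

theorem measurableSet_ucube (κ : Type) [Fintype κ] : MeasurableSet (ucube κ) :=
  MeasurableSet.univ_pi fun _ => measurableSet_Ico

theorem volume_ucube (κ : Type) [Fintype κ] : volume (ucube κ) = 1 := by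
  simp [ucube, Real.volume_pi_Ico]

instance instProbCube (κ : Type) [Fintype κ] :
    IsProbabilityMeasure (volume.restrict (ucube κ)) :=
  ⟨by simp [volume_ucube]⟩

theorem mem_ucube_sum {α β : Type} {x : α ⊕ β → ℝ} :
    x ∈ ucube (α ⊕ β) ↔ x ∘ Sum.inl ∈ ucube α ∧ x ∘ Sum.inr ∈ ucube β := by
  simp [ucube]

theorem volume_prod_set {α β : Type} [Fintype α] [Fintype β] (C : Set (α → ℝ))
    (M : Set (β → ℝ)) :
    volume {x : α ⊕ β → ℝ | x ∘ Sum.inl ∈ C ∧ x ∘ Sum.inr ∈ M} = volume C * volume M := by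
  have h := volume_measurePreserving_sumPiEquivProdPi (fun _ : α ⊕ β => ℝ)
  rw [← Measure.prod_prod, ← Measure.volume_eq_prod,
    ← h.measure_preimage_equiv (C ×ˢ M)]
  rfl

theorem integral_ucube_sum {α β : Type} [Fintype α] [Fintype β] (f : (α → ℝ) → ℝ)
    (g : (β → ℝ) → ℝ) :
    ∫ x in ucube (α ⊕ β), f (x ∘ Sum.inl) * g (x ∘ Sum.inr) =
      (∫ x in ucube α, f x) * ∫ x in ucube β, g x := by
  have h := volume_measurePreserving_sumPiEquivProdPi (fun _ : α ⊕ β => ℝ)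
  rw [← setIntegral_prod_mul, ← Measure.volume_eq_prod,
    ← h.setIntegral_preimage_emb (MeasurableEquiv.measurableEmbedding _)]
  have : (MeasurableEquiv.sumPiEquivProdPi fun _ : α ⊕ β => ℝ) ⁻¹' (ucube α ×ˢ ucube β) =
      ucube (α ⊕ β) := by
    ext x; rw [mem_ucube_sum]; rfl
  rw [this]
  rfl

theorem integrableOn_ucube {κ : Type} [Fintype κ] {f : (κ → ℝ) → ℝ} (hf : Measurable f) {C : ℝ}
    (h : ∀ x ∈ ucube κ, |f x| ≤ C) : IntegrableOn f (ucube κ) := by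
  refine Integrable.of_bound hf.aestronglyMeasurable C ?_
  rw [ae_restrict_iff' (measurableSet_ucube κ)]
  exact Filter.Eventually.of_forall h

theorem integral_le_vol {κ : Type} [Fintype κ] {f : (κ → ℝ) → ℝ} {S : Set (κ → ℝ)}
    (hS : MeasurableSet S) (hSu : S ⊆ ucube κ) (h0 : ∀ x, 0 ≤ f x) (h1 : ∀ x, f x ≤ 1)
    (hs : ∀ x ∈ ucube κ, f x ≠ 0 → x ∈ S) : ∫ x in ucube κ, f x ≤ volume.real S := by
  have h2 : ∫ x in ucube κ, f x ≤ ∫ x in ucube κ, S.indicator (fun _ => (1 : ℝ)) x := by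
    refine integral_mono_of_nonneg (Filter.Eventually.of_forall h0)
      ((integrable_const 1).indicator hS) ?_
    rw [Filter.EventuallyLE, ae_restrict_iff' (measurableSet_ucube κ)]
    refine Filter.Eventually.of_forall fun x hx => ?_
    by_cases hx' : x ∈ S
    · simp [hx', h1 x]
    · have : f x = 0 := by
        by_contra h; exact hx' (hs x hx h)
      simp [hx', this]
  rw [integral_indicator hS, setIntegral_const, smul_eq_mul, mul_one, measureReal_def,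
    Measure.restrict_apply hS, inter_eq_left.2 hSu] at h2
  exact h2

theorem one_sub_exp_ge {y η : ℝ} (h0 : 0 ≤ y) (h : y ≤ η) : (1 - η) * y ≤ 1 - Real.exp (-y) := by
  have h1 := Real.add_one_le_exp y
  have h2 : Real.exp (-y) ≤ 1 - y + y ^ 2 := by
    rw [Real.exp_neg, inv_le_iff_one_le_mul₀ (Real.exp_pos _)]
    have : 0 ≤ 1 - y + y ^ 2 := by nlinarith
    nlinarith [mul_le_mul_of_nonneg_left h1 this, pow_nonneg h0 3]
  nlinarith

section
variable {m L r : ℕ} {ε h H δ η bx lf hf lc hc lm hm : ℝ}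
  (gF : GadF m L ε η bx lf hf) (gC : GadC m r h δ η bx lc hc) (gM : GadM m H δ η bx lm hm)

theorem Zt_nonneg (z : Fin m → ℤ) (x : Fin m ⊕ Fin m → ℝ) : 0 ≤ Zt gF gC gM z x :=
  mul_nonneg (mul_nonneg (gF.nonneg _) (Finset.sum_nonneg fun _ _ => gC.nonneg _)) (gM.nonneg _)

theorem measurable_Zt (z : Fin m → ℤ) : Measurable (Zt gF gC gM z) := by
  unfold Zt
  refine (measurable_const.mul (Finset.measurable_sum _ fun b _ => gC.meas.comp ?_)).mul
    (gM.meas.comp ?_)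
  · fun_prop
  · fun_prop

theorem Zt_le {z : Fin m → ℤ} (hz : z ∈ gF.Tf) {x : Fin m ⊕ Fin m → ℝ}
    (hx : x ∈ ucube (Fin m ⊕ Fin m)) : Zt gF gC gM z x ≤ hf * hc * hm := by
  have h1 := gF.le_hi z hz
  have h2 := gC.le_hi _ (mem_ucube_sum.1 hx).1
  have h3 := gM.le_hi (x ∘ Sum.inr)
  have g1 := gF.nonneg z
  have g2 : 0 ≤ ∑ b ∈ bits (Fin m), gC.ω (x ∘ Sum.inl - cst b) :=
    Finset.sum_nonneg fun _ _ => gC.nonneg _
  have g3 := gM.nonneg (x ∘ Sum.inr)
  have := le_trans g1 h1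
  have := le_trans g2 h2
  unfold Zt
  gcongr

theorem Zt_supp (z : Fin m → ℤ) {x : Fin m ⊕ Fin m → ℝ} (hx : x ∈ ucube (Fin m ⊕ Fin m))
    (h0 : Zt gF gC gM z x ≠ 0) : x ∘ Sum.inl ∈ gC.S ∧ x ∘ Sum.inr ∈ gM.S := by
  unfold Zt at h0
  exact ⟨gC.supp _ (mem_ucube_sum.1 hx).1 (right_ne_zero_of_mul (left_ne_zero_of_mul h0)),
    gM.supp _ (right_ne_zero_of_mul h0)⟩

theorem integral_Zt (hη : η ≤ 1) (z : Fin m → ℤ) :
    gF.ω z * (1 - η) ^ 2 ≤ ∫ x in ucube (Fin m ⊕ Fin m), Zt gF gC gM z x := by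
  unfold Zt
  simp only [mul_assoc]
  rw [integral_const_mul,
    integral_ucube_sum (fun x => ∑ b ∈ bits (Fin m), gC.ω (x - cst b)) gM.ω]
  refine mul_le_mul_of_nonneg_left ?_ (gF.nonneg z)
  rw [sq]
  exact mul_le_mul gC.int_ge gM.int_ge (by linarith) (le_trans (by linarith) gC.int_ge)

theorem GadM.sub : gM.S ⊆ ucube (Fin m) := fun x hx c _ => by
  have := abs_lt.1 (gM.win x hx c)
  constructor <;> linarith [this.1, this.2]

theorem supp_small (hlf : 0 < lf) (hlc : 0 < lc) (hlm : 0 < lm) (hsup : 2 ≤ η * (lf * lc * lm)) :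
    gF.Tf.card * (volume.real gC.S * volume.real gM.S) ≤ η := by
  have h1 := mul_le_mul gF.card_le (mul_le_mul gC.vol_le gM.vol_le (by positivity) zero_le_one)
    (by positivity) (by norm_num)
  have h2 : 0 < lf * lc * lm := by positivity
  refine le_of_mul_le_mul_right ?_ h2
  nlinarith

theorem mass_ge {θ w cap : ℝ} (hθ : 0 < θ) (hw : 0 ≤ w) (hw' : w ≤ cap) (hη : η ≤ 1)
    (hcap : θ * cap * (hf * hc * hm) ≤ η) :
    θ * w * (1 - η) ^ 4 ≤ ∑ z ∈ gF.Tf, ∫ x in ucube (Fin m ⊕ Fin m),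
      (1 - Real.exp (-(θ * w * Zt gF gC gM z x))) := by
  have h1 : ∀ z ∈ gF.Tf, (1 - η) * (θ * w) * (gF.ω z * (1 - η) ^ 2) ≤
      ∫ x in ucube (Fin m ⊕ Fin m), (1 - Real.exp (-(θ * w * Zt gF gC gM z x))) := by
    intro z hz
    refine le_trans (mul_le_mul_of_nonneg_left (integral_Zt gF gC gM hη z)
      (mul_nonneg (by linarith) (by positivity))) ?_
    rw [← integral_const_mul]
    have hm1 := measurable_Zt gF gC gM z
    refine integral_mono_of_nonneg (Filter.Eventually.of_forall fun x => ?_)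
      (integrableOn_ucube (C := 1) (by fun_prop) fun x _ => ?_) ?_
    · exact mul_nonneg (mul_nonneg (by linarith) (by positivity)) (Zt_nonneg gF gC gM z x)
    · have h0 : 0 ≤ θ * w * Zt gF gC gM z x :=
        mul_nonneg (by positivity) (Zt_nonneg gF gC gM z x)
      have := Real.exp_pos (-(θ * w * Zt gF gC gM z x))
      have : Real.exp (-(θ * w * Zt gF gC gM z x)) ≤ 1 := Real.exp_le_one_iff.2 (by linarith)
      rw [abs_le]; constructor <;> linarith
    · rw [Filter.EventuallyLE, ae_restrict_iff' (measurableSet_ucube _)]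
      refine Filter.Eventually.of_forall fun x hx => ?_
      have h0 := Zt_nonneg gF gC gM z x
      have h2 := Zt_le gF gC gM hz hx
      have h3 : θ * w * Zt gF gC gM z x ≤ θ * cap * (hf * hc * hm) := by
        have := le_trans hw hw'
        gcongr
      have := one_sub_exp_ge (mul_nonneg (by positivity : 0 ≤ θ * w) h0) (le_trans h3 hcap)
      linarith [mul_assoc (1 - η) (θ * w) (Zt gF gC gM z x)]
  refine le_trans ?_ (Finset.sum_le_sum h1)
  rw [← Finset.mul_sum, ← Finset.sum_mul]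
  have h2 := gF.sum_ge
  have h3 : 0 ≤ 1 - η := by linarith
  calc θ * w * (1 - η) ^ 4 = (1 - η) * (θ * w) * ((1 - η) * (1 - η) ^ 2) := by ring
    _ ≤ _ := by gcongr

end

theorem kept_sum {k : ℕ} {R c η : ℝ} (S : Sys k R c) (hη : 0 ≤ η) (j : S.J) :
    1 - η ≤ ∑ a ∈ (S.A j).filter (fun a => η / 2 ^ k ≤ S.w j a), S.w j a := by
  have h1 := S.sum_w j
  rw [← Finset.sum_filter_add_sum_filter_not (S.A j) (fun a => η / 2 ^ k ≤ S.w j a)] at h1
  have h2 : ∑ a ∈ (S.A j).filter (fun a => ¬ η / 2 ^ k ≤ S.w j a), S.w j a ≤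
      ((S.A j).filter (fun a => ¬ η / 2 ^ k ≤ S.w j a)).card • (η / 2 ^ k) :=
    Finset.sum_le_card_nsmul _ _ _ fun a ha => (not_le.1 (Finset.mem_filter.1 ha).2).le
  have h3 : (((S.A j).filter (fun a => ¬ η / 2 ^ k ≤ S.w j a)).card : ℝ) ≤ 2 ^ k := by
    exact_mod_cast le_trans (Finset.card_filter_le _ _) (S.card_A j)
  rw [nsmul_eq_mul] at h2
  have h4 : (2 : ℝ) ^ k * (η / 2 ^ k) = η := by field_simp
  have h5 := mul_le_mul_of_nonneg_right h3 (show 0 ≤ η / 2 ^ k by positivity)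
  linarith

theorem IsTree.subset {ι : Type} {lv : ι → ℕ} {A A' : Finset (ι → ℤ)} (h : IsTree lv A)
    (hs : A' ⊆ A) : IsTree lv A' := fun a ha a' ha' => h a (hs ha) a' (hs ha')

theorem pow_five_ge {η : ℝ} (h0 : 0 < η) (h : η ≤ 1 / 20) :
    1 / 2 ≤ (1 - η) ^ 4 * (1 - η) ∧ 1 - 9 * η ≤ (1 - 4 * η) * ((1 - η) ^ 4 * (1 - η)) ∧
      1 / 2 ≤ (1 - η) ^ 4 := by
  have h5 := one_add_mul_le_pow (show (-2 : ℝ) ≤ -η by linarith) 5
  have h4 := one_add_mul_le_pow (show (-2 : ℝ) ≤ -η by linarith) 4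
  have e : (1 - η) ^ 4 * (1 - η) = (1 + -η) ^ 5 := by ring
  have e' : (1 - η) ^ 4 = (1 + -η) ^ 4 := by ring
  rw [e, e']
  push_cast at h5 h4
  refine ⟨by linarith, ?_, by linarith⟩
  nlinarith

theorem stage_abs {k' k m r L ρ Q : ℕ} {R' R c η θ V ε h H bx lf hf lc hc lm hm : ℝ}
    (S : Sys k' R' c) (gF : GadF m L ε η bx lf hf) (gC : GadC m r h (2 / Q) η bx lc hc)
    (gM : GadM m H (2 / Q) η bx lm hm) (hc0 : 0 ≤ c) (hη : 0 < η) (hη' : η ≤ 1 / 20)
    (hθ : 0 < θ) (hε : 0 < ε) (hh : 0 < h) (hH : 0 < H) (hQ : 1 ≤ Q) (hlf : 0 < lf)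
    (hlc : 0 < lc) (hlm : 0 < lm) (hk : k' + 3 * m ≤ k) (hbx : bx ≤ k)
    (hdet : Real.exp k' * (ε * h * H) ^ m ≤ Real.exp k)
    (hJ : Real.exp k' * (Q : ℝ) ^ (2 * m) ≤ Real.exp k)
    (hcap : θ * Real.exp (-R') * (hf * hc * hm) ≤ η) (hsup : 2 ≤ η * (lf * lc * lm))
    (hV : η ≤ V)
    (hn1 : 2 * Real.exp k' * (k' + 1) * 2 ^ k' * Real.exp (-η * V / 2) < 1)
    (hn2 : Real.exp (7 * V) * ((1 / 2) ^ ρ +
      (ρ + 2) * (V / (θ * η / 2 ^ k' / 2) * (2 * L + 1) ^ ρ) * (1 / 2) ^ m +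
        8 * ((V / (θ * η / 2 ^ k' / 2)) ^ 3 * (9 / 10) ^ m)) ≤ 1)
    (hn3 : Real.exp (-η * θ / 2) < (1 / (Q : ℝ)) ^ (2 * m))
    (hR : 2 * Real.exp (-R') * (hf * hc * hm) / 2 ^ r ≤ Real.exp (-R)) :
    Nonempty (Sys k R (c * Real.exp (-21 * η))) := by
  classical
  set A' : S.J → Finset (S.ι → ℤ) :=
    fun j => (S.A j).filter fun a => η / 2 ^ k' ≤ S.w j a with hA'
  have hsub : ∀ j, A' j ⊆ S.A j := fun j => Finset.filter_subset _ _
  set SS : Set (Fin m ⊕ Fin m → ℝ) := {x | x ∘ Sum.inl ∈ gC.S ∧ x ∘ Sum.inr ∈ gM.S} with hSS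
  have hSSm : MeasurableSet SS :=
    (gC.measS.preimage (by fun_prop)).inter (gM.measS.preimage (by fun_prop))
  have hSSu : SS ⊆ ucube _ := fun x hx => mem_ucube_sum.2 ⟨gC.sub hx.1, gM.sub hx.2⟩
  have hSSv : volume.real SS = volume.real gC.S * volume.real gM.S := by
    rw [measureReal_def, hSS, volume_prod_set, ENNReal.toReal_mul]; rfl
  have hsm := supp_small gF gC gM hlf hlc hlm hsup
  set π : S.J → (S.ι → ℤ) → (Fin m → ℤ) → (Fin m ⊕ Fin m → ℝ) → ℝ :=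
    fun j a z x => 1 - Real.exp (-(θ * S.w j a * Zt gF gC gM z x)) with hπ
  have hπ0 : ∀ j a z x, 0 ≤ π j a z x := fun j a z x => by
    have := mul_nonneg (mul_nonneg hθ.le (S.w_nonneg j a)) (Zt_nonneg gF gC gM z x)
    have : Real.exp (-(θ * S.w j a * Zt gF gC gM z x)) ≤ 1 := Real.exp_le_one_iff.2 (by linarith)
    simp only [hπ]; linarith
  have hπ1 : ∀ j a z x, π j a z x ≤ 1 := fun j a z x => by
    have := Real.exp_pos (-(θ * S.w j a * Zt gF gC gM z x))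
    simp only [hπ]; linarith
  have hsupp : ∀ j a z, ∀ x ∈ ucube _, π j a z x ≠ 0 → x ∈ SS := fun j a z x hx h0 => by
    refine Zt_supp gF gC gM z hx fun h => h0 ?_
    simp [hπ, h]
  have hsumS : ∑ _z ∈ gF.Tf, volume.real SS ≤ η := by
    rw [Finset.sum_const, nsmul_eq_mul, hSSv]; exact hsm
  obtain ⟨p1, p2, p3⟩ := pow_five_ge hη hη'
  have hge : ∀ j a, θ * S.w j a * (1 - η) ^ 4 ≤ ∑ z ∈ gF.Tf, ∫ x in ucube _, π j a z x :=
    fun j a => mass_ge gF gC gM hθ (S.w_nonneg j a) (S.w_le j a) (by linarith) hcap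
  have htot : ∀ j, θ * ((1 - η) ^ 4 * (1 - η)) ≤
      ∑ a ∈ A' j, ∑ z ∈ gF.Tf, ∫ x in ucube _, π j a z x := fun j => by
    refine le_trans ?_ (Finset.sum_le_sum fun a _ => hge j a)
    rw [← Finset.sum_mul, ← Finset.mul_sum]
    have := kept_sum S hη.le j
    calc θ * ((1 - η) ^ 4 * (1 - η)) = θ * (1 - η) * (1 - η) ^ 4 := by ring
      _ ≤ _ := by gcongr
  have hQ' : (1 : ℝ) ≤ Q := by exact_mod_cast hQ
  refine Exists.elim (master (ι := S.ι) (φ := Fin m) (κ := Fin m ⊕ Fin m) (J := S.J)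
    (Finset.univ.map Function.Embedding.inr) S.lv k' L ρ S.lv_inj S.lv_lt A'
    (fun j => (S.tree j).subset (hsub j))
    (fun j => le_trans (Finset.card_le_card (hsub j)) (S.card_A j)) (fun _ _ => gF.Tf)
    (fun _ _ => gF.bdd) π
    (fun j a z => by have := measurable_Zt gF gC gM z; simp only [hπ]; fun_prop) hπ0
    (fun j a z x _ => hπ1 j a z x) (fun _ _ _ => SS) (fun _ _ _ => hSSm) (fun _ _ _ => hSSu) hsupp
    (fun _ _ _ x hx c hc => by
      obtain ⟨l, -, rfl⟩ := Finset.mem_map.1 hc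
      exact gM.win _ hx.2 l)
    (η := η) (V := V) (mmin := θ * η / 2 ^ k' / 2) (εA := (9 / 10) ^ m) (δ := 1 / Q) hη
    (by linarith) (by positivity) (by positivity) (by positivity)
    (by rw [div_le_one (by linarith)]; exact hQ') (fun _ _ _ => Or.inr hsumS)
    (fun j a ha => ⟨?_, ?_⟩) ?_ ?_ ?_ ?_) ?_
  rotate_right
  · rintro Vv ⟨W, hmain⟩
    refine stage_build S gF gC gM hc0 hη hη' hε hh hH hQ hk hbx hdet hJ hR A' hsub Vv W ?_
    intro j y
    obtain ⟨y', hy', sel, hsel, hprod⟩ := hmain j y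
    refine ⟨y', hy', sel, hsel, ?_⟩
    simp only [hπ, sub_sub_cancel] at hprod
    rw [← Real.exp_sum, Real.exp_le_exp, Finset.sum_neg_distrib] at hprod
    have h1 := htot j
    simp only [hπ] at h1
    have h2 : ∑ a ∈ A' j, θ * S.w j a * Zt gF gC gM (sel a) (fr (y' + comb a Vv + comb (sel a) W)) =
        θ * ∑ a ∈ A' j, S.w j a * Zt gF gC gM (sel a) (fr (y' + comb a Vv + comb (sel a) W)) := by
      rw [Finset.mul_sum]; exact Finset.sum_congr rfl fun a _ => by ring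
    rw [h2] at hprod
    have h3 := mul_le_mul_of_nonneg_left h1 (show 0 ≤ 1 - 4 * η by linarith)
    have h4 := mul_le_mul_of_nonneg_left p2 hθ.le
    refine le_of_mul_le_mul_left ?_ hθ
    nlinarith
  · refine le_trans ?_ (hge j a)
    have h1 := (Finset.mem_filter.1 ha).2
    have h2 : 0 ≤ η / 2 ^ k' := by positivity
    calc θ * η / 2 ^ k' / 2 = θ * (η / 2 ^ k') * (1 / 2) := by ring
      _ ≤ _ := by have := S.w_nonneg j a; gcongr
  · exact le_trans (Finset.sum_le_sum fun z _ => integral_le_vol hSSm hSSu (hπ0 j a z)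
      (hπ1 j a z) (hsupp j a z)) (le_trans hsumS hV)
  · intro j a₁ _ a₂ _ a₃ _ a₀ _ σ hσ z' s
    have h1 := en_prod gC.measS gM.measS gM.win hσ s
    simp only [Finset.sum_const, nsmul_eq_mul]
    have f1 : volume gC.S ≠ ∞ :=
      ne_top_of_le_ne_top (by simp [volume_ucube]) (measure_mono gC.sub)
    have f2 : volume gM.S ≠ ∞ :=
      ne_top_of_le_ne_top (by simp [volume_ucube]) (measure_mono gM.sub)
    have h2 : (gF.Tf.card : ℝ≥0∞) * (volume gC.S * volume gM.S) ≤ 1 := by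
      rw [← ENNReal.ofReal_toReal f1, ← ENNReal.ofReal_toReal f2, ← ENNReal.ofReal_natCast,
        ← ENNReal.ofReal_mul ENNReal.toReal_nonneg, ← ENNReal.ofReal_mul (Nat.cast_nonneg _),
        ← ENNReal.ofReal_one]
      exact ENNReal.ofReal_le_ofReal (le_trans hsm (by linarith))
    rw [Fintype.card_fin] at h1
    calc _ ≤ (gF.Tf.card : ℝ≥0∞) * ((gF.Tf.card : ℝ≥0∞) * ((gF.Tf.card : ℝ≥0∞) *
          (ENNReal.ofReal ((9 / 10) ^ m) * (volume gC.S * volume gM.S) ^ 3))) := by gcongr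
      _ = ENNReal.ofReal ((9 / 10) ^ m) *
          ((gF.Tf.card : ℝ≥0∞) * (volume gC.S * volume gM.S)) ^ 3 := by ring
      _ ≤ ENNReal.ofReal ((9 / 10) ^ m) * 1 ^ 3 := by gcongr
      _ = _ := by simp
  · refine lt_of_le_of_lt ?_ hn1
    have := S.card_J
    gcongr
  · simpa using hn2
  · intro j
    have h1 := htot j
    have h2 := mul_le_mul_of_nonneg_left p1 hθ.le
    simp only [Fintype.card_sum, Fintype.card_fin, ← two_mul]
    refine lt_of_le_of_lt (Real.exp_le_exp.2 ?_) hn3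
    nlinarith

end Vale.Agent.P230.L
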