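import Vale.Agent.P230.L.Master
import Vale.Agent.P230.L.GAux
import Vale.Agent.P230.L.Stage

/-! The covering lattice for a nice body, abstract form. -/

namespace Vale.Agent.P230.L

open MeasureTheory ProbabilityTheory Set
open scoped ENNReal

theorem Sys.card_le' {k : ℕ} {R c : ℝ} (S : Sys k R c) : Fintype.card S.ι ≤ k := by
  have := Fintype.card_le_of_injective (fun i => (⟨S.lv i, S.lv_lt i⟩ : Fin k))
    fun i j h => S.lv_inj (congrArg Fin.val h)
  simpa using this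

/-- A finite net of admissible heights. -/
theorem Sys.net {k Lq : ℕ} {R c ε : ℝ} (S : Sys k R c) (hε : 0 < ε) (hLq : k / ε + 1 ≤ Lq) :
    ∃ (J : Type) (_ : Fintype J) (jj : J → S.J) (rep : J → S.ι → ℝ),
      (Fintype.card J : ℝ) ≤ Real.exp k * (2 * Lq + 1) ^ k ∧
      (∀ p, ∀ a ∈ S.A (jj p), rep p - S.B.mulVec (cst a) ∈ box S.ι k ∧
        c * S.w (jj p) a ≤ S.B.det * phiV (rep p - S.B.mulVec (cst a))) ∧
      ∀ t : S.ι → ℝ, ∃ (p : J) (a₀ : S.ι → ℤ), t - S.B.mulVec (cst a₀) - rep p ∈ box S.ι ε := by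
  classical
  have hne : ∀ j, (S.A j).Nonempty := fun j => by
    rw [Finset.nonempty_iff_ne_empty]
    intro h
    have := S.sum_w j
    rw [h, Finset.sum_empty] at this
    linarith
  choose a' ha' using hne
  let P : S.J × boxZ S.ι Lq → (S.ι → ℝ) → Prop := fun p t =>
    (∀ a ∈ S.A p.1, t - S.B.mulVec (cst a) ∈ box S.ι k ∧
      c * S.w p.1 a ≤ S.B.det * phiV (t - S.B.mulVec (cst a))) ∧
    ∀ i, ⌊(t - S.B.mulVec (cst (a' p.1))) i / ε⌋ = p.2.1 i
  refine ⟨{p // ∃ t, P p t}, inferInstance, fun p => p.1.1, fun p => p.2.choose, ?_,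
    fun p => p.2.choose_spec.1, fun t => ?_⟩
  · have h1 := Fintype.card_subtype_le fun p => ∃ t, P p t
    have h2 : Fintype.card (boxZ S.ι Lq) = (2 * Lq + 1) ^ Fintype.card S.ι := by
      rw [Fintype.card_coe]
      simp only [boxZ, Fintype.card_piFinset, Int.card_Icc, Finset.prod_const, Finset.card_univ]
      congr 1; omega
    rw [Fintype.card_prod, h2] at h1
    have h3 : (2 * Lq + 1) ^ Fintype.card S.ι ≤ (2 * Lq + 1) ^ k :=
      Nat.pow_le_pow_right (by omega) S.card_le'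
    have h4 : (Fintype.card {p // ∃ t, P p t} : ℝ) ≤ Fintype.card S.J * (2 * Lq + 1) ^ k := by
      exact_mod_cast le_trans h1 (Nat.mul_le_mul_left _ h3)
    exact le_trans h4 (mul_le_mul_of_nonneg_right S.card_J (by positivity))
  · obtain ⟨j, a₀, h⟩ := S.cover t
    have e : ∀ a, t - S.B.mulVec (cst (a + a₀)) = t - S.B.mulVec (cst a₀) - S.B.mulVec (cst a) := by
      intro a
      have : cst (a + a₀) = cst a + cst a₀ := by funext i; simp [cst]
      rw [this, Matrix.mulVec_add]; abel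
    simp only [e] at h
    generalize ht' : t - S.B.mulVec (cst a₀) = t' at h
    have hq : (fun i => ⌊(t' - S.B.mulVec (cst (a' j))) i / ε⌋) ∈ boxZ S.ι Lq := by
      simp only [boxZ, Fintype.mem_piFinset, Finset.mem_Icc]
      intro i
      have h1 := abs_le.1 ((h _ (ha' j)).1 i)
      have h2 := Int.floor_le ((t' - S.B.mulVec (cst (a' j))) i / ε)
      have h3 := Int.lt_floor_add_one ((t' - S.B.mulVec (cst (a' j))) i / ε)
      have h4 := div_le_div_of_nonneg_right h1.1 hε.le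
      have h5 := div_le_div_of_nonneg_right h1.2 hε.le
      rw [neg_div] at h4
      constructor
      · have : (-(Lq : ℝ)) ≤ ⌊(t' - S.B.mulVec (cst (a' j))) i / ε⌋ := by linarith
        exact_mod_cast this
      · have : (⌊(t' - S.B.mulVec (cst (a' j))) i / ε⌋ : ℝ) ≤ Lq := by linarith
        exact_mod_cast this
    have hP : ∃ t, P (j, ⟨_, hq⟩) t := ⟨t', h, fun _ => rfl⟩
    refine ⟨⟨_, hP⟩, a₀, fun i => ?_⟩
    rw [ht']
    have h1 := hP.choose_spec.2 i
    have h2 := Int.abs_sub_lt_one_of_floor_eq_floor h1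
    rw [← sub_div, abs_div, abs_of_pos hε, div_lt_one hε, abs_sub_comm] at h2
    simp only [Pi.sub_apply] at h2 ⊢
    refine le_trans (le_of_eq (congrArg _ ?_)) h2.le
    ring

theorem integral_ind {κ : Type} [Fintype κ] {S : Set (κ → ℝ)} (hS : MeasurableSet S)
    (hSu : S ⊆ ucube κ) : ∫ x in ucube κ, S.indicator (fun _ => (1 : ℝ)) x = volume.real S := by
  rw [integral_indicator hS, setIntegral_const, smul_eq_mul, mul_one, measureReal_def,
    Measure.restrict_apply hS, inter_eq_left.2 hSu, measureReal_def]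

theorem gcover {φ κ : Type} [Fintype φ] [DecidableEq φ] [Fintype κ] [DecidableEq κ]
    {k n L Lq ρ : ℕ} {R c c₁ ε H δ V Θ : ℝ} (S : Sys k R c) (K : Set ((φ ⊕ κ) ⊕ S.ι → ℝ))
    (hK : Nice n c₁ k K) (hc : 0 < c) (hc₁ : 0 < c₁) (hk : 1 ≤ k) (hn : 1 ≤ n)
    (hm : Fintype.card φ + Fintype.card κ ≤ n) (hε : 0 < ε) (hεn : 5 * ε * n ^ 5 ≤ 1 / n)
    (hH : 16 * (n : ℝ) ^ 5 < H) (hΘ0 : 0 < Θ)
    (hΘ : Θ * (ε ^ Fintype.card φ * H ^ Fintype.card κ * S.B.det) = c * c₁ * volume.real K)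
    (hL : (n : ℝ) ^ 5 / ε + 1 ≤ L) (hLq : k / ε + 1 ≤ Lq) (hδ : 0 < δ) (hδ1 : δ ≤ 1)
    (hHδ : H * δ ≤ ε) (hV : Θ * Real.exp (-R) + (1 / 2) ^ Fintype.card κ ≤ V)
    (hn1 : 2 * (Real.exp k * (2 * Lq + 1) ^ k) * (k + 1) * 2 ^ k * Real.exp (-(1 / 10) * V / 2) < 1)
    (hn2 : Real.exp (7 * V) * ((1 / 2) ^ ρ +
      (ρ + 2) * (V / (Θ / 2 ^ k / 2) * (2 * L + 1) ^ ρ) * (1 / 2) ^ Fintype.card κ +
        8 * ((V / (Θ / 2 ^ k / 2)) ^ 3 * ((9 / 10) ^ (Fintype.card φ + Fintype.card κ) *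
          (3 * 20 ^ k * Θ * Real.exp k / (c * c₁ ^ 2)) ^ 3))) ≤ 1)
    (hn3 : Real.exp (-Θ / 20) < δ ^ Fintype.card κ) :
    ∃ M : Matrix ((φ ⊕ κ) ⊕ S.ι) ((φ ⊕ κ) ⊕ S.ι) ℝ,
      M.det = ε ^ Fintype.card φ * H ^ Fintype.card κ * S.B.det ∧
      ∀ x, ∃ z, x - M.mulVec (cst z) ∈ (fun x => (1 + 1 / (n : ℝ)) • x) '' K := by
  classical
  have h0 : (0 : ℝ) < n := by exact_mod_cast hn
  have hn1' : (1 : ℝ) ≤ n := by exact_mod_cast hn
  have hH0 : 0 < H := lt_of_le_of_lt (by positivity) hH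
  have hl : 0 < ε * n ^ 5 := by positivity
  have hl1 : 1 / (n : ℝ) ≤ 1 := by rw [div_le_one h0]; exact hn1'
  have hk1 : (1 : ℝ) ≤ k := by exact_mod_cast hk
  have hP : 0 < ε ^ Fintype.card φ * H ^ Fintype.card κ := by positivity
  have hdet := S.det_pos
  obtain ⟨J, _, jj, rep, hJ, hrep, hnet⟩ := S.net hε hLq
  set A' : J → Finset (S.ι → ℤ) :=
    fun p => (S.A (jj p)).filter fun a => (1 / 2) / 2 ^ k ≤ S.w (jj p) a with hA'
  have hsub : ∀ p, A' p ⊆ S.A (jj p) := fun p => Finset.filter_subset _ _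
  set SS : J → (S.ι → ℤ) → (φ → ℤ) → Set (κ → ℝ) := fun p a z =>
    slice ε H (sec (dil (1 + ε * n ^ 5) K) (rep p - S.B.mulVec (cst a))) z with hSS
  have hwin : ∀ p a z, ∀ x ∈ SS p a z, ∀ c, |x c - 1 / 2| < 1 / 8 := fun p a z =>
    hK.win hH (by positivity) (by linarith) _ z
  have hSm : ∀ p a z, MeasurableSet (SS p a z) := fun p a z => measurableSet_slice _ _
    (measurableSet_sec (isCompact_dil hK.compact _).measurableSet _) _
  have hSu : ∀ p a z, SS p a z ⊆ ucube κ := fun p a z x hx => mem_ucube_of_win (hwin p a z x hx)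
  have hZ : ∀ p a, ∃ Z ⊆ boxZ φ L, a ∈ A' p → Θ * S.w (jj p) a ≤ ∑ z ∈ Z, volume.real (SS p a z) ∧
      ∑ z ∈ Z, volume.real (SS p a z) ≤ Θ * S.w (jj p) a + (1 / 2) ^ Fintype.card κ := by
    intro p a
    by_cases ha : a ∈ A' p
    · obtain ⟨h1, h2⟩ := hrep p a (hsub p ha)
      have h3 := hK.mass hn hε hH (by linarith) hL h1
      obtain ⟨Z, hZ, h⟩ := greedy (boxZ φ L) (fun z => volume.real (SS p a z))
        (τ := (1 / 2) ^ Fintype.card κ) (t := Θ * S.w (jj p) a) (by positivity)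
        (fun z _ => vol_le_of_win (hwin p a z)) (mul_nonneg hΘ0.le (S.w_nonneg _ _)) (by
          refine le_of_mul_le_mul_left (le_trans ?_ (mul_le_mul_of_nonneg_left h3 hdet.le) |>.trans
            (le_of_eq (mul_assoc _ _ _).symm)) (mul_pos hdet hP)
          have h4 := mul_le_mul_of_nonneg_left h2
            (mul_nonneg hc₁.le (measureReal_nonneg (μ := volume) (s := K)))
          calc _ = Θ * (ε ^ Fintype.card φ * H ^ Fintype.card κ * S.B.det) * S.w (jj p) a := by ring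
            _ = c₁ * volume.real K * (c * S.w (jj p) a) := by rw [hΘ]; ring
            _ ≤ _ := h4
            _ = _ := by ring)
      exact ⟨Z, hZ, fun _ => h⟩
    · exact ⟨∅, Finset.empty_subset _, fun h => absurd h ha⟩
  choose Z hZb hZ using hZ
  have hint : ∀ p a z, ∫ x in ucube κ, (SS p a z).indicator (fun _ => (1 : ℝ)) x =
      volume.real (SS p a z) := fun p a z => integral_ind (hSm p a z) (hSu p a z)
  have htot : ∀ p, Θ / 2 ≤ ∑ a ∈ A' p, ∑ z ∈ Z p a, volume.real (SS p a z) := fun p => by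
    refine le_trans ?_ (Finset.sum_le_sum fun a ha => (hZ p a ha).1)
    rw [← Finset.mul_sum]
    have := mul_le_mul_of_nonneg_left (kept_sum S (η := 1 / 2) (by norm_num) (jj p)) hΘ0.le
    linarith
  refine Exists.elim (master (ι := S.ι) (φ := φ) (κ := κ) (J := J) Finset.univ S.lv k L ρ S.lv_inj
    S.lv_lt A' (fun p => (S.tree _).subset (hsub p))
    (fun p => le_trans (Finset.card_le_card (hsub p)) (S.card_A _)) Z
    (fun p a z hz l => ?_) (fun p a z => (SS p a z).indicator fun _ => (1 : ℝ))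
    (fun p a z => measurable_const.indicator (hSm p a z))
    (fun p a z x => indicator_nonneg (fun _ _ => zero_le_one) x)
    (fun p a z x _ => indicator_le_self' (fun _ _ => zero_le_one) x) SS hSm hSu
    (fun p a z x _ h => mem_of_indicator_ne_zero h) (fun p a z x hx c _ => hwin p a z x hx c)
    (η := 1 / 10) (V := V) (mmin := Θ / 2 ^ k / 2)
    (εA := (9 / 10) ^ (Fintype.card φ + Fintype.card κ) *
      (3 * 20 ^ k * Θ * Real.exp k / (c * c₁ ^ 2)) ^ 3) (δ := δ) (by norm_num) le_rfl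
    (by positivity) (by positivity) hδ hδ1 (fun p a _ => Or.inl fun z x => ?_)
    (fun p a ha => ?_) ?_ ?_ ?_ ?_) ?_
  · have := hZb p a hz
    simp only [boxZ, Fintype.mem_piFinset, Finset.mem_Icc] at this
    exact abs_le.2 (this l)
  · by_cases hx : x ∈ SS p a z <;> simp [hx]
  · simp only [hint]
    obtain ⟨h1, h2⟩ := hZ p a ha
    have h3 := mul_le_mul_of_nonneg_left (Finset.mem_filter.1 ha).2 hΘ0.le
    have h4 := mul_le_mul_of_nonneg_left (S.w_le (jj p) a) hΘ0.le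
    refine ⟨le_trans (le_of_eq (by ring)) (le_trans h3 h1), by linarith⟩
  · intro p a₁ _ a₂ _ a₃ _ a₀ _ σ hσ z' s
    refine le_trans (hK.energy hn hc₁ hk1 hm S.card_le' hε hH hεn _ _ _ _ hσ z' s _ _ _)
      (ENNReal.ofReal_le_ofReal ?_)
    have h1 : volume.real K = Θ * (ε ^ Fintype.card φ * H ^ Fintype.card κ * S.B.det) /
        (c * c₁) := by
      rw [hΘ]; field_simp
    have h2 : 3 * 20 ^ k / c₁ * volume.real K / (ε ^ Fintype.card φ * H ^ Fintype.card κ) =
        3 * 20 ^ k * Θ * S.B.det / (c * c₁ ^ 2) := by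
      rw [h1]; field_simp
    rw [h2]
    have := S.det_le
    gcongr
  · refine lt_of_le_of_lt ?_ hn1
    gcongr
  · simpa using hn2
  · intro p
    simp only [hint]
    refine lt_of_le_of_lt (Real.exp_le_exp.2 ?_) hn3
    have := htot p
    linarith
  · rintro Vv ⟨W, hmain⟩
    refine ⟨covM S.B ε H Vv W, covM_det _ _ _ _ _, fun x => ?_⟩
    obtain ⟨p, a₀, hp⟩ := hnet (x ∘ Sum.inr)
    set z₀ : φ → ℤ := fun l => ⌊x (Sum.inl (Sum.inl l)) / ε⌋ with hz₀
    obtain ⟨y', hy', sel, -, hprod⟩ := hmain p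
      ((fun c => x (Sum.inl (Sum.inr c)) / H + 1 / 2) + comb a₀ Vv + comb z₀ W)
    simp only [hint] at hprod
    have hhit : ∃ a, fr (y' + comb a Vv + comb (sel a) W) ∈ SS p a (sel a) := by
      by_contra hcon
      push Not at hcon
      simp only [indicator_of_notMem (hcon _), sub_zero, Finset.prod_const_one] at hprod
      have h1 := htot p
      have h2 := Real.one_le_exp_iff.1 hprod
      nlinarith
    obtain ⟨a, ha⟩ := hhit
    refine ⟨Sum.elim (Sum.elim (sel a + z₀) fun c => ⌊(y' + comb a Vv + comb (sel a) W) c⌋)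
      (a + a₀), ?_⟩
    rw [covM_resid S.B (ε := ε) hH0.ne' Vv W x a₀ a z₀ (sel a) _ y' (rep p) rfl]
    have h1 := hK.dil_add' hn (t := 1 + ε * n ^ 5) (l := 1 / n - ε * n ^ 5) (e := ε)
      (by positivity) (by linarith) (by linarith) ha
      (elim_mem_box (elim_mem_box (x := fun l => x (Sum.inl (Sum.inl l)) - ε * z₀ l)
        (y := H • ((fun c => x (Sum.inl (Sum.inr c)) / H + 1 / 2) + comb a₀ Vv + comb z₀ W - y'))
        (fun l => ?_) fun c => ?_) hp)
    · have e : 1 + ε * n ^ 5 + (1 / n - ε * n ^ 5) = 1 + 1 / (n : ℝ) := by ring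
      rw [e] at h1
      exact h1
    · have h1 := Int.floor_le (x (Sum.inl (Sum.inl l)) / ε)
      have h2 := Int.lt_floor_add_one (x (Sum.inl (Sum.inl l)) / ε)
      rw [le_div_iff₀ hε] at h1
      rw [div_lt_iff₀ hε] at h2
      simp only [hz₀]
      rw [abs_le]; constructor <;> nlinarith
    · rw [Pi.smul_apply, smul_eq_mul, abs_mul, abs_of_pos hH0]
      exact le_trans (mul_le_mul_of_nonneg_left (hy' c) hH0.le) hHδ

end Vale.Agent.P230.L
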