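import Vale.Agent.P230.L.StageNumAux

/-! Numerical inequalities for the covering lattice with explicit parameters. -/

namespace Vale.Agent.P230.L

open MeasureTheory

theorem gn_vol_box (ι : Type) [Fintype ι] {r : ℝ} (hr : 0 ≤ r) :
    volume (box ι r) = ENNReal.ofReal ((2 * r) ^ Fintype.card ι) := by
  rw [← Real.volume_pi_closedBall 0 hr]
  congr 1
  ext z
  rw [mem_closedBall_zero_iff, pi_norm_le_iff_of_nonneg hr]
  rfl

theorem gn_twenty : (20 : ℝ) ≤ Real.exp 4 := by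
  have h : (27 / 10 : ℝ) ^ 4 ≤ Real.exp 1 ^ 4 :=
    pow_le_pow_left₀ (by norm_num) (by linarith [Real.exp_one_gt_d9]) 4
  rw [Real.exp_one_pow] at h
  push_cast at h
  linarith

variable {x y : ℝ} (hy : 1 ≤ y) (hxy : x = Real.exp y) (hb : 3 * 10 ^ 6 * y ^ 3 ≤ x)

include hy hb in
theorem gn_y2 : 3 * 10 ^ 6 * y ^ 2 ≤ x := by
  have : y ^ 2 ≤ y ^ 3 := pow_le_pow_right₀ hy (by norm_num)
  linarith

include hy hb in
theorem gn_y1 : 3 * 10 ^ 6 * y ≤ x := by
  have : y ^ 1 ≤ y ^ 3 := pow_le_pow_right₀ hy (by norm_num)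
  linarith

include hy hb in
theorem gn_P {a b : ℕ} (hab : a < b) {c : ℝ} (hc : c ≤ 3 * 10 ^ 6) : c * x ^ a ≤ x ^ b := by
  have h := gn_y1 hy hb
  have h0 : 0 < x := by linarith
  calc c * x ^ a ≤ x * x ^ a := mul_le_mul_of_nonneg_right (by linarith) (by positivity)
    _ = x ^ (a + 1) := (pow_succ' x a).symm
    _ ≤ x ^ b := pow_le_pow_right₀ (by linarith) hab

include hxy in
theorem gn_exp (a : ℕ) : x ^ a = Real.exp (a * y) := by rw [Real.exp_nat_mul, hxy]

include hy hb in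
theorem gn_w : 3 * 10 ^ 6 * y ^ 2 ≤ x / y := by
  rw [le_div_iff₀ (by linarith)]
  linarith

include hy hb in
theorem gn_V {R : ℝ} (hR : 10 ^ 8 * y ^ 2 ≤ Real.exp R) (d : ℕ) :
    1600 * x * y * Real.exp (-R) + (1 / 2) ^ d ≤ x / (4000 * y) := by
  have h0 : 0 < y := by linarith
  have h1 := gn_w hy hb
  have h2 : 0 < x := by linarith [gn_y1 hy hb]
  have h3 : Real.exp (-R) ≤ (10 ^ 8 * y ^ 2)⁻¹ := by
    rw [Real.exp_neg]
    exact inv_anti₀ (by positivity) hR
  have h4 := mul_le_mul_of_nonneg_left h3 (show 0 ≤ 1600 * x * y by positivity)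
  have e1 : 1600 * x * y * (10 ^ 8 * y ^ 2)⁻¹ = x / y / 62500 := by
    field_simp
    ring
  have e2 : x / (4000 * y) = x / y / 4000 := by field_simp
  have h5 : (1 / 2 : ℝ) ^ d ≤ 1 := pow_le_one₀ (by norm_num) (by norm_num)
  have h6 : 1 ≤ y ^ 2 := one_le_pow₀ hy
  rw [e2]
  linarith

include hy hxy hb in
theorem gn_n1 {k Lq : ℕ} (hk : (k : ℝ) ≤ y) (hLq : (Lq : ℝ) = k * x ^ 30 + 1) :
    2 * (Real.exp k * (2 * Lq + 1) ^ k) * (k + 1) * 2 ^ k *
      Real.exp (-(1 / 10) * (x / (4000 * y)) / 2) < 1 := by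
  have h0 : 0 < y := by linarith
  have h1 := gn_w hy hb
  have h2 := gn_y1 hy hb
  have h3 : (2 * Lq + 1 : ℝ) ≤ Real.exp ((32 : ℕ) * y) := by
    have a1 := gn_P hy hb (a := 31) (b := 32) (by norm_num) (c := 3) (by norm_num)
    have a2 := gn_P hy hb (a := 0) (b := 31) (by norm_num) (c := 3) (by norm_num)
    have a3 : (k : ℝ) * x ^ 30 ≤ x * x ^ 30 :=
      mul_le_mul_of_nonneg_right (by linarith) (pow_nonneg (by linarith) _)
    rw [← gn_exp hxy, hLq]
    linarith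
  have e : -(1 / 10) * (x / (4000 * y)) / 2 = -(x / y / 80000) := by
    field_simp
    ring
  have h4 : (k : ℝ) * y ≤ y * y := mul_le_mul_of_nonneg_right hk h0.le
  have h5 : 1 * y ≤ y * y := mul_le_mul_of_nonneg_right hy h0.le
  calc 2 * (Real.exp k * (2 * Lq + 1) ^ k) * (k + 1) * 2 ^ k *
        Real.exp (-(1 / 10) * (x / (4000 * y)) / 2)
      ≤ Real.exp 1 * (Real.exp k * Real.exp (k * ((32 : ℕ) * y))) * Real.exp k * Real.exp (k * 1) *
        Real.exp (-(x / y / 80000)) := by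
        rw [e]
        gcongr
        · exact snum_two
        · exact snum_pow_le (by positivity) h3 k
        · exact Real.add_one_le_exp _
        · exact snum_pow_le zero_le_two snum_two k
    _ < 1 := by
      rw [← Real.exp_add, ← Real.exp_add, ← Real.exp_add, ← Real.exp_add, ← Real.exp_add,
        Real.exp_lt_one_iff]
      push_cast
      nlinarith

include hy hxy hb in
theorem gn_n2 {k L ρ d m : ℕ} {q : ℝ} (hk : (k : ℝ) ≤ y) (hL : (L : ℝ) = x ^ 35 + 1)
    (hρ1 : 11 * (x / (4000 * y)) ≤ ρ) (hρ2 : (ρ : ℝ) ≤ 11 * (x / (4000 * y)) + 1)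
    (hd : x / 3 ≤ d) (hm : 2 * x / 3 ≤ m) (hq0 : 0 < q) (hq : 4800 / q ≤ x) :
    Real.exp (7 * (x / (4000 * y))) * ((1 / 2) ^ ρ +
      (ρ + 2) * (x / (4000 * y) / (1600 * x * y / 2 ^ k / 2) * (2 * L + 1) ^ ρ) * (1 / 2) ^ d +
        8 * ((x / (4000 * y) / (1600 * x * y / 2 ^ k / 2)) ^ 3 * ((9 / 10) ^ m *
          (3 * 20 ^ k * (1600 * x * y) * Real.exp k / q) ^ 3))) ≤ 1 := by
  have h0 : 0 < y := by linarith
  have h1 := gn_w hy hb
  have h2 := gn_y1 hy hb
  have hx0 : 0 < x := by linarith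
  have h6 : 1 ≤ y ^ 2 := one_le_pow₀ hy
  have hW : x / (4000 * y) / (1600 * x * y / 2 ^ k / 2) ≤ Real.exp y := by
    have e : x / (4000 * y) / (1600 * x * y / 2 ^ k / 2) = 2 ^ k / (3200000 * y ^ 2) := by
      field_simp
      ring
    have a1 := snum_pow_le zero_le_two snum_two k
    rw [mul_one] at a1
    rw [e]
    exact (div_le_self (by positivity) (by linarith)).trans (a1.trans (Real.exp_le_exp.2 hk))
  have hW0 : 0 ≤ x / (4000 * y) / (1600 * x * y / 2 ^ k / 2) := by positivity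
  generalize x / (4000 * y) / (1600 * x * y / 2 ^ k / 2) = W at hW hW0
  have hZ : 3 * 20 ^ k * (1600 * x * y) * Real.exp k / q ≤ Real.exp (8 * y) :=
    calc 3 * 20 ^ k * (1600 * x * y) * Real.exp k / q
        = 4800 / q * x * y * 20 ^ k * Real.exp k := by ring
      _ ≤ x * x * x * Real.exp (k * 4) * Real.exp k := by
          gcongr
          · linarith
          · exact snum_pow_le (by norm_num) gn_twenty k
      _ ≤ _ := by
          rw [hxy, ← Real.exp_add, ← Real.exp_add, ← Real.exp_add, ← Real.exp_add, Real.exp_le_exp]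
          linarith
  have hZ0 : 0 ≤ 3 * 20 ^ k * (1600 * x * y) * Real.exp k / q := by positivity
  generalize 3 * 20 ^ k * (1600 * x * y) * Real.exp k / q = Z at hZ hZ0
  have hV1 : x / (4000 * y) * y = x / 4000 := by field_simp
  have hV2 : x / (4000 * y) = x / y / 4000 := by field_simp
  have hV3 : x / (4000 * y) ≤ x / 4000 := div_le_div_of_nonneg_left hx0.le (by norm_num) (by linarith)
  have hV4 : 750 ≤ x / (4000 * y) := by rw [hV2]; linarith
  have hρ3 := mul_le_mul_of_nonneg_right hρ2 h0.le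
  rw [add_mul, mul_assoc, hV1] at hρ3
  generalize x / (4000 * y) = V at hρ1 hρ2 hV3 hV4
  have a5 : (2 * L + 1 : ℝ) ≤ Real.exp ((36 : ℕ) * y) := by
    have b1 := gn_P hy hb (a := 35) (b := 36) (by norm_num) (c := 3) (by norm_num)
    have b2 := gn_P hy hb (a := 0) (b := 35) (by norm_num) (c := 3) (by norm_num)
    rw [← gn_exp hxy, hL]
    linarith
  have a6 : (8 : ℝ) ≤ Real.exp (3 : ℕ) := by
    have := snum_pow_le zero_le_two snum_two 3
    rw [mul_one] at this
    linarith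
  have t1 : Real.exp (7 * V) * (1 / 2) ^ ρ ≤ 1 / 3 := by
    refine (mul_le_mul_of_nonneg_left (snum_pow_le (by norm_num) snum_half ρ)
      (Real.exp_pos _).le).trans ?_
    rw [← Real.exp_add]
    exact snum_third (by linarith)
  have t2 : Real.exp (7 * V) * ((ρ + 2) * (W * (2 * L + 1) ^ ρ) * (1 / 2) ^ d) ≤ 1 / 3 :=
    calc Real.exp (7 * V) * ((ρ + 2) * (W * (2 * L + 1) ^ ρ) * (1 / 2) ^ d)
        ≤ Real.exp (7 * V) * (Real.exp y * (Real.exp y *
          Real.exp (ρ * ((36 : ℕ) * y))) * Real.exp (d * -(69 / 100))) := by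
          gcongr
          · rw [← hxy]
            linarith
          · exact snum_pow_le (by positivity) a5 ρ
          · exact snum_pow_le (by norm_num) snum_half d
      _ ≤ 1 / 3 := by
        rw [← Real.exp_add, ← Real.exp_add, ← Real.exp_add, ← Real.exp_add]
        refine snum_third ?_
        push_cast
        linarith
  have t3 : Real.exp (7 * V) * (8 * (W ^ 3 * ((9 / 10) ^ m * Z ^ 3))) ≤ 1 / 3 :=
    calc Real.exp (7 * V) * (8 * (W ^ 3 * ((9 / 10) ^ m * Z ^ 3)))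
        ≤ Real.exp (7 * V) * (Real.exp (3 : ℕ) * (Real.exp ((3 : ℕ) * y) *
          (Real.exp (m * -(1 / 10)) * Real.exp ((3 : ℕ) * (8 * y))))) := by
          gcongr
          · exact snum_pow_le hW0 hW 3
          · exact snum_pow_le (by norm_num) snum_nine m
          · exact snum_pow_le hZ0 hZ 3
      _ ≤ 1 / 3 := by
        rw [← Real.exp_add, ← Real.exp_add, ← Real.exp_add, ← Real.exp_add]
        refine snum_third ?_
        push_cast
        linarith
  rw [mul_add, mul_add]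
  linarith

include hy hxy hb in
theorem gn_n3 {d : ℕ} (hd : (d : ℝ) ≤ x / 2) :
    Real.exp (-(1600 * x * y) / 20) < (1 / x ^ 141) ^ d := by
  have h0 : 0 < y := by linarith
  have h2 : 0 < x := by linarith [gn_y1 hy hb]
  have h3 := mul_le_mul_of_nonneg_right hd h0.le
  have h4 := mul_pos h2 h0
  rw [one_div, inv_pow, ← pow_mul, gn_exp hxy (141 * d), ← Real.exp_neg, Real.exp_lt_exp]
  push_cast
  linarith

include hy hxy hb in
theorem gn_lo {n f d k : ℕ} {q D v P : ℝ} (hn : (n : ℝ) = x) (hf : x / 3 ≤ f)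
    (hd : (d : ℝ) ≤ x / 2) (hk : (k : ℝ) ≤ y) (hq0 : 0 < q) (hq : 1600 / q ≤ x) (hD0 : 0 ≤ D)
    (hD : D ≤ Real.exp k) (hv : (2 * (1 / x ^ 5)) ^ n ≤ v) (hP0 : 0 ≤ P)
    (hP : 1600 * x * y * ((1 / x ^ 30) ^ f * P * D) = q * v) : (16 * x ^ 5) ^ d < P := by
  have h0 : 0 < y := by linarith
  have h2 := gn_y1 hy hb
  have hx0 : 0 < x := by linarith
  by_contra hcon
  have a1 : 16 * x ^ 5 ≤ Real.exp ((6 : ℕ) * y) := by
    rw [← gn_exp hxy]
    exact gn_P hy hb (by norm_num) (by norm_num)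
  have a2 := (not_lt.1 hcon).trans (snum_pow_le (by positivity) a1 d)
  have a3 : (1 / x ^ 30) ^ f = Real.exp (-(((30 * f : ℕ) : ℝ) * y)) := by
    rw [one_div, inv_pow, ← pow_mul, gn_exp hxy, ← Real.exp_neg]
  have a4 : Real.exp (-(((5 * n : ℕ) : ℝ) * y)) ≤ v := by
    refine le_trans ?_ hv
    rw [Real.exp_neg, ← gn_exp hxy, pow_mul, ← inv_pow, ← one_div]
    exact pow_le_pow_left₀ (by positivity) (le_mul_of_one_le_left (by positivity) one_le_two) n
  rw [div_le_iff₀ hq0] at hq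
  have a5 : q * Real.exp (-(((5 * n : ℕ) : ℝ) * y)) ≤ q * (x * x * x *
      (Real.exp (-(((30 * f : ℕ) : ℝ) * y)) * Real.exp (d * ((6 : ℕ) * y)) * Real.exp k)) :=
    calc q * Real.exp (-(((5 * n : ℕ) : ℝ) * y)) ≤ q * v := mul_le_mul_of_nonneg_left a4 hq0.le
      _ = 1600 * x * y * ((1 / x ^ 30) ^ f * P * D) := hP.symm
      _ ≤ x * q * x * x * (Real.exp (-(((30 * f : ℕ) : ℝ) * y)) *
          Real.exp (d * ((6 : ℕ) * y)) * Real.exp k) := by
          rw [a3]
          gcongr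
          linarith
      _ = _ := by ring
  have a6 := le_of_mul_le_mul_left a5 hq0
  rw [hxy, ← Real.exp_add, ← Real.exp_add, ← Real.exp_add, ← Real.exp_add, ← Real.exp_add,
    Real.exp_le_exp] at a6
  push_cast at a6
  rw [hn] at a6
  have a7 := mul_le_mul_of_nonneg_right hf h0.le
  have a8 := mul_le_mul_of_nonneg_right hd h0.le
  have a9 := mul_le_mul_of_nonneg_right (show 3 ≤ x by linarith) h0.le
  linarith

include hy hxy hb in
theorem gn_hi {n f d k : ℕ} {c c₁ D v P : ℝ} (hn : (n : ℝ) = x) (hf : (f : ℝ) ≤ x)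
    (hd : x / 3 ≤ d) (hk : (k : ℝ) ≤ y) (hc : 0 < c) (hc₁ : c₁ ≤ x) (hD : c / 2 ^ k ≤ D)
    (hv0 : 0 ≤ v) (hv : v ≤ (2 * x ^ 5) ^ n) (hP0 : 0 ≤ P)
    (hP : 1600 * x * y * ((1 / x ^ 30) ^ f * P * D) = c * c₁ * v) : P ≤ (x ^ 111) ^ d := by
  have h0 : 0 < y := by linarith
  have h2 := gn_y1 hy hb
  have hx0 : 0 < x := by linarith
  have a1 : 2 * x ^ 5 ≤ Real.exp ((6 : ℕ) * y) := by
    rw [← gn_exp hxy]
    exact gn_P hy hb (by norm_num) (by norm_num)
  have a2 := hv.trans (snum_pow_le (by positivity) a1 n)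
  have a3 : (1 / x ^ 30) ^ f = Real.exp (-(((30 * f : ℕ) : ℝ) * y)) := by
    rw [one_div, inv_pow, ← pow_mul, gn_exp hxy, ← Real.exp_neg]
  have a4 : c * Real.exp (-(k * 1)) ≤ D := by
    refine le_trans ?_ hD
    rw [Real.exp_neg, ← div_eq_mul_inv]
    exact div_le_div_of_nonneg_left hc.le (by positivity) (snum_pow_le zero_le_two snum_two k)
  have a5 : c * (P * (Real.exp (-(((30 * f : ℕ) : ℝ) * y)) * Real.exp (-(k * 1)))) ≤
      c * (x * Real.exp (n * ((6 : ℕ) * y))) :=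
    calc c * (P * (Real.exp (-(((30 * f : ℕ) : ℝ) * y)) * Real.exp (-(k * 1))))
        = 1 * (Real.exp (-(((30 * f : ℕ) : ℝ) * y)) * P * (c * Real.exp (-(k * 1)))) := by ring
      _ ≤ 1600 * x * y * ((1 / x ^ 30) ^ f * P * D) := by
          rw [a3]
          gcongr
          nlinarith
      _ = c * (c₁ * v) := by rw [hP, mul_assoc]
      _ ≤ _ := by gcongr
  have a6 := le_of_mul_le_mul_left a5 hc
  rw [← le_div_iff₀ (by positivity)] at a6
  refine a6.trans ?_
  rw [← pow_mul, gn_exp hxy, hxy, ← Real.exp_add, ← Real.exp_add, ← Real.exp_sub, Real.exp_le_exp]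
  push_cast
  rw [hn]
  have a7 := mul_le_mul_of_nonneg_right hf h0.le
  have a8 := mul_le_mul_of_nonneg_right hd h0.le
  have a9 := mul_le_mul_of_nonneg_right (show 3 ≤ x by linarith) h0.le
  linarith

theorem gn_large (A : ℝ) : ∃ n₀ : ℕ, ∀ n : ℕ, n₀ ≤ n → A ≤ n ∧ 1 ≤ Real.log n ∧
    3 * 10 ^ 6 * Real.log n ^ 3 ≤ n := by
  have h1 := (Real.isLittleO_pow_log_id_atTop (n := 3)).bound
    (show (0 : ℝ) < 1 / (3 * 10 ^ 6) by norm_num)
  have h2 := (tendsto_natCast_atTop_atTop (R := ℝ)).eventually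
    ((Filter.eventually_ge_atTop A).and ((Real.tendsto_log_atTop.eventually_ge_atTop 1).and h1))
  obtain ⟨n₀, h⟩ := Filter.eventually_atTop.1 h2
  refine ⟨n₀, fun n hn => ⟨(h n hn).1, (h n hn).2.1, ?_⟩⟩
  have h3 := (h n hn).2.2
  rw [id, Real.norm_of_nonneg (Nat.cast_nonneg n)] at h3
  have h4 := (le_abs_self _).trans h3
  linarith

end Vale.Agent.P230.L
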