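import Vale.Agent.P230.L.Defs

/-! Normal typical sets, the marker gadget and the fine gadget.

typ_mass: Chebyshev for the sum of squares under gaussV (variance_sum_pi; any bound
Var (x^2) <= 100 will do, e.g. x^4 <= 24 (exp x + exp (-x))).
gadM: S = {x | H . (x - half) in typ m s}, omega = indicator S (H^m phiV (H . (x - half))).
On typ all |X i| <= A and phiV X = (2 pi)^(-m/2) exp (-sum X^2 / 2).
gadF: Tf = {z in boxZ L | eps . cst z in typ m s}, omega z = eps^m phiV (eps . cst z).  For r in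
box eps the sums of squares of r - eps z (or eps z + r) and eps z differ by at most
zeta = m (2 A eps + eps^2) <= eta.  Compare omega z with the normal mass of the cell
eps z + [0, eps)^m: the cells are disjoint, and those of Tf cover typ m (s - zeta). -/

namespace Vale.Agent.P230.L

open MeasureTheory ProbabilityTheory Set
open scoped ENNReal

theorem phi_pos (x : ℝ) : 0 < phi x := by unfold phi; positivity

theorem phiV_pos {ι : Type} [Fintype ι] (x : ι → ℝ) : 0 < phiV x :=
  Finset.prod_pos fun _ _ => phi_pos _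

theorem continuous_phi : Continuous phi := by unfold phi; fun_prop

theorem continuous_phiV {ι : Type} [Fintype ι] : Continuous (phiV (ι := ι)) := by
  unfold phiV
  exact continuous_finsetProd _ fun i _ => continuous_phi.comp (continuous_apply i)

theorem phi_eq (x : ℝ) : phi x = Real.exp (-x ^ 2 / 2 - Real.log (2 * Real.pi) / 2) := by
  have h : √(2 * Real.pi) = Real.exp (Real.log (2 * Real.pi) / 2) := by
    rw [Real.sqrt_eq_rpow, Real.rpow_def_of_pos (by positivity), mul_one_div]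
  rw [phi, h, Real.exp_sub]

theorem log_two_pi_nonneg : 0 ≤ Real.log (2 * Real.pi) :=
  Real.log_nonneg (by linarith [Real.pi_gt_three])

theorem phiV_eq {ι : Type} [Fintype ι] (x : ι → ℝ) : phiV x =
    Real.exp (-(∑ i, x i ^ 2) / 2 - Fintype.card ι * (Real.log (2 * Real.pi) / 2)) := by
  unfold phiV
  simp only [phi_eq]
  rw [← Real.exp_sum, Finset.sum_sub_distrib, Finset.sum_const, Finset.card_univ, nsmul_eq_mul,
    ← Finset.sum_div, Finset.sum_neg_distrib]

theorem phiV_le_one {ι : Type} [Fintype ι] (x : ι → ℝ) : phiV x ≤ 1 := by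
  rw [phiV_eq, Real.exp_le_one_iff]
  have h1 : 0 ≤ ∑ i, x i ^ 2 := by positivity
  have h2 : 0 ≤ (Fintype.card ι : ℝ) * (Real.log (2 * Real.pi) / 2) :=
    mul_nonneg (Nat.cast_nonneg _) (by linarith [log_two_pi_nonneg])
  linarith

theorem sumsq_pert {ι : Type} [Fintype ι] {A d : ℝ} {x e : ι → ℝ} (hx : x ∈ box ι A)
    (he : e ∈ box ι d) :
    |∑ i, (x + e) i ^ 2 - ∑ i, x i ^ 2| ≤ Fintype.card ι * (2 * A * d + d ^ 2) := by
  rw [← Finset.sum_sub_distrib, ← Finset.card_univ, ← nsmul_eq_mul, ← Finset.sum_const]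
  refine (Finset.abs_sum_le_sum_abs _ _).trans (Finset.sum_le_sum fun i _ => ?_)
  have h1 : (x + e) i ^ 2 - x i ^ 2 = 2 * (x i * e i) + e i ^ 2 := by
    rw [Pi.add_apply]; ring
  have h2 : |x i * e i| ≤ A * d := by
    rw [abs_mul]
    exact mul_le_mul (hx i) (he i) (abs_nonneg _) ((abs_nonneg _).trans (hx i))
  have h3 : e i ^ 2 ≤ d ^ 2 := by
    rw [← sq_abs]
    exact pow_le_pow_left₀ (abs_nonneg _) (he i) 2
  rw [h1, abs_le]
  have := abs_le.1 h2
  constructor <;> nlinarith [sq_nonneg (e i)]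

theorem phiV_pert' {ι : Type} [Fintype ι] {A d : ℝ} {x e : ι → ℝ} (hx : x ∈ box ι A)
    (he : e ∈ box ι d) :
    Real.exp (-(Fintype.card ι * (2 * A * d + d ^ 2)) / 2) * phiV (x + e) ≤ phiV x := by
  rw [phiV_eq, phiV_eq, ← Real.exp_add, Real.exp_le_exp]
  have := abs_le.1 (sumsq_pert hx he)
  linarith [this.1]

theorem phiV_neg {ι : Type} [Fintype ι] (x : ι → ℝ) : phiV (-x) = phiV x := by
  simp only [phiV_eq, Pi.neg_apply, neg_sq]

theorem phiV_pert {ι : Type} [Fintype ι] {A d : ℝ} {x e : ι → ℝ} (hx : x ∈ box ι A)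
    (he : e ∈ box ι d) :
    Real.exp (-(Fintype.card ι * (2 * A * d + d ^ 2)) / 2) * phiV x ≤ phiV (x + e) := by
  rw [phiV_eq, phiV_eq, ← Real.exp_add, Real.exp_le_exp]
  have := abs_le.1 (sumsq_pert hx he)
  linarith [this.2]

theorem phi_eq_pdf : phi = gaussianPDFReal 0 1 := by
  funext x
  simp [phi, gaussianPDFReal, div_eq_inv_mul]

theorem integrable_phi : Integrable phi := by
  rw [phi_eq_pdf]; exact integrable_gaussianPDFReal 0 1

theorem integrable_phiV {ι : Type} [Fintype ι] : Integrable (phiV (ι := ι)) := by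
  rw [volume_pi]
  exact Integrable.fintype_prod (f := fun _ : ι => phi) fun _ => integrable_phi

theorem gaussV_eq (ι : Type) [Fintype ι] :
    gaussV ι = volume.withDensity fun x => ENNReal.ofReal (phiV x) := by
  refine Measure.pi_eq fun s hs => ?_
  rw [withDensity_apply _ (MeasurableSet.univ_pi hs), ← ofReal_integral_eq_lintegral_ofReal
    integrable_phiV.restrict (ae_of_all _ fun x => (phiV_pos x).le), volume_pi,
    Measure.restrict_pi_pi]
  unfold phiV
  rw [integral_fintype_prod_eq_prod (fun _ : ι => phi), ENNReal.ofReal_prod_of_nonneg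
    fun i _ => integral_nonneg fun x => (phi_pos x).le]
  refine Finset.prod_congr rfl fun i _ => ?_
  rw [gaussianReal_apply_eq_integral _ one_ne_zero, phi_eq_pdf]

theorem gaussV_real_eq {ι : Type} [Fintype ι] {s : Set (ι → ℝ)} (hs : MeasurableSet s) :
    (gaussV ι).real s = ∫ x in s, phiV x := by
  rw [gaussV_eq, measureReal_def, withDensity_apply _ hs, ← ofReal_integral_eq_lintegral_ofReal
    integrable_phiV.restrict (ae_of_all _ fun x => (phiV_pos x).le), ENNReal.toReal_ofReal
    (integral_nonneg fun x => (phiV_pos x).le)]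

theorem fourth_le (x : ℝ) : x ^ 4 ≤ 24 * (Real.exp (1 * x) + Real.exp (-1 * x)) := by
  have h := Real.pow_div_factorial_le_exp |x| (abs_nonneg x) 4
  have h4 : |x| ^ 4 = x ^ 4 := by
    rw [show (4 : ℕ) = 2 * 2 from rfl, pow_mul, sq_abs, ← pow_mul]
  rw [h4, show ((Nat.factorial 4 : ℕ) : ℝ) = 24 by norm_num [Nat.factorial]] at h
  have h1 := Real.exp_pos (1 * x)
  have h2 := Real.exp_pos (-1 * x)
  rcases abs_cases x with ⟨h3, -⟩ | ⟨h3, -⟩
  · rw [h3] at h
    rw [one_mul] at h1 ⊢
    linarith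
  · rw [h3] at h
    rw [neg_one_mul] at h2 ⊢
    linarith

theorem integrable_fourth : Integrable (fun x : ℝ => x ^ 4) (gaussianReal 0 1) := by
  refine Integrable.mono' (((integrable_exp_mul_gaussianReal 1).add
    (integrable_exp_mul_gaussianReal (-1))).const_mul 24) (by fun_prop) (ae_of_all _ fun x => ?_)
  rw [Real.norm_of_nonneg (by positivity)]
  exact fourth_le x

theorem gauss_fourth : ∫ x, x ^ 4 ∂(gaussianReal 0 1) ≤ 100 := by
  have h1 : ∀ t : ℝ, ∫ x, Real.exp (t * x) ∂(gaussianReal 0 1) = Real.exp (t ^ 2 / 2) := by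
    intro t
    have := congrFun (mgf_fun_id_gaussianReal (μ := 0) (v := 1)) t
    simpa [mgf] using this
  have h2 : Real.exp (1 / 2) ≤ 2 := by
    have h := Real.exp_one_lt_d9
    have h3 : Real.exp (1 / 2) * Real.exp (1 / 2) = Real.exp 1 := by
      rw [← Real.exp_add]; norm_num
    nlinarith [Real.exp_pos (1 / 2)]
  have h3 := integral_mono integrable_fourth (((integrable_exp_mul_gaussianReal 1).add
    (integrable_exp_mul_gaussianReal (-1))).const_mul 24) fourth_le
  refine h3.trans ?_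
  simp only [Pi.add_apply]
  rw [integral_const_mul, integral_add (integrable_exp_mul_gaussianReal 1)
    (integrable_exp_mul_gaussianReal (-1)), h1, h1]
  norm_num
  linarith

theorem measurableSet_typ (m : ℕ) (s : ℝ) : MeasurableSet (typ m s) := by
  unfold typ
  exact measurableSet_le (by fun_prop) measurable_const

theorem cheb_sum (m : ℕ) {Y : ℝ → ℝ} (hY : Measurable Y) (h2 : MemLp Y 2 (gaussianReal 0 1))
    {v s : ℝ} (hv : Var[Y; gaussianReal 0 1] ≤ v) (hs : 0 < s) :
    (gaussV (Fin m)).real {x | s ≤ |∑ i, Y (x i) - m * ∫ t, Y t ∂(gaussianReal 0 1)|} ≤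
      v * m / s ^ 2 := by
  have hmem : ∀ i : Fin m, MemLp (fun x : Fin m → ℝ => Y (x i)) 2 (gaussV (Fin m)) := fun i =>
    h2.comp_measurePreserving (measurePreserving_eval (fun _ : Fin m => gaussianReal 0 1) i)
  have hsum : (∑ i : Fin m, fun x : Fin m → ℝ => Y (x i)) = fun x => ∑ i, Y (x i) := by
    funext x; simp
  have hX : MemLp (fun x : Fin m → ℝ => ∑ i, Y (x i)) 2 (gaussV (Fin m)) :=
    memLp_finsetSum _ fun i _ => hmem i
  have hmean : ∫ x, ∑ i, Y (x i) ∂(gaussV (Fin m)) = m * ∫ t, Y t ∂(gaussianReal 0 1) := by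
    rw [integral_finsetSum _ fun i _ => (hmem i).integrable one_le_two]
    have : ∀ i : Fin m, ∫ x, Y (x i) ∂(gaussV (Fin m)) = ∫ t, Y t ∂(gaussianReal 0 1) :=
      fun i => integral_comp_eval (μ := fun _ : Fin m => gaussianReal 0 1) (i := i)
        hY.aestronglyMeasurable
    simp [this]
  have hvar : Var[fun x : Fin m → ℝ => ∑ i, Y (x i); gaussV (Fin m)] ≤ v * m := by
    rw [← hsum, gaussV, variance_sum_pi (X := fun _ : Fin m => Y) fun _ => h2]
    simp only [Finset.sum_const, Finset.card_univ, Fintype.card_fin, nsmul_eq_mul]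
    rw [mul_comm]
    exact mul_le_mul_of_nonneg_right hv (Nat.cast_nonneg _)
  have hc := meas_ge_le_variance_div_sq hX hs
  rw [hmean] at hc
  have hv0 := variance_nonneg (fun x : Fin m → ℝ => ∑ i, Y (x i)) (gaussV (Fin m))
  refine (ENNReal.toReal_le_of_le_ofReal (by positivity) hc).trans ?_
  exact div_le_div_of_nonneg_right hvar (by positivity)

theorem gauss_second : ∫ x, x ^ 2 ∂(gaussianReal 0 1) = 1 := by
  have h := variance_fun_id_gaussianReal (μ := 0) (v := 1)
  rw [variance_eq_integral measurable_id'.aemeasurable] at h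
  simpa using h

theorem memLp_sq : MemLp (fun x : ℝ => x ^ 2) 2 (gaussianReal 0 1) := by
  rw [memLp_two_iff_integrable_sq (by fun_prop)]
  simpa only [← pow_mul] using integrable_fourth

theorem typ_mass (m : ℕ) {s : ℝ} (hs : 0 < s) :
    1 - 100 * m / s ^ 2 ≤ (gaussV (Fin m)).real (typ m s) := by
  have hv : Var[fun x : ℝ => x ^ 2; gaussianReal 0 1] ≤ 100 := by
    refine (variance_le_expectation_sq (by fun_prop)).trans (le_trans (le_of_eq ?_) gauss_fourth)
    refine integral_congr_ae (ae_of_all _ fun x => ?_)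
    simp only [Pi.pow_apply, ← pow_mul]
  have h := cheb_sum m (by fun_prop) memLp_sq hv hs
  rw [gauss_second, mul_one] at h
  have h1 : (gaussV (Fin m)).real (typ m s)ᶜ ≤ 100 * m / s ^ 2 :=
    le_trans (measureReal_mono (fun x (hx : ¬ |∑ i, x i ^ 2 - m| ≤ s) => (not_le.1 hx).le)
      (measure_ne_top _ _)) h
  rw [measureReal_compl (measurableSet_typ m s), probReal_univ] at h1
  linarith

theorem mem_typ {m : ℕ} {s : ℝ} {x : Fin m → ℝ} : x ∈ typ m s ↔ |∑ i, x i ^ 2 - m| ≤ s := Iff.rfl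

theorem typ_box {m : ℕ} {s A : ℝ} (hA0 : 0 < A) (hA : m + s ≤ A ^ 2) {x : Fin m → ℝ}
    (hx : x ∈ typ m s) : x ∈ box (Fin m) A := by
  intro i
  have h1 : x i ^ 2 ≤ ∑ j, x j ^ 2 :=
    Finset.single_le_sum (f := fun j => x j ^ 2) (fun j _ => sq_nonneg _) (Finset.mem_univ i)
  have h2 := (abs_le.1 (mem_typ.1 hx)).2
  exact abs_le_of_sq_le_sq' (by linarith) hA0.le |> abs_le.2

theorem typ_phi {m : ℕ} {s H : ℝ} (hH : 0 < H) {x : Fin m → ℝ} (hx : x ∈ typ m s) :
    Real.exp (m * (Real.log H - 1 / 2 - Real.log (2 * Real.pi) / 2) - s / 2) ≤ H ^ m * phiV x ∧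
    H ^ m * phiV x ≤ Real.exp (m * (Real.log H - 1 / 2 - Real.log (2 * Real.pi) / 2) + s / 2) := by
  have h : H ^ m = Real.exp (m * Real.log H) := by rw [Real.exp_nat_mul, Real.exp_log hH]
  have h2 := abs_le.1 (mem_typ.1 hx)
  rw [h, phiV_eq, ← Real.exp_add, Real.exp_le_exp, Real.exp_le_exp, Fintype.card_fin]
  constructor <;> linarith [h2.1, h2.2]

theorem box_addG {ι : Type} {A d : ℝ} {x e : ι → ℝ} (hx : x ∈ box ι A) (he : e ∈ box ι d) :
    x + e ∈ box ι (A + d) := fun i => (abs_add_le _ _).trans (add_le_add (hx i) (he i))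

theorem box_monoG {ι : Type} {A B : ℝ} (h : A ≤ B) : box ι A ⊆ box ι B :=
  fun _ hx i => (hx i).trans h

theorem box_smulG {ι : Type} {H d : ℝ} (hH : 0 ≤ H) {e : ι → ℝ} (he : e ∈ box ι d) :
    H • e ∈ box ι (H * d) := fun i => by
  rw [Pi.smul_apply, smul_eq_mul, abs_mul, abs_of_nonneg hH]
  exact mul_le_mul_of_nonneg_left (he i) hH

theorem integral_rescale {m : ℕ} {H : ℝ} (hH : 0 < H) (c : Fin m → ℝ) (f : (Fin m → ℝ) → ℝ) :
    ∫ x, H ^ m * f (H • (x - c)) = ∫ x, f x := by
  rw [integral_const_mul, integral_sub_right_eq_self (fun x => f (H • x)) c,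
    Measure.integral_comp_smul, Module.finrank_fin_fun, abs_of_pos (by positivity), smul_eq_mul,
    ← mul_assoc, mul_inv_cancel₀ (by positivity), one_mul]

theorem measurableSet_ucubeG (κ : Type) [Fintype κ] : MeasurableSet (ucube κ) :=
  MeasurableSet.univ_pi fun _ => measurableSet_Ico

theorem volume_ucubeG (κ : Type) [Fintype κ] : volume (ucube κ) = 1 := by
  simp [ucube, volume_pi, Measure.pi_pi]

theorem gadM {m : ℕ} {H δ η bx s A : ℝ} (hs : 0 < s) (hA0 : 0 < A) (hA : m + s ≤ A ^ 2)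
    (hH : 8 * A < H) (hδ : 0 ≤ δ) (hη : 100 * m / s ^ 2 ≤ η)
    (hp : m * (2 * A * (H * δ) + (H * δ) ^ 2) ≤ 2 * η) (hb : A + H * δ ≤ bx) :
    Nonempty (GadM m H δ η bx
      (Real.exp (m * (Real.log H - 1 / 2 - Real.log (2 * Real.pi) / 2) - s / 2))
      (Real.exp (m * (Real.log H - 1 / 2 - Real.log (2 * Real.pi) / 2) + s / 2))) := by
  have hH0 : 0 < H := by linarith
  have hf : Measurable fun x : Fin m → ℝ => H • (x - half (Fin m)) := by fun_prop
  set S : Set (Fin m → ℝ) := {x | H • (x - half (Fin m)) ∈ typ m s} with hS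
  have hSm : MeasurableSet S := hf (measurableSet_typ m s)
  set ω : (Fin m → ℝ) → ℝ := fun x => H ^ m * (typ m s).indicator phiV (H • (x - half (Fin m)))
    with hω
  have hω1 : ∀ x ∈ S, ω x = H ^ m * phiV (H • (x - half (Fin m))) := fun x hx => by
    rw [hω]
    dsimp only
    rw [indicator_of_mem (s := typ m s) hx]
  have hω0 : ∀ x, x ∉ S → ω x = 0 := fun x hx => by
    rw [hω]
    dsimp only
    rw [indicator_of_notMem (s := typ m s) hx, mul_zero]
  have hint : ∫ x, ω x = (gaussV (Fin m)).real (typ m s) := by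
    rw [hω, integral_rescale hH0, integral_indicator (measurableSet_typ m s),
      gaussV_real_eq (measurableSet_typ m s)]
  have hwin : ∀ x ∈ S, ∀ c, |x c - 1 / 2| < 1 / 8 := fun x hx c => by
    have h := typ_box hA0 hA hx c
    simp only [Pi.smul_apply, Pi.sub_apply, half, smul_eq_mul, abs_mul, abs_of_pos hH0] at h
    by_contra hc
    nlinarith [not_lt.1 hc]
  have hsub : S ⊆ ucube (Fin m) := fun x hx c _ => by
    have := abs_lt.1 (hwin x hx c)
    constructor <;> linarith [this.1, this.2]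
  have hfin : volume S ≠ ⊤ :=
    ne_top_of_le_ne_top (by rw [volume_ucubeG]; exact ENNReal.one_ne_top) (measure_mono hsub)
  have hmeas : Measurable ω :=
    ((continuous_phiV.measurable.indicator (measurableSet_typ m s)).comp hf).const_mul _
  have hnn : ∀ x, 0 ≤ ω x := fun x =>
    mul_nonneg (by positivity) (indicator_nonneg (fun y _ => (phiV_pos y).le) _)
  have hhi : ∀ x, ω x ≤
      Real.exp (m * (Real.log H - 1 / 2 - Real.log (2 * Real.pi) / 2) + s / 2) := fun x => by
    by_cases hx : x ∈ S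
    · rw [hω1 x hx]; exact (typ_phi hH0 hx).2
    · rw [hω0 x hx]; exact (Real.exp_pos _).le
  refine ⟨⟨ω, S, hmeas, hnn, hSm, hwin, fun x hx => by_contra fun h => hx (hω0 x h), ?_, hhi,
    ?_, ?_⟩⟩
  · have h1 : IntegrableOn ω S :=
      Measure.integrableOn_of_bounded hfin hmeas.aestronglyMeasurable
        (ae_of_all _ fun x => by rw [Real.norm_of_nonneg (hnn x)]; exact hhi x)
    have h2 := setIntegral_mono_on (integrableOn_const hfin) h1 hSm
      fun x hx => (hω1 x hx).symm ▸ (typ_phi hH0 hx).1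
    rw [setIntegral_const, smul_eq_mul, setIntegral_eq_integral_of_forall_compl_eq_zero hω0,
      hint] at h2
    exact h2.trans measureReal_le_one
  · rw [setIntegral_eq_integral_of_forall_compl_eq_zero fun x hx => hω0 x fun h => hx (hsub h),
      hint]
    linarith [typ_mass m hs]
  · intro x hx e he
    have h1 := typ_box hA0 hA hx
    have h2 := box_smulG hH0.le he
    rw [smul_add]
    refine ⟨box_monoG hb (box_addG h1 h2), ?_⟩
    have h3 := phiV_pert h1 h2
    rw [Fintype.card_fin] at h3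
    rw [hω1 x hx, mul_left_comm]
    refine mul_le_mul_of_nonneg_left (le_trans ?_ h3) (by positivity)
    refine mul_le_mul_of_nonneg_right (Real.exp_le_exp.2 ?_) (phiV_pos _).le
    linarith

/-- Cell of the grid. -/
def gcell {m : ℕ} (ε : ℝ) (z : Fin m → ℤ) : Set (Fin m → ℝ) :=
  Set.univ.pi fun i => Ico (ε * z i) (ε * z i + ε)

theorem measurableSet_gcell {m : ℕ} (ε : ℝ) (z : Fin m → ℤ) : MeasurableSet (gcell ε z) :=
  MeasurableSet.univ_pi fun _ => measurableSet_Ico

theorem volume_gcell {m : ℕ} {ε : ℝ} (hε : 0 < ε) (z : Fin m → ℤ) :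
    volume (gcell ε z) = ENNReal.ofReal (ε ^ m) := by
  rw [gcell, Real.volume_pi_Ico, ENNReal.ofReal_pow hε.le]
  simp

theorem floor_of_gcell {m : ℕ} {ε : ℝ} (hε : 0 < ε) {z : Fin m → ℤ} {x : Fin m → ℝ} :
    x ∈ gcell ε z ↔ ∀ i, ⌊x i / ε⌋ = z i := by
  refine ⟨fun h i => ?_, fun h i _ => ?_⟩
  · have := h i (mem_univ i)
    rw [Int.floor_eq_iff, le_div_iff₀ hε, div_lt_iff₀ hε]
    constructor <;> linarith [this.1, this.2]
  · have := h i
    rw [Int.floor_eq_iff, le_div_iff₀ hε, div_lt_iff₀ hε] at this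
    constructor <;> linarith [this.1, this.2]

theorem gcell_box {m : ℕ} {ε : ℝ} {z : Fin m → ℤ} {x : Fin m → ℝ} (h : x ∈ gcell ε z) :
    x - ε • cst z ∈ box (Fin m) ε := fun i => by
  have := h i (mem_univ i)
  simp only [Pi.sub_apply, Pi.smul_apply, cst, smul_eq_mul]
  rw [abs_le]
  constructor <;> linarith [this.1, this.2]

theorem gcell_mass {m : ℕ} {ε A η : ℝ} (hε : 0 < ε) (hp : m * (2 * A * ε + ε ^ 2) ≤ η)
    {z : Fin m → ℤ} (hz : ε • cst z ∈ box (Fin m) A) :
    Real.exp (-η / 2) * (ε ^ m * phiV (ε • cst z)) ≤ (gaussV (Fin m)).real (gcell ε z) ∧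
    Real.exp (-η / 2) * (gaussV (Fin m)).real (gcell ε z) ≤ ε ^ m * phiV (ε • cst z) := by
  have hfin : volume (gcell ε z) ≠ ⊤ := by rw [volume_gcell hε]; exact ENNReal.ofReal_ne_top
  have hvol : volume.real (gcell ε z) = ε ^ m := by
    rw [measureReal_def, volume_gcell hε, ENNReal.toReal_ofReal (by positivity)]
  have hexp : Real.exp (-η / 2) ≤
      Real.exp (-(Fintype.card (Fin m) * (2 * A * ε + ε ^ 2)) / 2) := by
    rw [Fintype.card_fin, Real.exp_le_exp]; linarith
  rw [gaussV_real_eq (measurableSet_gcell ε z)]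
  constructor
  · have h := setIntegral_mono_on (integrableOn_const (C := Real.exp (-η / 2) *
      phiV (ε • cst z)) hfin) integrable_phiV.integrableOn (measurableSet_gcell ε z)
      fun x hx => by
        have h1 := phiV_pert hz (gcell_box hx)
        rw [add_sub_cancel] at h1
        exact (mul_le_mul_of_nonneg_right hexp (phiV_pos _).le).trans h1
    rw [setIntegral_const, smul_eq_mul, hvol] at h
    linarith
  · have h := setIntegral_mono_on (integrable_phiV.const_mul (Real.exp (-η / 2))).integrableOn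
      (integrableOn_const (C := phiV (ε • cst z)) hfin) (measurableSet_gcell ε z)
      fun x hx => by
        have h1 := phiV_pert' hz (gcell_box hx)
        rw [add_sub_cancel] at h1
        exact (mul_le_mul_of_nonneg_right hexp (phiV_pos _).le).trans h1
    rwa [setIntegral_const, smul_eq_mul, hvol, integral_const_mul] at h

theorem gadF {m L : ℕ} {ε η bx s A : ℝ} (hs : 2 ≤ s) (hA0 : 0 < A) (hA : m + s ≤ A ^ 2)
    (hε : 0 < ε) (hη1 : η ≤ 1) (hη : 800 * m / s ^ 2 ≤ η)
    (hp : m * (2 * A * ε + ε ^ 2) ≤ η) (hL : A / ε ≤ L) (hb : A + ε ≤ bx) :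
    Nonempty (GadF m L ε η bx
      (Real.exp (m * (Real.log ε - 1 / 2 - Real.log (2 * Real.pi) / 2) - s / 2))
      (Real.exp (m * (Real.log ε - 1 / 2 - Real.log (2 * Real.pi) / 2) + s / 2))) := by
  classical
  set Tf := (boxZ (Fin m) L).filter fun z => ε • cst z ∈ typ m s with hTf
  have hT : ∀ z ∈ Tf, ε • cst z ∈ typ m s := fun z hz => (Finset.mem_filter.1 hz).2
  have hB : ∀ z ∈ Tf, ε • cst z ∈ box (Fin m) A := fun z hz => typ_box hA0 hA (hT z hz)
  have hη0 : 0 ≤ η := le_trans (by positivity) hη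
  have hexp : 1 - η / 2 ≤ Real.exp (-η / 2) := by linarith [Real.add_one_le_exp (-η / 2)]
  refine ⟨⟨Tf, fun z => ε ^ m * phiV (ε • cst z), ?_,
    fun z => mul_nonneg (by positivity) (phiV_pos _).le, fun z hz => (typ_phi hε (hT z hz)).2,
    ?_, ?_, ?_⟩⟩
  · intro z hz l
    have := Fintype.mem_piFinset.1 (Finset.mem_filter.1 hz).1 l
    exact abs_le.2 (Finset.mem_Icc.1 this)
  · have h1 := Finset.card_nsmul_le_sum Tf (fun z => ε ^ m * phiV (ε • cst z)) _
      fun z hz => (typ_phi hε (hT z hz)).1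
    rw [nsmul_eq_mul] at h1
    refine h1.trans ?_
    have h2 : Real.exp (-η / 2) * ∑ z ∈ Tf, ε ^ m * phiV (ε • cst z) ≤ 1 := by
      rw [Finset.mul_sum]
      refine (Finset.sum_le_sum fun z hz => (gcell_mass hε hp (hB z hz)).1).trans ?_
      rw [← measureReal_biUnion_finset _ fun z _ => measurableSet_gcell ε z]
      · exact measureReal_le_one
      · intro z _ z' _ hne
        refine Set.disjoint_left.2 fun x hx hx' => hne (funext fun i => ?_)
        rw [← (floor_of_gcell hε).1 hx i, (floor_of_gcell hε).1 hx' i]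
    have h3 : 0 ≤ ∑ z ∈ Tf, ε ^ m * phiV (ε • cst z) :=
      Finset.sum_nonneg fun z _ => mul_nonneg (by positivity) (phiV_pos _).le
    nlinarith
  · have hcov : typ m (s - 1) ⊆ ⋃ z ∈ Tf, gcell ε z := by
      intro x hx
      have hxz : x ∈ gcell ε fun i => ⌊x i / ε⌋ := (floor_of_gcell hε).2 fun _ => rfl
      have hxs : x ∈ typ m s := mem_typ.2 ((mem_typ.1 hx).trans (by linarith))
      have h1 : -(x - ε • cst fun i => ⌊x i / ε⌋) ∈ box (Fin m) ε := fun i => by
        rw [Pi.neg_apply, abs_neg]; exact gcell_box hxz i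
      have h2 := abs_le.1 (sumsq_pert (typ_box hA0 hA hxs) h1)
      rw [neg_sub, add_sub_cancel, Fintype.card_fin] at h2
      have h3 := abs_le.1 (mem_typ.1 hx)
      have h4 : (ε • cst fun i => ⌊x i / ε⌋) ∈ typ m s :=
        mem_typ.2 <| abs_le.2 ⟨by linarith [h2.1, h3.1], by linarith [h2.2, h3.2]⟩
      refine mem_biUnion (Finset.mem_coe.2 (Finset.mem_filter.2 ⟨?_, h4⟩)) hxz
      refine Fintype.mem_piFinset.2 fun i => Finset.mem_Icc.2 (abs_le.1 ?_)
      have h5 := typ_box hA0 hA h4 i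
      simp only [Pi.smul_apply, cst, smul_eq_mul, abs_mul, abs_of_pos hε] at h5
      have h6 : |((⌊x i / ε⌋ : ℤ) : ℝ)| ≤ L := by
        refine le_trans ?_ hL
        rw [le_div_iff₀ hε]; linarith
      exact_mod_cast h6
    have h1 := (measureReal_mono (μ := gaussV (Fin m)) hcov (measure_ne_top _ _)).trans
      (measureReal_biUnion_finset_le Tf (gcell ε))
    have h2 : Real.exp (-η / 2) * ∑ z ∈ Tf, (gaussV (Fin m)).real (gcell ε z) ≤
        ∑ z ∈ Tf, ε ^ m * phiV (ε • cst z) := by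
      rw [Finset.mul_sum]
      exact Finset.sum_le_sum fun z hz => (gcell_mass hε hp (hB z hz)).2
    have h3 := typ_mass m (s := s - 1) (by linarith)
    have h4 : 100 * (m : ℝ) / (s - 1) ^ 2 ≤ η / 2 := by
      have : 100 * (m : ℝ) / (s - 1) ^ 2 ≤ 400 * m / s ^ 2 := by
        rw [div_le_div_iff₀ (by nlinarith) (by positivity)]
        have h5 : s ^ 2 ≤ 4 * (s - 1) ^ 2 := by nlinarith
        nlinarith [mul_le_mul_of_nonneg_left h5 (Nat.cast_nonneg (α := ℝ) m)]
      have h6 : 400 * (m : ℝ) / s ^ 2 = 800 * m / s ^ 2 / 2 := by ring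
      linarith
    have h5 : 1 - η / 2 ≤ ∑ z ∈ Tf, (gaussV (Fin m)).real (gcell ε z) := by linarith
    have h6 := mul_le_mul hexp h5 (by linarith) (Real.exp_pos _).le
    nlinarith
  · intro z hz r hr
    have h1 : -(ε • cst z) ∈ box (Fin m) A := fun i => by
      rw [Pi.neg_apply, abs_neg]; exact hB z hz i
    rw [sub_eq_neg_add]
    refine ⟨box_monoG hb (box_addG h1 hr), ?_⟩
    have h3 := phiV_pert h1 hr
    rw [Fintype.card_fin, phiV_neg] at h3
    rw [mul_left_comm]
    refine mul_le_mul_of_nonneg_left (le_trans ?_ h3) (by positivity)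
    refine mul_le_mul_of_nonneg_right (Real.exp_le_exp.2 ?_) (phiV_pos _).le
    linarith

end Vale.Agent.P230.L
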