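import Vale.Agent.P230.L.GCover
import Vale.Agent.P230.L.GadM
import Vale.Agent.P230.L.GNumAux

/-! The covering lattice with explicit parameters.

gnum: apply gcover with eps = 1/n^30, Theta = 1600 n log n, H > 0 defined by hTheta (a real
d-th root), delta = 1/n^141, V = n / (4000 log n), rho = ceil (11 V), L = n^35 + 1,
Lq = k n^30 + 1.  Here n/3 <= d <= n/2, n/3 <= f <= n, (2/n^5)^n <= vol K <= (2 n^5)^n and
c / 2^k <= det B <= exp k <= n (det_ge), 2^k <= n, 20^k <= n^3.  Hence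
(16 n^5)^d <= n^(3n) < H^d <= n^(37 n) <= (n^111)^d for large n.  Finally replace M by
(1 + 1/n)^(-1) M, whose determinant is at least det M / 3, so C = 4800 / (c c1). -/

namespace Vale.Agent.P230.L

open MeasureTheory ProbabilityTheory Set
open scoped ENNReal

theorem Sys.card_le {k : ℕ} {R c : ℝ} (S : Sys k R c) : Fintype.card S.ι ≤ k :=
  (Fintype.card_le_of_injective (fun i => (⟨S.lv i, S.lv_lt i⟩ : Fin k))
    fun _ _ h => S.lv_inj (congrArg Fin.val h)).trans_eq (Fintype.card_fin k)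

theorem Sys.det_ge {k : ℕ} {R c : ℝ} (S : Sys k R c) (hc : 0 ≤ c) : c / 2 ^ k ≤ S.B.det := by
  obtain ⟨j, a₀, h⟩ := S.cover 0
  have h1 : ((S.A j).card : ℝ) ≤ 2 ^ k := by exact_mod_cast S.card_A j
  rw [div_le_iff₀ (by positivity)]
  calc c ≤ c * ∑ a ∈ S.A j, S.w j a := le_mul_of_one_le_right hc (S.sum_w j)
    _ = ∑ a ∈ S.A j, c * S.w j a := Finset.mul_sum _ _ _
    _ ≤ ∑ a ∈ S.A j, S.B.det := Finset.sum_le_sum fun a ha =>
        (h a ha).2.trans (mul_le_of_le_one_right S.det_pos.le (phiV_le_one _))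
    _ = S.B.det * (S.A j).card := by rw [Finset.sum_const, nsmul_eq_mul, mul_comm]
    _ ≤ _ := mul_le_mul_of_nonneg_left h1 S.det_pos.le

theorem gnum (c c₁ : ℝ) (hc : 0 < c) (hc₁ : 0 < c₁) : ∃ (C : ℝ) (n₀ : ℕ), 0 < C ∧ ∀ n, n₀ ≤ n →
    ∀ (k : ℕ) (R : ℝ) (S : Sys k R c), 1 ≤ k → (k : ℝ) ≤ Real.log n →
    10 ^ 8 * Real.log n ^ 2 ≤ Real.exp R → ∀ f d : ℕ, f + d + Fintype.card S.ι = n → d ≤ f →
    f ≤ d + 1 → ∀ K : Set ((Fin f ⊕ Fin d) ⊕ S.ι → ℝ), Nice n c₁ k K →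
    ∃ M : Matrix ((Fin f ⊕ Fin d) ⊕ S.ι) ((Fin f ⊕ Fin d) ⊕ S.ι) ℝ, M.det ≠ 0 ∧
      (∀ x, ∃ z, x - M.mulVec (cst z) ∈ K) ∧
      volume K / ENNReal.ofReal |M.det| ≤ ENNReal.ofReal (C * n * Real.log n) := by
  obtain ⟨n₀, hn₀⟩ := gn_large (1600 / (c * c₁) + c₁ + 4800 / (c * c₁ ^ 2))
  refine ⟨4800 / (c * c₁), n₀, by positivity, fun n hn k R S hk1 hk hR f d hfd hdf hfd' K hK => ?_⟩
  obtain ⟨hA, hy, hb⟩ := hn₀ n hn
  have b1 : 0 < 1600 / (c * c₁) := by positivity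
  have b2 : 0 < 4800 / (c * c₁ ^ 2) := by positivity
  have h2 := gn_y1 hy hb
  have hx0 : (0 : ℝ) < n := by linarith
  have hx1 : (1 : ℝ) ≤ n := by linarith
  have hy0 : 0 < Real.log n := by linarith
  have hxy : (n : ℝ) = Real.exp (Real.log n) := (Real.exp_log hx0).symm
  have c1 : (f : ℝ) + d + Fintype.card S.ι = n := by exact_mod_cast hfd
  have c2 : (d : ℝ) ≤ f := by exact_mod_cast hdf
  have c3 : (f : ℝ) ≤ d + 1 := by exact_mod_cast hfd'
  have c4 : (Fintype.card S.ι : ℝ) ≤ k := by exact_mod_cast S.card_le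
  have c5 : (0 : ℝ) ≤ Fintype.card S.ι := Nat.cast_nonneg _
  have c6 : (n : ℝ) / 3 ≤ d := by linarith
  have hd0 : d ≠ 0 := by
    rintro rfl
    rw [Nat.cast_zero] at c6
    linarith
  have hcard : Fintype.card ((Fin f ⊕ Fin d) ⊕ S.ι) = n := by simp [← hfd]
  have hfin : volume K ≠ ⊤ := hK.compact.measure_lt_top.ne
  have hv1 : (2 * (1 / (n : ℝ) ^ 5)) ^ n ≤ volume.real K := by
    have := measure_mono (μ := volume) hK.inner
    rw [gn_vol_box _ (by positivity), hcard] at this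
    exact (ENNReal.ofReal_le_iff_le_toReal hfin).1 this
  have hv2 : volume.real K ≤ (2 * (n : ℝ) ^ 5) ^ n := by
    have := measure_mono (μ := volume) hK.outer
    rw [gn_vol_box _ (by positivity), hcard] at this
    exact ENNReal.toReal_le_of_le_ofReal (by positivity) this
  have hv0 : 0 < volume.real K := lt_of_lt_of_le (by positivity) hv1
  have hD := S.det_pos
  obtain ⟨H, hH0, hH⟩ : ∃ H : ℝ, 0 < H ∧ 1600 * n * Real.log n *
      ((1 / (n : ℝ) ^ 30) ^ f * H ^ d * S.B.det) = c * c₁ * volume.real K := by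
    refine ⟨(c * c₁ * volume.real K / (1600 * n * Real.log n * ((1 / (n : ℝ) ^ 30) ^ f *
      S.B.det))) ^ (d : ℝ)⁻¹, by positivity, ?_⟩
    rw [Real.rpow_inv_natCast_pow (by positivity) hd0]
    field_simp
  have hH1 : 16 * (n : ℝ) ^ 5 < H := lt_of_pow_lt_pow_left₀ d hH0.le
    (gn_lo hy hxy hb rfl (c6.trans c2) (by linarith) hk (by positivity) (by linarith) hD.le
      S.det_le hv1 (by positivity) hH)
  have hH2 : H ≤ (n : ℝ) ^ 111 := le_of_pow_le_pow_left₀ hd0 (by positivity)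
    (gn_hi hy hxy hb rfl (by linarith) c6 hk hc (by linarith) (S.det_ge hc.le) hv0.le hv2
      (by positivity) hH)
  have hL : ((n ^ 35 + 1 : ℕ) : ℝ) = (n : ℝ) ^ 35 + 1 := by push_cast; rfl
  have hLq : ((k * n ^ 30 + 1 : ℕ) : ℝ) = k * (n : ℝ) ^ 30 + 1 := by push_cast; rfl
  obtain ⟨M, hM, hcov⟩ := gcover (L := n ^ 35 + 1) (Lq := k * n ^ 30 + 1)
    (ρ := ⌈11 * (n / (4000 * Real.log n))⌉₊) (ε := 1 / (n : ℝ) ^ 30) (H := H)
    (δ := 1 / (n : ℝ) ^ 141) (V := n / (4000 * Real.log n)) (Θ := 1600 * n * Real.log n) S K hK hc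
    hc₁ hk1 (by exact_mod_cast hx1) (by simp only [Fintype.card_fin]; omega) (by positivity)
    (by
      have := gn_P hy hb (a := 6) (b := 30) (by norm_num) (c := 5) (by norm_num)
      rw [mul_one_div, div_mul_eq_mul_div, div_le_div_iff₀ (by positivity) hx0]
      linarith)
    hH1 (by positivity) (by simpa only [Fintype.card_fin] using hH)
    (by rw [hL, div_div_eq_mul_div, div_one, ← pow_add])
    (by rw [hLq, div_div_eq_mul_div, div_one]) (by positivity)
    ((div_le_one (by positivity)).2 (one_le_pow₀ hx1))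
    (by
      refine (mul_le_mul_of_nonneg_right hH2 (by positivity)).trans (le_of_eq ?_)
      field_simp)
    (gn_V hy hb hR _) (gn_n1 hy hxy hb hk hLq)
    (by
      simp only [Fintype.card_fin]
      exact gn_n2 hy hxy hb hk hL (Nat.le_ceil _) (Nat.ceil_lt_add_one (by positivity)).le c6
        (by push_cast; linarith) (by positivity) (by linarith))
    (by
      simp only [Fintype.card_fin]
      exact gn_n3 hy hxy hb (by linarith))
  simp only [Fintype.card_fin] at hM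
  have ht : 0 < 1 + 1 / (n : ℝ) := by positivity
  have hM0 : 0 < M.det := by rw [hM]; positivity
  have hdet : ((1 + 1 / (n : ℝ))⁻¹ • M).det = ((1 + 1 / (n : ℝ)) ^ n)⁻¹ * M.det := by
    rw [Matrix.det_smul, hcard, inv_pow]
  have h3 : (1 + 1 / (n : ℝ)) ^ n ≤ 3 := by
    have := snum_pow_le ht.le (show 1 + 1 / (n : ℝ) ≤ Real.exp (1 / n) by
      linarith [Real.add_one_le_exp (1 / (n : ℝ))]) n
    rw [mul_one_div_cancel hx0.ne'] at this
    linarith [Real.exp_one_lt_d9]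
  refine ⟨(1 + 1 / (n : ℝ))⁻¹ • M, by rw [hdet]; positivity, fun x => ?_, ?_⟩
  · obtain ⟨z, w, hw, hz⟩ := hcov ((1 + 1 / (n : ℝ)) • x)
    refine ⟨z, ?_⟩
    have e : x - ((1 + 1 / (n : ℝ))⁻¹ • M).mulVec (cst z) = w := by
      have h4 := congrArg (fun v => (1 + 1 / (n : ℝ))⁻¹ • v) hz
      simp only [smul_sub, inv_smul_smul₀ ht.ne'] at h4
      rw [Matrix.smul_mulVec, h4]
    rwa [e]
  · have h4 : 0 < ((1 + 1 / (n : ℝ)) ^ n)⁻¹ * M.det := by positivity
    rw [hdet, abs_of_pos h4, ← ENNReal.ofReal_toReal hfin, ← ENNReal.ofReal_div_of_pos h4]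
    refine ENNReal.ofReal_le_ofReal ?_
    have e : (volume K).toReal = 1600 * n * Real.log n * M.det / (c * c₁) := by
      rw [hM, hH, measureReal_def]
      field_simp
    have e2 : 1600 * n * Real.log n * M.det / (c * c₁) / (((1 + 1 / (n : ℝ)) ^ n)⁻¹ * M.det) =
        1600 / (c * c₁) * n * Real.log n * (1 + 1 / (n : ℝ)) ^ n := by
      generalize (1 + 1 / (n : ℝ)) ^ n = t
      by_cases ht0 : t = 0
      · simp [ht0]
      · field_simp
    rw [e, e2]
    refine (mul_le_mul_of_nonneg_left h3 (by positivity)).trans (le_of_eq ?_)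
    ring

end Vale.Agent.P230.L
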