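import Vale.Agent.P230.L.GadM
import Vale.Agent.P230.L.Pair

/-! Probabilistic estimates for the two-layer gadget. -/

namespace Vale.Agent.P230.L.GadCAux

open MeasureTheory ProbabilityTheory Set
open scoped ENNReal

/-- minus the logarithm of the folded density -/
noncomputable def Y (h x : ℝ) : ℝ :=
  -Real.log (Real.exp (-x ^ 2 / 2) + Real.exp (-(h - |x|) ^ 2 / 2))

theorem continuous_Y (h : ℝ) : Continuous (Y h) := by
  unfold Y
  exact (Continuous.log (by fun_prop) fun x => by positivity).neg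

theorem Y_ge (h x : ℝ) : -1 ≤ Y h x := by
  have h1 : Real.exp (-x ^ 2 / 2) ≤ 1 := Real.exp_le_one_iff.2 (by nlinarith [sq_nonneg x])
  have h2 : Real.exp (-(h - |x|) ^ 2 / 2) ≤ 1 :=
    Real.exp_le_one_iff.2 (by nlinarith [sq_nonneg (h - |x|)])
  have h3 := Real.log_le_sub_one_of_pos
    (x := Real.exp (-x ^ 2 / 2) + Real.exp (-(h - |x|) ^ 2 / 2)) (by positivity)
  unfold Y
  linarith

theorem Y_le (h x : ℝ) : Y h x ≤ x ^ 2 / 2 := by
  have h1 := Real.log_le_log (Real.exp_pos (-x ^ 2 / 2))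
    (le_add_of_nonneg_right (Real.exp_pos (-(h - |x|) ^ 2 / 2)).le)
  rw [Real.log_exp] at h1
  unfold Y
  linarith

theorem Y_sq_le (h x : ℝ) : Y h x ^ 2 ≤ 1 + x ^ 4 / 4 := by
  have h1 := Y_ge h x
  have h2 := Y_le h x
  rcases le_total (Y h x) 0 with h3 | h3
  · nlinarith [sq_nonneg (x ^ 2)]
  · nlinarith [mul_self_le_mul_self h3 h2]

theorem integrable_pow (k : ℕ) : Integrable (fun x : ℝ => x ^ k) (gaussianReal 0 1) :=
  integrable_pow_of_mem_interior_integrableExpSet (X := fun x : ℝ => x) (by simp) k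

theorem memLp_Y (h : ℝ) : MemLp (Y h) 2 (gaussianReal 0 1) := by
  rw [memLp_two_iff_integrable_sq (continuous_Y h).aestronglyMeasurable]
  refine Integrable.mono' ((integrable_const 1).add ((integrable_pow 4).div_const 4))
    ((continuous_Y h).pow 2).aestronglyMeasurable (Filter.Eventually.of_forall fun x => ?_)
  rw [Real.norm_of_nonneg (sq_nonneg _)]
  exact Y_sq_le h x

theorem integral_Y_sq (h : ℝ) : ∫ x, Y h x ^ 2 ∂(gaussianReal 0 1) ≤ 100 := by
  have h1 := integral_mono (memLp_Y h).integrable_sq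
    ((integrable_const 1).fun_add ((integrable_pow 4).div_const 4)) (Y_sq_le h)
  rw [integral_add (integrable_const 1) ((integrable_pow 4).div_const 4), integral_div] at h1
  simp only [integral_const, probReal_univ, one_smul] at h1
  linarith [gauss_fourth]

theorem integral_Y (h : ℝ) :
    -1 ≤ ∫ x, Y h x ∂(gaussianReal 0 1) ∧ ∫ x, Y h x ∂(gaussianReal 0 1) ≤ 1 / 2 := by
  have hi := (memLp_Y h).integrable one_le_two
  constructor
  · simpa using integral_mono (integrable_const (-1)) hi (Y_ge h)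
  · have h1 := integral_mono hi ((integrable_pow 2).div_const 2) (Y_le h)
    have h2 := variance_fun_id_gaussianReal (μ := 0) (v := 1)
    rw [variance_eq_integral measurable_id'.aemeasurable] at h2
    simp only [integral_id_gaussianReal, sub_zero, NNReal.coe_one] at h2
    rwa [integral_div, h2] at h1

theorem cheb (m : ℕ) {f : ℝ → ℝ} (hf : MemLp f 2 (gaussianReal 0 1)) {c : ℝ} (hc : 0 < c) :
    (gaussV (Fin m)).real {X | c ≤ |∑ i, f (X i) - m * ∫ x, f x ∂(gaussianReal 0 1)|} ≤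
      m * (∫ x, f x ^ 2 ∂(gaussianReal 0 1)) / c ^ 2 := by
  have hi : ∀ i : Fin m, MemLp (fun X : Fin m → ℝ => f (X i)) 2 (gaussV (Fin m)) := fun i =>
    hf.comp_measurePreserving (measurePreserving_eval (fun _ => gaussianReal 0 1) i)
  have h1 := meas_ge_le_variance_div_sq (memLp_finsetSum' Finset.univ fun i _ => hi i) hc
  have h2 : Var[∑ i, fun X : Fin m → ℝ => f (X i); gaussV (Fin m)] ≤
      m * ∫ x, f x ^ 2 ∂(gaussianReal 0 1) := by
    unfold gaussV
    rw [variance_sum_pi fun _ => hf, Finset.sum_const, Finset.card_univ, Fintype.card_fin,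
      nsmul_eq_mul]
    exact mul_le_mul_of_nonneg_left (variance_le_expectation_sq hf.1) (Nat.cast_nonneg m)
  have h3 : ∫ X, (∑ i, fun X : Fin m → ℝ => f (X i)) X ∂(gaussV (Fin m)) =
      m * ∫ x, f x ∂(gaussianReal 0 1) := by
    simp only [Finset.sum_apply]
    rw [integral_finsetSum _ fun i _ => (hi i).integrable one_le_two]
    unfold gaussV
    simp only [integral_comp_eval (μ := fun _ : Fin m => gaussianReal 0 1) hf.1]
    simp
  rw [h3] at h1
  simp only [Finset.sum_apply] at h1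
  refine (ENNReal.toReal_le_of_le_ofReal (div_nonneg (variance_nonneg _ _) (sq_nonneg c)) h1).trans
    (div_le_div_of_nonneg_right h2 (sq_nonneg c))

theorem tail {h : ℝ} (hh : 0 ≤ h) :
    (gaussianReal 0 1).real {x | h ≤ |x|} ≤ 2 * Real.exp (-h ^ 2 / 2) := by
  have h1 := measure_ge_le_exp_mul_mgf (X := fun x : ℝ => x) (μ := gaussianReal 0 1) h hh
    (integrable_exp_mul_gaussianReal h)
  have h2 := measure_le_le_exp_mul_mgf (X := fun x : ℝ => x) (μ := gaussianReal 0 1) (-h)
    (neg_nonpos.2 hh) (integrable_exp_mul_gaussianReal (-h))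
  rw [mgf_fun_id_gaussianReal, ← Real.exp_add] at h1 h2
  have e1 : -h * h + (0 * h + ((1 : NNReal) : ℝ) * h ^ 2 / 2) = -h ^ 2 / 2 := by
    push_cast; ring
  have e2 : - -h * -h + (0 * -h + ((1 : NNReal) : ℝ) * (-h) ^ 2 / 2) = -h ^ 2 / 2 := by
    push_cast; ring
  rw [e1] at h1
  rw [e2] at h2
  have h3 : {x : ℝ | h ≤ |x|} ⊆ {x | h ≤ x} ∪ {x | x ≤ -h} := fun x hx => by
    rcases le_abs.1 (show h ≤ |x| from hx) with h' | h'
    · exact Or.inl h'
    · exact Or.inr (le_neg.1 h')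
  linarith [(measureReal_mono h3).trans (measureReal_union_le (μ := gaussianReal 0 1) _ _)]

theorem tail_pi (m : ℕ) {h : ℝ} (hh : 0 ≤ h) :
    (gaussV (Fin m)).real {X | ∃ i, h ≤ |X i|} ≤ m * (2 * Real.exp (-h ^ 2 / 2)) := by
  rw [Set.ofPred_exists]
  refine (measureReal_iUnion_fintype_le _).trans ?_
  refine (Finset.sum_le_card_nsmul _ _ (2 * Real.exp (-h ^ 2 / 2)) fun i _ => ?_).trans (by simp)
  have h1 := (measurePreserving_eval (fun _ : Fin m => gaussianReal 0 1) i).measureReal_preimage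
    (s := {x | h ≤ |x|}) (measurableSet_le measurable_const continuous_abs.measurable).nullMeasurableSet
  exact h1.le.trans (tail hh)

/-- the number of large coordinates -/
noncomputable def cnt {m : ℕ} (h : ℝ) (X : Fin m → ℝ) : ℕ :=
  (Finset.univ.filter fun i => h / 2 ≤ |X i|).card

theorem cnt_eq {m : ℕ} (h : ℝ) (X : Fin m → ℝ) :
    (cnt h X : ℝ) = ∑ i, {x : ℝ | h / 2 ≤ |x|}.indicator 1 (X i) := by
  rw [cnt, Finset.card_filter]
  push_cast
  refine Finset.sum_congr rfl fun i _ => ?_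
  simp only [indicator_apply, mem_ofPred_eq, Pi.one_apply]

theorem measurable_cnt {m : ℕ} (h : ℝ) : Measurable fun X : Fin m → ℝ => (cnt h X : ℝ) := by
  simp only [cnt_eq]
  exact Finset.measurable_sum _ fun i _ => (measurable_one.indicator
    (measurableSet_le measurable_const continuous_abs.measurable)).comp (measurable_pi_apply i)

theorem cnt_small {m r : ℕ} {h η : ℝ} (hh : 0 < h) (h3 : 2 * r ≤ m * phi (h / 2 + 1))
    (h4 : 12 ≤ η * (m * phi (h / 2 + 1))) :
    (gaussV (Fin m)).real {X | (cnt h X : ℝ) < r} ≤ η / 3 := by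
  have mA : MeasurableSet {x : ℝ | h / 2 ≤ |x|} :=
    measurableSet_le measurable_const continuous_abs.measurable
  set q := (gaussianReal 0 1).real {x : ℝ | h / 2 ≤ |x|} with hq
  have hq1 : phi (h / 2 + 1) ≤ q := by
    have a1 := (gauss_Icc_bounds (r := 1) (a := h / 2) (d := 1) one_pos (by linarith)
      zero_le_one).1
    simp only [div_one, one_mul, one_pow, Real.toNNReal_one] at a1
    exact a1.trans (measureReal_mono fun x hx => hx.1.trans (le_abs_self x))
  have hp := phi_pos (h / 2 + 1)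
  have hm : (0 : ℝ) < m * phi (h / 2 + 1) := by
    rcases (mul_nonneg (Nat.cast_nonneg m) hp.le).eq_or_lt with h0 | h0
    · rw [← h0] at h4; linarith
    · exact h0
  have hmq : m * phi (h / 2 + 1) ≤ m * q := mul_le_mul_of_nonneg_left hq1 (Nat.cast_nonneg m)
  have hη : 0 < η := by
    by_contra h0
    nlinarith [mul_nonneg (neg_nonneg.2 (not_lt.1 h0)) hm.le]
  have h1 := cheb m (f := {x : ℝ | h / 2 ≤ |x|}.indicator 1)
    ((memLp_const 1).indicator mA) (c := m * q / 2) (by linarith)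
  have e : ∀ x, ({x : ℝ | h / 2 ≤ |x|}.indicator (1 : ℝ → ℝ) x) ^ 2 =
      {x : ℝ | h / 2 ≤ |x|}.indicator 1 x := fun x => by
    simp only [indicator_apply, Pi.one_apply]
    split_ifs <;> simp
  simp only [e, integral_indicator_one mA, ← cnt_eq, ← hq] at h1
  refine (measureReal_mono fun X hX => ?_).trans (h1.trans ?_)
  · have : (cnt h X : ℝ) < r := hX
    change m * q / 2 ≤ |(cnt h X : ℝ) - m * q|
    exact le_abs.2 (Or.inr (by linarith))
  · rw [div_le_iff₀ (by nlinarith)]
    nlinarith [mul_le_mul_of_nonneg_left hmq hη.le]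

/-- the typical set -/
def Tc (m r : ℕ) (h s : ℝ) : Set (Fin m → ℝ) :=
  {X | |∑ i, Y h (X i) - m * ∫ x, Y h x ∂(gaussianReal 0 1)| ≤ s ∧ (r : ℝ) ≤ cnt h X}

theorem measurableSet_Tc (m r : ℕ) (h s : ℝ) : MeasurableSet (Tc m r h s) := by
  have := (continuous_Y h).measurable
  have h1 : Measurable fun X : Fin m → ℝ =>
      |∑ i, Y h (X i) - m * ∫ x, Y h x ∂(gaussianReal 0 1)| := by fun_prop
  exact (measurableSet_le h1 measurable_const).inter
    (measurableSet_le measurable_const (measurable_cnt h))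

theorem Tc_mass {m r : ℕ} {h η s : ℝ} (hs : 0 < s) (hh : 0 < h)
    (h1 : 6 * m * Real.exp (-h ^ 2 / 2) ≤ η) (h2 : 300 * m / s ^ 2 ≤ η)
    (h3 : 2 * r ≤ m * phi (h / 2 + 1)) (h4 : 12 ≤ η * (m * phi (h / 2 + 1))) :
    1 - η ≤ (gaussV (Fin m)).real (Tc m r h s ∩ Set.univ.pi fun _ => Ico (-h) h) := by
  have mT := (measurableSet_Tc m r h s).inter
    (MeasurableSet.univ_pi fun _ : Fin m => measurableSet_Ico (a := -h) (b := h))
  have a0 := probReal_compl_eq_one_sub (μ := gaussV (Fin m)) mT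
  have a1 := tail_pi m hh.le
  have a2 := cheb m (memLp_Y h) hs
  have a3 := cnt_small hh h3 h4
  have a4 : m * (∫ x, Y h x ^ 2 ∂(gaussianReal 0 1)) / s ^ 2 ≤ 300 * m / s ^ 2 / 3 := by
    rw [div_right_comm]
    refine div_le_div_of_nonneg_right ?_ (sq_nonneg s)
    linarith [mul_le_mul_of_nonneg_left (integral_Y_sq h) (Nat.cast_nonneg m)]
  have a5 : (Tc m r h s ∩ Set.univ.pi fun _ => Ico (-h) h)ᶜ ⊆ ({X | ∃ i, h ≤ |X i|} ∪
      {X | s ≤ |∑ i, Y h (X i) - m * ∫ x, Y h x ∂(gaussianReal 0 1)|}) ∪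
      {X | (cnt h X : ℝ) < r} := by
    intro X hX
    by_contra hc
    simp only [mem_union, mem_ofPred_eq, not_or, not_exists, not_le, not_lt] at hc
    exact hX ⟨⟨hc.1.2.le, hc.2⟩, fun i _ => ⟨(abs_lt.1 (hc.1.1 i)).1.le, (abs_lt.1 (hc.1.1 i)).2⟩⟩
  have a6 := (measureReal_mono (μ := gaussV (Fin m)) a5).trans ((measureReal_union_le _ _).trans
    (add_le_add_left (measureReal_union_le _ _) _))
  linarith

end Vale.Agent.P230.L.GadCAux
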