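import Vale.Agent.P230.L.CellVar

/-! A matrix for which every small cell carries its share of normal mass.

m = card alpha, k = card beta <= b, d = 1/b^2, t = sigma sqrt m.  On the event that x is in the
shell and |x (inr i)| <= d t for all i (probability >= c3/2 by Chebyshev with cov), the factor
of cellMass_mean is at least (d t / r) phi ((|q i d| + 2 d) t / r) with r = sqrt (hsq x) in
[t, t (1 + 1/b)] (gauss_Icc_ge), so at least d (1 + 1/b)^(-1) phi (|q i d| + 2 d), and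
(1 + 1/b)^k <= e.  So the mean is at least mu q = c3/(2e) d^k prod phi.  By cellMass_sq
(w = m^(1/7)) and Chebyshev the mass is below half its mean with probability at most
4 v / (mu q)^2.  There are at most (2 (b+2) b^2 + 1)^k cells, mu q >= c3/6 exp (-C b^3), so the
union has probability <= 1/2, while P(some |G i a| > n) <= k m / n^2 <= 1/4. -/

namespace Vale.Agent.P230.L

open MeasureTheory ProbabilityTheory Set
open scoped ENNReal

lemma gg_phi_pos (x : ℝ) : 0 < phi x := by unfold phi; positivity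

lemma gg_phi_anti {x y : ℝ} (hx : 0 ≤ x) (hxy : x ≤ y) : phi y ≤ phi x := by
  unfold phi
  refine div_le_div_of_nonneg_right (Real.exp_le_exp.2 ?_) (Real.sqrt_nonneg _)
  nlinarith

lemma gg_cheb {Ω : Type} [MeasurableSpace Ω] (P : Measure Ω) [IsProbabilityMeasure P]
    {X : Ω → ℝ} (hX : MemLp X 2 P) {c : ℝ} (hc : 0 < c) {S : Set Ω}
    (hS : ∀ x ∈ S, c ≤ |X x - ∫ y, X y ∂P|) : P.real S ≤ variance X P / c ^ 2 := by
  have h1 := meas_ge_le_variance_div_sq hX hc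
  refine ENNReal.toReal_le_of_le_ofReal (div_nonneg (variance_nonneg _ _) (sq_nonneg _)) ?_
  exact (measure_mono hS).trans h1

lemma gg_tail {n : ℝ} (hn : 0 < n) : (gaussianReal 0 1).real {x : ℝ | n < |x|} ≤ 1 / n ^ 2 := by
  have h1 := gg_cheb (gaussianReal 0 1) (memLp_id_gaussianReal' 2 (by simp)) hn
    (S := {x : ℝ | n < |x|}) (fun x hx => by
      have h2 : ∫ y, id y ∂gaussianReal 0 1 = 0 := integral_id_gaussianReal
      rw [h2, sub_zero]
      exact le_of_lt hx)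
  rw [variance_id_gaussianReal] at h1
  simpa using h1

lemma gg_entry {α β : Type} [Fintype α] [Fintype β] {n : ℝ} (hn : 0 < n) (i : β) (a : α) :
    (gaussM β α).real {G | n < |G i a|} ≤ 1 / n ^ 2 := by
  have h1 : MeasurePreserving (fun G : β → α → ℝ => G i) (gaussM β α) (gaussV α) :=
    measurePreserving_eval (fun _ => gaussV α) i
  have h2 : MeasurePreserving (fun g : α → ℝ => g a) (gaussV α) (gaussianReal 0 1) :=
    measurePreserving_eval (fun _ => gaussianReal 0 1) a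
  have h3 := (h2.comp h1).measureReal_preimage (s := {x : ℝ | n < |x|})
    (measurableSet_lt measurable_const measurable_abs).nullMeasurableSet
  exact le_of_eq_of_le h3 (gg_tail hn)

lemma gg_box {α β : Type} [Fintype α] [Fintype β] (hm : (0 : ℝ) < Fintype.card α) :
    (gaussM β α).real (⋃ i, ⋃ a, {G : β → α → ℝ |
      (Fintype.card α : ℝ) + Fintype.card β < |G i a|}) ≤ 1 / 4 := by
  have hk : (0 : ℝ) ≤ Fintype.card β := Nat.cast_nonneg _
  have hn : (0 : ℝ) < Fintype.card α + Fintype.card β := by linarith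
  refine (measureReal_iUnion_fintype_le _).trans ?_
  refine (Finset.sum_le_sum fun i _ => (measureReal_iUnion_fintype_le _).trans
    (Finset.sum_le_sum fun a _ => gg_entry hn i a)).trans ?_
  simp only [Finset.sum_const, Finset.card_univ, nsmul_eq_mul]
  rw [← mul_assoc, mul_one_div, div_le_iff₀ (by positivity)]
  nlinarith [sq_nonneg ((Fintype.card α : ℝ) - Fintype.card β)]

lemma gg_low {Ω : Type} [MeasurableSpace Ω] (P : Measure Ω) [IsProbabilityMeasure P]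
    {X : Ω → ℝ} (hX : Measurable X) (h0 : ∀ x, 0 ≤ X x) (h1 : ∀ x, X x ≤ 1) {μ v : ℝ}
    (hμ : 0 < μ) (hm : μ ≤ ∫ x, X x ∂P) (hv : ∫ x, X x ^ 2 ∂P ≤ (∫ x, X x ∂P) ^ 2 + v) :
    P.real {x | X x < μ / 2} ≤ 4 * v / μ ^ 2 := by
  have hL : MemLp X 2 P := memLp_of_bounded (a := 0) (b := 1)
    (Filter.Eventually.of_forall fun x => ⟨h0 x, h1 x⟩) hX.aestronglyMeasurable 2
  have h2 := gg_cheb P hL (c := μ / 2) (by linarith) (S := {x | X x < μ / 2}) fun x hx => by
    have h3 : X x < μ / 2 := hx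
    rw [abs_sub_comm]
    exact le_trans (by linarith) (le_abs_self _)
  have h3 : variance X P ≤ v := by
    rw [variance_eq_sub hL]
    have : ∫ x, (X ^ 2) x ∂P = ∫ x, X x ^ 2 ∂P := rfl
    linarith
  refine h2.trans ?_
  rw [show 4 * v / μ ^ 2 = v / (μ / 2) ^ 2 by field_simp; ring]
  exact div_le_div_of_nonneg_right h3 (sq_nonneg _)

lemma gg_coord {ι : Type} [Fintype ι] {K : Set (ι → ℝ)} (hK : Iso K) (j : ι) {s : ℝ}
    (hs : 0 < s) : (cond volume K).real {x | s < |x j|} ≤ 1 / s ^ 2 := by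
  classical
  have := hK.isProb
  have h1 := mul_meas_ge_le_integral_of_nonneg (μ := cond volume K)
    (f := fun x => x j ^ 2) (Filter.Eventually.of_forall fun x => sq_nonneg _)
    (hK.integrable_of_continuous (by fun_prop)) (s ^ 2)
  have h2 : ∫ x, x j ^ 2 ∂(cond volume K) = 1 := by simpa using hK.cov (Pi.single j 1)
  rw [h2] at h1
  have h3 : (cond volume K).real {x | s < |x j|} ≤ (cond volume K).real {x | s ^ 2 ≤ x j ^ 2} := by
    refine measureReal_mono fun x hx => ?_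
    have h4 : s < |x j| := hx
    show s ^ 2 ≤ x j ^ 2
    rw [← sq_abs (x j)]
    exact pow_le_pow_left₀ hs.le h4.le 2
  rw [le_div_iff₀ (by positivity)]
  nlinarith [sq_nonneg s]

lemma gg_factor {t d u h z ρ : ℝ} (ht : 0 < t) (hd : 0 < d) (hρ : 0 < ρ) (h1 : t ^ 2 ≤ h)
    (h2 : h ≤ (t * ρ) ^ 2) (hz : |z| ≤ d * t) :
    d / ρ * phi (|u| + 2 * d) ≤
      (gaussianReal 0 h.toNNReal).real (Icc (t * u - z) (t * (u + d) - z)) := by
  have hh : 0 ≤ h := (sq_nonneg t).trans h1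
  have hr1 : t ≤ √h := Real.le_sqrt_of_sq_le h1
  have hr2 : √h ≤ t * ρ := Real.sqrt_le_iff.2 ⟨by positivity, h2⟩
  have hr : 0 < √h := ht.trans_le hr1
  have hu : |t * u| = t * |u| := by rw [abs_mul, abs_of_pos ht]
  have hdt : 0 < d * t := mul_pos hd ht
  have ha : |t * u - z| ≤ t * |u| + d * t := (abs_sub _ _).trans (by rw [hu]; linarith)
  have h3 := gauss_Icc_ge (r := √h) (a := t * u - z) (d := d * t) (M := t * (|u| + 2 * d)) hr
    hdt.le (by nlinarith) ((abs_add_le _ _).trans (by rw [abs_of_pos hdt]; nlinarith))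
  rw [Real.sq_sqrt hh, show t * u - z + d * t = t * (u + d) - z by ring] at h3
  refine le_trans (mul_le_mul ?_ ?_ (gg_phi_pos _).le (by positivity)) h3
  · rw [div_le_div_iff₀ hρ hr]
    nlinarith
  · have h4 : 0 ≤ |u| + 2 * d := by positivity
    refine gg_phi_anti (by positivity) ?_
    rw [div_le_iff₀ hr]
    nlinarith

lemma gg_pow_le {b : ℝ} (hb : 1 ≤ b) {k : ℕ} (hk : (k : ℝ) ≤ b) : (1 + 1 / b) ^ k ≤ 3 := by
  have hb0 : 0 < b := by linarith
  have h1 : 1 + 1 / b ≤ Real.exp (1 / b) := by linarith [Real.add_one_le_exp (1 / b)]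
  calc (1 + 1 / b) ^ k ≤ Real.exp (1 / b) ^ k := pow_le_pow_left₀ (by positivity) h1 k
    _ = Real.exp (k * (1 / b)) := (Real.exp_nat_mul _ _).symm
    _ ≤ Real.exp 1 := Real.exp_le_exp.2 (by rw [mul_one_div, div_le_one hb0]; exact hk)
    _ ≤ 3 := Real.exp_one_lt_three.le

lemma gg_mean {α β : Type} [Fintype α] [Fintype β] {K : Set (α ⊕ β → ℝ)} (hK : Iso K)
    {c t d ρ : ℝ} (ht : 0 < t) (hd : 0 < d) (hρ : 0 < ρ) (hρ3 : ρ ^ Fintype.card β ≤ 3)
    (hc : 0 < c) (hP : c ≤ (cond volume K).real {x | t ^ 2 ≤ hsq x ∧ hsq x ≤ (t * ρ) ^ 2})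
    (hk : Fintype.card β * (1 / (d * t) ^ 2) ≤ c / 2) (u : β → ℝ) :
    c / 6 * d ^ Fintype.card β * ∏ i, phi (|u i| + 2 * d) ≤
      ∫ G, cellMass K (fun i x => x (Sum.inr i)) (fun i => t * u i) (fun i => t * (u i + d)) G
        ∂(gaussM β α) := by
  have := hK.isProb
  have hζ : ∀ i : β, Measurable fun x : α ⊕ β → ℝ => x (Sum.inr i) := fun i =>
    measurable_pi_apply _
  rw [cellMass_mean hK hζ]
  have hcont : Continuous (hsq : (α ⊕ β → ℝ) → ℝ) := by
    unfold hsq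
    fun_prop
  set S : Set (α ⊕ β → ℝ) := {x | t ^ 2 ≤ hsq x ∧ hsq x ≤ (t * ρ) ^ 2} with hS
  set B : Set (α ⊕ β → ℝ) := ⋃ i, {x | d * t < |x (Sum.inr i)|} with hB
  have hSm : MeasurableSet S := (measurableSet_le measurable_const hcont.measurable).inter
    (measurableSet_le hcont.measurable measurable_const)
  have hBm : MeasurableSet B := MeasurableSet.iUnion fun i =>
    measurableSet_lt measurable_const (measurable_abs.comp (hζ i))
  have hBP : (cond volume K).real B ≤ c / 2 := by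
    refine (measureReal_iUnion_fintype_le _).trans ?_
    refine (Finset.sum_le_sum fun i _ => gg_coord hK _ (mul_pos hd ht)).trans ?_
    simpa only [Finset.sum_const, Finset.card_univ, nsmul_eq_mul] using hk
  have hE : c / 2 ≤ (cond volume K).real (S \ B) := by
    have h1 := measureReal_inter_add_sdiff (μ := cond volume K) (s := S) hBm
    have h2 : (cond volume K).real (S ∩ B) ≤ (cond volume K).real B :=
      measureReal_mono inter_subset_right
    linarith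
  set A : ℝ := ∏ i, d / ρ * phi (|u i| + 2 * d) with hA
  have hA0 : 0 ≤ A := Finset.prod_nonneg fun i _ => mul_nonneg (by positivity) (gg_phi_pos _).le
  have hA1 : d ^ Fintype.card β * (∏ i, phi (|u i| + 2 * d)) / 3 ≤ A := by
    rw [hA, Finset.prod_mul_distrib, Finset.prod_const, Finset.card_univ, div_pow,
      div_mul_eq_mul_div]
    refine div_le_div_of_nonneg_left ?_ (by positivity) hρ3
    exact mul_nonneg (by positivity) (Finset.prod_nonneg fun i _ => (gg_phi_pos _).le)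
  have hint : ∫ x, (S \ B).indicator (fun _ => A) x ∂(cond volume K) ≤
      ∫ x, ∏ i, (gaussianReal 0 (hsq x).toNNReal).real
        (Icc (t * u i - x (Sum.inr i)) (t * (u i + d) - x (Sum.inr i))) ∂(cond volume K) := by
    refine integral_mono ((integrable_const A).indicator (hSm.diff hBm)) ?_ fun x => ?_
    · refine Integrable.of_bound (measurable_cell_prod hζ _ _).aestronglyMeasurable 1
        (Filter.Eventually.of_forall fun x => ?_)
      rw [Real.norm_of_nonneg (Finset.prod_nonneg fun i _ => measureReal_nonneg)]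
      exact Finset.prod_le_one (fun i _ => measureReal_nonneg) fun i _ => measureReal_le_one
    · by_cases hx : x ∈ S \ B
      · rw [indicator_of_mem hx]
        refine Finset.prod_le_prod (fun i _ => mul_nonneg (by positivity) (gg_phi_pos _).le)
          fun i _ => gg_factor ht hd hρ hx.1.1 hx.1.2 ?_
        by_contra hlt
        exact hx.2 (mem_iUnion.2 ⟨i, not_le.1 hlt⟩)
      · rw [indicator_of_notMem hx]
        exact Finset.prod_nonneg fun i _ => measureReal_nonneg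
  rw [integral_indicator_const _ (hSm.diff hBm), smul_eq_mul] at hint
  refine le_trans ?_ hint
  calc c / 6 * d ^ Fintype.card β * ∏ i, phi (|u i| + 2 * d)
      = c / 2 * (d ^ Fintype.card β * (∏ i, phi (|u i| + 2 * d)) / 3) := by ring
    _ ≤ c / 2 * A := mul_le_mul_of_nonneg_left hA1 (by positivity)
    _ ≤ _ := mul_le_mul_of_nonneg_right hE hA0

lemma gg_le_exp (b : ℝ) : b ≤ Real.exp b := by linarith [Real.add_one_le_exp b]

lemma gg_dphi {b y : ℝ} (hb : 1 ≤ b) (hy0 : 0 ≤ y) (hy : y ≤ b + 2) :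
    Real.exp (-(17 * b ^ 2)) ≤ 1 / b ^ 2 * phi (y + 2 * (1 / b ^ 2)) := by
  have hb0 : 0 < b := by linarith
  have hb2 : 1 ≤ b ^ 2 := by nlinarith
  have hd : 1 / b ^ 2 ≤ 1 := by rw [div_le_one (by positivity)]; exact hb2
  have h1 : phi (5 * b) ≤ phi (y + 2 * (1 / b ^ 2)) := gg_phi_anti (by positivity) (by linarith)
  have h2 : √(2 * Real.pi) ≤ Real.exp 2 := by
    have h3 : √(2 * Real.pi) ≤ 3 :=
      Real.sqrt_le_iff.2 ⟨by norm_num, by linarith [Real.pi_lt_four]⟩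
    linarith [Real.add_one_le_exp 2]
  have h3 : Real.exp (-(15 * b ^ 2)) ≤ phi (5 * b) := by
    unfold phi
    rw [le_div_iff₀ (by positivity)]
    calc Real.exp (-(15 * b ^ 2)) * √(2 * Real.pi) ≤ Real.exp (-(15 * b ^ 2)) * Real.exp 2 :=
          mul_le_mul_of_nonneg_left h2 (Real.exp_pos _).le
      _ = Real.exp (-(15 * b ^ 2) + 2) := (Real.exp_add _ _).symm
      _ ≤ _ := Real.exp_le_exp.2 (by nlinarith)
  have h4 : Real.exp (-(2 * b ^ 2)) ≤ 1 / b ^ 2 := by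
    rw [Real.exp_neg, ← one_div]
    refine one_div_le_one_div_of_le (by positivity) ((gg_le_exp _).trans ?_)
    exact Real.exp_le_exp.2 (by linarith)
  calc Real.exp (-(17 * b ^ 2)) = Real.exp (-(2 * b ^ 2)) * Real.exp (-(15 * b ^ 2)) := by
        rw [← Real.exp_add]; congr 1; ring
    _ ≤ _ := mul_le_mul h4 (h3.trans h1) (Real.exp_pos _).le (by positivity)

lemma gg_mu_ge {β : Type} [Fintype β] {b : ℝ} (hb : 1 ≤ b) (hk : (Fintype.card β : ℝ) ≤ b)
    {u : β → ℝ} (hu : ∀ i, |u i| ≤ b + 2) :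
    Real.exp (-(17 * b ^ 3)) ≤
      (1 / b ^ 2) ^ Fintype.card β * ∏ i, phi (|u i| + 2 * (1 / b ^ 2)) := by
  rw [← Finset.card_univ, ← Finset.prod_const, ← Finset.prod_mul_distrib]
  refine le_trans ?_ (Finset.prod_le_prod (fun i _ => (Real.exp_pos _).le)
    fun i _ => gg_dphi hb (abs_nonneg _) (hu i))
  rw [Finset.prod_const, Finset.card_univ, ← Real.exp_nat_mul]
  refine Real.exp_le_exp.2 ?_
  have : 0 ≤ b ^ 2 := sq_nonneg b
  nlinarith

lemma gg_card {β : Type} [Fintype β] [DecidableEq β] {b : ℝ} (hb : 1 ≤ b)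
    (hk : (Fintype.card β : ℝ) ≤ b) :
    ((boxZ β ⌊(b + 2) * b ^ 2⌋₊).card : ℝ) ≤ Real.exp (9 * b ^ 3) := by
  have hb0 : 0 < b := by linarith
  have hL : (⌊(b + 2) * b ^ 2⌋₊ : ℝ) ≤ (b + 2) * b ^ 2 := Nat.floor_le (by positivity)
  have hc : (boxZ β ⌊(b + 2) * b ^ 2⌋₊).card = (2 * ⌊(b + 2) * b ^ 2⌋₊ + 1) ^ Fintype.card β := by
    unfold boxZ
    rw [Fintype.card_piFinset, Finset.prod_const, Finset.card_univ, Int.card_Icc]
    congr 1
    omega
  have hb2 : 1 ≤ b ^ 2 := by nlinarith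
  have hb3 : b ^ 2 ≤ b ^ 3 := by nlinarith
  have h1 : b ^ 3 ≤ Real.exp (3 * b) := by
    rw [show (3 : ℝ) * b = (3 : ℕ) * b by norm_num, Real.exp_nat_mul]
    exact pow_le_pow_left₀ hb0.le (gg_le_exp b) 3
  have h2 : 7 ≤ Real.exp (6 * b) := by linarith [Real.add_one_le_exp (6 * b)]
  have h3 : 2 * (⌊(b + 2) * b ^ 2⌋₊ : ℝ) + 1 ≤ Real.exp (9 * b) := by
    calc 2 * (⌊(b + 2) * b ^ 2⌋₊ : ℝ) + 1 ≤ 7 * b ^ 3 := by nlinarith
      _ ≤ Real.exp (6 * b) * Real.exp (3 * b) :=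
        mul_le_mul h2 h1 (by positivity) (Real.exp_pos _).le
      _ = Real.exp (9 * b) := by rw [← Real.exp_add]; congr 1; ring
  rw [hc]
  push_cast
  calc (2 * (⌊(b + 2) * b ^ 2⌋₊ : ℝ) + 1) ^ Fintype.card β
      ≤ Real.exp (9 * b) ^ Fintype.card β := pow_le_pow_left₀ (by positivity) h3 _
    _ = Real.exp (Fintype.card β * (9 * b)) := (Real.exp_nat_mul _ _).symm
    _ ≤ _ := Real.exp_le_exp.2 (by nlinarith)

lemma gg_num {c b k μ N : ℝ} (hc : 0 < c) (hb : 1 ≤ b) (hk0 : 0 ≤ k) (hk : k ≤ b)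
    (hμ : c / 6 * Real.exp (-(17 * b ^ 3)) ≤ μ) (hN : N ≤ Real.exp (9 * b ^ 3)) :
    N * (4 * (32 * (k + 1) / Real.exp ((44 + 18432 / c ^ 2) * b ^ 3)) / μ ^ 2) ≤ 1 / 2 := by
  have hb3 : b ≤ b ^ 3 := by nlinarith [mul_self_nonneg (b - 1), mul_self_nonneg b]
  have hb31 : 1 ≤ b ^ 3 := hb.trans hb3
  obtain ⟨E, hE⟩ : ∃ E, E = Real.exp (b ^ 3) := ⟨_, rfl⟩
  have hE0 : 0 < E := hE ▸ Real.exp_pos _
  have hpow : ∀ n : ℕ, Real.exp (n * b ^ 3) = E ^ n := fun n => by rw [Real.exp_nat_mul, hE]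
  have hbE : b ≤ E := hb3.trans (hE ▸ gg_le_exp _)
  have e9 : Real.exp (9 * b ^ 3) = E ^ 9 := by simpa using hpow 9
  have e17 : Real.exp (-(17 * b ^ 3)) = 1 / E ^ 17 := by
    rw [Real.exp_neg, one_div, ← hpow 17]; norm_num
  have hD : 0 < 18432 / c ^ 2 := by positivity
  have ew : E ^ 44 * (18432 / c ^ 2) ≤ Real.exp ((44 + 18432 / c ^ 2) * b ^ 3) := by
    rw [add_mul, Real.exp_add, ← hpow 44]
    refine mul_le_mul (le_of_eq (by norm_num)) ((gg_le_exp _).trans (Real.exp_le_exp.2 ?_)) hD.le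
      (Real.exp_pos _).le
    nlinarith
  rw [e17] at hμ
  rw [e9] at hN
  have hμ0 : 0 < c / 6 * (1 / E ^ 17) := by positivity
  calc N * (4 * (32 * (k + 1) / Real.exp ((44 + 18432 / c ^ 2) * b ^ 3)) / μ ^ 2)
      ≤ E ^ 9 * (4 * (32 * (2 * E) / (E ^ 44 * (18432 / c ^ 2))) / (c / 6 * (1 / E ^ 17)) ^ 2) := by
        have : k + 1 ≤ 2 * E := by linarith
        gcongr
    _ = 1 / 2 := by field_simp; norm_num

lemma gg_num2 {c b k m σ : ℝ} (hc : 0 < c) (hb : 1 ≤ b) (hk : k ≤ b) (hσ : 1 / 1000 ≤ σ)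
    (hm : 2000000 / c * b ^ 5 ≤ m) : k * (1 / (1 / b ^ 2 * (σ * √m)) ^ 2) ≤ c / 2 := by
  have hb0 : 0 < b := by linarith
  have hm0 : 0 < m := lt_of_lt_of_le (by positivity) hm
  have hσ0 : 0 < σ := by linarith
  have e : (1 / b ^ 2 * (σ * √m)) ^ 2 = σ ^ 2 * m / b ^ 4 := by
    rw [mul_pow, mul_pow, Real.sq_sqrt hm0.le]; field_simp
  rw [e]
  calc k * (1 / (σ ^ 2 * m / b ^ 4))
      ≤ b * (1 / ((1 / 1000) ^ 2 * (2000000 / c * b ^ 5) / b ^ 4)) := by gcongr
    _ = c / 2 := by field_simp; norm_num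

theorem exists_goodG (c₃ : ℝ) (hc : 0 < c₃) : ∃ C₁ : ℝ, ∀ (α β : Type) [Fintype α] [Fintype β]
    (K : Set (α ⊕ β → ℝ)), Iso K → ∀ b : ℝ, 1 ≤ b → (Fintype.card β : ℝ) ≤ b →
    Real.exp (C₁ * b ^ 5) ≤ Fintype.card α → ∀ σ : ℝ, 1 / 1000 ≤ σ →
    c₃ ≤ (cond volume K).real
      {x | σ ^ 2 * Fintype.card α ≤ hsq x ∧ hsq x ≤ (σ * (1 + 1 / b)) ^ 2 * Fintype.card α} →
    ∃ G : β → α → ℝ, (∀ i a, |G i a| ≤ Fintype.card α + Fintype.card β) ∧
      ∀ q : β → ℤ, (∀ i, |(q i : ℝ) / b ^ 2| ≤ b + 2) →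
        c₃ / 12 * (1 / b ^ 2) ^ Fintype.card β * ∏ i, phi (|(q i : ℝ) / b ^ 2| + 2 / b ^ 2) ≤
          cellMass K (fun i x => x (Sum.inr i))
            (fun i => σ * √(Fintype.card α) * ((q i : ℝ) / b ^ 2))
            (fun i => σ * √(Fintype.card α) * (((q i : ℝ) + 1) / b ^ 2)) G := by
  classical
  refine ⟨7 * (44 + 18432 / c₃ ^ 2) + 2000000 / c₃, ?_⟩
  intro α β _ _ K hK b hb hk hm σ hσ hP
  have hb0 : 0 < b := by linarith
  have hD : 0 < 44 + 18432 / c₃ ^ 2 := by positivity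
  have hD' : 0 < 2000000 / c₃ := by positivity
  have hb35 : b ^ 3 ≤ b ^ 5 := pow_le_pow_right₀ hb (by norm_num)
  have hb5 : 0 < b ^ 5 := by positivity
  have hm0 : (0 : ℝ) < Fintype.card α := (Real.exp_pos _).trans_le hm
  have hσ0 : 0 < σ := by linarith
  have hm1 : 2000000 / c₃ * b ^ 5 ≤ Fintype.card α :=
    (gg_le_exp _).trans ((Real.exp_le_exp.2 (by nlinarith [mul_pos hD hb5])).trans hm)
  have hw1 : 1 ≤ Real.exp ((44 + 18432 / c₃ ^ 2) * b ^ 3) := Real.one_le_exp (by positivity)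
  have hw7 : Real.exp ((44 + 18432 / c₃ ^ 2) * b ^ 3) ^ 7 ≤ Fintype.card α := by
    rw [← Real.exp_nat_mul]
    refine (Real.exp_le_exp.2 ?_).trans hm
    have h1 := mul_le_mul_of_nonneg_left hb35 hD.le
    have h2 := mul_pos hD' hb5
    push_cast
    nlinarith
  have ht : 0 < σ * √(Fintype.card α : ℝ) := mul_pos hσ0 (Real.sqrt_pos.2 hm0)
  have hζ : ∀ i : β, Measurable fun x : α ⊕ β → ℝ => x (Sum.inr i) := fun i =>
    measurable_pi_apply _
  have hP' : c₃ ≤ (cond volume K).real {x | (σ * √(Fintype.card α : ℝ)) ^ 2 ≤ hsq x ∧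
      hsq x ≤ (σ * √(Fintype.card α : ℝ) * (1 + 1 / b)) ^ 2} := by
    have e1 : (σ * √(Fintype.card α : ℝ)) ^ 2 = σ ^ 2 * Fintype.card α := by
      rw [mul_pow, Real.sq_sqrt hm0.le]
    have e2 : (σ * √(Fintype.card α : ℝ) * (1 + 1 / b)) ^ 2 =
        (σ * (1 + 1 / b)) ^ 2 * Fintype.card α := by
      rw [mul_pow, e1]; ring
    rw [e1, e2]
    exact hP
  obtain ⟨X, hX⟩ : ∃ X : (β → ℤ) → (β → α → ℝ) → ℝ, ∀ q, X q = cellMass K (fun i x => x (Sum.inr i))
      (fun i => σ * √(Fintype.card α : ℝ) * ((q i : ℝ) / b ^ 2))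
      (fun i => σ * √(Fintype.card α : ℝ) * ((q i : ℝ) / b ^ 2 + 1 / b ^ 2)) := ⟨_, fun _ => rfl⟩
  obtain ⟨μ, hμ⟩ : ∃ μ : (β → ℤ) → ℝ, ∀ q, μ q = c₃ / 6 * (1 / b ^ 2) ^ Fintype.card β *
      ∏ i, phi (|(q i : ℝ) / b ^ 2| + 2 * (1 / b ^ 2)) := ⟨_, fun _ => rfl⟩
  obtain ⟨Q, hQ⟩ : ∃ Q : Finset (β → ℤ), Q = (boxZ β ⌊(b + 2) * b ^ 2⌋₊).filter
      fun q => ∀ i, |(q i : ℝ) / b ^ 2| ≤ b + 2 := ⟨_, rfl⟩
  have hQc : (Q.card : ℝ) ≤ Real.exp (9 * b ^ 3) := by
    refine le_trans ?_ (gg_card hb hk)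
    rw [hQ]
    exact_mod_cast Finset.card_filter_le _ _
  obtain ⟨μ₀, hμ₀⟩ : ∃ μ₀, μ₀ = c₃ / 6 * Real.exp (-(17 * b ^ 3)) := ⟨_, rfl⟩
  have hμ₀0 : 0 < μ₀ := by rw [hμ₀]; positivity
  have hk0 : (0 : ℝ) ≤ Fintype.card β := Nat.cast_nonneg _
  have hbad : ∀ q ∈ Q, (gaussM β α).real {G | X q G < μ q / 2} ≤
      4 * (32 * (Fintype.card β + 1) / Real.exp ((44 + 18432 / c₃ ^ 2) * b ^ 3)) / μ₀ ^ 2 := by
    intro q hq
    rw [hQ, Finset.mem_filter] at hq
    have h1 : μ₀ ≤ μ q := by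
      rw [hμ₀, hμ, mul_assoc]
      exact mul_le_mul_of_nonneg_left (gg_mu_ge hb hk hq.2) (by positivity)
    have h2 := gg_low (gaussM β α) (X := X q) (by rw [hX]; exact measurable_cellMass hK hζ _ _)
      (by rw [hX]; exact cellMass_nonneg _ _) (by rw [hX]; exact cellMass_le_one hK _ _)
      (hμ₀0.trans_le h1)
      (by
        rw [hX, hμ]
        exact gg_mean hK ht (by positivity) (by positivity) (gg_pow_le hb hk) hc hP'
          (gg_num2 hc hb hk hσ hm1) _)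
      (by rw [hX]; exact cellMass_sq hK hζ _ _ hw1 hw7)
    refine h2.trans ?_
    gcongr
  have hU : (gaussM β α).real (⋃ q ∈ Q, {G | X q G < μ q / 2}) ≤ 1 / 2 := by
    refine (measureReal_biUnion_finset_le _ _).trans ((Finset.sum_le_sum hbad).trans ?_)
    rw [Finset.sum_const, nsmul_eq_mul]
    exact gg_num hc hb hk0 hk hμ₀.ge hQc
  have hex : ∃ G, G ∉ (⋃ i, ⋃ a, {G : β → α → ℝ |
      (Fintype.card α : ℝ) + Fintype.card β < |G i a|}) ∪ ⋃ q ∈ Q, {G | X q G < μ q / 2} := by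
    by_contra hcon
    push Not at hcon
    have h1 := measureReal_union_le (μ := gaussM β α) (⋃ i, ⋃ a, {G : β → α → ℝ |
      (Fintype.card α : ℝ) + Fintype.card β < |G i a|}) (⋃ q ∈ Q, {G | X q G < μ q / 2})
    rw [eq_univ_of_forall hcon, probReal_univ] at h1
    linarith [gg_box (β := β) hm0]
  obtain ⟨G, hG⟩ := hex
  simp only [mem_union, mem_iUnion, mem_ofPred_eq, not_or, not_exists, not_lt] at hG
  refine ⟨G, hG.1, fun q hq => ?_⟩
  have hqQ : q ∈ Q := by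
    rw [hQ, Finset.mem_filter]
    refine ⟨Fintype.mem_piFinset.2 fun i => ?_, hq⟩
    have h1 := hq i
    rw [abs_div, abs_of_pos (by positivity : (0 : ℝ) < b ^ 2), div_le_iff₀ (by positivity)] at h1
    have h2 : (q i).natAbs ≤ ⌊(b + 2) * b ^ 2⌋₊ := by
      apply Nat.le_floor
      rw [Nat.cast_natAbs, Int.cast_abs]
      exact h1
    rw [Finset.mem_Icc]
    omega
  have h1 := hG.2 q hqQ
  rw [hX, hμ] at h1
  simp only [add_div]
  refine le_trans (le_of_eq ?_) h1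
  simp only [mul_one_div]
  ring

end Vale.Agent.P230.L
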