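import Vale.Agent.P230.L.Defs

/-! Isotropic position, and transfer of a lattice covering back to the body.

exists_iso: move K to (iota -> R) by any linear equivalence, translate by the centre of mass,
let C be the covariance matrix (positive definite: if the second moment in direction theta
vanishes then theta . x = 0 a.e. on K, but K has nonempty interior), and apply the inverse of a
square root of C (any invertible matrix R with R C R^T = 1).  The measure cond volume is
pushed forward by affine equivalences since volumes scale by a constant.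
thetaL_le: the lattice is the Z-span of the basis e.symm (column j of M); use
ZLattice.covolume_eq_measure_fundamentalDomain / ZSpan.volume_fundamentalDomain, and the fact
that e multiplies all volumes by one constant in (0, infinity). -/

namespace Vale.Agent.P230.L

open MeasureTheory ProbabilityTheory Set
open scoped ENNReal Pointwise

theorem iso_vol_image {ι : Type} [Fintype ι] (A : (ι → ℝ) ≃L[ℝ] (ι → ℝ)) (w : ι → ℝ)
    (K : Set (ι → ℝ)) : volume ((fun x => A x + w) '' K) =
      ENNReal.ofReal |(A : (ι → ℝ) →L[ℝ] (ι → ℝ)).det| * volume K := by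
  have e : (fun x => A x + w) '' K = (fun y => y + w) '' (A '' K) := by rw [image_image]
  rw [e, image_add_right, measure_preimage_add_right,
    Measure.addHaar_image_continuousLinearEquiv]
  rfl

theorem iso_integral_image {ι : Type} [Fintype ι] (A : (ι → ℝ) ≃L[ℝ] (ι → ℝ)) (w : ι → ℝ)
    {K : Set (ι → ℝ)} (hK : MeasurableSet K) (f : (ι → ℝ) → ℝ) :
    ∫ x, f x ∂(cond volume ((fun x => A x + w) '' K)) = ∫ x, f (A x + w) ∂(cond volume K) := by
  have hd : 0 < |(A : (ι → ℝ) →L[ℝ] (ι → ℝ)).det| :=
    abs_pos.2 (LinearEquiv.isUnit_det' A.toLinearEquiv).ne_zero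
  rw [ProbabilityTheory.cond, ProbabilityTheory.cond, integral_smul_measure, integral_smul_measure,
    integral_image_eq_integral_abs_det_fderiv_smul volume hK
      (fun x _ => (A.hasFDerivAt.add_const w).hasFDerivWithinAt)
      (fun x _ y _ h => A.injective (add_right_cancel h)), integral_smul, iso_vol_image,
    ENNReal.toReal_inv, ENNReal.toReal_inv, ENNReal.toReal_mul, ENNReal.toReal_ofReal hd.le,
    smul_smul, mul_inv, mul_right_comm, inv_mul_cancel₀ hd.ne', one_mul]

theorem iso_integrable {ι : Type} [Fintype ι] {K : Set (ι → ℝ)} (hK : IsCompact K)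
    (h0 : volume K ≠ 0) {f : (ι → ℝ) → ℝ} (hf : Continuous f) : Integrable f (cond volume K) :=
  (hf.continuousOn.integrableOn_compact hK).integrable.smul_measure (ENNReal.inv_ne_top.2 h0)

theorem iso_pos {ι : Type} [Fintype ι] {K : Set (ι → ℝ)} (hK : IsCompact K)
    (hi : (interior K).Nonempty) (m : ι → ℝ) {θ : ι → ℝ} (hθ : θ ≠ 0) :
    0 < ∫ x, (θ ⬝ᵥ (x - m)) ^ 2 ∂(cond volume K) := by
  have h0 : volume K ≠ 0 := (Measure.measure_pos_of_nonempty_interior _ hi).ne'
  have hc : Continuous fun x : ι → ℝ => (θ ⬝ᵥ (x - m)) ^ 2 :=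
    (continuous_const.dotProduct (continuous_id.sub continuous_const)).pow 2
  rw [ProbabilityTheory.cond, integral_smul_measure, smul_eq_mul]
  refine mul_pos (ENNReal.toReal_pos (ENNReal.inv_ne_zero.2 hK.measure_lt_top.ne)
    (ENNReal.inv_ne_top.2 h0)) ?_
  rw [setIntegral_pos_iff_support_of_nonneg_ae (Filter.Eventually.of_forall fun x => sq_nonneg _)
    (hc.continuousOn.integrableOn_compact hK)]
  refine lt_of_lt_of_le ((hc.isOpen_support.inter isOpen_interior).measure_pos _ ?_)
    (measure_mono (inter_subset_inter_right _ interior_subset))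
  obtain ⟨x, hx⟩ := hi
  by_cases h1 : θ ⬝ᵥ (x - m) = 0
  · have h2 : Continuous fun t : ℝ => x + t • θ := by fun_prop
    have h3 : ∀ᶠ t in nhds (0 : ℝ), x + t • θ ∈ interior K :=
      h2.continuousAt.eventually (isOpen_interior.mem_nhds (by simpa using hx))
    obtain ⟨t, ht, ht0⟩ := ((h3.filter_mono nhdsWithin_le_nhds).and
      (self_mem_nhdsWithin (s := {0}ᶜ))).exists
    refine ⟨x + t • θ, ?_, ht⟩
    rw [Function.mem_support, add_sub_right_comm, dotProduct_add, h1, zero_add, dotProduct_smul]
    exact pow_ne_zero 2 (mul_ne_zero ht0 fun h => hθ (dotProduct_self_eq_zero.1 h))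
  · exact ⟨x, pow_ne_zero 2 h1, hx⟩

open scoped MatrixOrder in
theorem iso_root {ι : Type} [Fintype ι] [DecidableEq ι] {C : Matrix ι ι ℝ} (hC : C.PosDef) :
    ∃ R : Matrix ι ι ℝ, IsUnit R.det ∧ R * C * R.transpose = 1 := by
  obtain ⟨y, hy, rfl⟩ := CStarAlgebra.isStrictlyPositive_iff_eq_star_mul_self.mp
    hC.isStrictlyPositive
  have h1 : IsUnit y.det := (Matrix.isUnit_iff_isUnit_det y).1 hy
  refine ⟨y⁻¹.transpose, by
    rw [Matrix.det_transpose]
    exact Matrix.isUnit_nonsing_inv_det y h1, ?_⟩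
  rw [Matrix.star_eq_conjTranspose, Matrix.conjTranspose_eq_transpose_of_trivial,
    Matrix.transpose_transpose, ← Matrix.mul_assoc, ← Matrix.transpose_mul,
    Matrix.mul_nonsing_inv y h1, Matrix.transpose_one, Matrix.one_mul, Matrix.mul_nonsing_inv y h1]

theorem iso_aux {ι : Type} [Fintype ι] {K : Set (ι → ℝ)} (hK : IsCompact K) (hc : Convex ℝ K)
    (hi : (interior K).Nonempty) :
    ∃ (A : (ι → ℝ) ≃L[ℝ] (ι → ℝ)) (w : ι → ℝ), Iso ((fun x => A x + w) '' K) := by
  classical
  have h0 : volume K ≠ 0 := (Measure.measure_pos_of_nonempty_interior _ hi).ne'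
  haveI : IsProbabilityMeasure (cond volume K) :=
    cond_isProbabilityMeasure_of_finite h0 hK.measure_lt_top.ne
  let m : ι → ℝ := fun i => ∫ x, x i ∂(cond volume K)
  let C : Matrix ι ι ℝ := Matrix.of fun i j => ∫ x, (x - m) i * (x - m) j ∂(cond volume K)
  have hm : ∀ η : ι → ℝ, ∫ x, η ⬝ᵥ (x - m) ∂(cond volume K) = 0 := by
    intro η
    simp only [dotProduct]
    rw [integral_finset_sum _ fun i _ => iso_integrable hK h0 (by fun_prop)]
    refine Finset.sum_eq_zero fun i _ => ?_
    simp only [Pi.sub_apply]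
    rw [integral_const_mul, integral_sub (iso_integrable hK h0 (continuous_apply i))
      (integrable_const _), integral_const, probReal_univ, one_smul, sub_self, mul_zero]
  have hC : ∀ η : ι → ℝ, ∫ x, (η ⬝ᵥ (x - m)) ^ 2 ∂(cond volume K) = η ⬝ᵥ C.mulVec η := by
    intro η
    have e : ∀ y : ι → ℝ, (η ⬝ᵥ y) ^ 2 = ∑ i, ∑ j, η i * η j * (y i * y j) := by
      intro y
      rw [sq, dotProduct, Finset.sum_mul_sum]
      exact Finset.sum_congr rfl fun i _ => Finset.sum_congr rfl fun j _ => by ring
    simp only [e]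
    rw [integral_finset_sum _ fun i _ => iso_integrable hK h0 (by fun_prop), dotProduct]
    refine Finset.sum_congr rfl fun i _ => ?_
    rw [integral_finset_sum _ fun j _ => iso_integrable hK h0 (by fun_prop), Matrix.mulVec,
      dotProduct, Finset.mul_sum]
    refine Finset.sum_congr rfl fun j _ => ?_
    rw [integral_const_mul]
    change η i * η j * C i j = _
    ring
  have hP : C.PosDef := by
    refine Matrix.PosDef.of_dotProduct_mulVec_pos ?_ fun θ hθ => ?_
    · ext i j
      simp only [C, Matrix.conjTranspose_apply, Matrix.of_apply, star_trivial, mul_comm]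
    · rw [star_trivial, ← hC]
      exact iso_pos hK hi m hθ
  obtain ⟨R, hR, hRC⟩ := iso_root hP
  let A : (ι → ℝ) ≃L[ℝ] (ι → ℝ) :=
    (R.toLinearEquiv' (R.invertibleOfIsUnitDet hR)).toContinuousLinearEquiv
  have hA : ∀ θ x : ι → ℝ, θ ⬝ᵥ (A x + -A m) = Matrix.vecMul θ R ⬝ᵥ (x - m) := by
    intro θ x
    rw [← sub_eq_add_neg, ← map_sub, ← Matrix.dotProduct_mulVec]
    rfl
  refine ⟨A, -A m, hK.image (by fun_prop), ?_, ?_, fun θ => ?_, fun θ => ?_⟩
  · have e : (fun x => A x + -A m) '' K = (fun y => y + -A m) '' (A.toLinearMap '' K) := by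
      rw [image_image]
      rfl
    rw [e, image_add_right]
    exact (hc.linear_image _).translate_preimage_left _
  · rw [iso_vol_image]
    exact mul_ne_zero (ENNReal.ofReal_pos.2
      (abs_pos.2 (LinearEquiv.isUnit_det' A.toLinearEquiv).ne_zero)).ne' h0
  · rw [iso_integral_image _ _ hK.measurableSet]
    simp only [hA, hm]
  · rw [iso_integral_image _ _ hK.measurableSet]
    simp only [hA, hC]
    rw [← Matrix.dotProduct_mulVec, ← Matrix.mulVec_transpose, Matrix.mulVec_mulVec,
      Matrix.mulVec_mulVec, hRC, Matrix.one_mulVec]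

theorem exists_iso {n : ℕ} {K : Set (EuclideanSpace ℝ (Fin n))} (hK : IsConvexBody K)
    (ι : Type) [Fintype ι] (hι : Fintype.card ι = n) :
    ∃ (e : EuclideanSpace ℝ (Fin n) ≃L[ℝ] (ι → ℝ)) (v : ι → ℝ),
      Iso ((fun x => e x + v) '' K) := by
  obtain ⟨h1, h2, x, hx⟩ := hK
  let e₀ : EuclideanSpace ℝ (Fin n) ≃L[ℝ] (ι → ℝ) :=
    ContinuousLinearEquiv.ofFinrankEq (by simp [hι])
  obtain ⟨A, w, h⟩ := iso_aux (h1.image e₀.continuous) (h2.linear_image e₀.toLinearMap)
    ⟨e₀ x, by
      have := e₀.toHomeomorph.image_interior K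
      rw [ContinuousLinearEquiv.coe_toHomeomorph] at this
      rw [← this]
      exact mem_image_of_mem _ hx⟩
  rw [image_image] at h
  exact ⟨e₀.trans A, w, h⟩

theorem thetaL_le {n : ℕ} {K : Set (EuclideanSpace ℝ (Fin n))} (hK : IsCompact K)
    {ι : Type} [Fintype ι] [DecidableEq ι] (e : EuclideanSpace ℝ (Fin n) ≃L[ℝ] (ι → ℝ))
    (v : ι → ℝ) (M : Matrix ι ι ℝ) (hM : M.det ≠ 0)
    (hcov : ∀ x : ι → ℝ, ∃ z : ι → ℤ, x - M.mulVec (cst z) ∈ (fun x => e x + v) '' K) :
    thetaL K ≤ volume ((fun x => e x + v) '' K) / ENNReal.ofReal |M.det| := by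
  let A : (ι → ℝ) ≃ₗ[ℝ] (ι → ℝ) := M.toLinearEquiv' (M.invertibleOfIsUnitDet hM.isUnit)
  let b' : Module.Basis ι ℝ (ι → ℝ) := (Pi.basisFun ℝ ι).map A
  let b : Module.Basis ι ℝ (EuclideanSpace ℝ (Fin n)) := b'.map e.symm.toLinearEquiv
  have hb' : ∀ j i, b' j i = M i j := by
    intro j i
    change M.mulVec (Pi.basisFun ℝ ι j) i = _
    rw [Pi.basisFun_apply, Matrix.mulVec_single_one]
    rfl
  have hL : K + (Submodule.span ℤ (range b) : Set (EuclideanSpace ℝ (Fin n))) = univ := by
    refine eq_univ_of_forall fun y => ?_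
    obtain ⟨z, k, hk, hz⟩ := hcov (e y + v)
    refine ⟨k, hk, ∑ j, z j • b j, Submodule.sum_mem _ fun j _ =>
      Submodule.smul_mem _ _ (Submodule.subset_span ⟨j, rfl⟩), e.injective ?_⟩
    have h1 : e (∑ j, z j • b j) = M.mulVec (cst z) := by
      rw [map_sum]
      funext i
      rw [Finset.sum_apply, Matrix.mulVec, dotProduct]
      refine Finset.sum_congr rfl fun j _ => ?_
      have h2 : e (b j) = b' j := e.apply_symm_apply _
      rw [map_zsmul, h2, Pi.smul_apply, hb', zsmul_eq_mul, mul_comm]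
      rfl
    have h3 : e k + v = e y + v - M.mulVec (cst z) := hz
    rw [map_add, h1, ← add_left_inj v, add_right_comm, h3, sub_add_cancel]
  obtain ⟨c, hc0, hc⟩ : ∃ c : NNReal, c ≠ 0 ∧ ∀ S : Set (ι → ℝ), MeasurableSet S →
      volume (e ⁻¹' S) = c * volume S := by
    refine ⟨Measure.addHaarScalarFactor (Measure.map e volume) volume,
      (Measure.addHaarScalarFactor_pos_of_isAddHaarMeasure _ _).ne', fun S hS => ?_⟩
    rw [← Measure.map_apply e.continuous.measurable hS]
    conv_lhs => rw [Measure.isAddLeftInvariant_eq_smul (Measure.map e volume) volume]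
    rfl
  have h1 : volume K = c * volume ((fun x => e x + v) '' K) := by
    have e1 : (fun x => e x + v) '' K = (fun y => y + v) '' (e '' K) := by rw [image_image]
    rw [e1, image_add_right, measure_preimage_add_right, ← hc _ (hK.image e.continuous).measurableSet,
      preimage_image_eq _ e.injective]
  have h2 : ENNReal.ofReal (ZLattice.covolume (Submodule.span ℤ (range b)) volume) =
      c * ENNReal.ofReal |M.det| := by
    have e1 : ZSpan.fundamentalDomain b = e ⁻¹' ZSpan.fundamentalDomain b' := by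
      rw [← ZSpan.map_fundamentalDomain, ← e.image_symm_eq_preimage]
      rfl
    have e2 : Matrix.of b' = M.transpose := by
      ext j i
      exact hb' j i
    rw [ZLattice.covolume_eq_measure_fundamentalDomain _ _ (ZSpan.isAddFundamentalDomain b volume),
      e1, measureReal_def, hc _ (ZSpan.fundamentalDomain_measurableSet b'),
      ZSpan.volume_fundamentalDomain, e2, Matrix.det_transpose,
      ENNReal.ofReal_toReal (ENNReal.mul_ne_top ENNReal.coe_ne_top ENNReal.ofReal_ne_top)]
  unfold thetaL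
  refine iInf_le_of_le (Submodule.span ℤ (range b)) ?_
  refine iInf_le_of_le (inferInstance : DiscreteTopology (Submodule.span ℤ (range b))) ?_
  refine iInf_le_of_le (instIsZLatticeRealSpan b) (iInf_le_of_le hL (le_of_eq ?_))
  rw [h1, h2, ENNReal.mul_div_mul_left _ _ (ENNReal.coe_ne_zero.2 hc0) ENNReal.coe_ne_top]

end Vale.Agent.P230.L
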