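import Vale.Agent.P230.L.Light2

/-! Light nodes: moments by the sieve.

M = total mass of N, p = floor (V / M) >= 1, V/2 <= p M <= V, p |N| <= V / mmin.
Psi^p is an integral over p copies y r; each leaf factor equals the measure of the u in [0,1)
with pi a z (..) <= u for all z in Z a.  For fixed u : Fin p x N -> [0,1) apply sieve to the index
set of triples (r, a, z), variables Fin p + iota + phi, iota (r, a, z) = (e_r, a, z), targets
{pi a z > u (r, a)}.  Integrate over u. -/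

namespace Vale.Agent.P230.L

open MeasureTheory ProbabilityTheory Set
open scoped ENNReal

theorem measurable_leafF {ι φ κ : Type} [Fintype φ] [Fintype κ] (Z : (ι → ℤ) → Finset (φ → ℤ))
    (π : (ι → ℤ) → (φ → ℤ) → (κ → T) → ℝ) (hπ : ∀ a z, Measurable (π a z)) (a : ι → ℤ) :
    Measurable (Function.uncurry (leafF Z π a)) := by
  have h : ∀ z : φ → ℤ, Measurable fun p : (φ → κ → T) × (κ → T) =>
      ENNReal.ofReal (π a z (p.2 + comb z p.1)) := fun z =>
    ((hπ a z).comp (measurable_snd.add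
      ((continuous_comb z).measurable.comp measurable_fst))).ennreal_ofReal
  exact measurable_const.sub (Measurable.biSup _ (Z a).countable_toSet fun z _ => h z)

/-- Splitting of the variables. -/
def split3 {p : ℕ} {ι φ G : Type} (w : Fin p ⊕ (ι ⊕ φ) → G) : (Fin p → G) × (ι → G) × (φ → G) :=
  (fun r => w (Sum.inl r), fun l => w (Sum.inr (Sum.inl l)), fun l => w (Sum.inr (Sum.inr l)))

theorem split3_mp {p : ℕ} {ι φ κ : Type} [Fintype ι] [Fintype φ] [Fintype κ] :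
    MeasurePreserving (split3 : (Fin p ⊕ (ι ⊕ φ) → κ → T) → _) volume
      ((volume : Measure (Fin p → κ → T)).prod
        ((volume : Measure (ι → κ → T)).prod (volume : Measure (φ → κ → T)))) := by
  have h1 := volume_measurePreserving_sumPiEquivProdPi (fun _ : Fin p ⊕ (ι ⊕ φ) => κ → T)
  have h2 := volume_measurePreserving_sumPiEquivProdPi (fun _ : ι ⊕ φ => κ → T)
  exact ((MeasurePreserving.id (volume : Measure (Fin p → κ → T))).prod h2).comp h1

theorem meas_shift {ι κ Ω Y : Type} [Fintype ι] [Fintype κ] [MeasurableSpace Ω]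
    [MeasurableSpace Y] {F : Ω → (κ → T) → ℝ≥0∞} (hF : Measurable (Function.uncurry F))
    (a : ι → ℤ) {f : Y → κ → T} {g : Y → ι → κ → T} {h : Y → Ω} (hf : Measurable f)
    (hg : Measurable g) (hh : Measurable h) :
    Measurable fun y => F (h y) (f y + comb a (g y)) :=
  hF.comp (hh.prodMk (hf.add ((continuous_comb a).measurable.comp hg)))

theorem Psi_pow {ι φ κ : Type} [Fintype ι] [Fintype φ] [Fintype κ] (p : ℕ)
    (N : Finset (ι → ℤ)) (F : (ι → ℤ) → (φ → κ → T) → (κ → T) → ℝ≥0∞)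
    (hF : ∀ a, Measurable (Function.uncurry (F a))) :
    ∫⁻ x, Psi F N x ^ p ∂((volume : Measure (ι → κ → T)).prod (volume : Measure (φ → κ → T))) =
      ∫⁻ w : Fin p ⊕ (ι ⊕ φ) → κ → T, ∏ r, ∏ a ∈ N, F a (fun l => w (Sum.inr (Sum.inr l)))
        (w (Sum.inl r) + comb a fun l => w (Sum.inr (Sum.inl l))) := by
  have hH : Measurable fun q : (Fin p → κ → T) × (ι → κ → T) × (φ → κ → T) =>
      ∏ r, ∏ a ∈ N, F a q.2.2 (q.1 r + comb a q.2.1) :=
    Finset.measurable_prod _ fun r _ => Finset.measurable_prod _ fun a _ =>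
      meas_shift (hF a) a ((measurable_pi_apply r).comp measurable_fst) measurable_snd.fst
        measurable_snd.snd
  have h1 : ∀ x : (ι → κ → T) × (φ → κ → T), Psi F N x ^ p =
      ∫⁻ y : Fin p → κ → T, ∏ r, ∏ a ∈ N, F a x.2 (y r + comb a x.1) := by
    intro x
    have := lint_pi_prod (J := Fin p) (volume : Measure (κ → T))
      (fun _ y => ∏ a ∈ N, F a x.2 (y + comb a x.1)) fun _ =>
        Finset.measurable_prod _ fun a _ =>
          meas_shift (hF a) a measurable_id measurable_const measurable_const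
    rw [volume_pi, this, Finset.prod_const, Finset.card_univ, Fintype.card_fin]
    rfl
  have h2 := lintegral_prod_symm (μ := (volume : Measure (Fin p → κ → T)))
    (ν := (volume : Measure (ι → κ → T)).prod (volume : Measure (φ → κ → T))) _ hH.aemeasurable
  have h3 := split3_mp.lintegral_comp hH
  rw [lintegral_congr h1]
  exact h2.symm.trans h3.symm

theorem moment_le {ι φ κ : Type} [Fintype ι] [Fintype φ] [Fintype κ] (p : ℕ)
    (N : Finset (ι → ℤ)) (Z : (ι → ℤ) → Finset (φ → ℤ))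
    (π : (ι → ℤ) → (φ → ℤ) → (κ → T) → ℝ) (hπ : ∀ a z, Measurable (π a z)) :
    ∫⁻ x, Psi (leafF Z π) N x ^ p
        ∂((volume : Measure (ι → κ → T)).prod (volume : Measure (φ → κ → T))) ≤
      ∫⁻ u, volume {w : Fin p ⊕ (ι ⊕ φ) → κ → T | ∀ j : Fin p × N, ∀ z ∈ Z j.2,
        π j.2 z (comb (tri j.1 j.2 z) w) < u j} ∂(Measure.pi fun _ : Fin p × N => mu01) := by
  obtain ⟨E, hE⟩ : ∃ E : Set ((Fin p ⊕ (ι ⊕ φ) → κ → T) × (Fin p × N → ℝ)), E =
    {q | ∀ j : Fin p × N, ∀ z ∈ Z j.2, π j.2 z (comb (tri j.1 j.2 z) q.1) < q.2 j} := ⟨_, rfl⟩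
  have hEm : MeasurableSet E := by
    have : E = ⋂ j : Fin p × N, ⋂ z ∈ Z j.2,
        {q | π j.2 z (comb (tri j.1 j.2 z) q.1) < q.2 j} := by
      ext q
      simp only [hE, mem_ofPred_eq, mem_iInter]
    rw [this]
    refine MeasurableSet.iInter fun j => Finset.measurableSet_biInter _ fun z _ => ?_
    exact measurableSet_lt ((hπ _ _).comp ((continuous_comb _).measurable.comp measurable_fst))
      ((measurable_pi_apply j).comp measurable_snd)
  rw [Psi_pow p N _ (measurable_leafF Z π hπ)]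
  calc _ ≤ ∫⁻ w, (Measure.pi fun _ : Fin p × N => mu01) (Prod.mk w ⁻¹' E) := by
        refine lintegral_mono fun w => ?_
        have h2 : Prod.mk w ⁻¹' E = Set.univ.pi fun j : Fin p × N =>
            {t | ∀ z ∈ Z j.2, π j.2 z (comb (tri j.1 j.2 z) w) < t} := by
          ext u
          simp only [hE, mem_ofPred_eq, mem_preimage, mem_univ_pi]
        rw [h2, Measure.pi_pi, Fintype.prod_prod_type]
        refine Finset.prod_le_prod' fun r _ => ?_
        rw [← Finset.prod_coe_sort N]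
        refine Finset.prod_le_prod' fun a _ => ?_
        simp only [comb_tri]
        exact one_sub_sup_le _ _
    _ = _ := by
        rw [← Measure.prod_apply hEm, Measure.prod_apply_symm hEm, hE]
        rfl

theorem moment_exp {ι φ κ : Type} [Fintype κ] (p : ℕ)
    (N : Finset (ι → ℤ)) (Z : (ι → ℤ) → Finset (φ → ℤ))
    (π : (ι → ℤ) → (φ → ℤ) → (κ → T) → ℝ) (hπ : ∀ a z, Measurable (π a z))
    (hπ0 : ∀ a z x, 0 ≤ π a z x) (hπ1 : ∀ a z x, π a z x ≤ 1)
    (S : (ι → ℤ) → (φ → ℤ) → Set (κ → T)) (hsupp : ∀ a z x, π a z x ≠ 0 → x ∈ S a z)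
    {η c c' : ℝ} (hcc : c ≤ c') (hx : ∀ x, 0 ≤ x → x ≤ η → Real.exp (c * x) ≤ 1 + c' * x)
    (hleaf : ∀ a ∈ N, (∀ z x, π a z x = 0 ∨ π a z x = 1) ∨ ∑ z ∈ Z a, volume.real (S a z) ≤ η) :
    ∫⁻ u, ENNReal.ofReal (Real.exp (c * ∑ j : Fin p × N, qf (Z j.2) (π j.2) (S j.2) (u j)))
        ∂(Measure.pi fun _ : Fin p × N => mu01) ≤
      ENNReal.ofReal (Real.exp (c' * (p * ∑ a ∈ N, ∑ z ∈ Z a, ∫ x, π a z x))) := by
  have h1 : ∀ (c : ℝ) (f : Fin p × N → ℝ), ENNReal.ofReal (Real.exp (c * ∑ j, f j)) =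
      ∏ j, ENNReal.ofReal (Real.exp (c * f j)) := fun c f => by
    rw [Finset.mul_sum, Real.exp_sum,
      ENNReal.ofReal_prod_of_nonneg fun _ _ => (Real.exp_pos _).le]
  have h2 : (p * ∑ a ∈ N, ∑ z ∈ Z a, ∫ x, π a z x : ℝ) =
      ∑ j : Fin p × N, ∑ z ∈ Z j.2, ∫ x, π j.2 z x := by
    rw [Fintype.sum_prod_type]
    simp only [Finset.sum_const, Finset.card_univ, Fintype.card_fin, nsmul_eq_mul]
    rw [Finset.sum_coe_sort N fun a => ∑ z ∈ Z a, ∫ x, π a z x]
  simp only [h1, h2]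
  rw [lint_pi_prod mu01 (fun (j : Fin p × N) t =>
    ENNReal.ofReal (Real.exp (c * qf (Z j.2) (π j.2) (S j.2) t))) fun j =>
      ((qf_meas _ _ _).const_mul c).exp.ennreal_ofReal]
  refine Finset.prod_le_prod' fun j _ => ?_
  rw [← qf_integral (Z j.2) (π j.2) (S j.2) (hπ _) (hπ0 _) (hπ1 _) (hsupp _)]
  refine oneD (qf_int _ _ _) (qf_nonneg _ _ _) hcc hx ?_
  rcases hleaf j.2 j.2.2 with h | h
  · exact Or.inl (qf_const _ _ _ h)
  · exact Or.inr fun t => (qf_le _ _ _ t).trans h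

theorem light {ι φ κ : Type} [Fintype ι] [DecidableEq ι] [Fintype φ] [DecidableEq φ] [Fintype κ]
    (D : Finset κ) (L ρ : ℕ) (N : Finset (ι → ℤ)) (hN : N.Nonempty)
    (Z : (ι → ℤ) → Finset (φ → ℤ)) (hZ : ∀ a, ∀ z ∈ Z a, ∀ l, |z l| ≤ L)
    (π : (ι → ℤ) → (φ → ℤ) → (κ → T) → ℝ) (hπ : ∀ a z, Measurable (π a z))
    (hπ0 : ∀ a z x, 0 ≤ π a z x) (hπ1 : ∀ a z x, π a z x ≤ 1)
    (S : (ι → ℤ) → (φ → ℤ) → Set (κ → T)) (hS : ∀ a z, MeasurableSet (S a z))
    (hsupp : ∀ a z x, π a z x ≠ 0 → x ∈ S a z)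
    (hwin : ∀ a z, ∀ x ∈ S a z, ∀ x' ∈ S a z, ∀ c ∈ D, ‖x c - x' c‖ < 1 / 4)
    {η V mmin εA : ℝ} (hη : 0 < η) (hη' : η ≤ 1 / 10) (hmm : 0 < mmin) (hε : 0 ≤ εA)
    (hleaf : ∀ a ∈ N, (∀ z x, π a z x = 0 ∨ π a z x = 1) ∨ ∑ z ∈ Z a, volume.real (S a z) ≤ η)
    (hm : ∀ a ∈ N, mmin ≤ ∑ z ∈ Z a, ∫ x, π a z x)
    (hV : ∑ a ∈ N, ∑ z ∈ Z a, ∫ x, π a z x ≤ V)
    (hA : ∀ a₁ ∈ N, ∀ a₂ ∈ N, ∀ a₃ ∈ N, ∀ a₀ ∈ N, ∀ σ, IsSign σ → ∀ (z' : φ → ℤ) (s : κ → T),
      ∑ z₁ ∈ Z a₁, ∑ z₂ ∈ Z a₂, ∑ z₃ ∈ Z a₃,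
        volume (En (S a₁ z₁) (S a₂ z₂) (S a₃ z₃) (S a₀ (ssum σ z₁ z₂ z₃ + z')) σ s) ≤
        ENNReal.ofReal εA)
    (hnum : Real.exp (7 * V) * ((1 / 2) ^ ρ +
      (ρ + 2) * (V / mmin * (2 * L + 1) ^ ρ) * (1 / 2) ^ D.card + 8 * ((V / mmin) ^ 3 * εA)) ≤ 1) :
    ((volume : Measure (ι → κ → T)).prod (volume : Measure (φ → κ → T)))
      {x | ENNReal.ofReal (Real.exp (-(1 - 2 * η) * ∑ a ∈ N, ∑ z ∈ Z a, ∫ x, π a z x)) <
        Psi (leafF Z π) N x} ≤ ENNReal.ofReal (2 * Real.exp (-η * V / 2)) := by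
  set M := ∑ a ∈ N, ∑ z ∈ Z a, ∫ x, π a z x with hM
  have hNM : N.card * mmin ≤ M := by
    have := Finset.card_nsmul_le_sum N _ mmin hm
    rwa [nsmul_eq_mul] at this
  have hN1 : (1 : ℝ) ≤ N.card := by exact_mod_cast hN.card_pos
  have hM0 : 0 < M := lt_of_lt_of_le (by positivity) hNM
  set p := ⌊V / M⌋₊ with hp
  have hV0 : 0 < V := hM0.trans_le hV
  have hp1 : (1 : ℝ) ≤ p := by
    have : 1 ≤ p := Nat.le_floor (by rw [Nat.cast_one, le_div_iff₀ hM0]; linarith)
    exact_mod_cast this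
  have hpM : p * M ≤ V := (le_div_iff₀ hM0).1 (Nat.floor_le (by positivity))
  have hpM' : V / 2 ≤ p * M := by
    have h := (div_lt_iff₀ hM0).1 (Nat.lt_floor_add_one (V / M))
    rw [← hp] at h
    nlinarith
  have hP : (Fintype.card (Fin p × N) : ℝ) ≤ V / mmin := by
    rw [Fintype.card_prod, Fintype.card_fin, Fintype.card_coe, le_div_iff₀ hmm]
    push_cast
    nlinarith
  set Err : ℝ := (1 / 2) ^ ρ +
    (ρ + 2) * (V / mmin * (2 * L + 1) ^ ρ) * (1 / 2) ^ D.card + 8 * ((V / mmin) ^ 3 * εA)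
    with hErr
  have hErr0 : 0 ≤ Err := by positivity
  have hQ : Measurable fun u : Fin p × N → ℝ =>
      ∑ j : Fin p × N, qf (Z j.2) (π j.2) (S j.2) (u j) :=
    Finset.measurable_sum _ fun j _ => (qf_meas _ _ _).comp (measurable_pi_apply j)
  have hmom : ∫⁻ x, Psi (leafF Z π) N x ^ p
      ∂((volume : Measure (ι → κ → T)).prod (volume : Measure (φ → κ → T))) ≤
      ENNReal.ofReal (2 * Real.exp (-(1 - η) * (p * M))) := by
    refine (moment_le p N Z π hπ).trans ?_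
    calc _ ≤ ∫⁻ u, (ENNReal.ofReal (Real.exp (-1 *
            ∑ j : Fin p × N, qf (Z j.2) (π j.2) (S j.2) (u j))) +
          ENNReal.ofReal (Real.exp (3 * ∑ j : Fin p × N, qf (Z j.2) (π j.2) (S j.2) (u j))) *
            ENNReal.ofReal Err) ∂(Measure.pi fun _ : Fin p × N => mu01) := by
          refine lintegral_mono fun u => ?_
          have key := sieve_tri D L ρ p N Z hZ S hwin hε hP hA
            (fun j z => S j.2 z ∩ {x | u j ≤ π j.2 z x})
            (fun j z => (hS _ _).inter (measurableSet_le measurable_const (hπ _ _)))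
            (fun j z => inter_subset_left)
          rw [← ENNReal.ofReal_mul (Real.exp_pos _).le,
            ← ENNReal.ofReal_add (Real.exp_pos _).le (by positivity), neg_one_mul]
          refine le_trans ?_ (ENNReal.ofReal_le_ofReal key)
          rw [ofReal_measureReal (measure_ne_top _ _)]
          exact measure_mono fun w hw j z hz h => absurd h.2 (not_le.2 (hw j z hz))
      _ ≤ ENNReal.ofReal (Real.exp (-(1 - η) * (p * M))) +
          ENNReal.ofReal (Real.exp (5 * (p * M))) * ENNReal.ofReal Err := by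
          rw [lintegral_add_left (hQ.const_mul _).exp.ennreal_ofReal,
            lintegral_mul_const _ (hQ.const_mul _).exp.ennreal_ofReal]
          refine add_le_add ?_ (mul_le_mul_left ?_ _)
          · exact moment_exp p N Z π hπ hπ0 hπ1 S hsupp (by linarith) (exp_neg_small hη') hleaf
          · exact moment_exp p N Z π hπ hπ0 hπ1 S hsupp (by norm_num) (exp_three_small hη') hleaf
      _ ≤ _ := by
          rw [← ENNReal.ofReal_mul (Real.exp_pos _).le,
            ← ENNReal.ofReal_add (Real.exp_pos _).le (by positivity)]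
          refine ENNReal.ofReal_le_ofReal ?_
          have h1 : Real.exp (5 * (p * M)) ≤
              Real.exp (-(1 - η) * (p * M)) * Real.exp (7 * V) := by
            rw [← Real.exp_add]
            refine Real.exp_le_exp.2 ?_
            nlinarith
          have h2 := mul_le_mul_of_nonneg_right h1 hErr0
          have h3 := mul_le_mul_of_nonneg_left hnum (Real.exp_pos (-(1 - η) * (p * M))).le
          rw [mul_assoc] at h2
          linarith
  have hPm := (measurable_Psi (leafF Z π) (measurable_leafF Z π hπ) N).pow_const p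
  have hmk := mul_meas_ge_le_lintegral₀
    (μ := (volume : Measure (ι → κ → T)).prod (volume : Measure (φ → κ → T))) hPm.aemeasurable
    (ENNReal.ofReal (Real.exp (-(1 - 2 * η) * M)) ^ p)
  have hsub : {x | ENNReal.ofReal (Real.exp (-(1 - 2 * η) * M)) < Psi (leafF Z π) N x} ⊆
      {x | ENNReal.ofReal (Real.exp (-(1 - 2 * η) * M)) ^ p ≤ Psi (leafF Z π) N x ^ p} :=
    fun x hx => by
      rw [mem_ofPred_eq] at hx ⊢
      exact pow_le_pow_left' hx.le p
  refine (measure_mono hsub).trans ?_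
  have hb0 : ENNReal.ofReal (Real.exp (-(1 - 2 * η) * M)) ^ p ≠ 0 :=
    pow_ne_zero _ (ENNReal.ofReal_pos.2 (Real.exp_pos _)).ne'
  have hbt : ENNReal.ofReal (Real.exp (-(1 - 2 * η) * M)) ^ p ≠ ⊤ :=
    ENNReal.pow_ne_top ENNReal.ofReal_ne_top
  refine (ENNReal.mul_le_mul_iff_right hb0 hbt).1 ((hmk.trans hmom).trans ?_)
  rw [← ENNReal.ofReal_pow (Real.exp_pos _).le, ← ENNReal.ofReal_mul (by positivity)]
  refine ENNReal.ofReal_le_ofReal ?_
  rw [← Real.exp_nat_mul, mul_left_comm (Real.exp _), ← Real.exp_add]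
  refine mul_le_mul_of_nonneg_left (Real.exp_le_exp.2 ?_) (by norm_num)
  nlinarith

end Vale.Agent.P230.L
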