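import Vale.Agent.P230.L.Equi

/-! Points of a box in a small subspace; the tree theorem.

span_count: the coordinate functionals restricted to W span the dual of W; choose an independent
subfamily C with the same span (exists_linearIndependent), |C| <= finrank W <= rho; restriction
to the coordinates in C is injective on P.
tree_thm: nu = volume.prod P.  node j t a = members of A j that agree with a on all levels < t.
Psi of a set N is invariant under shifting x.1 i when a i is constant on N; if N is the disjoint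
union of N0 (a i = c) and N1 (a i = c + 1) then the average over u of Psi N at x shifted by u in
slot i is Psi N0 x * Psi N1 x.  Put b N = exp (-(1-2 eta) m N) if m N <= V (light), and
exp (-(1-3 eta) m N) otherwise (heavy).  Good t = all nodes of level >= t (and <= k) have
Psi <= b; it is invariant under shifts in slots of level < t.  By downward induction on t, for
heavy nodes N of level t < k: integral over Good (t+1) of Psi N <= exp (-(1-3 eta) m N - eta V)
(nodes of level k are singletons, hence light; one child: same set; two children: average over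
the slot of level t, bound a factor by b, use the induction for a heavy child, or two light
bounds and m N > V).  Markov: nu (Good (t+1) and Psi N > b N) <= exp (-eta V).  The union bound
over at most card J (k+1) 2^k nodes shows that Good 0 is nonempty. -/

namespace Vale.Agent.P230.L

open MeasureTheory ProbabilityTheory Set
open scoped ENNReal

theorem span_count {φ : Type} [Fintype φ] (L ρ : ℕ) (W : Submodule ℚ (φ → ℚ))
    (hW : Module.finrank ℚ W ≤ ρ) (P : Finset (φ → ℤ)) (hP : ∀ z ∈ P, ∀ l, |z l| ≤ L)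
    (hd : ∀ z ∈ P, ∀ z' ∈ P, qv z - qv z' ∈ W) : P.card ≤ (2 * L + 1) ^ ρ := by
  classical
  let f : φ → Module.Dual ℚ W := fun l => (LinearMap.proj l).comp W.subtype
  obtain ⟨C, a, ha, hsp, hli⟩ := exists_linearIndependent' ℚ f
  have := Fintype.ofInjective a ha
  have hC : Fintype.card C ≤ ρ := by
    have h1 := hli.fintype_card_le_finrank
    rw [Subspace.dual_finrank_eq] at h1
    exact h1.trans hW
  have h1 : P.card ≤ (Fintype.piFinset fun _ : C => Finset.Icc (-(L : ℤ)) L).card := by
    refine Finset.card_le_card_of_injOn (fun z c => z (a c)) (fun z hz => ?_) ?_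
    · refine Finset.mem_coe.2 (Fintype.mem_piFinset.2 fun c => Finset.mem_Icc.2 ?_)
      exact abs_le.1 (hP z hz (a c))
    · intro z hz z' hz' h
      have h2 : ∀ g ∈ Submodule.span ℚ (Set.range (f ∘ a)), g ⟨_, hd z hz z' hz'⟩ = 0 := by
        intro g hg
        induction hg using Submodule.span_induction with
        | mem g hg =>
          obtain ⟨c, rfl⟩ := hg
          have h3 : z (a c) = z' (a c) := congrFun h c
          show qv z (a c) - qv z' (a c) = 0
          simp only [qv, h3, sub_self]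
        | zero => rfl
        | add g g' _ _ h3 h4 => rw [LinearMap.add_apply, h3, h4, add_zero]
        | smul c g _ h3 => rw [LinearMap.smul_apply, h3, smul_zero]
      funext l
      have h3 : qv z l - qv z' l = 0 :=
        h2 (f l) (by rw [hsp]; exact Submodule.subset_span ⟨l, rfl⟩)
      have h4 : (z l : ℚ) = z' l := sub_eq_zero.1 h3
      exact_mod_cast h4
  rw [Fintype.card_piFinset, Finset.prod_const, Int.card_Icc, Finset.card_univ] at h1
  have h5 : ((L : ℤ) + 1 - -(L : ℤ)).toNat = 2 * L + 1 := by omega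
  rw [h5] at h1
  exact h1.trans (Nat.pow_le_pow_right (by omega) hC)

theorem measurable_Psi {ι κ Ω : Type} [Fintype ι] [Fintype κ] [MeasurableSpace Ω]
    (F : (ι → ℤ) → Ω → (κ → T) → ℝ≥0∞) (hF : ∀ a, Measurable (Function.uncurry (F a)))
    (N : Finset (ι → ℤ)) : Measurable (Psi F N) := by
  have h : Measurable fun p : ((ι → κ → T) × Ω) × (κ → T) =>
      ∏ a ∈ N, F a p.1.2 (p.2 + comb a p.1.1) := by
    refine Finset.measurable_prod _ fun a _ => ?_
    exact (hF a).comp (measurable_fst.snd.prodMk (measurable_snd.add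
      ((continuous_comb a).measurable.comp measurable_fst.fst)))
  exact h.lintegral_prod_right'

section Shift

variable {ι κ Ω : Type} [Fintype ι] [DecidableEq ι] [Fintype κ]

/-- Shift in one slot. -/
noncomputable def shf (i : ι) (u : κ → T) (x : (ι → κ → T) × Ω) : (ι → κ → T) × Ω :=
  (x.1 + Pi.single i u, x.2)

omit [Fintype κ] in
theorem comb_shift (a : ι → ℤ) (x : ι → κ → T) (i : ι) (u : κ → T) :
    comb a (x + Pi.single i u) = comb a x + a i • u := by
  have h : comb a (Pi.single i u : ι → κ → T) = a i • u := by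
    unfold comb
    rw [Finset.sum_eq_single i (fun l _ hl => by rw [Pi.single_eq_of_ne hl, smul_zero])
      (fun h => absurd (Finset.mem_univ i) h), Pi.single_eq_same]
  rw [← h]
  simp [comb, Finset.sum_add_distrib]

theorem Psi_shift (F : (ι → ℤ) → Ω → (κ → T) → ℝ≥0∞) (N : Finset (ι → ℤ)) (i : ι) (c : ℤ)
    (h : ∀ a ∈ N, a i = c) (u : κ → T) (x : (ι → κ → T) × Ω) :
    Psi F N (shf i u x) = Psi F N x := by
  unfold Psi shf
  rw [← lintegral_add_right_eq_self (fun y => ∏ a ∈ N, F a x.2 (y + comb a x.1)) (c • u)]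
  refine lintegral_congr fun y => Finset.prod_congr rfl fun a ha => ?_
  rw [comb_shift, h a ha, add_assoc, add_comm (c • u)]

variable [MeasurableSpace Ω]

theorem Psi_avg (F : (ι → ℤ) → Ω → (κ → T) → ℝ≥0∞)
    (hF : ∀ a, Measurable (Function.uncurry (F a))) (N₀ N₁ : Finset (ι → ℤ))
    (hd : Disjoint N₀ N₁) (i : ι) (c : ℤ) (h₀ : ∀ a ∈ N₀, a i = c) (h₁ : ∀ a ∈ N₁, a i = c + 1)
    (x : (ι → κ → T) × Ω) :
    ∫⁻ u, Psi F (N₀ ∪ N₁) (shf i u x) = Psi F N₀ x * Psi F N₁ x := by
  have hm : ∀ N : Finset (ι → ℤ), Measurable fun y => ∏ a ∈ N, F a x.2 (y + comb a x.1) :=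
    fun N => Finset.measurable_prod _ fun a _ =>
      (hF a).comp (measurable_const.prodMk (measurable_add_const _))
  have h1 : ∀ u, Psi F (N₀ ∪ N₁) (shf i u x) = ∫⁻ y, (∏ a ∈ N₀, F a x.2 (y + comb a x.1)) *
      ∏ a ∈ N₁, F a x.2 (y + u + comb a x.1) := by
    intro u
    unfold Psi shf
    rw [← lintegral_add_right_eq_self (fun y => (∏ a ∈ N₀, F a x.2 (y + comb a x.1)) *
      ∏ a ∈ N₁, F a x.2 (y + u + comb a x.1)) (c • u)]
    refine lintegral_congr fun y => ?_
    rw [Finset.prod_union hd]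
    have e₀ : ∏ a ∈ N₀, F a x.2 (y + comb a (x.1 + Pi.single i u)) =
        ∏ a ∈ N₀, F a x.2 (y + c • u + comb a x.1) :=
      Finset.prod_congr rfl fun a ha => by
        rw [comb_shift, h₀ a ha, add_assoc, add_comm (c • u)]
    have e₁ : ∏ a ∈ N₁, F a x.2 (y + comb a (x.1 + Pi.single i u)) =
        ∏ a ∈ N₁, F a x.2 (y + c • u + u + comb a x.1) :=
      Finset.prod_congr rfl fun a ha => by
        rw [comb_shift, h₁ a ha, add_smul, one_smul, add_comm (comb a x.1), ← add_assoc,
          ← add_assoc]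
    rw [e₀, e₁]
  simp only [h1]
  rw [lintegral_lintegral_swap]
  · have h2 : ∀ y : κ → T, ∫⁻ u, (∏ a ∈ N₀, F a x.2 (y + comb a x.1)) *
        ∏ a ∈ N₁, F a x.2 (y + u + comb a x.1) =
        (∏ a ∈ N₀, F a x.2 (y + comb a x.1)) * Psi F N₁ x := by
      intro y
      rw [lintegral_const_mul _ ((hm N₁).fun_comp (measurable_const_add y)),
        lintegral_add_left_eq_self (fun u => ∏ a ∈ N₁, F a x.2 (u + comb a x.1)) y]
      rfl
    simp only [h2]
    rw [lintegral_mul_const _ (hm N₀)]
    rfl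
  · exact (((hm N₀).comp measurable_snd).mul
      ((hm N₁).comp (measurable_snd.add measurable_fst))).aemeasurable

theorem lintegral_shift (P : Measure Ω) [IsProbabilityMeasure P] (i : ι)
    {H : (ι → κ → T) × Ω → ℝ≥0∞} (hH : Measurable H) :
    ∫⁻ x, H x ∂((volume : Measure (ι → κ → T)).prod P) =
      ∫⁻ x, ∫⁻ u, H (shf i u x) ∂volume ∂((volume : Measure (ι → κ → T)).prod P) := by
  have hs : Continuous fun u : κ → T => (Pi.single i u : ι → κ → T) :=
    continuous_single (A := fun _ : ι => κ → T) i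
  have hm : Measurable fun p : ((ι → κ → T) × Ω) × (κ → T) => shf i p.2 p.1 :=
    (measurable_fst.fst.add (hs.measurable.comp measurable_snd)).prodMk measurable_fst.snd
  rw [lintegral_lintegral_swap (f := fun x u => H (shf i u x)) (hH.comp hm).aemeasurable]
  have h1 : ∀ u : κ → T, ∫⁻ x, H (shf i u x) ∂((volume : Measure (ι → κ → T)).prod P) =
      ∫⁻ x, H x ∂((volume : Measure (ι → κ → T)).prod P) := fun u =>
    ((measurePreserving_add_right volume (Pi.single i u : ι → κ → T)).prod
      (MeasurePreserving.id P)).lintegral_comp hH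
  simp only [h1]
  rw [lintegral_const, measure_univ, mul_one]

theorem setLIntegral_split (P : Measure Ω) [IsProbabilityMeasure P]
    (F : (ι → ℤ) → Ω → (κ → T) → ℝ≥0∞)
    (hF : ∀ a, Measurable (Function.uncurry (F a))) (N₀ N₁ : Finset (ι → ℤ))
    (hd : Disjoint N₀ N₁) (i : ι) (c : ℤ) (h₀ : ∀ a ∈ N₀, a i = c) (h₁ : ∀ a ∈ N₁, a i = c + 1)
    {G : Set ((ι → κ → T) × Ω)} (hG : MeasurableSet G) (hinv : ∀ u x, shf i u x ∈ G ↔ x ∈ G) :
    ∫⁻ x in G, Psi F (N₀ ∪ N₁) x ∂((volume : Measure (ι → κ → T)).prod P) =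
      ∫⁻ x in G, Psi F N₀ x * Psi F N₁ x ∂((volume : Measure (ι → κ → T)).prod P) := by
  rw [← lintegral_indicator hG, ← lintegral_indicator hG,
    lintegral_shift P i ((measurable_Psi F hF _).indicator hG)]
  refine lintegral_congr fun x => ?_
  by_cases hx : x ∈ G
  · rw [indicator_of_mem hx, ← Psi_avg F hF N₀ N₁ hd i c h₀ h₁ x]
    exact lintegral_congr fun u => indicator_of_mem ((hinv u x).2 hx) _
  · rw [indicator_of_notMem hx]
    refine (lintegral_congr fun u => indicator_of_notMem (fun h => hx ((hinv u x).1 h)) _).trans ?_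
    exact lintegral_zero

end Shift

section Node

variable {ι : Type} [Fintype ι] [DecidableEq ι]

/-- Members that agree with `a` on all levels below `t`. -/
def node (lv : ι → ℕ) (A : Finset (ι → ℤ)) (t : ℕ) (a : ι → ℤ) : Finset (ι → ℤ) :=
  A.filter fun a' => ∀ i, lv i < t → a' i = a i

omit [DecidableEq ι] in
theorem mem_node {lv : ι → ℕ} {A : Finset (ι → ℤ)} {t : ℕ} {a a' : ι → ℤ} :
    a' ∈ node lv A t a ↔ a' ∈ A ∧ ∀ i, lv i < t → a' i = a i := Finset.mem_filter

theorem node_split {lv : ι → ℕ} (hlv : Function.Injective lv) {A : Finset (ι → ℤ)}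
    (hA : IsTree lv A) (t : ℕ) {a : ι → ℤ} (ha : a ∈ A) :
    node lv A t a = node lv A (t + 1) a ∨ ∃ a₀ ∈ A, ∃ a₁ ∈ A, ∃ i c, lv i = t ∧
      node lv A t a = node lv A (t + 1) a₀ ∪ node lv A (t + 1) a₁ ∧ a₀ i = c ∧ a₁ i = c + 1 := by
  by_cases h : ∀ a' ∈ node lv A t a, a' ∈ node lv A (t + 1) a
  · left
    ext a'
    exact ⟨h a', fun h' => mem_node.2 ⟨(mem_node.1 h').1,
      fun i hi => (mem_node.1 h').2 i (by omega)⟩⟩
  right
  push Not at h
  obtain ⟨b, hb, hb'⟩ := h
  obtain ⟨hbA, hb1⟩ := mem_node.1 hb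
  have h1 : ∃ i, lv i < t + 1 ∧ b i ≠ a i := by
    by_contra h2
    push Not at h2
    exact hb' (mem_node.2 ⟨hbA, h2⟩)
  obtain ⟨i, hi, hne⟩ := h1
  have hit : lv i = t := by
    by_contra h3
    exact hne (hb1 i (by omega))
  have key : ∀ a₀ ∈ node lv A t a, ∀ a₁ ∈ node lv A t a, a₁ i = a₀ i + 1 →
      node lv A t a = node lv A (t + 1) a₀ ∪ node lv A (t + 1) a₁ := by
    intro a₀ h₀ a₁ h₁ he
    obtain ⟨m₀, e₀⟩ := mem_node.1 h₀
    obtain ⟨m₁, e₁⟩ := mem_node.1 h₁
    ext z
    rw [Finset.mem_union]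
    constructor
    · intro hz
      obtain ⟨mz, ez⟩ := mem_node.1 hz
      have b₀ := abs_le.1 (hA z mz a₀ m₀ i fun j hj => by
        rw [ez j (by omega), e₀ j (by omega)])
      have b₁ := abs_le.1 (hA z mz a₁ m₁ i fun j hj => by
        rw [ez j (by omega), e₁ j (by omega)])
      have hstep : ∀ w : ι → ℤ, (∀ j, lv j < t → w j = a j) → z i = w i →
          ∀ j, lv j < t + 1 → z j = w j := by
        intro w hw hzw j hj
        by_cases hjt : lv j < t
        · rw [ez j hjt, hw j hjt]
        · have : j = i := hlv (by omega)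
          rw [this, hzw]
      by_cases hz0 : z i = a₀ i
      · exact Or.inl (mem_node.2 ⟨mz, hstep a₀ e₀ hz0⟩)
      · exact Or.inr (mem_node.2 ⟨mz, hstep a₁ e₁ (by omega)⟩)
    · rintro (hz | hz)
      · obtain ⟨mz, ez⟩ := mem_node.1 hz
        exact mem_node.2 ⟨mz, fun j hj => by rw [ez j (by omega), e₀ j hj]⟩
      · obtain ⟨mz, ez⟩ := mem_node.1 hz
        exact mem_node.2 ⟨mz, fun j hj => by rw [ez j (by omega), e₁ j hj]⟩
  have haa : a ∈ node lv A t a := mem_node.2 ⟨ha, fun _ _ => rfl⟩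
  have h4 := abs_le.1 (hA b hbA a ha i fun j hj => hb1 j (by omega))
  by_cases h5 : b i = a i + 1
  · exact ⟨a, ha, b, hbA, i, a i, hit, key a haa b hb h5, rfl, h5⟩
  · have h6 : a i = b i + 1 := by omega
    exact ⟨b, hbA, a, ha, i, b i, hit, key b hb a haa h6, rfl, h6⟩

end Node

/-- The bound for a node of mass `s`. -/
noncomputable def nb (η V s : ℝ) : ℝ≥0∞ :=
  ENNReal.ofReal (Real.exp (if s ≤ V then -(1 - 2 * η) * s else -(1 - 3 * η) * s))

theorem nb_le {η V s : ℝ} (hη : 0 < η) (hs : 0 ≤ s) :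
    nb η V s ≤ ENNReal.ofReal (Real.exp (-(1 - 3 * η) * s)) := by
  refine ENNReal.ofReal_le_ofReal (Real.exp_le_exp.2 ?_)
  split_ifs
  · nlinarith
  · exact le_rfl

theorem ofReal_exp_mul (a b : ℝ) : ENNReal.ofReal (Real.exp a) * ENNReal.ofReal (Real.exp b) =
    ENNReal.ofReal (Real.exp (a + b)) := by
  rw [Real.exp_add, ENNReal.ofReal_mul (Real.exp_pos a).le]

theorem tree_thm {ι κ J Ω : Type} [Fintype ι] [DecidableEq ι] [Fintype κ] [Fintype J]
    [MeasurableSpace Ω] (P : Measure Ω) [IsProbabilityMeasure P] (lv : ι → ℕ) (k : ℕ)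
    (hlv : Function.Injective lv) (hlt : ∀ i, lv i < k) (A : J → Finset (ι → ℤ))
    (htree : ∀ j, IsTree lv (A j)) (hcard : ∀ j, (A j).card ≤ 2 ^ k)
    (F : J → (ι → ℤ) → Ω → (κ → T) → ℝ≥0∞)
    (hF : ∀ j a, Measurable (Function.uncurry (F j a))) (hF1 : ∀ j a ω y, F j a ω y ≤ 1)
    (m : J → (ι → ℤ) → ℝ) {η V : ℝ} (hη : 0 < η) (hη' : η ≤ 1 / 10)
    (hm : ∀ j, ∀ a ∈ A j, 0 ≤ m j a ∧ m j a ≤ V)
    (hlight : ∀ j, ∀ N ⊆ A j, N.Nonempty → ∑ a ∈ N, m j a ≤ V →
      ((volume : Measure (ι → κ → T)).prod P)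
        {x | ENNReal.ofReal (Real.exp (-(1 - 2 * η) * ∑ a ∈ N, m j a)) < Psi (F j) N x} ≤
        ENNReal.ofReal (2 * Real.exp (-η * V / 2)))
    (hnum : 2 * (Fintype.card J : ℝ) * (k + 1) * 2 ^ k * Real.exp (-η * V / 2) < 1) :
    ∃ x : (ι → κ → T) × Ω, ∀ j,
      Psi (F j) (A j) x ≤ ENNReal.ofReal (Real.exp (-(1 - 3 * η) * ∑ a ∈ A j, m j a)) := by
  set ν := (volume : Measure (ι → κ → T)).prod P with hν
  let M : J → ℕ → (ι → ℤ) → ℝ := fun j t a => ∑ a' ∈ node lv (A j) t a, m j a'
  let Good : ℕ → Set ((ι → κ → T) × Ω) := fun t => {x | ∀ j, ∀ s, t ≤ s → s ≤ k → ∀ a ∈ A j,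
    Psi (F j) (node lv (A j) s a) x ≤ nb η V (M j s a)}
  have hΨ : ∀ j N, Measurable (Psi (F j) N) := fun j N => measurable_Psi _ (hF j) N
  have hM0 : ∀ j t a, 0 ≤ M j t a := fun j t a =>
    Finset.sum_nonneg fun a' ha' => (hm j a' (mem_node.1 ha').1).1
  have hGm : ∀ t, MeasurableSet (Good t) := by
    intro t
    have h : Good t = ⋂ j, ⋂ s, ⋂ (_ : t ≤ s), ⋂ (_ : s ≤ k), ⋂ a ∈ A j,
        {x | Psi (F j) (node lv (A j) s a) x ≤ nb η V (M j s a)} := by
      ext x; simp [Good]
    rw [h]
    exact MeasurableSet.iInter fun j => MeasurableSet.iInter fun s => MeasurableSet.iInter fun _ =>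
      MeasurableSet.iInter fun _ => Finset.measurableSet_biInter _ fun a _ =>
        measurableSet_le (hΨ j _) measurable_const
  have hGmono : ∀ t, Good t ⊆ Good (t + 1) := fun t x hx j s hs => hx j s (by omega)
  have hGinv : ∀ t i, lv i < t → ∀ u x, shf i u x ∈ Good t ↔ x ∈ Good t := by
    intro t i hi u x
    refine forall_congr' fun j => forall_congr' fun s => forall_congr' fun hs =>
      forall_congr' fun _ => forall_congr' fun a => forall_congr' fun _ => ?_
    rw [Psi_shift (F j) _ i (a i) fun a' ha' => (mem_node.1 ha').2 i (by omega)]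
  have claim : ∀ d t, t + d = k → ∀ j, ∀ a ∈ A j, V < M j t a →
      ∫⁻ x in Good (t + 1), Psi (F j) (node lv (A j) t a) x ∂ν ≤
        ENNReal.ofReal (Real.exp (-(1 - 3 * η) * M j t a + -η * V)) := by
    intro d
    induction d with
    | zero =>
      intro t ht j a ha hV
      have h1 : node lv (A j) t a = {a} := by
        ext a'
        rw [mem_node, Finset.mem_singleton]
        exact ⟨fun h => funext fun i => h.2 i (by have := hlt i; omega),
          fun h => by rw [h]; exact ⟨ha, fun _ _ => rfl⟩⟩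
      have h2 : M j t a = m j a := by simp only [M, h1, Finset.sum_singleton]
      have := (hm j a ha).2
      linarith
    | succ d ih =>
      intro t ht j a ha hV
      have ih' := ih (t + 1) (by omega) j
      rcases node_split hlv (htree j) t ha with h | ⟨a₀, ha₀, a₁, ha₁, i, c, hi, hN, hc₀, hc₁⟩
      · have hM : M j t a = M j (t + 1) a := by simp only [M, h]
        rw [h, hM]
        exact (lintegral_mono_set (hGmono _)).trans (ih' a ha (hM ▸ hV))
      have e₀ : ∀ z ∈ node lv (A j) (t + 1) a₀, z i = c := fun z hz => by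
        rw [(mem_node.1 hz).2 i (by omega), hc₀]
      have e₁ : ∀ z ∈ node lv (A j) (t + 1) a₁, z i = c + 1 := fun z hz => by
        rw [(mem_node.1 hz).2 i (by omega), hc₁]
      have hd : Disjoint (node lv (A j) (t + 1) a₀) (node lv (A j) (t + 1) a₁) :=
        Finset.disjoint_left.2 fun z h₀ h₁ => by
          have := e₀ z h₀
          have := e₁ z h₁
          omega
      have hM : M j t a = M j (t + 1) a₀ + M j (t + 1) a₁ := by
        simp only [M, hN, Finset.sum_union hd]
      rw [hN, setLIntegral_split P (F j) (hF j) _ _ hd i c e₀ e₁ (hGm _)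
        (hGinv (t + 1) i (by omega)), hM]
      have g₀ : ∀ x ∈ Good (t + 1), Psi (F j) (node lv (A j) (t + 1) a₀) x ≤
          nb η V (M j (t + 1) a₀) := fun x hx => hx j (t + 1) le_rfl (by omega) a₀ ha₀
      have g₁ : ∀ x ∈ Good (t + 1), Psi (F j) (node lv (A j) (t + 1) a₁) x ≤
          nb η V (M j (t + 1) a₁) := fun x hx => hx j (t + 1) le_rfl (by omega) a₁ ha₁
      by_cases v₁ : V < M j (t + 1) a₁
      · refine (setLIntegral_mono' (hGm _) fun x hx => mul_le_mul_left
          ((g₀ x hx).trans (nb_le hη (hM0 _ _ _))) _).trans ?_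
        rw [lintegral_const_mul _ (hΨ j _)]
        refine (mul_le_mul_right ((lintegral_mono_set (hGmono _)).trans (ih' a₁ ha₁ v₁)) _).trans
          (le_of_eq ?_)
        rw [ofReal_exp_mul]
        exact congrArg _ (congrArg _ (by ring))
      by_cases v₀ : V < M j (t + 1) a₀
      · refine (setLIntegral_mono' (hGm _) fun x hx => mul_le_mul_right
          ((g₁ x hx).trans (nb_le hη (hM0 _ _ _))) _).trans ?_
        rw [lintegral_mul_const _ (hΨ j _)]
        refine (mul_le_mul_left ((lintegral_mono_set (hGmono _)).trans (ih' a₀ ha₀ v₀)) _).trans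
          (le_of_eq ?_)
        rw [ofReal_exp_mul]
        exact congrArg _ (congrArg _ (by ring))
      refine (setLIntegral_mono' (hGm _) fun x hx => mul_le_mul' (g₀ x hx) (g₁ x hx)).trans ?_
      rw [setLIntegral_const]
      refine (mul_le_of_le_one_right' prob_le_one).trans ?_
      unfold nb
      rw [if_pos (not_lt.1 v₀), if_pos (not_lt.1 v₁), ofReal_exp_mul]
      refine ENNReal.ofReal_le_ofReal (Real.exp_le_exp.2 ?_)
      rw [hM] at hV
      nlinarith
  let Bad : J → ℕ → (ι → ℤ) → Set ((ι → κ → T) × Ω) := fun j t a =>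
    Good (t + 1) ∩ {x | nb η V (M j t a) < Psi (F j) (node lv (A j) t a) x}
  have hBad : ∀ j t, t ≤ k → ∀ a ∈ A j,
      ν (Bad j t a) ≤ ENNReal.ofReal (2 * Real.exp (-η * V / 2)) := by
    intro j t ht a ha
    by_cases hV : M j t a ≤ V
    · refine le_trans (measure_mono fun x hx => ?_) (hlight j (node lv (A j) t a)
        (Finset.filter_subset _ _) ⟨a, mem_node.2 ⟨ha, fun _ _ => rfl⟩⟩ hV)
      have h := hx.2
      unfold nb at h
      rw [if_pos hV] at h
      exact h
    · have h1 := claim (k - t) t (by omega) j a ha (not_le.1 hV)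
      have h2 := mul_meas_ge_le_lintegral (μ := ν.restrict (Good (t + 1)))
        (hΨ j (node lv (A j) t a)) (ENNReal.ofReal (Real.exp (-(1 - 3 * η) * M j t a)))
      rw [Measure.restrict_apply' (hGm _)] at h2
      have h3 := h2.trans h1
      rw [← ofReal_exp_mul, ENNReal.mul_le_mul_iff_right
        (ENNReal.ofReal_pos.2 (Real.exp_pos _)).ne' ENNReal.ofReal_ne_top] at h3
      refine le_trans (measure_mono fun x hx => ?_) (h3.trans (ENNReal.ofReal_le_ofReal ?_))
      · have h := hx.2
        unfold nb at h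
        rw [if_neg hV] at h
        exact ⟨(show _ < Psi (F j) (node lv (A j) t a) x from h).le, hx.1⟩
      · have h4 : 0 ≤ V := (hm j a ha).1.trans (hm j a ha).2
        have h5 : Real.exp (-η * V) ≤ Real.exp (-η * V / 2) := Real.exp_le_exp.2 (by nlinarith)
        have := Real.exp_pos (-η * V / 2)
        linarith
  have hcover : (Good 0)ᶜ ⊆ ⋃ j, ⋃ t ∈ Finset.range (k + 1), ⋃ a ∈ A j, Bad j t a := by
    intro x hx
    by_contra hn
    have h1 : ∀ d t, t + d = k + 1 → x ∈ Good t := by
      intro d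
      induction d with
      | zero => intro t ht j s h1 h2; omega
      | succ d ih =>
        intro t ht j s h1 h2 a ha
        have h3 := ih (t + 1) (by omega)
        rcases h1.eq_or_lt with h4 | h4
        · by_contra h5
          refine hn (Set.mem_iUnion.2 ⟨j, Set.mem_iUnion₂.2 ⟨s, Finset.mem_range.2 (by omega),
            Set.mem_iUnion₂.2 ⟨a, ha, h4 ▸ h3, not_le.1 h5⟩⟩⟩)
        · exact h3 j s h4 h2 a ha
    exact hx (h1 (k + 1) 0 (by omega))
  have hlt1 : ν (Good 0)ᶜ < 1 := by
    refine (measure_mono hcover).trans_lt ((measure_iUnion_fintype_le _ _).trans_lt ?_)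
    have h1 : ∀ j, ν (⋃ t ∈ Finset.range (k + 1), ⋃ a ∈ A j, Bad j t a) ≤
        ENNReal.ofReal ((k + 1) * (2 ^ k * (2 * Real.exp (-η * V / 2)))) := by
      intro j
      refine (measure_biUnion_finset_le _ _).trans ?_
      have h2 : ∀ t ∈ Finset.range (k + 1), ν (⋃ a ∈ A j, Bad j t a) ≤
          ENNReal.ofReal (2 ^ k * (2 * Real.exp (-η * V / 2))) := by
        intro t ht
        refine (measure_biUnion_finset_le _ _).trans ((Finset.sum_le_card_nsmul _ _ _
          (hBad j t (Nat.lt_succ_iff.1 (Finset.mem_range.1 ht)))).trans ?_)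
        rw [← ENNReal.ofReal_nsmul, nsmul_eq_mul]
        refine ENNReal.ofReal_le_ofReal (mul_le_mul_of_nonneg_right ?_ (by positivity))
        exact_mod_cast hcard j
      refine (Finset.sum_le_card_nsmul _ _ _ h2).trans (le_of_eq ?_)
      rw [← ENNReal.ofReal_nsmul, nsmul_eq_mul, Finset.card_range]
      push_cast
      rfl
    refine (Finset.sum_le_card_nsmul _ _ _ fun j _ => h1 j).trans_lt ?_
    rw [← ENNReal.ofReal_nsmul, nsmul_eq_mul, Finset.card_univ, ENNReal.ofReal_lt_one]
    linarith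
  have hne : (Good 0).Nonempty := by
    by_contra h
    rw [Set.not_nonempty_iff_eq_empty.1 h, compl_empty, measure_univ] at hlt1
    exact lt_irrefl _ hlt1
  obtain ⟨x, hx⟩ := hne
  refine ⟨x, fun j => ?_⟩
  rcases (A j).eq_empty_or_nonempty with h | ⟨a, ha⟩
  · simp [h, Psi]
  · have h1 : node lv (A j) 0 a = A j := by
      ext a'; simp [mem_node]
    have h2 := (hx j 0 le_rfl (Nat.zero_le k) a ha).trans (nb_le hη (hM0 _ _ _))
    simp only [M, h1] at h2
    exact h2

end Vale.Agent.P230.L
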