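import Vale.Agent.P230.L.Sieve
import Vale.Agent.P230.L.Tree

/-! Auxiliary lemmas for the light nodes: one-dimensional integrals and product integrals. -/

namespace Vale.Agent.P230.L

open MeasureTheory ProbabilityTheory Set
open scoped ENNReal

/-- Uniform measure on the unit interval. -/
noncomputable def mu01 : Measure ℝ := volume.restrict (Ioc 0 1)

instance : IsProbabilityMeasure mu01 := ⟨by simp [mu01]⟩

theorem lint_pi_prod {J X : Type} [Fintype J] [MeasurableSpace X] (μ : Measure X)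
    [IsProbabilityMeasure μ] (f : J → X → ℝ≥0∞) (hf : ∀ j, Measurable (f j)) :
    ∫⁻ u, ∏ j, f j (u j) ∂(Measure.pi fun _ : J => μ) = ∏ j, ∫⁻ x, f j x ∂μ := by
  have h := lintegral_prod_eq_prod_lintegral_of_indepFun (μ := Measure.pi fun _ : J => μ)
    Finset.univ (fun j u => f j (u j)) (iIndepFun_pi fun j => (hf j).aemeasurable)
    (fun j => (hf j).comp (measurable_pi_apply j))
  rw [h]
  refine Finset.prod_congr rfl fun j _ => ?_
  exact (measurePreserving_eval (fun _ : J => μ) j).lintegral_comp (hf j)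

theorem oneD {q : ℝ → ℝ} (hq : Integrable q mu01) (hq0 : ∀ t, 0 ≤ q t) {η c c' : ℝ}
    (hcc : c ≤ c') (hx : ∀ x, 0 ≤ x → x ≤ η → Real.exp (c * x) ≤ 1 + c' * x)
    (h : (∃ m, ∀ t ∈ Ioc (0 : ℝ) 1, q t = m) ∨ ∀ t, q t ≤ η) :
    ∫⁻ t, ENNReal.ofReal (Real.exp (c * q t)) ∂mu01 ≤
      ENNReal.ofReal (Real.exp (c' * ∫ t, q t ∂mu01)) := by
  have hm0 : 0 ≤ ∫ t, q t ∂mu01 := integral_nonneg hq0
  rcases h with ⟨m, hm⟩ | h
  · have hae : ∀ᵐ t ∂mu01, q t = m := (ae_restrict_iff' measurableSet_Ioc).2 (ae_of_all _ hm)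
    have h1 : ∫ t, q t ∂mu01 = m := by
      rw [integral_congr_ae hae]; simp
    have h2 : ∫⁻ t, ENNReal.ofReal (Real.exp (c * q t)) ∂mu01 =
        ENNReal.ofReal (Real.exp (c * m)) := by
      rw [lintegral_congr_ae (g := fun _ => ENNReal.ofReal (Real.exp (c * m)))]
      · simp
      · filter_upwards [hae] with t ht
        rw [ht]
    rw [h2, h1]
    refine ENNReal.ofReal_le_ofReal (Real.exp_le_exp.2 ?_)
    rw [h1] at hm0
    exact mul_le_mul_of_nonneg_right hcc hm0
  · have hi : Integrable (fun t => 1 + c' * q t) mu01 := (integrable_const 1).add (hq.const_mul c')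
    calc ∫⁻ t, ENNReal.ofReal (Real.exp (c * q t)) ∂mu01
        ≤ ∫⁻ t, ENNReal.ofReal (1 + c' * q t) ∂mu01 :=
          lintegral_mono fun t => ENNReal.ofReal_le_ofReal (hx _ (hq0 t) (h t))
      _ = ENNReal.ofReal (∫ t, (1 + c' * q t) ∂mu01) := by
          rw [ofReal_integral_eq_lintegral_ofReal hi]
          exact ae_of_all _ fun t => (Real.exp_pos _).le.trans (hx _ (hq0 t) (h t))
      _ = ENNReal.ofReal (1 + c' * ∫ t, q t ∂mu01) := by
          rw [integral_add (integrable_const 1) (hq.const_mul c'), integral_const_mul]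
          simp
      _ ≤ _ := by
          refine ENNReal.ofReal_le_ofReal ?_
          have := Real.add_one_le_exp (c' * ∫ t, q t ∂mu01)
          linarith

theorem exp_neg_small {η : ℝ} (hη' : η ≤ 1 / 10) (x : ℝ) (h0 : 0 ≤ x) (h1 : x ≤ η) :
    Real.exp (-1 * x) ≤ 1 + -(1 - η) * x := by
  have h := Real.abs_exp_sub_one_sub_id_le (x := -1 * x) (by rw [abs_le]; constructor <;> linarith)
  have h2 := (abs_le.1 h).2
  nlinarith

theorem exp_three_small {η : ℝ} (hη' : η ≤ 1 / 10) (x : ℝ) (h0 : 0 ≤ x) (h1 : x ≤ η) :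
    Real.exp (3 * x) ≤ 1 + 5 * x := by
  have h := Real.abs_exp_sub_one_sub_id_le (x := 3 * x) (by rw [abs_le]; constructor <;> linarith)
  have h2 := (abs_le.1 h).2
  nlinarith

/-- Volume of the targets of one leaf at level `t`. -/
noncomputable def qf {φ X : Type} [MeasureSpace X] (Z : Finset φ) (π : φ → X → ℝ) (S : φ → Set X)
    (t : ℝ) : ℝ :=
  ∑ z ∈ Z, volume.real (S z ∩ {x | t ≤ π z x})

section qf

variable {φ X : Type} [MeasureSpace X] [IsProbabilityMeasure (volume : Measure X)]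
  (Z : Finset φ) (π : φ → X → ℝ) (S : φ → Set X)

omit [IsProbabilityMeasure (volume : Measure X)] in
theorem qf_nonneg (t : ℝ) : 0 ≤ qf Z π S t :=
  Finset.sum_nonneg fun _ _ => measureReal_nonneg

theorem qf_le (t : ℝ) : qf Z π S t ≤ ∑ z ∈ Z, volume.real (S z) :=
  Finset.sum_le_sum fun _ _ => measureReal_mono inter_subset_left

theorem piece_anti (z : φ) : Antitone fun t : ℝ => volume.real (S z ∩ {x | t ≤ π z x}) :=
  fun _ _ h => measureReal_mono (inter_subset_inter_right _ fun _ hx => h.trans hx)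

theorem piece_int (z : φ) :
    Integrable (fun t : ℝ => volume.real (S z ∩ {x | t ≤ π z x})) mu01 := by
  refine Integrable.of_bound (piece_anti π S z).measurable.aestronglyMeasurable 1
    (ae_of_all _ fun t => ?_)
  rw [Real.norm_of_nonneg measureReal_nonneg]
  exact measureReal_le_one

theorem qf_meas : Measurable (qf Z π S) :=
  Finset.measurable_sum _ fun z _ => (piece_anti π S z).measurable

theorem qf_int : Integrable (qf Z π S) mu01 :=
  integrable_finsetSum _ fun z _ => piece_int π S z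

theorem qf_integral (hπ : ∀ z, Measurable (π z)) (hπ0 : ∀ z x, 0 ≤ π z x)
    (hπ1 : ∀ z x, π z x ≤ 1) (hsupp : ∀ z x, π z x ≠ 0 → x ∈ S z) :
    ∫ t, qf Z π S t ∂mu01 = ∑ z ∈ Z, ∫ x, π z x := by
  unfold qf
  rw [integral_finsetSum _ fun z _ => piece_int π S z]
  refine Finset.sum_congr rfl fun z _ => ?_
  have hi : Integrable (π z) volume := by
    refine Integrable.of_bound (hπ z).aestronglyMeasurable 1 (ae_of_all _ fun x => ?_)
    rw [Real.norm_of_nonneg (hπ0 z x)]
    exact hπ1 z x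
  rw [hi.integral_eq_integral_Ioc_meas_le (M := 1) (ae_of_all _ (hπ0 z)) (ae_of_all _ (hπ1 z))]
  refine setIntegral_congr_fun measurableSet_Ioc fun t ht => ?_
  have : S z ∩ {x | t ≤ π z x} = {x | t ≤ π z x} :=
    inter_eq_right.2 fun x hx => hsupp z x (ne_of_gt (ht.1.trans_le hx))
  simp only [this]

omit [IsProbabilityMeasure (volume : Measure X)] in
theorem qf_const (h01 : ∀ z x, π z x = 0 ∨ π z x = 1) :
    ∃ m, ∀ t ∈ Ioc (0 : ℝ) 1, qf Z π S t = m := by
  refine ⟨qf Z π S 1, fun t ht => ?_⟩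
  refine Finset.sum_congr rfl fun z _ => ?_
  have : {x | t ≤ π z x} = {x | 1 ≤ π z x} := by
    ext x
    simp only [mem_ofPred_eq]
    rcases h01 z x with h | h <;> rw [h]
    · exact ⟨fun h' => absurd h' (not_le.2 ht.1), fun h' => absurd h' (by norm_num)⟩
    · exact ⟨fun _ => le_rfl, fun _ => ht.2⟩
  rw [this]

end qf

theorem one_sub_sup_le {φ : Type} (Z : Finset φ) (v : φ → ℝ) :
    1 - ⨆ z ∈ Z, ENNReal.ofReal (v z) ≤ mu01 {t | ∀ z ∈ Z, v z < t} := by
  set s := ⨆ z ∈ Z, ENNReal.ofReal (v z) with hs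
  by_cases h1 : 1 ≤ s
  · rw [tsub_eq_zero_of_le h1]; exact zero_le
  have hlt : s < 1 := not_le.1 h1
  have hne : s ≠ ⊤ := ne_top_of_lt hlt
  have hsub : Ioc s.toReal 1 ⊆ {t | ∀ z ∈ Z, v z < t} ∩ Ioc 0 1 := by
    intro t ht
    refine ⟨fun z hz => ?_, ENNReal.toReal_nonneg.trans_lt ht.1, ht.2⟩
    have : ENNReal.ofReal (v z) ≤ s := le_iSup₂_of_le (f := fun z (_ : z ∈ Z) =>
      ENNReal.ofReal (v z)) z hz le_rfl
    exact ((ENNReal.ofReal_le_iff_le_toReal hne).1 this).trans_lt ht.1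
  calc 1 - s = volume (Ioc s.toReal 1) := by
        rw [Real.volume_Ioc, ENNReal.ofReal_sub _ ENNReal.toReal_nonneg, ENNReal.ofReal_one,
          ENNReal.ofReal_toReal hne]
    _ ≤ volume ({t | ∀ z ∈ Z, v z < t} ∩ Ioc 0 1) := measure_mono hsub
    _ = mu01 {t | ∀ z ∈ Z, v z < t} := by
        rw [mu01, Measure.restrict_apply' measurableSet_Ioc]

end Vale.Agent.P230.L
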