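import Vale.Agent.P230.L.Light1

/-! The sieve applied to several copies of a light node. -/

namespace Vale.Agent.P230.L

open MeasureTheory ProbabilityTheory Set
open scoped ENNReal

/-- The integer vector of a triple. -/
def tri {p : ℕ} {ι φ : Type} (r : Fin p) (a : ι → ℤ) (z : φ → ℤ) : Fin p ⊕ (ι ⊕ φ) → ℤ :=
  Sum.elim (Pi.single r 1) (Sum.elim a z)

theorem tri_inj {p : ℕ} {ι φ : Type} {r r' : Fin p} {a a' : ι → ℤ} {z z' : φ → ℤ}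
    (h : tri r a z = tri r' a' z') : r = r' ∧ a = a' ∧ z = z' := by
  refine ⟨?_, funext fun l => congrFun h (Sum.inr (Sum.inl l)),
    funext fun l => congrFun h (Sum.inr (Sum.inr l))⟩
  by_contra hne
  have := congrFun h (Sum.inl r)
  simp [tri, Pi.single_eq_of_ne hne] at this

theorem comb_tri {p : ℕ} {ι φ G : Type} [Fintype ι] [Fintype φ] [AddCommGroup G] (r : Fin p)
    (a : ι → ℤ) (z : φ → ℤ) (w : Fin p ⊕ (ι ⊕ φ) → G) :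
    comb (tri r a z) w = w (Sum.inl r) + comb a (fun l => w (Sum.inr (Sum.inl l))) +
      comb z (fun l => w (Sum.inr (Sum.inr l))) := by
  unfold comb tri
  rw [Fintype.sum_sum_type, Fintype.sum_sum_type, Finset.sum_eq_single r]
  · simp [add_assoc]
  · intro b _ hb
    simp [Pi.single_eq_of_ne hb]
  · simp

/-- Embedding of the last block of coordinates. -/
def emb3 (p : ℕ) (ι φ : Type) : (φ → ℚ) →ₗ[ℚ] (Fin p ⊕ (ι ⊕ φ) → ℚ) where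
  toFun v := Sum.elim 0 (Sum.elim 0 v)
  map_add' v v' := by
    funext l
    rcases l with l | l | l <;> simp
  map_smul' c v := by
    funext l
    rcases l with l | l | l <;> simp

theorem emb3_inj (p : ℕ) (ι φ : Type) : Function.Injective (emb3 p ι φ) :=
  fun _ _ h => funext fun l => congrFun h (Sum.inr (Sum.inr l))

theorem qv_tri_sub {p : ℕ} {ι φ : Type} (r : Fin p) (a : ι → ℤ) (z z' : φ → ℤ) :
    emb3 p ι φ (qv z - qv z') = qv (tri r a z) - qv (tri r a z') := by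
  funext l
  rcases l with l | l | l <;> simp [emb3, qv, tri]

open Classical in
theorem span_count_tri {p : ℕ} {ι φ : Type} [Fintype ι] [Fintype φ] (L ρ : ℕ)
    (W : Submodule ℚ (Fin p ⊕ (ι ⊕ φ) → ℚ)) (hW : Module.finrank ℚ W ≤ ρ) (r : Fin p)
    (a : ι → ℤ) (Z : Finset (φ → ℤ)) (hZ : ∀ z ∈ Z, ∀ l, |z l| ≤ L) :
    (Z.filter fun z => qv (tri r a z) ∈ W).card ≤ (2 * L + 1) ^ ρ := by
  refine span_count L ρ (W.comap (emb3 p ι φ)) ?_ _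
    (fun z hz => hZ z (Finset.mem_filter.1 hz).1) ?_
  · refine le_trans ?_ hW
    refine LinearMap.finrank_le_finrank_of_injective
      (f := (emb3 p ι φ).restrict (p := W.comap (emb3 p ι φ)) (q := W) fun x hx => hx) ?_
    intro x y hxy
    exact Subtype.ext (emb3_inj p ι φ (congrArg Subtype.val hxy))
  · intro z hz z' hz'
    rw [Submodule.mem_comap, qv_tri_sub r a]
    exact W.sub_mem (Finset.mem_filter.1 hz).2 (Finset.mem_filter.1 hz').2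

theorem sum_sig {J φ M : Type} [Fintype J] [AddCommMonoid M] (Z : J → Finset φ)
    (f : J → φ → M) : ∑ i : (Σ j, Z j), f i.1 i.2 = ∑ j, ∑ z ∈ Z j, f j z := by
  rw [Fintype.sum_sigma]
  exact Finset.sum_congr rfl fun j _ => Finset.sum_coe_sort (Z j) (f j)

theorem sum_triple_le {J φ : Type} [Fintype J] (Z : J → Finset φ)
    (G : J → φ → J → φ → J → φ → ℝ≥0∞) (e : ℝ≥0∞)
    (h : ∀ j₁ j₂ j₃, ∑ z₁ ∈ Z j₁, ∑ z₂ ∈ Z j₂, ∑ z₃ ∈ Z j₃, G j₁ z₁ j₂ z₂ j₃ z₃ ≤ e) :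
    ∑ i₁ : (Σ j, Z j), ∑ i₂ : (Σ j, Z j), ∑ i₃ : (Σ j, Z j), G i₁.1 i₁.2 i₂.1 i₂.2 i₃.1 i₃.2 ≤
      (Fintype.card J : ℝ≥0∞) ^ 3 * e := by
  have h3 : ∀ j₁ z₁ j₂ z₂, ∑ i₃ : (Σ j, Z j), G j₁ z₁ j₂ z₂ i₃.1 i₃.2 =
      ∑ j₃, ∑ z₃ ∈ Z j₃, G j₁ z₁ j₂ z₂ j₃ z₃ := fun j₁ z₁ j₂ z₂ => sum_sig Z (G j₁ z₁ j₂ z₂)
  have h2 : ∀ j₁ z₁, ∑ i₂ : (Σ j, Z j), ∑ j₃, ∑ z₃ ∈ Z j₃, G j₁ z₁ i₂.1 i₂.2 j₃ z₃ =
      ∑ j₂, ∑ z₂ ∈ Z j₂, ∑ j₃, ∑ z₃ ∈ Z j₃, G j₁ z₁ j₂ z₂ j₃ z₃ := fun j₁ z₁ =>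
    sum_sig Z fun j₂ z₂ => ∑ j₃, ∑ z₃ ∈ Z j₃, G j₁ z₁ j₂ z₂ j₃ z₃
  have h1 := sum_sig Z fun j₁ z₁ => ∑ j₂, ∑ z₂ ∈ Z j₂, ∑ j₃, ∑ z₃ ∈ Z j₃, G j₁ z₁ j₂ z₂ j₃ z₃
  simp only [h3, h2]
  rw [h1]
  calc _ = ∑ j₁, ∑ j₂, ∑ j₃, ∑ z₁ ∈ Z j₁, ∑ z₂ ∈ Z j₂, ∑ z₃ ∈ Z j₃, G j₁ z₁ j₂ z₂ j₃ z₃ := by
        refine Finset.sum_congr rfl fun j₁ _ => ?_
        rw [Finset.sum_comm]
        refine Finset.sum_congr rfl fun j₂ _ => ?_
        rw [Finset.sum_comm (s := Finset.univ)]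
        refine Finset.sum_congr rfl fun z₁ _ => ?_
        rw [Finset.sum_comm]
    _ ≤ ∑ _j₁ : J, ∑ _j₂ : J, ∑ _j₃ : J, e :=
        Finset.sum_le_sum fun j₁ _ => Finset.sum_le_sum fun j₂ _ =>
          Finset.sum_le_sum fun j₃ _ => h j₁ j₂ j₃
    _ = _ := by
        simp only [Finset.sum_const, Finset.card_univ, nsmul_eq_mul]
        ring

theorem En_mono {G : Type} [AddCommGroup G] {S₁ S₂ S₃ S₀ S₁' S₂' S₃' S₀' : Set G}
    (h₁ : S₁' ⊆ S₁) (h₂ : S₂' ⊆ S₂) (h₃ : S₃' ⊆ S₃) (h₀ : S₀' ⊆ S₀) (σ : Fin 3 → ℤ) (s : G) :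
    En S₁' S₂' S₃' S₀' σ s ⊆ En S₁ S₂ S₃ S₀ σ s :=
  fun _ h => ⟨h₁ h.1, h₂ h.2.1, h₃ h.2.2.1, h₀ h.2.2.2⟩

theorem sieve_tri {ι φ κ : Type} [Fintype ι] [DecidableEq ι] [Fintype φ] [DecidableEq φ]
    [Fintype κ] (D : Finset κ) (L ρ p : ℕ) (N : Finset (ι → ℤ))
    (Z : (ι → ℤ) → Finset (φ → ℤ)) (hZ : ∀ a, ∀ z ∈ Z a, ∀ l, |z l| ≤ L)
    (S : (ι → ℤ) → (φ → ℤ) → Set (κ → T))
    (hwin : ∀ a z, ∀ x ∈ S a z, ∀ x' ∈ S a z, ∀ c ∈ D, ‖x c - x' c‖ < 1 / 4)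
    {P εA : ℝ} (hε : 0 ≤ εA) (hP : (Fintype.card (Fin p × N) : ℝ) ≤ P)
    (hA : ∀ a₁ ∈ N, ∀ a₂ ∈ N, ∀ a₃ ∈ N, ∀ a₀ ∈ N, ∀ σ, IsSign σ → ∀ (z' : φ → ℤ) (s : κ → T),
      ∑ z₁ ∈ Z a₁, ∑ z₂ ∈ Z a₂, ∑ z₃ ∈ Z a₃,
        volume (En (S a₁ z₁) (S a₂ z₂) (S a₃ z₃) (S a₀ (ssum σ z₁ z₂ z₃ + z')) σ s) ≤
        ENNReal.ofReal εA)
    (S' : Fin p × N → (φ → ℤ) → Set (κ → T)) (hS' : ∀ j z, MeasurableSet (S' j z))
    (hsub : ∀ j z, S' j z ⊆ S j.2 z) :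
    volume.real {w : Fin p ⊕ (ι ⊕ φ) → κ → T |
        ∀ j : Fin p × N, ∀ z ∈ Z j.2, comb (tri j.1 j.2 z) w ∉ S' j z} ≤
      Real.exp (-∑ j : Fin p × N, ∑ z ∈ Z j.2, volume.real (S' j z)) +
        Real.exp (3 * ∑ j : Fin p × N, ∑ z ∈ Z j.2, volume.real (S' j z)) *
        ((1 / 2) ^ ρ + (ρ + 2) * (P * (2 * L + 1) ^ ρ) * (1 / 2) ^ D.card + 8 * (P ^ 3 * εA)) := by
  classical
  have hP0 : 0 ≤ P := (Nat.cast_nonneg _).trans hP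
  have key := sieve (δ := Fin p ⊕ (ι ⊕ φ)) (I := Σ j : Fin p × N, Z j.2) D
    (fun i => tri i.1.1 i.1.2 i.2) ?_ (Sum.elim 1 0) ?_ (fun i => S' i.1 i.2)
    (fun i => hS' _ _) (fun i x hx x' hx' => hwin _ _ x (hsub _ _ hx) x' (hsub _ _ hx')) ρ
    (P * (2 * L + 1) ^ ρ) ?_ (εA := P ^ 3 * εA) (by positivity) ?_
  · rw [sum_sig (fun j : Fin p × N => Z j.2) fun j z => volume.real (S' j z)] at key
    refine le_trans (le_of_eq ?_) key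
    refine congrArg _ (Set.ext fun w => ?_)
    exact ⟨fun h i => h i.1 i.2 i.2.2, fun h j z hz => h ⟨j, z, hz⟩⟩
  · rintro ⟨⟨r, a, ha⟩, z, hz⟩ ⟨⟨r', a', ha'⟩, z', hz'⟩ h
    obtain ⟨h1, h2, h3⟩ := tri_inj h
    dsimp only at h1 h2 h3
    subst h1 h2 h3
    rfl
  · intro i
    simp [tri, dotProduct, Fintype.sum_sum_type, Pi.single_apply]
  · intro U hU
    set W := Submodule.span ℚ ((fun t : (Σ j : Fin p × N, Z j.2) =>
      qv (tri t.1.1 (t.1.2 : ι → ℤ) (t.2 : φ → ℤ))) '' U) with hW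
    have hWr : Module.finrank ℚ W ≤ ρ := by
      rw [hW, ← Finset.coe_image]
      exact (finrank_span_finset_le_card _).trans (Finset.card_image_le.trans hU)
    have hc := Finset.card_le_mul_card_image_of_maps_to (f := Sigma.fst)
      (s := Finset.univ.filter fun i : (Σ j : Fin p × N, Z j.2) =>
        qv (tri i.1.1 (i.1.2 : ι → ℤ) (i.2 : φ → ℤ)) ∈ W) (t := Finset.univ)
      (fun _ _ => Finset.mem_univ _) ((2 * L + 1) ^ ρ) fun j _ => by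
        refine le_trans ?_ (span_count_tri L ρ W hWr j.1 (j.2 : ι → ℤ) (Z j.2) (hZ _))
        refine Finset.card_le_card_of_injOn (fun i => (i.2 : φ → ℤ)) ?_ ?_
        · rintro ⟨j', z, hz⟩ hi
          simp only [Finset.coe_filter, Finset.mem_filter, Finset.mem_univ, true_and,
            mem_ofPred_eq] at hi ⊢
          obtain ⟨h1, rfl⟩ := hi
          exact ⟨hz, h1⟩
        · rintro ⟨j₁, z₁, hz₁⟩ h₁ ⟨j₂, z₂, hz₂⟩ h₂ h
          simp only [Finset.coe_filter, Finset.mem_filter, Finset.mem_univ, true_and,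
            mem_ofPred_eq] at h₁ h₂ h
          obtain ⟨-, rfl⟩ := h₁
          obtain ⟨-, rfl⟩ := h₂
          subst h
          rfl
    have hc' : _ ≤ (((2 * L + 1) ^ ρ * (Finset.univ : Finset (Fin p × N)).card : ℕ) : ℝ) :=
      Nat.cast_le.2 hc
    refine hc'.trans ?_
    push_cast
    rw [Finset.card_univ, mul_comm]
    exact mul_le_mul_of_nonneg_right hP (by positivity)
  · intro σ hσ w s
    have hb := sum_triple_le (fun j : Fin p × N => Z j.2)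
      (fun j₁ z₁ j₂ z₂ j₃ z₃ =>
        if ssum σ (j₁.2 : ι → ℤ) j₂.2 j₃.2 + (fun l => w (Sum.inr (Sum.inl l))) ∈ N then
          volume (En (S j₁.2 z₁) (S j₂.2 z₂) (S j₃.2 z₃)
            (S (ssum σ (j₁.2 : ι → ℤ) j₂.2 j₃.2 + fun l => w (Sum.inr (Sum.inl l)))
              (ssum σ z₁ z₂ z₃ + fun l => w (Sum.inr (Sum.inr l)))) σ s) else 0)
      (ENNReal.ofReal εA) fun j₁ j₂ j₃ => by
        by_cases h : ssum σ (j₁.2 : ι → ℤ) j₂.2 j₃.2 + (fun l => w (Sum.inr (Sum.inl l))) ∈ N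
        · simp only [if_pos h]
          exact hA _ j₁.2.2 _ j₂.2.2 _ j₃.2.2 _ h σ hσ _ s
        · simp only [if_neg h, Finset.sum_const_zero]
          exact zero_le
    refine le_trans ?_ (hb.trans ?_)
    · refine Finset.sum_le_sum fun i₁ _ => Finset.sum_le_sum fun i₂ _ =>
        Finset.sum_le_sum fun i₃ _ => ?_
      by_cases hex : ∃ i₀ : (Σ j : Fin p × N, Z j.2), tri i₀.1.1 (i₀.1.2 : ι → ℤ) (i₀.2 : φ → ℤ) =
          ssum σ (tri i₁.1.1 (i₁.1.2 : ι → ℤ) (i₁.2 : φ → ℤ)) (tri i₂.1.1 (i₂.1.2 : ι → ℤ) (i₂.2 : φ → ℤ))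
            (tri i₃.1.1 (i₃.1.2 : ι → ℤ) (i₃.2 : φ → ℤ)) + w
      · obtain ⟨i₀, h₀⟩ := hex
        have ha : ssum σ (i₁.1.2 : ι → ℤ) i₂.1.2 i₃.1.2 + (fun l => w (Sum.inr (Sum.inl l))) =
            i₀.1.2 := funext fun l => (congrFun h₀ (Sum.inr (Sum.inl l))).symm
        have hz : ssum σ (i₁.2 : φ → ℤ) i₂.2 i₃.2 + (fun l => w (Sum.inr (Sum.inr l))) =
            i₀.2 := funext fun l => (congrFun h₀ (Sum.inr (Sum.inr l))).symm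
        rw [Finset.sum_eq_single i₀, if_pos h₀, ha, hz, if_pos i₀.1.2.2]
        · exact measure_mono (En_mono (hsub _ _) (hsub _ _) (hsub _ _) (hsub _ _) σ s)
        · rintro ⟨⟨r, a, ha⟩, z, hz⟩ _ hne
          refine if_neg fun h => hne ?_
          obtain ⟨⟨r', a', ha'⟩, z', hz'⟩ := i₀
          obtain ⟨h1, h2, h3⟩ := tri_inj (h.trans h₀.symm)
          dsimp only at h1 h2 h3
          subst h1 h2 h3
          rfl
        · simp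
      · rw [Finset.sum_eq_zero fun i₀ _ => if_neg fun h => hex ⟨i₀, h⟩]
        exact zero_le
    · rw [ENNReal.ofReal_mul (by positivity), ENNReal.ofReal_pow hP0]
      gcongr
      rw [← ENNReal.ofReal_natCast]
      exact ENNReal.ofReal_le_ofReal hP

end Vale.Agent.P230.L
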