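import Vale.Agent.P230.L.Shell1

/-! A thin shell of constant probability.

Write g a = E gk k a R and gk k a r = exp (-k psi (r / a)), psi u = log u + (u^(-2) - 1)/2,
(1 - 1/u)^2 / 2 <= psi u, and psi u <= 3/2 (u - 1)^2 for u >= 1.
shell_max: M = sSup of g on [1/200, 2], a* with g a* >= M/2.  Grid a j = 1/100 + j tau,
tau = 1/(100 sqrt k), those j with a j <= 2 (at most 200 sqrt k + 1 =: N of them).  Every
r in [1/100, 2] has a grid point with 1 <= r / a j <= 1 + 1/sqrt k, so sum_j g (a j) >= 1/10 and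
M >= 1/(10 N).  For a = a j: with mid = (a + a*)/2, a a* = mid^2 (1 - b^2), b >= |a - a*|/4,
(mid / (mid - d))^(2k) <= 2, mid - d in [1/200, 2], so g a <= 4 M exp (-k b^2) + 2 err / M, and
exp (-t^2) <= exp (1/4 - t) turns the sum into two geometric series of ratio exp (-1/400).
Hence 1/10 <= C M + 20 N^2 err, and 20 N^2 err <= 1/20.
thin_shell: k = ceil (L b^2) with exp (-L/128) <= c4/2, x = 1/(4b), sigma = a* (1 - x): outside
R / a* in [1 - x, 1 + x] one has gk <= exp (-k x^2 / 8) <= c4/2; take w = m^(1/7). -/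

namespace Vale.Agent.P230.L

open MeasureTheory ProbabilityTheory Set
open scoped ENNReal

lemma shell_gk_eq (k : ℕ) (a r : ℝ) :
    gk k a r = (a / r * Real.exp ((1 - (a / r) ^ 2) / 2)) ^ k := by
  rw [gk, mul_pow, ← Real.exp_nat_mul]
  congr 2
  rw [div_pow, mul_div_assoc, mul_comm 2, ← div_div]
  ring

lemma shell_gk_upper (k : ℕ) {a r : ℝ} (ha : 0 ≤ a) (hr : 0 ≤ r) :
    gk k a r ≤ Real.exp (-(k * (1 - a / r) ^ 2 / 2)) := by
  have hv : 0 ≤ a / r := div_nonneg ha hr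
  have h1 : a / r * Real.exp ((1 - (a / r) ^ 2) / 2) ≤ Real.exp (-((1 - a / r) ^ 2 / 2)) := by
    have h2 : a / r ≤ Real.exp (a / r - 1) := by linarith [Real.add_one_le_exp (a / r - 1)]
    refine (mul_le_mul_of_nonneg_right h2 (Real.exp_pos _).le).trans (le_of_eq ?_)
    rw [← Real.exp_add]
    congr 1
    ring
  rw [shell_gk_eq]
  refine (pow_le_pow_left₀ (by positivity) h1 k).trans (le_of_eq ?_)
  rw [← Real.exp_nat_mul]
  congr 1
  ring

lemma shell_exp_three_half : 1 / 6 ≤ Real.exp (-(3 / 2)) := by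
  have h1 := Real.exp_one_lt_d9
  have h2 : Real.exp (1 / 2) ≤ 2 := by
    have h3 : Real.exp (1 / 2) * Real.exp (1 / 2) = Real.exp 1 := by
      rw [← Real.exp_add]; norm_num
    nlinarith [Real.exp_pos (1 / 2)]
  have h4 : Real.exp (3 / 2) = Real.exp 1 * Real.exp (1 / 2) := by
    rw [← Real.exp_add]; norm_num
  have h5 : Real.exp (3 / 2) ≤ 6 := by
    rw [h4]
    nlinarith [Real.exp_pos (1 / 2), Real.exp_pos 1]
  rw [Real.exp_neg, one_div]
  exact inv_anti₀ (Real.exp_pos _) h5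

lemma shell_gk_lower (k : ℕ) {a r s : ℝ} (ha : 0 < a) (hs : 0 ≤ s) (hr : r = a * (1 + s))
    (hk : k * s ^ 2 ≤ 1) : 1 / 6 ≤ gk k a r := by
  have h1 : 0 < 1 + s := by linarith
  have hv : a / r = 1 / (1 + s) := by rw [hr]; field_simp
  have h2 : Real.exp (-s) ≤ 1 / (1 + s) := by
    rw [Real.exp_neg, one_div]
    exact inv_anti₀ h1 (by linarith [Real.add_one_le_exp s])
  have h3 : -(3 / 2 * s ^ 2) ≤ -s + (1 - (1 / (1 + s)) ^ 2) / 2 := by
    have : -s + (1 - (1 / (1 + s)) ^ 2) / 2 = -(s ^ 2 * (3 / 2 + s) / (1 + s) ^ 2) := by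
      field_simp
      ring
    rw [this, neg_le_neg_iff, div_le_iff₀ (by positivity)]
    have h4 : 3 / 2 + s ≤ 3 / 2 * (1 + s) ^ 2 := by nlinarith
    nlinarith [mul_le_mul_of_nonneg_left h4 (sq_nonneg s)]
  have h4 : Real.exp (-(3 / 2 * s ^ 2)) ≤ a / r * Real.exp ((1 - (a / r) ^ 2) / 2) := by
    rw [hv]
    refine (Real.exp_le_exp.2 h3).trans ?_
    rw [Real.exp_add]
    exact mul_le_mul_of_nonneg_right h2 (Real.exp_pos _).le
  rw [shell_gk_eq]
  refine le_trans ?_ (pow_le_pow_left₀ (Real.exp_pos _).le h4 k)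
  rw [← Real.exp_nat_mul]
  exact shell_exp_three_half.trans (Real.exp_le_exp.2 (by linarith))

lemma shell_geom : ∃ C : ℝ, 0 < C ∧ ∀ (N : ℕ) (s : ℝ),
    ∑ j ∈ Finset.range N, Real.exp (-(|(j : ℝ) - s| / 400)) ≤ C := by
  set f : ℤ → ℝ := fun n => Real.exp (-(|(n : ℝ)| / 400)) with hf
  have h0 : Summable fun n : ℕ => Real.exp (-(1 / 400)) ^ n :=
    summable_geometric_of_lt_one (Real.exp_pos _).le (Real.exp_lt_one_iff.2 (by norm_num))
  have h1 : ∀ n : ℕ, Real.exp (-(1 / 400)) ^ n = Real.exp (-(|(n : ℝ)| / 400)) := by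
    intro n
    rw [← Real.exp_nat_mul, Nat.abs_cast]
    congr 1
    ring
  have hs : Summable f := by
    refine Summable.of_nat_of_neg (h0.congr fun n => ?_) (h0.congr fun n => ?_)
    · rw [h1, hf]; simp
    · rw [h1, hf]; simp
  refine ⟨Real.exp 1 * ∑' n, f n + 1, ?_, fun N s => ?_⟩
  · have : 0 ≤ ∑' n, f n := tsum_nonneg fun n => (Real.exp_pos _).le
    positivity
  have h2 : ∀ j : ℕ, Real.exp (-(|(j : ℝ) - s| / 400)) ≤ Real.exp 1 * f (j - ⌊s⌋) := by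
    intro j
    rw [hf, ← Real.exp_add]
    apply Real.exp_le_exp.2
    have h3 : |((j : ℝ) - ⌊s⌋)| ≤ |(j : ℝ) - s| + |s - ⌊s⌋| := abs_sub_le _ _ _
    have h4 : |s - ⌊s⌋| ≤ 1 := by
      rw [abs_of_nonneg (by linarith [Int.floor_le s])]
      linarith [Int.lt_floor_add_one s]
    push_cast
    linarith
  have h3 : ∑ j ∈ Finset.range N, f (j - ⌊s⌋) ≤ ∑' n, f n := by
    rw [← Finset.sum_image (s := Finset.range N) (g := fun j : ℕ => (j : ℤ) - ⌊s⌋) (f := f)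
      fun x _ y _ h => by simpa using h]
    exact hs.sum_le_tsum _ fun n _ => (Real.exp_pos _).le
  refine (Finset.sum_le_sum fun j _ => h2 j).trans ?_
  rw [← Finset.mul_sum]
  linarith [mul_le_mul_of_nonneg_left h3 (Real.exp_pos 1).le]

lemma shell_ratio {k : ℕ} (hk : 1 ≤ k) {a a' : ℝ} (ha : 1 / 100 ≤ a) (ha2 : a ≤ 2)
    (ha' : 1 / 200 ≤ a') (ha'2 : a' ≤ 2) :
    (a * a' / ((a + a') / 2 - 1 / (1000 * k)) ^ 2) ^ k ≤
      2 * Real.exp (-(k * (a - a') ^ 2 / 16)) := by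
  have hk' : (1 : ℝ) ≤ k := by exact_mod_cast hk
  set d : ℝ := 1 / (1000 * k) with hd
  have hd0 : 0 < d := by positivity
  have hd1 : d ≤ 1 / 1000 := by
    rw [hd]
    exact one_div_le_one_div_of_le (by norm_num) (by linarith)
  have hkd : k * d = 1 / 1000 := by rw [hd]; field_simp
  set m := (a + a') / 2 with hm
  have hm0 : 1 / 200 ≤ m - d := by linarith
  have hm2 : m ≤ 2 := by linarith
  have h1 : a * a' ≤ m ^ 2 * Real.exp (-((a - a') ^ 2 / 16)) := by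
    have h2 := Real.add_one_le_exp (-((a - a') ^ 2 / 16))
    have h3 : a * a' = m ^ 2 - (a - a') ^ 2 / 4 := by rw [hm]; ring
    have h4 : m ^ 2 ≤ 4 := by nlinarith
    have h5 := mul_le_mul_of_nonneg_left h2 (sq_nonneg m)
    have h6 := mul_le_mul_of_nonneg_right h4 (sq_nonneg (a - a'))
    linarith
  have h2 : m ≤ (m - d) * Real.exp (200 * d) := by
    have h3 := mul_le_mul_of_nonneg_left (Real.add_one_le_exp (200 * d))
      (show 0 ≤ m - d by linarith)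
    have h4 := mul_le_mul_of_nonneg_right hm0 hd0.le
    linarith
  have h3 : a * a' / (m - d) ^ 2 ≤ Real.exp (400 * d - (a - a') ^ 2 / 16) := by
    rw [div_le_iff₀ (by positivity), sub_eq_add_neg (400 * d), Real.exp_add]
    have h4 : m ^ 2 ≤ ((m - d) * Real.exp (200 * d)) ^ 2 := pow_le_pow_left₀ (by linarith) h2 2
    have h5 : Real.exp (200 * d) ^ 2 = Real.exp (400 * d) := by
      rw [← Real.exp_nat_mul]; congr 1; push_cast; ring
    rw [mul_pow, h5] at h4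
    have h6 := mul_le_mul_of_nonneg_right h4 (Real.exp_pos (-((a - a') ^ 2 / 16))).le
    linarith
  refine (pow_le_pow_left₀ (by positivity) h3 k).trans ?_
  rw [← Real.exp_nat_mul, mul_sub, sub_eq_add_neg, Real.exp_add, mul_div_assoc]
  refine mul_le_mul_of_nonneg_right ?_ (Real.exp_pos _).le
  have h4 : (k : ℝ) * (400 * d) = 2 / 5 := by linear_combination 400 * hkd
  rw [h4]
  have h5 := Real.add_one_le_exp (-(2 / 5))
  have h6 : Real.exp (2 / 5) * Real.exp (-(2 / 5)) = 1 := by rw [← Real.exp_add]; simp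
  nlinarith [Real.exp_pos (2 / 5)]

lemma shell_exp_sq (t : ℝ) : Real.exp (-t ^ 2) ≤ 2 * Real.exp (-t) := by
  have h1 : Real.exp (-t ^ 2) ≤ Real.exp (1 / 4) * Real.exp (-t) := by
    rw [← Real.exp_add]
    exact Real.exp_le_exp.2 (by nlinarith [sq_nonneg (t - 1 / 2)])
  have h5 := Real.add_one_le_exp (-(1 / 4))
  have h6 : Real.exp (1 / 4) * Real.exp (-(1 / 4)) = 1 := by rw [← Real.exp_add]; simp
  have h7 : Real.exp (1 / 4) ≤ 2 := by nlinarith [Real.exp_pos (1 / 4)]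
  exact h1.trans (mul_le_mul_of_nonneg_right h7 (Real.exp_pos _).le)

lemma shell_integrable {Ω : Type} [MeasurableSpace Ω] (P : Measure Ω) [IsProbabilityMeasure P]
    {R : Ω → ℝ} (hR : Measurable R) (hR0 : ∀ x, 0 ≤ R x) (k : ℕ) {a : ℝ} (ha : 0 ≤ a) :
    Integrable (fun x => gk k a (R x)) P := by
  refine Integrable.of_bound ((measurable_gk k a).comp hR).aestronglyMeasurable 1
    (Filter.Eventually.of_forall fun x => ?_)
  rw [Real.norm_eq_abs, abs_of_nonneg (gk_nonneg k ha (hR0 x))]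
  refine (shell_gk_upper k ha (hR0 x)).trans (Real.exp_le_one_iff.2 ?_)
  have : 0 ≤ (k : ℝ) * (1 - a / R x) ^ 2 / 2 := by positivity
  linarith

lemma shell_grid {Ω : Type} [MeasurableSpace Ω] (P : Measure Ω) [IsProbabilityMeasure P]
    {R : Ω → ℝ} (hR : Measurable R) (hR0 : ∀ x, 0 ≤ R x)
    (hP : 3 / 5 ≤ P.real {x | 1 / 100 ≤ R x ∧ R x ≤ 2}) {k : ℕ} {τ : ℝ} (hτ : 0 < τ)
    (hkτ : k * τ ^ 2 = 1 / 10000) :
    1 / 10 ≤ ∑ j ∈ Finset.range (⌊(199 / 100) / τ⌋₊ + 1),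
      ∫ x, gk k (1 / 100 + j * τ) (R x) ∂P := by
  have hA : MeasurableSet {x | 1 / 100 ≤ R x ∧ R x ≤ 2} :=
    (measurableSet_le measurable_const hR).inter (measurableSet_le hR measurable_const)
  have hint : ∀ j : ℕ, Integrable (fun x => gk k (1 / 100 + j * τ) (R x)) P := fun j =>
    shell_integrable P hR hR0 k (by positivity)
  rw [← integral_finsetSum _ fun j _ => hint j]
  have h1 : ∫ x, indicator {x | 1 / 100 ≤ R x ∧ R x ≤ 2} (fun _ => (1 / 6 : ℝ)) x ∂P =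
      P.real {x | 1 / 100 ≤ R x ∧ R x ≤ 2} * (1 / 6) := by
    rw [integral_indicator hA]
    simp
  refine le_trans (by rw [h1]; linarith) (integral_mono
    ((integrable_const (1 / 6 : ℝ)).indicator hA) (integrable_finsetSum _ fun j _ => hint j)
    fun x => ?_)
  have hnn : ∀ j ∈ Finset.range (⌊(199 / 100) / τ⌋₊ + 1), 0 ≤ gk k (1 / 100 + j * τ) (R x) :=
    fun j _ => gk_nonneg k (by positivity) (hR0 x)
  by_cases hx : x ∈ {x | 1 / 100 ≤ R x ∧ R x ≤ 2}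
  · rw [indicator_of_mem hx]
    obtain ⟨hx1, hx2⟩ := hx
    set j := ⌊(R x - 1 / 100) / τ⌋₊ with hj
    have hj1 : (j : ℝ) ≤ (R x - 1 / 100) / τ := Nat.floor_le (div_nonneg (by linarith) hτ.le)
    have hj2 : (R x - 1 / 100) / τ < j + 1 := Nat.lt_floor_add_one _
    rw [le_div_iff₀ hτ] at hj1
    rw [div_lt_iff₀ hτ] at hj2
    have hj3 : j ∈ Finset.range (⌊(199 / 100) / τ⌋₊ + 1) := by
      rw [Finset.mem_range, Nat.lt_succ_iff]
      exact Nat.floor_le_floor (div_le_div_of_nonneg_right (by linarith) hτ.le)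
    refine le_trans ?_ (Finset.single_le_sum hnn hj3)
    have hjτ : 0 ≤ j * τ := by positivity
    have ha : 0 < 1 / 100 + j * τ := by linarith
    have hs0 : 0 ≤ (R x - (1 / 100 + j * τ)) / (1 / 100 + j * τ) :=
      div_nonneg (by linarith) ha.le
    have hs1 : (R x - (1 / 100 + j * τ)) / (1 / 100 + j * τ) ≤ 100 * τ := by
      rw [div_le_iff₀ ha]
      nlinarith [mul_nonneg hτ.le hjτ]
    refine shell_gk_lower k ha hs0 (by field_simp; ring) ?_
    have h2 := mul_le_mul_of_nonneg_left (pow_le_pow_left₀ hs0 hs1 2) (Nat.cast_nonneg (α := ℝ) k)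
    nlinarith
  · rw [indicator_of_notMem hx]
    exact Finset.sum_nonneg hnn

theorem shell_max : ∃ c₄ : ℝ, 0 < c₄ ∧ ∀ (Ω : Type) [MeasurableSpace Ω] (P : Measure Ω)
    [IsProbabilityMeasure P] (R : Ω → ℝ), Measurable R → (∀ x, 0 ≤ R x) →
    3 / 5 ≤ P.real {x | 1 / 100 ≤ R x ∧ R x ≤ 2} → ∀ (k : ℕ), 1 ≤ k → ∀ err : ℝ,
    err ≤ 1 / (10 ^ 8 * k) →
    (∀ a₁ ∈ Icc (1 / 200 : ℝ) 2, ∀ a₂ ∈ Icc (1 / 200 : ℝ) 2,
      (∫ x, gk k a₁ (R x) ∂P) * (∫ x, gk k a₂ (R x) ∂P) ≤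
        (a₁ * a₂ / ((a₁ + a₂) / 2 - 1 / (1000 * k)) ^ 2) ^ k *
          (∫ x, gk k ((a₁ + a₂) / 2 - 1 / (1000 * k)) (R x) ∂P) ^ 2 + err) →
    ∃ a ∈ Icc (1 / 200 : ℝ) 2, c₄ ≤ ∫ x, gk k a (R x) ∂P := by
  obtain ⟨C, hC, hgeo⟩ := shell_geom
  refine ⟨1 / (200 * C), by positivity, ?_⟩
  intro Ω _ P _ R hR hR0 hP k hk err herr H
  have hk' : (1 : ℝ) ≤ k := by exact_mod_cast hk
  obtain ⟨g, hg⟩ : ∃ g : ℝ → ℝ, ∀ a, g a = ∫ x, gk k a (R x) ∂P := ⟨_, fun _ => rfl⟩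
  simp only [← hg] at H ⊢
  have hg0 : ∀ a, 0 ≤ a → 0 ≤ g a := fun a ha => by
    rw [hg]
    exact integral_nonneg fun x => gk_nonneg k ha (hR0 x)
  have hg1 : ∀ a, 0 ≤ a → g a ≤ 1 := fun a ha => by
    rw [hg]
    refine (integral_mono (shell_integrable P hR hR0 k ha) (integrable_const (1 : ℝ))
      fun x => gk_le_one k hk ha (hR0 x)).trans (by simp)
  have hsq : 1 ≤ √(k : ℝ) := Real.one_le_sqrt.2 hk'
  have hsq2 : √(k : ℝ) ^ 2 = k := Real.sq_sqrt (by linarith)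
  obtain ⟨τ, hτ⟩ : ∃ τ : ℝ, τ = 1 / (100 * √(k : ℝ)) := ⟨_, rfl⟩
  have hτ0 : 0 < τ := by rw [hτ]; positivity
  have hkτ : k * τ ^ 2 = 1 / 10000 := by
    rw [hτ, div_pow, mul_pow, hsq2]
    field_simp
    norm_num
  have hsum := shell_grid P hR hR0 hP hτ0 hkτ
  simp only [← hg] at hsum
  have hfl : (⌊(199 / 100) / τ⌋₊ : ℝ) ≤ (199 / 100) / τ := Nat.floor_le (by positivity)
  obtain ⟨N, hN⟩ : ∃ N, N = ⌊(199 / 100) / τ⌋₊ + 1 := ⟨_, rfl⟩
  have hN1 : (N : ℝ) ≤ 200 * √(k : ℝ) := by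
    have : (199 / 100) / τ = 199 * √(k : ℝ) := by rw [hτ]; field_simp
    rw [hN]
    push_cast
    linarith
  have hN2 : (N : ℝ) ^ 2 ≤ 40000 * k := by
    have := pow_le_pow_left₀ (Nat.cast_nonneg N) hN1 2
    rw [mul_pow, hsq2] at this
    linarith
  have hgrid : ∀ j ∈ Finset.range N, 1 / 100 ≤ 1 / 100 + j * τ ∧ 1 / 100 + j * τ ≤ 2 := by
    intro j hj
    have h1 : (j : ℝ) ≤ ⌊(199 / 100) / τ⌋₊ := by
      rw [hN, Finset.mem_range, Nat.lt_succ_iff] at hj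
      exact_mod_cast hj
    have h2 := h1.trans hfl
    rw [le_div_iff₀ hτ0] at h2
    have : 0 ≤ j * τ := by positivity
    constructor <;> linarith
  rw [← hN] at hsum
  have hbdd : BddAbove (g '' Icc (1 / 200) 2) :=
    ⟨1, by rintro _ ⟨a, ha, rfl⟩; exact hg1 a (by linarith [ha.1])⟩
  obtain ⟨M, hM⟩ : ∃ M, M = sSup (g '' Icc (1 / 200) 2) := ⟨_, rfl⟩
  have hle : ∀ a ∈ Icc (1 / 200 : ℝ) 2, g a ≤ M := fun a ha => hM ▸ le_csSup hbdd ⟨a, ha, rfl⟩
  have hNM : 1 / 10 ≤ N * M := by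
    refine hsum.trans ((Finset.sum_le_card_nsmul _ _ M fun j hj => hle _
      ⟨by linarith [(hgrid j hj).1], (hgrid j hj).2⟩).trans ?_)
    simp
  have hM0 : 0 < M := by
    by_contra h
    have := mul_nonpos_of_nonneg_of_nonpos (Nat.cast_nonneg (α := ℝ) N) (not_lt.1 h)
    linarith
  obtain ⟨_, ⟨a, ha, rfl⟩, hga⟩ := exists_lt_of_lt_csSup (s := g '' Icc (1 / 200) 2)
    ⟨_, 1, by norm_num, rfl⟩ (show M / 2 < _ by rw [← hM]; linarith)
  refine ⟨a, ha, le_trans ?_ hga.le⟩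
  have hd1 : (1 : ℝ) / (1000 * k) ≤ 1 / 1000 :=
    one_div_le_one_div_of_le (by norm_num) (by linarith)
  have hd0 : (0 : ℝ) < 1 / (1000 * k) := by positivity
  have hterm : ∀ j ∈ Finset.range N, g (1 / 100 + j * τ) * (M / 2) ≤
      4 * M ^ 2 * Real.exp (-(|(j : ℝ) - (a - 1 / 100) / τ| / 400)) + 1 / (10 ^ 8 * k) := by
    intro j hj
    obtain ⟨b1, b2⟩ := hgrid j hj
    have h1 := H _ ⟨by linarith, b2⟩ a ha
    have h2 := shell_ratio hk b1 b2 ha.1 ha.2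
    have h3 : (k : ℝ) * (1 / 100 + j * τ - a) ^ 2 / 16 =
        (|(j : ℝ) - (a - 1 / 100) / τ| / 400) ^ 2 := by
      have : 1 / 100 + j * τ - a = τ * ((j : ℝ) - (a - 1 / 100) / τ) := by field_simp; ring
      rw [this, div_pow, sq_abs, mul_pow, ← mul_assoc, hkτ]
      ring
    rw [h3] at h2
    have h4 := h2.trans (mul_le_mul_of_nonneg_left (shell_exp_sq _) zero_le_two)
    have h5 : (1 / 100 + j * τ + a) / 2 - 1 / (1000 * k) ∈ Icc (1 / 200 : ℝ) 2 :=
      ⟨by linarith [ha.1], by linarith [ha.2]⟩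
    have h6 : g ((1 / 100 + j * τ + a) / 2 - 1 / (1000 * k)) ^ 2 ≤ M ^ 2 :=
      pow_le_pow_left₀ (hg0 _ (by linarith [h5.1])) (hle _ h5) 2
    have h7 := mul_le_mul h4 h6 (by positivity) (by positivity)
    have h8 := mul_le_mul_of_nonneg_left hga.le (hg0 (1 / 100 + j * τ) (by linarith))
    linarith
  have h1 := Finset.sum_le_sum hterm
  rw [← Finset.sum_mul, Finset.sum_add_distrib, ← Finset.mul_sum, Finset.sum_const,
    Finset.card_range, nsmul_eq_mul] at h1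
  have h2 := mul_le_mul_of_nonneg_left (hgeo N ((a - 1 / 100) / τ))
    (show 0 ≤ 4 * M ^ 2 by positivity)
  have h3 := mul_le_mul_of_nonneg_right hsum (show 0 ≤ M / 2 by positivity)
  have h4 : N * (1 / (10 ^ 8 * k : ℝ)) ≤ M / 250 := by
    rw [mul_one_div, div_le_iff₀ (by positivity)]
    have h5 := mul_le_mul_of_nonneg_left hNM (Nat.cast_nonneg (α := ℝ) N)
    have h6 := mul_le_mul_of_nonneg_right hN2 hM0.le
    nlinarith
  have h5 : M * (1 / 100) ≤ M * (M * C) := by linarith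
  have h6 := le_of_mul_le_mul_left h5 hM0
  rw [div_le_iff₀ (by positivity)]
  linarith

lemma shell_err {k : ℕ} (hk : 1 ≤ k) {w a₁ a₂ : ℝ} (h₁ : a₁ ∈ Icc (1 / 200 : ℝ) 2)
    (h₂ : a₂ ∈ Icc (1 / 200 : ℝ) 2) (hw : Real.exp (10 ^ 11 * (k : ℝ) ^ 2) ≤ w) :
    64 * (k + 1) / w * (2 * Real.pi * Real.exp 1 * a₁ * a₂ / (1 / (1000 * k)) ^ 2) ^ k ≤
      1 / (10 ^ 8 * k) := by
  have hk' : (1 : ℝ) ≤ k := by exact_mod_cast hk
  have hw0 : 0 < w := (Real.exp_pos _).trans_le hw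
  have e1 : 2 * Real.pi * Real.exp 1 * a₁ * a₂ ≤ 2 * 4 * 3 * 2 * 2 := by
    have := Real.pi_le_four
    have h3 : Real.exp 1 ≤ 3 := by linarith [Real.exp_one_lt_d9]
    have := h₁.1
    have := h₁.2
    have := h₂.1
    have := h₂.2
    gcongr
  have e2 : 2 * Real.pi * Real.exp 1 * a₁ * a₂ / (1 / (1000 * k)) ^ 2 ≤
      Real.exp ((10 ^ 8 + 2) * k) := by
    have h3 : (k : ℝ) ≤ Real.exp k := by linarith [Real.add_one_le_exp (k : ℝ)]
    have h4 : (10 ^ 8 : ℝ) ≤ Real.exp (10 ^ 8 * k) := by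
      linarith [Real.add_one_le_exp (10 ^ 8 * k : ℝ)]
    have h5 : Real.exp ((10 ^ 8 + 2) * k) = Real.exp (10 ^ 8 * k) * Real.exp k ^ 2 := by
      rw [← Real.exp_nat_mul, ← Real.exp_add]; congr 1; push_cast; ring
    have h6 : (10 ^ 8 : ℝ) * k ^ 2 ≤ Real.exp (10 ^ 8 * k) * Real.exp k ^ 2 := by gcongr
    have h7 : 2 * Real.pi * Real.exp 1 * a₁ * a₂ / (1 / (1000 * k)) ^ 2 =
        2 * Real.pi * Real.exp 1 * a₁ * a₂ * (10 ^ 6 * k ^ 2) := by
      field_simp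
      norm_num
    have h8 := mul_le_mul_of_nonneg_right e1 (show (0 : ℝ) ≤ 10 ^ 6 * k ^ 2 by positivity)
    rw [h5, h7]
    nlinarith [sq_nonneg (k : ℝ)]
  have e0 : 0 ≤ 2 * Real.pi * Real.exp 1 * a₁ * a₂ / (1 / (1000 * k)) ^ 2 := by
    have := Real.pi_pos
    have := h₁.1
    have := h₂.1
    positivity
  have e3 := pow_le_pow_left₀ e0 e2 k
  rw [← Real.exp_nat_mul] at e3
  have e4 : (10 ^ 8 * k) * (64 * (k + 1)) ≤ Real.exp (128 * 10 ^ 8 * (k : ℝ) ^ 2) := by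
    have := Real.add_one_le_exp (128 * 10 ^ 8 * (k : ℝ) ^ 2)
    nlinarith
  have e5 : Real.exp (128 * 10 ^ 8 * (k : ℝ) ^ 2) * Real.exp (k * ((10 ^ 8 + 2) * k)) ≤ w := by
    rw [← Real.exp_add]
    exact (Real.exp_le_exp.2 (by nlinarith [sq_nonneg (k : ℝ)])).trans hw
  rw [div_mul_eq_mul_div, div_le_div_iff₀ hw0 (by positivity), one_mul]
  refine le_trans (le_of_eq ?_) ((mul_le_mul e4 e3 (by positivity) (Real.exp_pos _).le).trans e5)
  ring

lemma shell_outside {a x r : ℝ} (ha : 0 < a) (hx0 : 0 < x) (hx : x ≤ 1 / 4) (hr : 0 ≤ r)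
    (h : r < a * (1 - x) ∨ a * (1 - x) * (1 + 4 * x) < r) : x ^ 2 ≤ (1 - a / r) ^ 2 := by
  rcases hr.eq_or_lt with rfl | hr
  · rw [div_zero, sub_zero]
    nlinarith
  rcases h with h | h
  · have h1 : 1 + x ≤ a / r := by
      rw [le_div_iff₀ hr]
      nlinarith [mul_pos ha (mul_pos hx0 hx0)]
    nlinarith
  · have h1 : a / r ≤ 1 - x := by
      rw [div_le_iff₀ hr]
      have h2 : 1 ≤ (1 - x) * ((1 - x) * (1 + 4 * x)) := by nlinarith [mul_pos hx0 hx0]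
      have h3 := mul_le_mul_of_nonneg_left h2 ha.le
      have h4 := mul_le_mul_of_nonneg_left h.le (show 0 ≤ 1 - x by linarith)
      linarith
    nlinarith [div_pos ha hr]

theorem thin_shell : ∃ c₃ C₀ : ℝ, 0 < c₃ ∧ ∀ (α β : Type) [Fintype α] [Fintype β]
    (K : Set (α ⊕ β → ℝ)), Iso K → ∀ b : ℝ, 1 ≤ b → Real.exp (C₀ * b ^ 5) ≤ Fintype.card α →
    ∃ σ : ℝ, 1 / 1000 ≤ σ ∧ σ ≤ 4 ∧ c₃ ≤ (cond volume K).real
      {x | σ ^ 2 * Fintype.card α ≤ hsq x ∧ hsq x ≤ (σ * (1 + 1 / b)) ^ 2 * Fintype.card α} := by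
  obtain ⟨c, hc, H⟩ := shell_max
  obtain ⟨L, hL⟩ : ∃ L : ℝ, L = 64 / c := ⟨_, rfl⟩
  have hL0 : 0 < L := by rw [hL]; positivity
  refine ⟨c / 2, 7 * (10 ^ 11 * (L + 1) ^ 2), by positivity, ?_⟩
  intro α β _ _ K hK b hb hm
  have := hK.isProb
  have hm0 : (0 : ℝ) < Fintype.card α := (Real.exp_pos _).trans_le hm
  obtain ⟨k, hk⟩ : ∃ k, k = ⌈L * b ^ 2⌉₊ := ⟨_, rfl⟩
  have hb2 : 1 ≤ b ^ 2 := one_le_pow₀ hb
  have hk1 : 1 ≤ k := by rw [hk]; exact Nat.ceil_pos.2 (by positivity)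
  have hk' : (1 : ℝ) ≤ k := by exact_mod_cast hk1
  have hk2 : L * b ^ 2 ≤ k := by rw [hk]; exact Nat.le_ceil _
  have hk3 : (k : ℝ) ≤ (L + 1) * b ^ 2 := by
    have := Nat.ceil_lt_add_one (show 0 ≤ L * b ^ 2 by positivity)
    rw [hk]
    linarith
  have hw : Real.exp (10 ^ 11 * (k : ℝ) ^ 2) ^ 7 ≤ Fintype.card α := by
    refine le_trans ?_ hm
    rw [← Real.exp_nat_mul]
    apply Real.exp_le_exp.2
    have h1 := pow_le_pow_left₀ (Nat.cast_nonneg k) hk3 2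
    have h2 : b ^ 4 ≤ b ^ 5 := pow_le_pow_right₀ hb (by norm_num)
    have h3 := mul_le_mul_of_nonneg_left h2 (sq_nonneg (L + 1))
    push_cast
    nlinarith
  have hcont : Continuous (hsq : (α ⊕ β → ℝ) → ℝ) := by
    unfold hsq
    fun_prop
  have hR : Measurable fun x : α ⊕ β → ℝ => √(hsq x / Fintype.card α) :=
    (hcont.measurable.div_const _).sqrt
  have hd1 : (1 : ℝ) / (1000 * k) ≤ 1 / 1000 :=
    one_div_le_one_div_of_le (by norm_num) (by linarith)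
  obtain ⟨a, ha, hga⟩ := H _ (cond volume K) _ hR (fun x => Real.sqrt_nonneg _)
    (hK.hsq_mid (by exact_mod_cast hm0)) k hk1 _ le_rfl fun a₁ h₁ a₂ h₂ =>
      (shell_mid hK hk1 (Real.one_le_exp (by positivity)) hw (by positivity)
        (by linarith [h₁.1]) (by linarith [h₂.1])).trans
        (add_le_add le_rfl (shell_err hk1 h₁ h₂ le_rfl))
  obtain ⟨x, hx⟩ : ∃ x : ℝ, x = 1 / (4 * b) := ⟨_, rfl⟩
  have hx0 : 0 < x := by rw [hx]; positivity
  have hx1 : x ≤ 1 / 4 := by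
    rw [hx]
    exact one_div_le_one_div_of_le (by norm_num) (by linarith)
  have hxb : 1 / b = 4 * x := by rw [hx]; field_simp
  have ha0 : 0 < a := by linarith [ha.1]
  have hσ : 0 ≤ a * (1 - x) := mul_nonneg ha0.le (by linarith)
  refine ⟨a * (1 - x), by nlinarith [ha.1], by nlinarith [ha.2], ?_⟩
  rw [hxb]
  set S : Set (α ⊕ β → ℝ) := {y | (a * (1 - x)) ^ 2 * Fintype.card α ≤ hsq y ∧
    hsq y ≤ (a * (1 - x) * (1 + 4 * x)) ^ 2 * Fintype.card α} with hS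
  have hSm : MeasurableSet S :=
    (measurableSet_le measurable_const hcont.measurable).inter
      (measurableSet_le hcont.measurable measurable_const)
  have hexp : Real.exp (-(k * x ^ 2 / 2)) ≤ c / 2 := by
    have h1 : 2 / c ≤ k * x ^ 2 / 2 := by
      have h2 : L * b ^ 2 * x ^ 2 / 2 = 2 / c := by
        rw [hL, hx]
        field_simp
        norm_num
      have h3 := mul_le_mul_of_nonneg_right hk2 (sq_nonneg x)
      linarith
    rw [Real.exp_neg, ← inv_div 2 c]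
    exact inv_anti₀ (by positivity) (by linarith [Real.add_one_le_exp (k * x ^ 2 / 2)])
  have hpt : ∀ y : α ⊕ β → ℝ, gk k a √(hsq y / Fintype.card α) ≤
      indicator S (fun _ => (1 : ℝ)) y + c / 2 := by
    intro y
    by_cases hy : y ∈ S
    · rw [indicator_of_mem hy]
      linarith [gk_le_one k hk1 ha0.le (Real.sqrt_nonneg (hsq y / Fintype.card α))]
    · rw [indicator_of_notMem hy, zero_add]
      refine (shell_gk_upper k ha0.le (Real.sqrt_nonneg _)).trans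
        (le_trans (Real.exp_le_exp.2 ?_) hexp)
      have h1 : x ^ 2 ≤ (1 - a / √(hsq y / Fintype.card α)) ^ 2 := by
        refine shell_outside ha0 hx0 hx1 (Real.sqrt_nonneg _) ?_
        simp only [hS, mem_ofPred_eq, not_and_or, not_le] at hy
        rcases hy with hy | hy
        · left
          rw [Real.sqrt_lt' (mul_pos ha0 (by linarith)), div_lt_iff₀ hm0]
          exact hy
        · right
          rw [Real.lt_sqrt (mul_nonneg hσ (by linarith)), lt_div_iff₀ hm0]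
          exact hy
      have h2 := mul_le_mul_of_nonneg_left h1 (Nat.cast_nonneg (α := ℝ) k)
      linarith
  have h1 := integral_mono (shell_integrable (cond volume K) hR (fun x => Real.sqrt_nonneg _) k
    ha0.le) (((integrable_const (1 : ℝ)).indicator hSm).add (integrable_const (c / 2))) hpt
  simp only [Pi.add_apply] at h1
  rw [integral_add ((integrable_const (1 : ℝ)).indicator hSm) (integrable_const (c / 2)),
    integral_indicator hSm] at h1
  simp only [integral_const, smul_eq_mul, mul_one, probReal_univ, one_mul,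
    measureReal_restrict_apply_univ] at h1
  linarith

end Vale.Agent.P230.L
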