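import Vale.Agent.P230.L.GoodG
import Vale.Agent.P230.L.Shell

/-! Every isotropic body has a nice linear image.

nice_of_G: e x = Sum.elim (x o inl) (fun i => (G i . (x o inl) + x (inr i)) / t), t = sigma sqrt m.
inner and outer follow from box_subset and subset_box (n >= 200).  Since e scales all volumes by
one constant, cellMass = volume (e '' K inter {x o inr in Q}) / volume (e '' K) for the cell
Q = prod [q i d, (q i + 1) d], d = 1/b^2, so by volume_inter_eq some point p of Q has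
volume (sec (e '' K) p) >= (1/2) d^(-k) cellMass * volume (e '' K).  For s in box b and signs sigma
take q i = floor (s i / d) + 1 or floor (s i / d) - 1; phi (|s i| + 4 d) >= phi (s i)
exp (-4 d |s i| - 8 d^2), the exponents sum to at most 12.  Conclude by convex_sec_level and
orthant. -/

namespace Vale.Agent.P230.L

open MeasureTheory ProbabilityTheory Set
open scoped ENNReal

theorem nice_equiv {α β : Type} [Fintype α] [Fintype β] (G : β → α → ℝ) {t : ℝ} (ht : t ≠ 0) :
    ∃ e : (α ⊕ β → ℝ) ≃L[ℝ] (α ⊕ β → ℝ), (∀ x a, e x (Sum.inl a) = x (Sum.inl a)) ∧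
      ∀ x i, e x (Sum.inr i) = (G i ⬝ᵥ (x ∘ Sum.inl) + x (Sum.inr i)) / t := by
  let e : (α ⊕ β → ℝ) ≃ₗ[ℝ] (α ⊕ β → ℝ) :=
    { toFun := fun x => Sum.elim (x ∘ Sum.inl) fun i => (G i ⬝ᵥ (x ∘ Sum.inl) + x (Sum.inr i)) / t
      invFun := fun y => Sum.elim (y ∘ Sum.inl) fun i => t * y (Sum.inr i) - G i ⬝ᵥ (y ∘ Sum.inl)
      map_add' := fun x y => by
        funext j
        rcases j with a | i
        · rfl
        · simp only [Sum.elim_inr, Pi.add_comp, dotProduct_add, Pi.add_apply]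
          ring
      map_smul' := fun c x => by
        funext j
        rcases j with a | i
        · rfl
        · simp only [Sum.elim_inr, Pi.smul_comp, dotProduct_smul, Pi.smul_apply, smul_eq_mul,
            RingHom.id_apply]
          ring
      left_inv := fun x => by
        funext j
        rcases j with a | i
        · rfl
        · simp only [Sum.elim_inr, Sum.elim_comp_inl]
          field_simp
          ring
      right_inv := fun y => by
        funext j
        rcases j with a | i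
        · rfl
        · simp only [Sum.elim_inr, Sum.elim_comp_inl]
          field_simp
          ring }
  exact ⟨e.toContinuousLinearEquiv, fun _ _ => rfl, fun _ _ => rfl⟩

theorem nice_dot {α : Type} [Fintype α] {g x : α → ℝ} {N r : ℝ} (hg : ∀ a, |g a| ≤ N)
    (hx : ∀ a, |x a| ≤ r) : |g ⬝ᵥ x| ≤ Fintype.card α * (N * r) := by
  refine (Finset.abs_sum_le_sum_abs _ _).trans
    ((Finset.sum_le_card_nsmul _ _ (N * r) fun a _ => ?_).trans_eq (by simp))
  rw [abs_mul]
  exact mul_le_mul (hg a) (hx a) (abs_nonneg _) ((abs_nonneg _).trans (hg a))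

theorem nice_phi {b s u : ℝ} (hb : 1 ≤ b) (hs : |s| ≤ b) (hu : |u - s| ≤ 2 / b ^ 2) :
    Real.exp (-(12 / b)) * phi s ≤ phi (|u| + 2 / b ^ 2) := by
  have hb0 : 0 < b := by linarith
  rw [phi, phi, ← mul_div_assoc, ← Real.exp_add]
  refine div_le_div_of_nonneg_right (Real.exp_le_exp.2 ?_) (Real.sqrt_nonneg _)
  have h1 : |u| + 2 / b ^ 2 ≤ |s| + 4 * (1 / b) ^ 2 := by
    have := abs_sub_abs_le_abs_sub u s
    have e : 4 * (1 / b) ^ 2 = 2 / b ^ 2 + 2 / b ^ 2 := by ring
    linarith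
  have h2 := pow_le_pow_left₀ (by positivity) h1 2
  have hr0 : 0 < 1 / b := by positivity
  have hr1 : 1 / b ≤ 1 := (div_le_one hb0).2 hb
  have h3 : |s| * (1 / b) ≤ 1 := by rw [mul_one_div]; exact (div_le_one hb0).2 hs
  rw [← sq_abs s, show 12 / b = 12 * (1 / b) by ring]
  generalize 1 / b = r at *
  have h4 : |s| * r * r ≤ 1 * r := mul_le_mul_of_nonneg_right h3 hr0.le
  have h5 : r ^ 3 * r ≤ 1 * r := mul_le_mul_of_nonneg_right (pow_le_one₀ hr0.le hr1) hr0.le
  nlinarith

theorem nice_cell {α β : Type} [Fintype α] [Fintype β] {K : Set (α ⊕ β → ℝ)} (hK : Iso K)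
    (e : (α ⊕ β → ℝ) ≃L[ℝ] (α ⊕ β → ℝ)) {lo : β → ℝ} {d c : ℝ} (hd : 0 < d)
    (h : c * d ^ Fintype.card β ≤
      (cond volume K).real {x | ∀ i, e x (Sum.inr i) ∈ Icc (lo i) (lo i + d)}) :
    ∃ p : β → ℝ, (∀ i, p i ∈ Icc (lo i) (lo i + d)) ∧
      ENNReal.ofReal c * volume (e '' K) ≤ volume (sec (e '' K) p) := by
  set Q : Set (β → ℝ) := univ.pi fun i => Icc (lo i) (lo i + d) with hQ
  have hQm : MeasurableSet Q := MeasurableSet.univ_pi fun _ => measurableSet_Icc
  have hQv : volume Q = ENNReal.ofReal (d ^ Fintype.card β) := by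
    rw [hQ, volume_pi_pi]
    simp [ENNReal.ofReal_pow hd.le]
  have hQ0 : volume Q ≠ 0 := by rw [hQv]; exact (ENNReal.ofReal_pos.2 (by positivity)).ne'
  have hc := hK.compact.image e.continuous
  have h1 := volume_inter_eq hc.measurableSet hQm
  obtain ⟨p, hp, h2⟩ := exists_setLAverage_le (f := fun s => volume (sec (e '' K) s)) hQ0
    hQm.nullMeasurableSet (h1 ▸ (hc.measure_lt_top.trans_le' (measure_mono inter_subset_left)).ne)
  refine ⟨p, fun i => hp i (mem_univ i), le_trans ?_ h2⟩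
  have hKt := hK.compact.measure_lt_top (μ := volume).ne
  have h3 := ENNReal.ofReal_le_ofReal h
  rw [measureReal_def, cond_apply hK.compact.measurableSet, ENNReal.ofReal_toReal
    (ENNReal.mul_ne_top (ENNReal.inv_ne_top.2 hK.vol_ne)
      (ne_top_of_le_ne_top hKt (measure_mono inter_subset_left))),
    ENNReal.ofReal_mul' (by positivity)] at h3
  have h4 : e '' K ∩ {x | x ∘ Sum.inr ∈ Q} =
      e '' (K ∩ {x | ∀ i, e x (Sum.inr i) ∈ Icc (lo i) (lo i + d)}) := by
    rw [← image_inter_preimage]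
    congr 2
    ext x
    simp [hQ, Pi.le_def, forall_and]
  rw [setLAverage_eq, ← h1, ENNReal.le_div_iff_mul_le (Or.inl hQ0) (Or.inl (by simp [hQv])), hQv,
    h4, Measure.addHaar_image_continuousLinearEquiv, Measure.addHaar_image_continuousLinearEquiv]
  calc _ = ENNReal.ofReal |LinearMap.det (e : (α ⊕ β → ℝ) →ₗ[ℝ] (α ⊕ β → ℝ))| * (volume K *
        (ENNReal.ofReal c * ENNReal.ofReal (d ^ Fintype.card β))) := by ring
    _ ≤ _ := by
        refine mul_le_mul_right ((mul_le_mul_right h3 _).trans_eq ?_) _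
        rw [← mul_assoc, ENNReal.mul_inv_cancel hK.vol_ne hKt, one_mul]

theorem nice_of_G {α β : Type} [Fintype α] [Fintype β] {K : Set (α ⊕ β → ℝ)} (hK : Iso K)
    {c₃ b σ : ℝ} (hc : 0 < c₃) (hb : 1 ≤ b) (hβ : (Fintype.card β : ℝ) ≤ b)
    (hα : 200 ≤ Fintype.card α) (hσ : 1 / 1000 ≤ σ) (hσ' : σ ≤ 4) (G : β → α → ℝ)
    (hG : ∀ i a, |G i a| ≤ Fintype.card α + Fintype.card β)
    (hcell : ∀ q : β → ℤ, (∀ i, |(q i : ℝ) / b ^ 2| ≤ b + 2) →
        c₃ / 12 * (1 / b ^ 2) ^ Fintype.card β * ∏ i, phi (|(q i : ℝ) / b ^ 2| + 2 / b ^ 2) ≤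
          cellMass K (fun i x => x (Sum.inr i))
            (fun i => σ * √(Fintype.card α) * ((q i : ℝ) / b ^ 2))
            (fun i => σ * √(Fintype.card α) * (((q i : ℝ) + 1) / b ^ 2)) G) :
    ∃ e : (α ⊕ β → ℝ) ≃L[ℝ] (α ⊕ β → ℝ),
      Nice (Fintype.card α + Fintype.card β) (c₃ / 24 * Real.exp (-12)) b (e '' K) := by
  have hm : (200 : ℝ) ≤ Fintype.card α := by exact_mod_cast hα
  have hs1 : 10 ≤ √(Fintype.card α : ℝ) := Real.le_sqrt_of_sq_le (by linarith)
  have hs2 : √(Fintype.card α : ℝ) ≤ Fintype.card α := Real.sqrt_le_iff.2 ⟨by linarith, by nlinarith⟩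
  have ht1 : 1 / 100 ≤ σ * √(Fintype.card α : ℝ) := by nlinarith
  have ht2 : σ * √(Fintype.card α : ℝ) ≤ 4 * Fintype.card α := by nlinarith
  generalize σ * √(Fintype.card α : ℝ) = t at *
  have ht : 0 < t := by linarith
  obtain ⟨e, he1, he2⟩ := nice_equiv G ht.ne'
  have hin := hK.box_subset
  have hout := hK.subset_box
  rw [Fintype.card_sum, Nat.cast_add] at hin hout
  have hmN : (Fintype.card α : ℝ) ≤ Fintype.card α + Fintype.card β := by simp
  have hc' := hK.compact.image e.continuous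
  have hv : Convex ℝ (e '' K) := hK.convex.linear_image (e : (α ⊕ β → ℝ) →ₗ[ℝ] (α ⊕ β → ℝ))
  refine ⟨e, hc', hv, ?_, ?_, fun s hs => ?_⟩
  · rw [Nat.cast_add]
    generalize (Fintype.card α : ℝ) + Fintype.card β = N at *
    have hN : 200 ≤ N := by linarith
    intro y hy
    obtain ⟨x, rfl⟩ := e.surjective y
    refine mem_image_of_mem _ (hin fun j => ?_)
    have h1 : ∀ a, |(x ∘ Sum.inl) a| ≤ 1 / N ^ 5 := fun a =>
      (congrArg abs (he1 x a)).ge.trans (hy (Sum.inl a))
    have h0 : (4 * N + N * N) * (1 / N ^ 5) ≤ 1 / (10 * N ^ 2) := by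
      rw [mul_one_div, div_le_div_iff₀ (by positivity) (by positivity)]
      have : 0 ≤ N ^ 3 * (N ^ 2 - 10 * N - 40) := mul_nonneg (by positivity) (by nlinarith)
      nlinarith
    have h5 : 0 < 1 / N ^ 5 := by positivity
    rcases j with a | i
    · exact (h1 a).trans (le_trans (le_mul_of_one_le_left h5.le (by nlinarith)) h0)
    · have h2 := nice_dot (hG i) h1
      have h3 := hy (Sum.inr i)
      rw [he2, abs_div, abs_of_pos ht, div_le_iff₀ ht] at h3
      have h4 := abs_sub (G i ⬝ᵥ (x ∘ Sum.inl) + x (Sum.inr i)) (G i ⬝ᵥ (x ∘ Sum.inl))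
      rw [add_sub_cancel_left] at h4
      have h6 := mul_le_mul_of_nonneg_right hmN (by positivity : 0 ≤ N * (1 / N ^ 5))
      have h7 := mul_le_mul_of_nonneg_left (ht2.trans (by linarith : _ ≤ 4 * N)) h5.le
      linarith
  · rw [Nat.cast_add]
    generalize (Fintype.card α : ℝ) + Fintype.card β = N at *
    have hN : 200 ≤ N := by linarith
    rintro _ ⟨x, hx, rfl⟩ j
    have h0 : N * (N * (8 * N)) + 8 * N ≤ N ^ 5 * (1 / 100) := by
      have h1 : 0 ≤ N ^ 3 * (N ^ 2 - 1600) := mul_nonneg (by positivity) (by nlinarith)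
      have h2 : 0 ≤ N * (N ^ 2 - 1) := mul_nonneg (by positivity) (by nlinarith)
      nlinarith
    have h5 : 0 ≤ N * (N * (8 * N)) := by positivity
    have h8 : 0 ≤ N ^ 5 := by positivity
    rcases j with a | i
    · rw [he1]
      linarith [hout hx (Sum.inl a)]
    · have h2 := nice_dot (x := x ∘ Sum.inl) (hG i) fun a => hout hx (Sum.inl a)
      have h6 := mul_le_mul_of_nonneg_right hmN (by positivity : 0 ≤ N * (8 * N))
      rw [he2, abs_div, abs_of_pos ht, div_le_iff₀ ht]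
      have h7 := mul_le_mul_of_nonneg_left ht1 h8
      linarith [abs_add_le (G i ⬝ᵥ (x ∘ Sum.inl)) (x (Sum.inr i)), hout hx (Sum.inr i)]
  · refine orthant (convex_sec_level hc' hv _) s fun τ => ?_
    have hb0 : 0 < b := by linarith
    have hb2 : 1 ≤ b ^ 2 := one_le_pow₀ hb
    have hb3 : 0 < b ^ 2 := by positivity
    let q : β → ℤ := fun i => if τ i then ⌊s i * b ^ 2⌋ + 1 else ⌊s i * b ^ 2⌋ - 1
    have hq : ∀ i, |(q i : ℝ) / b ^ 2 - s i| ≤ 2 / b ^ 2 ∧
        if τ i then s i ≤ (q i : ℝ) / b ^ 2 else (q i : ℝ) / b ^ 2 + 1 / b ^ 2 ≤ s i := by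
      intro i
      have h1 := Int.floor_le (s i * b ^ 2)
      have h2 := Int.lt_floor_add_one (s i * b ^ 2)
      rw [div_sub' hb3.ne', abs_div, abs_of_pos hb3, div_le_div_iff_of_pos_right hb3, ← add_div,
        le_div_iff₀ hb3, div_le_iff₀ hb3, abs_le]
      simp only [q]
      split_ifs <;> push_cast <;> refine ⟨⟨?_, ?_⟩, ?_⟩ <;> linarith
    have h1 := hcell q fun i => by
      have h2 := abs_sub_abs_le_abs_sub ((q i : ℝ) / b ^ 2) (s i)
      have h3 : 2 / b ^ 2 ≤ 2 := div_le_self zero_le_two hb2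
      linarith [(hq i).1, hs i]
    have h2 : Real.exp (-12) * phiV s ≤ ∏ i, phi (|(q i : ℝ) / b ^ 2| + 2 / b ^ 2) := by
      have hp : ∀ x, 0 ≤ phi x := fun x => by unfold phi; positivity
      refine le_trans ?_ (Finset.prod_le_prod (fun i _ => mul_nonneg (Real.exp_pos _).le (hp _))
        fun i _ => nice_phi hb (hs i) (hq i).1)
      rw [Finset.prod_mul_distrib, Finset.prod_const, Finset.card_univ, ← Real.exp_nat_mul]
      refine mul_le_mul_of_nonneg_right (Real.exp_le_exp.2 ?_) (Finset.prod_nonneg fun i _ => hp _)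
      have := mul_le_mul_of_nonneg_right hβ (by positivity : 0 ≤ 12 / b)
      rw [mul_div_cancel₀ _ hb0.ne'] at this
      linarith
    have h3 : 0 ≤ Real.exp (-12) * phiV s :=
      mul_nonneg (Real.exp_pos _).le (Finset.prod_nonneg fun i _ => by unfold phi; positivity)
    obtain ⟨p, hp, h4⟩ := nice_cell hK e (lo := fun i => (q i : ℝ) / b ^ 2) (d := 1 / b ^ 2)
      (c := c₃ / 24 * Real.exp (-12) * phiV s) (by positivity) (by
        refine le_trans ?_ (h1.trans_eq ?_)
        · have h5 : 0 ≤ c₃ / 24 * (1 / b ^ 2) ^ Fintype.card β := by positivity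
          nlinarith [mul_le_mul_of_nonneg_left h2 h5, mul_nonneg h5 h3]
        · rw [cellMass]
          congr 1
          ext x
          simp only [mem_ofPred_eq, he2, mem_Icc, le_div_iff₀ ht, div_le_iff₀ ht, ← add_div,
            mul_comm t])
    refine ⟨p, h4, fun i => ?_⟩
    have h5 := (hq i).2
    split_ifs at h5 ⊢
    exacts [h5.trans (hp i).1, (hp i).2.trans h5]

theorem exists_nice : ∃ c C₀ : ℝ, 0 < c ∧ ∀ (α β : Type) [Fintype α] [Fintype β]
    (K : Set (α ⊕ β → ℝ)), Iso K → ∀ b : ℝ, 1 ≤ b → (Fintype.card β : ℝ) ≤ b →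
    Real.exp (C₀ * b ^ 5) ≤ Fintype.card α →
    ∃ e : (α ⊕ β → ℝ) ≃L[ℝ] (α ⊕ β → ℝ),
      Nice (Fintype.card α + Fintype.card β) c b (e '' K) := by
  obtain ⟨c₃, C₀, hc, h₀⟩ := thin_shell
  obtain ⟨C₁, h₁⟩ := exists_goodG c₃ hc
  refine ⟨c₃ / 24 * Real.exp (-12), max (max C₀ C₁) 200, by positivity, ?_⟩
  intro α β _ _ K hK b hb hβ hm
  have hb5 : 1 ≤ b ^ 5 := one_le_pow₀ hb
  have hmono : ∀ C : ℝ, C ≤ max (max C₀ C₁) 200 →
      Real.exp (C * b ^ 5) ≤ Fintype.card α := fun C hC =>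
    le_trans (Real.exp_le_exp.2 (mul_le_mul_of_nonneg_right hC (by linarith))) hm
  obtain ⟨σ, hσ, hσ', hs⟩ := h₀ α β K hK b hb
    (hmono _ (le_trans (le_max_left _ _) (le_max_left _ _)))
  obtain ⟨G, hG, hcell⟩ := h₁ α β K hK b hb hβ
    (hmono _ (le_trans (le_max_right _ _) (le_max_left _ _))) σ hσ hs
  have h200 : 200 ≤ Fintype.card α := by
    have h1 := hmono 200 (le_max_right _ _)
    have h2 := Real.add_one_le_exp (200 * b ^ 5)
    have : (200 : ℝ) ≤ Fintype.card α := by nlinarith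
    exact_mod_cast this
  exact nice_of_G hK hc hb hβ h200 hσ hσ' G hG hcell

end Vale.Agent.P230.L
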