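import Vale.Agent.P230.L.Defs

/-! Numerical inequalities for the stage with explicit parameters. -/

namespace Vale.Agent.P230.L

theorem snum_pow_le {a b : ℝ} (ha : 0 ≤ a) (h : a ≤ Real.exp b) (n : ℕ) :
    a ^ n ≤ Real.exp (n * b) := by
  rw [Real.exp_nat_mul]
  exact pow_le_pow_left₀ ha h n

theorem snum_half : (1 / 2 : ℝ) ≤ Real.exp (-(69 / 100)) := by
  rw [← Real.log_le_iff_le_exp (by norm_num), one_div, Real.log_inv]
  linarith [Real.log_two_gt_d9]

theorem snum_two : (2 : ℝ) ≤ Real.exp 1 := by linarith [Real.add_one_le_exp 1]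

theorem snum_nine : (9 / 10 : ℝ) ≤ Real.exp (-(1 / 10)) := by
  linarith [Real.add_one_le_exp (-(1 / 10))]

theorem snum_third {y : ℝ} (h : y ≤ -2) : Real.exp y ≤ 1 / 3 := by
  refine (Real.exp_le_exp.2 h).trans ?_
  rw [Real.exp_neg, one_div]
  exact inv_anti₀ (by norm_num) (by linarith [Real.add_one_le_exp 2])

theorem snum_exp_nat (n : ℕ) : Real.exp n ≤ 3 ^ n := by
  rw [← Real.exp_one_pow]
  exact pow_le_pow_left₀ (Real.exp_pos _).le (by linarith [Real.exp_one_lt_d9]) n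

theorem snum_prev {u : ℕ} (hu : 4096 ≤ u) :
    ∃ v : ℕ, 2 ≤ v ∧ u ^ 5 ≤ v ^ 6 ∧ v ^ 12 ≤ u ^ 11 ∧ 3 * v ≤ 2 * u := by
  have hex : ∃ v : ℕ, u ^ 5 ≤ v ^ 6 := ⟨u, Nat.pow_le_pow_right (by omega) (by norm_num)⟩
  have h1 := Nat.find_spec hex
  have h2 : 2 ≤ Nat.find hex := by
    by_contra h
    have h3 : Nat.find hex ^ 6 ≤ 1 ^ 6 := Nat.pow_le_pow_left (by omega) _
    have h4 : 2 ^ 5 ≤ u ^ 5 := Nat.pow_le_pow_left (by omega) _
    omega
  have h3 := not_le.1 (Nat.find_min hex (m := Nat.find hex - 1) (by omega))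
  generalize Nat.find hex = v at h1 h2 h3
  have h4 : v ^ 12 ≤ u ^ 11 :=
    calc v ^ 12 ≤ (2 * (v - 1)) ^ 12 := Nat.pow_le_pow_left (by omega) _
      _ = 4096 * ((v - 1) ^ 6) ^ 2 := by ring
      _ ≤ u * (u ^ 5) ^ 2 := Nat.mul_le_mul hu (Nat.pow_le_pow_left h3.le _)
      _ = u ^ 11 := by ring
  refine ⟨v, h2, h1, h4, ?_⟩
  by_contra h
  have h5 : (2 * u) ^ 12 ≤ (3 * v) ^ 12 := Nat.pow_le_pow_left (by omega) _
  have h6 : 4096 * u * u ^ 11 ≤ 531441 * u ^ 11 :=
    calc 4096 * u * u ^ 11 = (2 * u) ^ 12 := by ring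
      _ ≤ (3 * v) ^ 12 := h5
      _ = 531441 * v ^ 12 := by ring
      _ ≤ 531441 * u ^ 11 := Nat.mul_le_mul_left _ h4
  have h7 := Nat.le_of_mul_le_mul_right h6 (Nat.pow_pos (by omega))
  omega

variable {x : ℝ} (hx : 4 * 10 ^ 10 ≤ x)
include hx

theorem snum_P {a b : ℕ} (hab : a < b) {c : ℝ} (hc : c ≤ 4 * 10 ^ 10) : c * x ^ a ≤ x ^ b :=
  calc c * x ^ a ≤ x * x ^ a := mul_le_mul_of_nonneg_right (hc.trans hx) (by positivity)
    _ = x ^ (a + 1) := (pow_succ' x a).symm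
    _ ≤ x ^ b := pow_le_pow_right₀ (by linarith) hab

theorem snum_log1 : 1 ≤ Real.log x :=
  (Real.le_log_iff_exp_le (by linarith)).2 (by linarith [Real.exp_one_lt_d9])

theorem snum_log : 10 ^ 5 * Real.log x ≤ x := by
  have h0 : 0 < x := by linarith
  have h1 : 2 * 10 ^ 5 ≤ √x := Real.le_sqrt_of_sq_le (by linarith)
  have h2 := Real.log_le_sub_one_of_pos (Real.sqrt_pos.2 h0)
  rw [Real.log_sqrt h0.le] at h2
  have h3 := Real.mul_self_sqrt h0.le
  nlinarith

theorem snum_logP (a b : ℕ) (hab : b = a + 1) : 10 ^ 5 * (x ^ a * Real.log x) ≤ x ^ b := by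
  have := mul_le_mul_of_nonneg_left (snum_log hx) (show 0 ≤ x ^ a by positivity)
  rw [hab, pow_succ x a]
  linarith

theorem snum_exp (a : ℕ) : x ^ a = Real.exp (a * Real.log x) := by
  rw [Real.exp_nat_mul, Real.exp_log (by linarith)]

theorem snum_A : x ^ 35 + x ^ 19 ≤ (x ^ 18) ^ 2 := by
  have h1 := snum_P hx (a := 35) (b := 36) (by norm_num) (c := 2) (by norm_num)
  have h2 := snum_P hx (a := 19) (b := 35) (by norm_num) (c := 1) (by norm_num)
  linarith

theorem snum_var {c : ℝ} (hc : c ≤ 4 * 10 ^ 10) : c * x ^ 35 / (x ^ 19) ^ 2 ≤ 1 / x := by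
  have h0 : 0 < x := by linarith
  have h1 := snum_P hx (a := 36) (b := 38) (by norm_num) hc
  rw [div_le_div_iff₀ (by positivity) h0]
  linarith

theorem snum_pF : x ^ 35 * (2 * x ^ 18 * (1 / x ^ 55) + (1 / x ^ 55) ^ 2) ≤ 1 / x := by
  have h0 : 0 < x := by linarith
  have h1 := snum_P hx (a := 74) (b := 75) (by norm_num) (c := 3) (by norm_num)
  have h2 := snum_P hx (a := 1) (b := 74) (by norm_num) (c := 1) (by norm_num)
  have e : x ^ 35 * (2 * x ^ 18 * (1 / x ^ 55) + (1 / x ^ 55) ^ 2) = (2 * x ^ 73 + 1) / x ^ 75 := by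
    field_simp
  rw [e, div_le_div_iff₀ (by positivity) h0]
  linarith

theorem snum_bx {y : ℝ} (hy : y ≤ 1) : x ^ 18 + y ≤ x ^ 36 := by
  have h1 := snum_P hx (a := 18) (b := 36) (by norm_num) (c := 2) (by norm_num)
  have h2 := snum_P hx (a := 0) (b := 18) (by norm_num) (c := 1) (by norm_num)
  linarith

theorem snum_tail {h : ℝ} (hh : h ^ 2 = 74 * Real.log x) :
    6 * x ^ 35 * Real.exp (-h ^ 2 / 2) ≤ 1 / x := by
  have h0 : 0 < x := by linarith
  have e : Real.exp (-h ^ 2 / 2) = 1 / x ^ 37 := by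
    rw [snum_exp hx 37, one_div, ← Real.exp_neg, hh]
    congr 1
    push_cast
    ring
  have h1 := snum_P hx (a := 36) (b := 37) (by norm_num) (c := 6) (by norm_num)
  rw [e, mul_one_div, div_le_div_iff₀ (by positivity) h0]
  linarith

theorem snum_phi {h : ℝ} (hh : h ^ 2 = 74 * Real.log x) :
    1 / (10 ^ 5 * x ^ 10) ≤ phi (h / 2 + 1) := by
  have h0 : 0 < x := by linarith
  have h1 : √(2 * Real.pi) ≤ 3 := Real.sqrt_le_iff.2 ⟨by norm_num, by nlinarith [Real.pi_lt_four]⟩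
  have h2 : 0 < √(2 * Real.pi) := by positivity
  have h3 : Real.exp (-((9 : ℕ) + (10 : ℕ) * Real.log x)) ≤ Real.exp (-(h / 2 + 1) ^ 2 / 2) := by
    rw [Real.exp_le_exp]
    push_cast
    nlinarith [sq_nonneg (h - 32), snum_log1 hx]
  rw [Real.exp_neg, Real.exp_add, ← snum_exp hx] at h3
  have h4 : (3 ^ 9 * x ^ 10)⁻¹ ≤ (Real.exp (9 : ℕ) * x ^ 10)⁻¹ :=
    inv_anti₀ (by positivity) (mul_le_mul_of_nonneg_right (snum_exp_nat 9) (by positivity))
  rw [phi, le_div_iff₀ h2]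
  refine le_trans ?_ (h4.trans h3)
  rw [one_div, mul_inv, mul_inv, mul_right_comm]
  refine mul_le_mul_of_nonneg_right ?_ (by positivity)
  linarith

theorem snum_h3 {h p : ℝ} (_ : h ^ 2 = 74 * Real.log x) (hp : 1 / (10 ^ 5 * x ^ 10) ≤ p) :
    2 * (2 * x ^ 24) ≤ x ^ 35 * p := by
  have h0 : 0 < x := by linarith
  refine le_trans ?_ (mul_le_mul_of_nonneg_left hp (by positivity))
  have h1 := snum_P hx (a := 34) (b := 35) (by norm_num) (c := 4 * 10 ^ 5) (by norm_num)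
  rw [mul_one_div, le_div_iff₀ (by positivity)]
  linarith

theorem snum_h4 {p : ℝ} (hp : 1 / (10 ^ 5 * x ^ 10) ≤ p) : 12 ≤ 1 / x * (x ^ 35 * p) := by
  have h0 : 0 < x := by linarith
  refine le_trans ?_ (mul_le_mul_of_nonneg_left (mul_le_mul_of_nonneg_left hp (by positivity))
    (by positivity))
  have h1 := snum_P hx (a := 11) (b := 35) (by norm_num) (c := 12 * 10 ^ 5) (by norm_num)
  rw [mul_one_div, div_mul_div_comm, le_div_iff₀ (by positivity)]
  linarith

theorem snum_h {h : ℝ} (h0 : 0 < h) (hh : h ^ 2 = 74 * Real.log x) : 1 ≤ h ∧ h ≤ x := by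
  have h1 := snum_log1 hx
  have h2 := snum_log hx
  constructor <;> nlinarith

theorem snum_small {B D : ℝ} (hB0 : 0 ≤ B) (hB : B ≤ x ^ 18) (hD0 : 0 ≤ D) (hD : D ≤ 1 / x ^ 57) :
    x ^ 35 * (2 * B * D + D ^ 2) ≤ 2 * (1 / x) := by
  have h0 : 0 < x := by linarith
  have h1 := snum_P hx (a := 76) (b := 79) (by norm_num) (c := 3) (by norm_num)
  have h2 := snum_P hx (a := 1) (b := 76) (by norm_num) (c := 1) (by norm_num)
  have e : x ^ 35 * (2 * x ^ 18 * (1 / x ^ 57) + (1 / x ^ 57) ^ 2) = (2 * x ^ 75 + 1) / x ^ 79 := by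
    field_simp
  calc x ^ 35 * (2 * B * D + D ^ 2)
      ≤ x ^ 35 * (2 * x ^ 18 * (1 / x ^ 57) + (1 / x ^ 57) ^ 2) := by gcongr
    _ ≤ 1 / x := by
      rw [e, div_le_div_iff₀ (by positivity) h0]
      linarith
    _ ≤ 2 * (1 / x) := le_mul_of_one_le_left (by positivity) one_le_two

theorem snum_pC {h : ℝ} (h0 : 0 < h) (hh : h ^ 2 = 74 * Real.log x) :
    x ^ 35 * (2 * h * (h * (2 / x ^ 113)) + (h * (2 / x ^ 113)) ^ 2) ≤ 2 * (1 / x) ∧
      h + h * (2 / x ^ 113) ≤ x ^ 36 := by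
  have hx0 : 0 < x := by linarith
  obtain ⟨-, h2⟩ := snum_h hx h0 hh
  have h3 : h ≤ x ^ 18 := by
    have := snum_P hx (a := 1) (b := 18) (by norm_num) (c := 1) (by norm_num)
    linarith
  have h4 : h * (2 / x ^ 113) ≤ 1 / x ^ 57 := by
    have := snum_P hx (a := 58) (b := 113) (by norm_num) (c := 2) (by norm_num)
    refine (mul_le_mul_of_nonneg_right h2 (by positivity)).trans ?_
    rw [← mul_div_assoc, div_le_div_iff₀ (by positivity) (by positivity)]
    linarith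
  refine ⟨snum_small hx h0.le h3 (by positivity) h4, ?_⟩
  have h5 := snum_bx hx (h4.trans ((div_le_one (by positivity)).2 (one_le_pow₀ (by linarith))))
  linarith

theorem snum_prod {h H ν : ℝ} (h0 : 0 < h) (hH0 : 0 < H) (hν1 : -1 ≤ ν) (hν2 : ν ≤ 1 / 2)
    (hH : Real.log H = 3 * x ^ 19 / x ^ 35 - Real.log (1 / x ^ 55) - Real.log h + 1 +
      3 / 2 * Real.log (2 * Real.pi) + ν) :
    1 ≤ 1 / x ^ 55 * h * H ∧ 1 / x ^ 55 * h * H ≤ Real.exp 6 := by
  have hx0 : 0 < x := by linarith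
  have h1 : Real.log (1 / x ^ 55 * h * H) =
      3 * x ^ 19 / x ^ 35 + 1 + 3 / 2 * Real.log (2 * Real.pi) + ν := by
    rw [Real.log_mul (by positivity) hH0.ne', Real.log_mul (by positivity) h0.ne', hH]
    ring
  have h2 : 0 ≤ 3 * x ^ 19 / x ^ 35 := by positivity
  have h3 : 3 * x ^ 19 / x ^ 35 ≤ 1 :=
    (div_le_one (by positivity)).2 (snum_P hx (by norm_num) (by norm_num))
  have h4 : 0 ≤ Real.log (2 * Real.pi) := Real.log_nonneg (by linarith [Real.pi_gt_three])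
  have h5 : Real.log (2 * Real.pi) ≤ 3 * Real.log 2 := by
    rw [show 3 * Real.log 2 = Real.log (2 ^ 3) by rw [Real.log_pow]; norm_num]
    exact Real.log_le_log (by positivity) (by linarith [Real.pi_lt_four])
  have h6 := Real.log_two_lt_d9
  constructor
  · rw [← Real.log_nonneg_iff (by positivity), h1]
    linarith
  · rw [← Real.log_le_iff_le_exp (by positivity), h1]
    linarith

theorem snum_H {h H : ℝ} (h0 : 0 < h) (hh : h ^ 2 = 74 * Real.log x) (hH0 : 0 < H)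
    (h1 : 1 ≤ 1 / x ^ 55 * h * H) (h2 : 1 / x ^ 55 * h * H ≤ Real.exp 6) :
    8 * x ^ 18 < H ∧ H * (2 / x ^ 113) ≤ 1 / x ^ 57 := by
  have hx0 : 0 < x := by linarith
  obtain ⟨h3, h4⟩ := snum_h hx h0 hh
  rw [mul_assoc, one_div_mul_eq_div] at h1 h2
  rw [le_div_iff₀ (by positivity)] at h1
  rw [div_le_iff₀ (by positivity)] at h2
  constructor
  · have h5 := snum_P hx (a := 19) (b := 55) (by norm_num) (c := 9) (by norm_num)
    have h6 := mul_le_mul_of_nonneg_right h4 hH0.le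
    have h7 : 0 < x ^ 19 := by positivity
    refine lt_of_mul_lt_mul_left (a := x) ?_ hx0.le
    linarith
  · have h5 : Real.exp 6 ≤ 3 ^ 6 := by exact_mod_cast snum_exp_nat 6
    have h6 := mul_le_mul_of_nonneg_right h3 hH0.le
    have h7 := mul_le_mul_of_nonneg_right h5 (show 0 ≤ x ^ 55 by positivity)
    have h8 : H ≤ 3 ^ 6 * x ^ 55 := by linarith
    have h9 := snum_P hx (a := 112) (b := 113) (by norm_num) (c := 2 * 3 ^ 6) (by norm_num)
    refine (mul_le_mul_of_nonneg_right h8 (by positivity)).trans ?_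
    rw [← mul_div_assoc, div_le_div_iff₀ (by positivity) (by positivity)]
    linarith

theorem snum_pM {H : ℝ} (hH0 : 0 < H) (h : H * (2 / x ^ 113) ≤ 1 / x ^ 57) :
    x ^ 35 * (2 * x ^ 18 * (H * (2 / x ^ 113)) + (H * (2 / x ^ 113)) ^ 2) ≤ 2 * (1 / x) := by
  have hx0 : 0 < x := by linarith
  exact snum_small hx (by positivity) le_rfl (by positivity) h

theorem snum_k : x ^ 33 + 3 * x ^ 35 ≤ x ^ 36 := by
  have h1 := snum_P hx (a := 35) (b := 36) (by norm_num) (c := 4) (by norm_num)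
  have h2 := snum_P hx (a := 33) (b := 35) (by norm_num) (c := 1) (by norm_num)
  linarith

theorem snum_det {m : ℕ} (hm : (m : ℝ) = x ^ 35) {y : ℝ} (h0 : 0 ≤ y) (hy : y ≤ Real.exp 6) :
    Real.exp (x ^ 33) * y ^ m ≤ Real.exp (x ^ 36) := by
  have h1 := snum_P hx (a := 35) (b := 36) (by norm_num) (c := 7) (by norm_num)
  have h2 := snum_P hx (a := 33) (b := 35) (by norm_num) (c := 1) (by norm_num)
  refine (mul_le_mul_of_nonneg_left (snum_pow_le h0 hy m) (Real.exp_pos _).le).trans ?_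
  rw [← Real.exp_add, Real.exp_le_exp, hm]
  linarith

theorem snum_J {m : ℕ} (hm : (m : ℝ) = x ^ 35) :
    Real.exp (x ^ 33) * (x ^ 113) ^ (2 * m) ≤ Real.exp (x ^ 36) := by
  have h1 := snum_logP hx 35 36 rfl
  have h2 := snum_P hx (a := 33) (b := 36) (by norm_num) (c := 2) (by norm_num)
  have h3 : 0 ≤ x ^ 36 := by positivity
  rw [← pow_mul, snum_exp hx (113 * (2 * m)), ← Real.exp_add, Real.exp_le_exp]
  push_cast
  rw [hm]
  linarith

theorem snum_cap : x ^ 38 * Real.exp (-x ^ 20) * Real.exp (5 * x ^ 19) ≤ 1 / x := by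
  have hx0 : 0 < x := by linarith
  have h1 := snum_log hx
  have h2 := snum_P hx (a := 19) (b := 20) (by norm_num) (c := 6) (by norm_num)
  have h3 := snum_P hx (a := 1) (b := 19) (by norm_num) (c := 1) (by norm_num)
  rw [le_div_iff₀ hx0, mul_assoc, mul_assoc, mul_comm _ x, ← mul_assoc (Real.exp _),
    mul_comm _ x, ← mul_assoc, ← mul_assoc, ← pow_succ, snum_exp hx (38 + 1), ← Real.exp_add,
    ← Real.exp_add, Real.exp_le_one_iff]
  push_cast
  linarith

theorem snum_sup : 2 ≤ 1 / x * Real.exp (x ^ 19) := by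
  have hx0 : 0 < x := by linarith
  have h1 := Real.add_one_le_exp (x ^ 19)
  have h2 := snum_P hx (a := 1) (b := 19) (by norm_num) (c := 2) (by norm_num)
  rw [one_div_mul_eq_div, le_div_iff₀ hx0]
  linarith

theorem snum_n1 {k : ℕ} (hk : (k : ℝ) = x ^ 33) :
    2 * Real.exp k * (k + 1) * 2 ^ k * Real.exp (-(1 / x) * (8 * x ^ 34) / 2) < 1 := by
  have hx0 : 0 < x := by linarith
  have h1 := snum_P hx (a := 0) (b := 33) (by norm_num) (c := 2) (by norm_num)
  have e : -(1 / x) * (8 * x ^ 34) / 2 = -(4 * (k : ℝ)) := by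
    rw [hk]
    field_simp
    ring
  calc 2 * Real.exp k * (k + 1) * 2 ^ k * Real.exp (-(1 / x) * (8 * x ^ 34) / 2)
      ≤ Real.exp 1 * Real.exp k * Real.exp k * Real.exp (k * 1) * Real.exp (-(4 * (k : ℝ))) := by
        rw [e]
        gcongr
        · exact snum_two
        · exact Real.add_one_le_exp _
        · exact snum_pow_le zero_le_two snum_two k
    _ < 1 := by
      rw [← Real.exp_add, ← Real.exp_add, ← Real.exp_add, ← Real.exp_add, Real.exp_lt_one_iff, hk]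
      linarith

theorem snum_n2 {k m ρ : ℕ} (hk : (k : ℝ) = x ^ 33) (hm : (m : ℝ) = x ^ 35)
    (hρ : (ρ : ℝ) = 88 * x ^ 34) :
    Real.exp (7 * (8 * x ^ 34)) * ((1 / 2) ^ ρ + (ρ + 2) *
      (8 * x ^ 34 / (x ^ 38 * (1 / x) / 2 ^ k / 2) * (2 * x ^ 73 + 1) ^ ρ) * (1 / 2) ^ m +
        8 * ((8 * x ^ 34 / (x ^ 38 * (1 / x) / 2 ^ k / 2)) ^ 3 * (9 / 10) ^ m)) ≤ 1 := by
  have hx0 : 0 < x := by linarith
  have hW : 8 * x ^ 34 / (x ^ 38 * (1 / x) / 2 ^ k / 2) ≤ Real.exp (x ^ 33) := by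
    have e : 8 * x ^ 34 / (x ^ 38 * (1 / x) / 2 ^ k / 2) = 16 * x ^ 0 / x ^ 3 * 2 ^ k := by
      field_simp
      ring
    have h1 : 16 * x ^ 0 / x ^ 3 ≤ 1 :=
      (div_le_one (by positivity)).2 (snum_P hx (by norm_num) (by norm_num))
    have h2 := snum_pow_le zero_le_two snum_two k
    rw [mul_one, hk] at h2
    rw [e]
    exact (mul_le_of_le_one_left (by positivity) h1).trans h2
  have hW0 : 0 ≤ 8 * x ^ 34 / (x ^ 38 * (1 / x) / 2 ^ k / 2) := by positivity
  generalize 8 * x ^ 34 / (x ^ 38 * (1 / x) / 2 ^ k / 2) = W at hW hW0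
  have a1 := snum_P hx (a := 0) (b := 33) (by norm_num) (c := 5) (by norm_num)
  have a2 := snum_P hx (a := 33) (b := 34) (by norm_num) (c := 5) (by norm_num)
  have a3 := snum_P hx (a := 34) (b := 35) (by norm_num) (c := 1000) (by norm_num)
  have a4 := snum_logP hx 34 35 rfl
  have a5 : 2 * x ^ 73 + 1 ≤ Real.exp ((74 : ℕ) * Real.log x) := by
    have b1 := snum_P hx (a := 73) (b := 74) (by norm_num) (c := 3) (by norm_num)
    have b2 := snum_P hx (a := 0) (b := 73) (by norm_num) (c := 1) (by norm_num)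
    rw [← snum_exp hx]
    linarith
  have a6 : (8 : ℝ) ≤ Real.exp (3 : ℕ) := by
    have := snum_pow_le zero_le_two snum_two 3
    rw [mul_one] at this
    linarith
  have t1 : Real.exp (7 * (8 * x ^ 34)) * (1 / 2) ^ ρ ≤ 1 / 3 := by
    refine (mul_le_mul_of_nonneg_left (snum_pow_le (by norm_num) snum_half ρ)
      (Real.exp_pos _).le).trans ?_
    rw [← Real.exp_add, hρ]
    exact snum_third (by linarith)
  have t2 : Real.exp (7 * (8 * x ^ 34)) * ((ρ + 2) * (W * (2 * x ^ 73 + 1) ^ ρ) * (1 / 2) ^ m) ≤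
      1 / 3 :=
    calc Real.exp (7 * (8 * x ^ 34)) * ((ρ + 2) * (W * (2 * x ^ 73 + 1) ^ ρ) * (1 / 2) ^ m)
        ≤ Real.exp (7 * (8 * x ^ 34)) * (Real.exp (ρ + 1) * (Real.exp (x ^ 33) *
          Real.exp (ρ * ((74 : ℕ) * Real.log x))) * Real.exp (m * -(69 / 100))) := by
          gcongr
          · linarith [Real.add_one_le_exp ((ρ : ℝ) + 1)]
          · exact snum_pow_le (by positivity) a5 ρ
          · exact snum_pow_le (by norm_num) snum_half m
      _ ≤ 1 / 3 := by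
        rw [← Real.exp_add, ← Real.exp_add, ← Real.exp_add, ← Real.exp_add, hρ, hm]
        refine snum_third ?_
        push_cast
        linarith
  have t3 : Real.exp (7 * (8 * x ^ 34)) * (8 * (W ^ 3 * (9 / 10) ^ m)) ≤ 1 / 3 :=
    calc Real.exp (7 * (8 * x ^ 34)) * (8 * (W ^ 3 * (9 / 10) ^ m))
        ≤ Real.exp (7 * (8 * x ^ 34)) * (Real.exp (3 : ℕ) * (Real.exp ((3 : ℕ) * x ^ 33) *
          Real.exp (m * -(1 / 10)))) := by
          gcongr
          · exact snum_pow_le hW0 hW 3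
          · exact snum_pow_le (by norm_num) snum_nine m
      _ ≤ 1 / 3 := by
        rw [← Real.exp_add, ← Real.exp_add, ← Real.exp_add, hm]
        refine snum_third ?_
        push_cast
        linarith
  rw [mul_add, mul_add]
  linarith

theorem snum_n3 {m : ℕ} (hm : (m : ℝ) = x ^ 35) :
    Real.exp (-(1 / x) * x ^ 38 / 2) < (1 / x ^ 113) ^ (2 * m) := by
  have hx0 : 0 < x := by linarith
  have h1 := snum_logP hx 35 36 rfl
  have h2 := snum_P hx (a := 36) (b := 37) (by norm_num) (c := 1) (by norm_num)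
  have h3 : 0 < x ^ 36 := by positivity
  have e : -(1 / x) * x ^ 38 / 2 = -(x ^ 37 / 2) := by field_simp
  rw [e, one_div, inv_pow, ← pow_mul, snum_exp hx (113 * (2 * m)), ← Real.exp_neg, Real.exp_lt_exp]
  push_cast
  rw [hm]
  linarith

theorem snum_R {r : ℕ} (hr : (r : ℝ) = 2 * x ^ 24) :
    2 * (Real.exp (-x ^ 20) * Real.exp (5 * x ^ 19)) / 2 ^ r ≤ Real.exp (-x ^ 24) := by
  have h1 := snum_P hx (a := 19) (b := 20) (by norm_num) (c := 6) (by norm_num)
  have h2 := snum_P hx (a := 0) (b := 19) (by norm_num) (c := 1) (by norm_num)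
  have h3 : 0 ≤ x ^ 24 := by positivity
  calc 2 * (Real.exp (-x ^ 20) * Real.exp (5 * x ^ 19)) / 2 ^ r
      = 2 * (Real.exp (-x ^ 20) * Real.exp (5 * x ^ 19)) * (1 / 2) ^ r := by
        rw [one_div, inv_pow, div_eq_mul_inv]
    _ ≤ Real.exp 1 * (Real.exp (-x ^ 20) * Real.exp (5 * x ^ 19)) * Real.exp (r * -(69 / 100)) := by
        gcongr
        · exact snum_two
        · exact snum_pow_le (by norm_num) snum_half r
    _ ≤ _ := by
      rw [← Real.exp_add, ← Real.exp_add, ← Real.exp_add, Real.exp_le_exp, hr]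
      linarith

end Vale.Agent.P230.L
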