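import Vale.Agent.P230.L.Stage
import Vale.Agent.P230.L.StageNumAux

/-! The stage with explicit parameters, and the systems of all sizes.

stage: apply gadF, gadC, gadM and stage_abs with m = u^35, eta = 1/u, r = 2 u^24, s = u^19,
A = u^18, eps = 1/u^55, L = u^73, h = sqrt (74 log u), Q = u^113, V = 8 u^34, rho = 88 u^34,
theta = u^38, bx = u^36, and H defined by
log H = 3 s / m - log eps - log h + 1 + (3/2) log (2 pi) + nu  (nu from gadC),
so that lf lc lm = exp s, hf hc hm = exp (5 s), and 1 <= eps h H <= exp 6.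
Useful: exp (-h^2/2) = u^(-37); phi (h/2 + 1) >= exp (-10) u^(-10) since h^2/8 = 9.25 log u and
h/2 <= h^2/128 + 8; 1 <= h <= u; log u <= u / C for large u.
sys_base: iota = Fin d, lv = val, B = 1, J = Unit, A = bits, w = 2^(-d), a0 = floor t;
phi x >= 1/5 for |x| <= 1.
sys_all: with u0 >= 4096 from stage and c0 = (1/5)^(2 u0^24) exp (-42), prove by strong induction
Sys (u^36) (u^24) (c0 exp (42/u)): for u <= u0 sys_base with d = 2 u^24; for u > u0 take the
least u' with u^5 <= u'^6; then 2 <= u', u'^12 <= u^11, 3 u' <= 2 u. -/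

namespace Vale.Agent.P230.L

open MeasureTheory ProbabilityTheory Set
open scoped ENNReal

theorem Sys.mono {k k' : ℕ} {R R' c c' : ℝ} (S : Sys k R c) (hk : k ≤ k') (hR : R' ≤ R)
    (hc : c' ≤ c) : Nonempty (Sys k' R' c') := by
  have hk' : (k : ℝ) ≤ k' := by exact_mod_cast hk
  refine ⟨{ ι := S.ι
            lv := S.lv
            B := S.B
            J := S.J
            A := S.A
            w := S.w
            lv_inj := S.lv_inj
            lv_lt := fun i => (S.lv_lt i).trans_le hk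
            det_pos := S.det_pos
            det_le := S.det_le.trans (Real.exp_le_exp.2 hk')
            card_J := S.card_J.trans (Real.exp_le_exp.2 hk')
            tree := S.tree
            card_A := fun j => (S.card_A j).trans (Nat.pow_le_pow_right two_pos hk)
            w_nonneg := S.w_nonneg
            w_le := fun j a => (S.w_le j a).trans (Real.exp_le_exp.2 (neg_le_neg hR))
            sum_w := S.sum_w
            cover := fun t => ?_ }⟩
  obtain ⟨j, a₀, h⟩ := S.cover t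
  exact ⟨j, a₀, fun a ha => ⟨fun i => ((h a ha).1 i).trans hk',
    (mul_le_mul_of_nonneg_right hc (S.w_nonneg j a)).trans (h a ha).2⟩⟩

theorem snum_phi_ge {x : ℝ} (h : |x| ≤ 1) : 1 / 10 ≤ phi x := by
  have h1 : x ^ 2 ≤ 1 := by rwa [sq_le_one_iff_abs_le_one]
  have h2 := Real.add_one_le_exp (-x ^ 2 / 2)
  have h3 : √(2 * Real.pi) ≤ 3 := Real.sqrt_le_iff.2 ⟨by norm_num, by nlinarith [Real.pi_lt_four]⟩
  have h4 : 0 < √(2 * Real.pi) := by positivity
  rw [phi, le_div_iff₀ h4]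
  linarith

theorem sys_base (d : ℕ) (hd : 1 ≤ d) : Nonempty (Sys d (d / 2) ((1 / 5) ^ d)) := by
  have hd' : (1 : ℝ) ≤ d := by exact_mod_cast hd
  have hb : ∀ a ∈ bits (Fin d), ∀ i, a i = 0 ∨ a i = 1 := fun a ha i => by
    simpa using Fintype.mem_piFinset.1 ha i
  have hcard : (bits (Fin d)).card = 2 ^ d := by simp [bits]
  refine ⟨{ ι := Fin d
            lv := Fin.val
            B := 1
            J := Unit
            A := fun _ => bits (Fin d)
            w := fun _ _ => (1 / 2) ^ d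
            lv_inj := Fin.val_injective
            lv_lt := fun i => i.2
            det_pos := by simp
            det_le := by simp
            card_J := by simp
            tree := fun _ a ha a' ha' i _ => ?_
            card_A := fun _ => hcard.le
            w_nonneg := fun _ _ => by positivity
            w_le := fun _ _ => ?_
            sum_w := fun _ => ?_
            cover := fun t => ⟨(), fun i => ⌊t i⌋, fun a ha => ?_⟩ }⟩
  · rcases hb a ha i with h | h <;> rcases hb a' ha' i with h' | h' <;> simp [h, h']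
  · refine (snum_pow_le (by norm_num) snum_half d).trans (Real.exp_le_exp.2 ?_)
    linarith
  · rw [Finset.sum_const, hcard, nsmul_eq_mul]
    push_cast
    rw [← mul_pow]
    norm_num
  · have h1 : ∀ i, |(t - (1 : Matrix (Fin d) (Fin d) ℝ).mulVec (cst (a + fun i => ⌊t i⌋))) i| ≤ 1 := by
      intro i
      have h2 := Int.floor_le (t i)
      have h3 := Int.lt_floor_add_one (t i)
      rw [Matrix.one_mulVec, Pi.sub_apply, cst, Pi.add_apply, abs_le]
      rcases hb a ha i with h | h <;> rw [h] <;> push_cast <;> constructor <;> linarith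
    refine ⟨fun i => (h1 i).trans hd', ?_⟩
    rw [Matrix.det_one, one_mul, ← mul_pow, phiV]
    refine le_trans (le_of_eq ?_) (Finset.prod_le_prod (f := fun _ => (1 / 10 : ℝ))
      (fun _ _ => by norm_num) fun i _ => snum_phi_ge (h1 i))
    rw [Finset.prod_const, Finset.card_univ, Fintype.card_fin]
    norm_num

theorem stage : ∃ u₀ : ℕ, ∀ u : ℕ, u₀ ≤ u → ∀ c : ℝ, 0 ≤ c → Sys (u ^ 33) ((u : ℝ) ^ 20) c →
    Nonempty (Sys (u ^ 36) ((u : ℝ) ^ 24) (c * Real.exp (-21 * (1 / u)))) := by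
  refine ⟨4 * 10 ^ 10, fun u hu c hc S => ?_⟩
  have hx : (4 * 10 ^ 10 : ℝ) ≤ u := by exact_mod_cast hu
  have h0 : (0 : ℝ) < u := by linarith
  have h1 : (1 : ℝ) ≤ u := by linarith
  have hm : ((u ^ 35 : ℕ) : ℝ) = (u : ℝ) ^ 35 := Nat.cast_pow _ _
  have hQ : ((u ^ 113 : ℕ) : ℝ) = (u : ℝ) ^ 113 := Nat.cast_pow _ _
  have hk' : ((u ^ 33 : ℕ) : ℝ) = (u : ℝ) ^ 33 := Nat.cast_pow _ _
  have hk : ((u ^ 36 : ℕ) : ℝ) = (u : ℝ) ^ 36 := Nat.cast_pow _ _
  have hL : ((u ^ 73 : ℕ) : ℝ) = (u : ℝ) ^ 73 := Nat.cast_pow _ _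
  have hr : ((2 * u ^ 24 : ℕ) : ℝ) = 2 * (u : ℝ) ^ 24 := by push_cast; rfl
  have hρ : ((88 * u ^ 34 : ℕ) : ℝ) = 88 * (u : ℝ) ^ 34 := by push_cast; rfl
  obtain ⟨h, hh0, hh⟩ : ∃ h : ℝ, 0 < h ∧ h ^ 2 = 74 * Real.log u :=
    ⟨√(74 * Real.log u), Real.sqrt_pos.2 (by linarith [snum_log1 hx]),
      Real.sq_sqrt (by linarith [snum_log1 hx])⟩
  obtain ⟨gF⟩ := gadF (m := u ^ 35) (L := u ^ 73) (ε := 1 / (u : ℝ) ^ 55) (η := 1 / (u : ℝ))
    (bx := (u : ℝ) ^ 36) (s := (u : ℝ) ^ 19) (A := (u : ℝ) ^ 18)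
    (by simpa using snum_P hx (a := 0) (b := 19) (by norm_num) (c := 2) (by norm_num))
    (by positivity) (hm ▸ snum_A hx) (by positivity) ((div_le_one h0).2 h1)
    (hm ▸ snum_var hx (by norm_num)) (hm ▸ snum_pF hx) (by rw [hL]; field_simp; rfl)
    (snum_bx hx ((div_le_one (by positivity)).2 (one_le_pow₀ h1)))
  obtain ⟨ν, hν1, hν2, ⟨gC⟩⟩ := gadC (m := u ^ 35) (r := 2 * u ^ 24) (h := h)
    (δ := 2 / ((u ^ 113 : ℕ) : ℝ)) (η := 1 / (u : ℝ)) (bx := (u : ℝ) ^ 36) (s := (u : ℝ) ^ 19)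
    (by positivity) hh0 (by positivity) (hm ▸ snum_tail hx hh) (hm ▸ snum_var hx (by norm_num))
    (hm ▸ hr ▸ snum_h3 hx hh (snum_phi hx hh)) (hm ▸ snum_h4 hx (snum_phi hx hh))
    (hm ▸ hQ ▸ (snum_pC hx hh0 hh).1) (hQ ▸ (snum_pC hx hh0 hh).2)
  obtain ⟨H, hH0, hH⟩ : ∃ H : ℝ, 0 < H ∧ Real.log H = 3 * (u : ℝ) ^ 19 / (u : ℝ) ^ 35 -
      Real.log (1 / (u : ℝ) ^ 55) - Real.log h + 1 + 3 / 2 * Real.log (2 * Real.pi) + ν :=
    ⟨Real.exp _, Real.exp_pos _, Real.log_exp _⟩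
  obtain ⟨hp1, hp2⟩ := snum_prod hx hh0 hH0 hν1 hν2 hH
  obtain ⟨hH1, hH2⟩ := snum_H hx hh0 hh hH0 hp1 hp2
  obtain ⟨gM⟩ := gadM (m := u ^ 35) (H := H) (δ := 2 / ((u ^ 113 : ℕ) : ℝ)) (η := 1 / (u : ℝ))
    (bx := (u : ℝ) ^ 36) (s := (u : ℝ) ^ 19) (A := (u : ℝ) ^ 18) (by positivity) (by positivity)
    (hm ▸ snum_A hx) hH1 (by positivity) (hm ▸ snum_var hx (by norm_num))
    (hm ▸ hQ ▸ snum_pM hx hH0 hH2)
    (hQ ▸ snum_bx hx (hH2.trans ((div_le_one (by positivity)).2 (one_le_pow₀ h1))))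
  have e1 : ∀ a b c' : ℝ, Real.exp (((u ^ 35 : ℕ) : ℝ) * (Real.log (1 / (u : ℝ) ^ 55) - 1 / 2 -
        Real.log (2 * Real.pi) / 2) + a) *
      Real.exp (((u ^ 35 : ℕ) : ℝ) * (Real.log h - Real.log (2 * Real.pi) / 2 - ν) + b) *
      Real.exp (((u ^ 35 : ℕ) : ℝ) * (Real.log H - 1 / 2 - Real.log (2 * Real.pi) / 2) + c') =
      Real.exp (3 * (u : ℝ) ^ 19 + a + b + c') := by
    intro a b c'
    rw [← Real.exp_add, ← Real.exp_add, hm, hH]
    congr 1
    field_simp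
    ring
  have elo := e1 (-((u : ℝ) ^ 19 / 2)) (-(u : ℝ) ^ 19) (-((u : ℝ) ^ 19 / 2))
  have ehi := e1 ((u : ℝ) ^ 19 / 2) ((u : ℝ) ^ 19) ((u : ℝ) ^ 19 / 2)
  simp only [← sub_eq_add_neg] at elo
  rw [show 3 * (u : ℝ) ^ 19 - (u : ℝ) ^ 19 / 2 - (u : ℝ) ^ 19 - (u : ℝ) ^ 19 / 2 = (u : ℝ) ^ 19
    by ring] at elo
  rw [show 3 * (u : ℝ) ^ 19 + (u : ℝ) ^ 19 / 2 + (u : ℝ) ^ 19 + (u : ℝ) ^ 19 / 2 = 5 * (u : ℝ) ^ 19
    by ring] at ehi
  refine stage_abs (ρ := 88 * u ^ 34) (θ := (u : ℝ) ^ 38) (V := 8 * (u : ℝ) ^ 34) S gF gC gM hc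
    (by positivity) (one_div_le_one_div_of_le (by norm_num) (by linarith)) (by positivity)
    (by positivity) hh0 hH0 (Nat.one_le_pow _ _ (by omega)) (Real.exp_pos _) (Real.exp_pos _)
    (Real.exp_pos _) ?_ hk.ge ?_ ?_ ?_ ?_ ?_ ?_ ?_ ?_ ?_
  · have := snum_k hx
    rw [← hm, ← hk', ← hk] at this
    exact_mod_cast this
  · rw [hk', hk]
    exact snum_det hx hm (by positivity) hp2
  · rw [hk', hk, hQ]
    exact snum_J hx hm
  · rw [ehi]
    exact snum_cap hx
  · rw [elo]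
    exact snum_sup hx
  · have := snum_P hx (a := 0) (b := 34) (by norm_num) (c := 1) (by norm_num)
    have h2 := (div_le_one h0).2 h1
    linarith
  · exact snum_n1 hx hk'
  · rw [hL]
    exact snum_n2 hx hk' hm hρ
  · rw [hQ]
    exact snum_n3 hx hm
  · rw [mul_assoc, ehi]
    exact snum_R hx hr

theorem sys_all : ∃ c₀ : ℝ, 0 < c₀ ∧ ∀ u : ℕ, 2 ≤ u →
    Nonempty (Sys (u ^ 36) ((u : ℝ) ^ 24) c₀) := by
  obtain ⟨u₁, hst⟩ := stage
  obtain ⟨u₀, hu₁, hu₀⟩ : ∃ u₀, u₁ ≤ u₀ ∧ 4096 ≤ u₀ := ⟨_, le_max_left _ _, le_max_right _ _⟩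
  obtain ⟨c₀, hc₀⟩ : ∃ c₀ : ℝ, c₀ = (1 / 5) ^ (2 * u₀ ^ 24) * Real.exp (-42) := ⟨_, rfl⟩
  have hc : 0 < c₀ := by rw [hc₀]; positivity
  have key : ∀ u : ℕ, 2 ≤ u → Nonempty (Sys (u ^ 36) ((u : ℝ) ^ 24) (c₀ * Real.exp (42 / u))) := by
    intro u
    induction u using Nat.strong_induction_on with
    | _ u ih =>
      intro hu
      have hu' : (2 : ℝ) ≤ u := by exact_mod_cast hu
      rcases le_or_gt u u₀ with h | h
      · obtain ⟨S⟩ := sys_base (2 * u ^ 24) (Nat.mul_pos two_pos (Nat.pow_pos (by omega)))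
        refine S.mono ?_ (le_of_eq (by push_cast; ring)) ?_
        · calc 2 * u ^ 24 ≤ u * u ^ 24 := Nat.mul_le_mul_right _ hu
            _ = u ^ 25 := by ring
            _ ≤ u ^ 36 := Nat.pow_le_pow_right (by omega) (by norm_num)
        · have h1 : Real.exp (-42) * Real.exp (42 / u) ≤ 1 := by
            rw [← Real.exp_add, Real.exp_le_one_iff]
            have : 42 / (u : ℝ) ≤ 42 := div_le_self (by norm_num) (by linarith)
            linarith
          have h2 : (1 / 5 : ℝ) ^ (2 * u₀ ^ 24) ≤ (1 / 5) ^ (2 * u ^ 24) :=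
            pow_le_pow_of_le_one (by norm_num) (by norm_num)
              (Nat.mul_le_mul_left _ (Nat.pow_le_pow_left h _))
          rw [hc₀, mul_assoc]
          exact (mul_le_of_le_one_right (by positivity) h1).trans h2
      · obtain ⟨v, h2, h3, h4, h5⟩ := snum_prev (hu₀.trans h.le)
        obtain ⟨S⟩ := ih v (by omega) h2
        obtain ⟨S'⟩ := S.mono (k' := u ^ 33) (R' := (u : ℝ) ^ 20) (by
            have := Nat.pow_le_pow_left h4 3
            rwa [← pow_mul, ← pow_mul] at this)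
          (by
            have := Nat.pow_le_pow_left h3 4
            rw [← pow_mul, ← pow_mul] at this
            exact_mod_cast this) le_rfl
        obtain ⟨S''⟩ := hst u (hu₁.trans h.le) _ (by positivity) S'
        refine S''.mono le_rfl le_rfl ?_
        rw [mul_assoc, ← Real.exp_add]
        refine mul_le_mul_of_nonneg_left (Real.exp_le_exp.2 ?_) hc.le
        have h6 : (2 : ℝ) ≤ v := by exact_mod_cast h2
        have h7 : 3 * (v : ℝ) ≤ 2 * u := by exact_mod_cast h5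
        have h8 : 63 / (u : ℝ) ≤ 42 / v := by
          rw [div_le_div_iff₀ (by linarith) (by linarith)]
          linarith
        have h9 : 63 / (u : ℝ) = 42 / u + 21 * (1 / u) := by ring
        linarith
  refine ⟨c₀, hc, fun u hu => ?_⟩
  obtain ⟨S⟩ := key u hu
  exact S.mono le_rfl le_rfl (le_mul_of_one_le_right hc.le (Real.one_le_exp (by positivity)))

end Vale.Agent.P230.L
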