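import Vale.Agent.P230.L.GNum
import Vale.Agent.P230.L.StageNum
import Vale.Agent.P230.L.NiceBody
import Vale.Agent.P230.L.Iso

/-! The lattice upper bound.

params: take the least u >= 2 with 10^8 (log n)^2 <= exp (u^24); then u^36 <= 2^48 R^2 for
R = log (10^8 (log n)^2), which is a power of log log n. -/

namespace Vale.Agent.P230.L

open MeasureTheory ProbabilityTheory Set
open scoped ENNReal

theorem params (C₀ : ℝ) : ∃ n₀ : ℕ, ∀ n, n₀ ≤ n → ∃ u : ℕ, 2 ≤ u ∧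
    10 ^ 8 * Real.log n ^ 2 ≤ Real.exp ((u : ℝ) ^ 24) ∧ ((u ^ 36 : ℕ) : ℝ) ≤ Real.log n ∧
    Real.exp (C₀ * ((u ^ 36 : ℕ) : ℝ) ^ 5) + ((u ^ 36 : ℕ) : ℝ) ≤ n := by
  obtain ⟨D, hD⟩ : ∃ D : ℝ, D = 2 * (|C₀| + 1) * (9 * 2 ^ 48) ^ 5 := ⟨_, rfl⟩
  have hD0 : 0 < D := by rw [hD]; positivity
  have h1 := (Real.isLittleO_pow_log_id_atTop (n := 10)).bound (one_div_pos.2 hD0)
  have h2 := (Real.tendsto_log_atTop.comp (tendsto_natCast_atTop_atTop (R := ℝ))).eventually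
    ((Filter.eventually_ge_atTop (10 ^ 8)).and h1)
  obtain ⟨n₀, h⟩ := Filter.eventually_atTop.1 (h2.and (Filter.eventually_ge_atTop 1))
  refine ⟨n₀, fun n hn => ?_⟩
  obtain ⟨⟨hy, h3⟩, hn1⟩ := h n hn
  simp only [Function.comp_apply, id] at hy h3
  have hxy : Real.exp (Real.log n) = n := Real.exp_log (by exact_mod_cast hn1)
  generalize Real.log n = y at hy h3 hxy ⊢
  have hy0 : 0 < y := by linarith
  have hl : 1 ≤ Real.log y :=
    (Real.le_log_iff_exp_le hy0).2 (by linarith [Real.exp_one_lt_d9])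
  rw [Real.norm_of_nonneg hy0.le, Real.norm_of_nonneg (by positivity), one_div_mul_eq_div,
    le_div_iff₀ hD0] at h3
  have hex : ∃ v : ℕ, 10 ^ 8 * y ^ 2 ≤ Real.exp (((v + 2 : ℕ) : ℝ) ^ 24) := by
    obtain ⟨v, hv⟩ := exists_nat_ge (10 ^ 8 * y ^ 2)
    have a1 : (1 : ℝ) ≤ ((v + 2 : ℕ) : ℝ) := by exact_mod_cast Nat.le_add_left 1 (v + 1)
    have a2 := pow_le_pow_right₀ a1 (show 1 ≤ 24 by norm_num)
    have a3 := Real.add_one_le_exp (((v + 2 : ℕ) : ℝ) ^ 24)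
    refine ⟨v, ?_⟩
    push_cast at a2 a3 ⊢
    linarith
  have hu : ((Nat.find hex + 2 : ℕ) : ℝ) ^ 24 ≤ 2 ^ 24 * (3 * Real.log y) := by
    rcases Nat.eq_zero_or_pos (Nat.find hex) with h0 | h0
    · rw [h0]
      push_cast
      linarith
    · have a1 := not_le.1 (Nat.find_min hex (Nat.sub_lt h0 one_pos))
      have a2 : 10 ^ 8 * y ^ 2 ≤ Real.exp ((3 : ℕ) * Real.log y) := by
        rw [Real.exp_nat_mul, Real.exp_log hy0, pow_succ' y 2]
        exact mul_le_mul_of_nonneg_right hy (by positivity)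
      have a3 := Real.exp_lt_exp.1 (a1.trans_le a2)
      have a4 : ((Nat.find hex + 2 : ℕ) : ℝ) ≤ 2 * ((Nat.find hex - 1 + 2 : ℕ) : ℝ) := by
        exact_mod_cast (by omega : Nat.find hex + 2 ≤ 2 * (Nat.find hex - 1 + 2))
      refine (pow_le_pow_left₀ (Nat.cast_nonneg _) a4 24).trans ?_
      rw [mul_pow]
      exact mul_le_mul_of_nonneg_left (by exact_mod_cast a3.le) (by positivity)
  have hs := Nat.find_spec hex
  have hu2 : 2 ≤ Nat.find hex + 2 := Nat.le_add_left _ _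
  generalize Nat.find hex + 2 = u at hu hs hu2
  have hu1 : (1 : ℝ) ≤ u := by exact_mod_cast one_le_two.trans hu2
  have k1 : (1 : ℝ) ≤ ((u ^ 36 : ℕ) : ℝ) := by
    rw [Nat.cast_pow]
    exact one_le_pow₀ hu1
  have k2 : ((u ^ 36 : ℕ) : ℝ) ≤ 9 * 2 ^ 48 * Real.log y ^ 2 :=
    calc ((u ^ 36 : ℕ) : ℝ) = (u : ℝ) ^ 36 := Nat.cast_pow _ _
      _ ≤ (u : ℝ) ^ (24 * 2) := pow_le_pow_right₀ hu1 (by norm_num)
      _ ≤ (2 ^ 24 * (3 * Real.log y)) ^ 2 := by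
          rw [pow_mul]
          exact pow_le_pow_left₀ (by positivity) hu 2
      _ = _ := by ring
  refine ⟨u, hu2, hs, ?_⟩
  generalize ((u ^ 36 : ℕ) : ℝ) = k at k1 k2 ⊢
  have k3 : (|C₀| + 1) * k ^ 5 ≤ y / 2 :=
    calc (|C₀| + 1) * k ^ 5 ≤ (|C₀| + 1) * (9 * 2 ^ 48 * Real.log y ^ 2) ^ 5 := by gcongr
      _ = Real.log y ^ 10 * D / 2 := by rw [hD]; ring
      _ ≤ y / 2 := by linarith
  have k4 : k ^ 1 ≤ k ^ 5 := pow_le_pow_right₀ k1 (by norm_num)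
  have k5 : C₀ * k ^ 5 ≤ |C₀| * k ^ 5 :=
    mul_le_mul_of_nonneg_right (le_abs_self _) (by positivity)
  have k6 : 0 ≤ |C₀| * k ^ 5 := by positivity
  have k7 : Real.exp (C₀ * k ^ 5) ≤ Real.exp (y / 2) := Real.exp_le_exp.2 (by linarith)
  have k8 := Real.add_one_le_exp (y / 2)
  have k9 : Real.exp y = Real.exp (y / 2) * Real.exp (y / 2) := by
    rw [← Real.exp_add, add_halves]
  refine ⟨by linarith, ?_⟩
  rw [← hxy, k9]
  nlinarith

theorem thetaL_upper : ∃ (C : ℝ) (n₀ : ℕ), 0 < C ∧ ∀ n, n₀ ≤ n →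
    ∀ K : Set (EuclideanSpace ℝ (Fin n)), IsConvexBody K →
      thetaL K ≤ ENNReal.ofReal (C * n * Real.log n) := by
  obtain ⟨c₀, hc₀, hsys⟩ := sys_all
  obtain ⟨c₁, C₀, hc₁, hnice⟩ := exists_nice
  obtain ⟨C, n₁, hC, hg⟩ := gnum c₀ c₁ hc₀ hc₁
  obtain ⟨n₂, hp⟩ := params C₀
  refine ⟨C, max n₁ n₂, hC, fun n hn K hK => ?_⟩
  obtain ⟨u, hu, h1, h2, h3⟩ := hp n (le_trans (le_max_right _ _) hn)
  obtain ⟨S⟩ := hsys u hu
  have hcard : Fintype.card S.ι ≤ u ^ 36 := S.card_le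
  have hcard' : (Fintype.card S.ι : ℝ) ≤ ((u ^ 36 : ℕ) : ℝ) := by exact_mod_cast hcard
  have hk1 : 1 ≤ u ^ 36 := Nat.one_le_pow _ _ (by omega)
  have hkn : u ^ 36 ≤ n := by
    have := Real.exp_pos (C₀ * ((u ^ 36 : ℕ) : ℝ) ^ 5)
    have : ((u ^ 36 : ℕ) : ℝ) ≤ n := by linarith
    exact_mod_cast this
  set k := Fintype.card S.ι with hk
  set d := (n - k) / 2 with hd
  set f := n - k - d with hf
  have hfd : f + d + k = n := by omega
  have hα : Fintype.card (Fin f ⊕ Fin d) = f + d := by simp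
  obtain ⟨e, v, hiso⟩ := exists_iso hK ((Fin f ⊕ Fin d) ⊕ S.ι) (by simp [← hk, hfd])
  obtain ⟨e', hn'⟩ := hnice (Fin f ⊕ Fin d) S.ι _ hiso ((u ^ 36 : ℕ) : ℝ)
    (by exact_mod_cast hk1) hcard' (by
      rw [hα]
      have : ((f + d : ℕ) : ℝ) + k = n := by exact_mod_cast hfd
      linarith)
  rw [hα, ← hk, hfd] at hn'
  obtain ⟨M, hM, hcov, hvol⟩ := hg n (le_trans (le_max_left _ _) hn) (u ^ 36) _ S hk1 h2 h1 f d
    hfd (by omega) (by omega) _ hn'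
  have himg : e' '' ((fun x => e x + v) '' K) = (fun x => (e.trans e') x + e' v) '' K := by
    rw [Set.image_image]; simp
  rw [himg] at hcov hvol
  exact le_trans (thetaL_le hK.1 (e.trans e') (e' v) M hM hcov) hvol

end Vale.Agent.P230.L
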