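import Vale.Agent.P230.L.Light

/-! The master theorem in real coordinates. -/

namespace Vale.Agent.P230.L

open MeasureTheory ProbabilityTheory Set
open scoped ENNReal

/-- Projection to the torus. -/
def mkT {κ : Type} (y : κ → ℝ) : κ → T := fun c => (y c : T)

/-- Representative in the unit cube. -/
noncomputable def liftT {κ : Type} (x : κ → T) : κ → ℝ :=
  fun c => (AddCircle.equivIco 1 0 (x c) : ℝ)

section
variable {κ : Type}

theorem liftT_mem (x : κ → T) : liftT x ∈ ucube κ := fun c _ => by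
  have := (AddCircle.equivIco 1 0 (x c)).2
  simpa [liftT] using this

theorem mkT_liftT (x : κ → T) : mkT (liftT x) = x := by
  funext c; exact AddCircle.coe_equivIco

theorem liftT_mkT (y : κ → ℝ) : liftT (mkT y) = fr y := by
  funext c
  simp [liftT, mkT, fr, AddCircle.coe_equivIco_mk_apply]

theorem mkT_add (y y' : κ → ℝ) : mkT (y + y') = mkT y + mkT y' := by
  funext c; simp [mkT]

theorem mkT_zsmul (n : ℤ) (y : κ → ℝ) : mkT (n • y) = n • mkT y := by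
  funext c
  simp only [mkT, Pi.smul_apply]
  exact AddCircle.coe_zsmul 1

theorem mkT_comb {ι : Type} [Fintype ι] (a : ι → ℤ) (v : ι → κ → ℝ) :
    mkT (comb a v) = comb a fun i => mkT (v i) := by
  let f : (κ → ℝ) →+ (κ → T) := AddMonoidHom.mk' mkT mkT_add
  change f _ = _
  simp only [comb, map_sum, map_zsmul]
  rfl

theorem mkT_ssum (σ : Fin 3 → ℤ) (x y z : κ → ℝ) :
    mkT (ssum σ x y z) = ssum σ (mkT x) (mkT y) (mkT z) := by
  simp only [ssum, mkT_add, mkT_zsmul]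

theorem measurable_mkT : Measurable (mkT (κ := κ)) :=
  measurable_pi_lambda _ fun c => AddCircle.measurable_mk'.comp (measurable_pi_apply c)

theorem measurable_liftT : Measurable (liftT (κ := κ)) :=
  measurable_pi_lambda _ fun c => (measurable_subtype_coe.comp
    (AddCircle.measurableEquivIco 1 0).measurable).comp (measurable_pi_apply c)

theorem measurable_fr : Measurable (fr (κ := κ)) := by
  unfold fr; fun_prop

variable [Fintype κ]

theorem measurableSet_ucube' : MeasurableSet (ucube κ) :=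
  MeasurableSet.univ_pi fun _ => measurableSet_Ico

theorem mp_mkT : MeasurePreserving (mkT (κ := κ)) (volume.restrict (ucube κ)) volume := by
  have h1 : MeasurePreserving ((↑) : ℝ → T) (volume.restrict (Ico 0 1)) volume := by
    have := UnitAddCircle.measurePreserving_mk 0
    rwa [zero_add, ← Measure.restrict_congr_set Ico_ae_eq_Ioc] at this
  have h2 := measurePreserving_pi (fun _ : κ => volume.restrict (Ico (0 : ℝ) 1))
    (fun _ : κ => (volume : Measure T)) fun _ => h1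
  rw [← Measure.restrict_pi_pi] at h2
  exact h2

theorem mp_liftT : MeasurePreserving (liftT (κ := κ)) volume (volume.restrict (ucube κ)) := by
  refine ⟨measurable_liftT, ?_⟩
  rw [← mp_mkT.map_eq, Measure.map_map measurable_liftT measurable_mkT]
  have : (liftT ∘ mkT) =ᵐ[volume.restrict (ucube κ)] id := by
    rw [Filter.EventuallyEq, ae_restrict_iff' measurableSet_ucube']
    refine Filter.Eventually.of_forall fun y hy => ?_
    simp only [Function.comp, liftT_mkT, id]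
    funext c
    exact Int.fract_eq_self.2 (hy c trivial)
  rw [Measure.map_congr this, Measure.map_id]

theorem exists_near {Bad : Set (κ → T)} (hB : MeasurableSet Bad) {δ : ℝ} (hδ : 0 < δ)
    (hδ' : δ ≤ 1) (h : volume Bad < ENNReal.ofReal (δ ^ Fintype.card κ)) (y : κ → ℝ) :
    ∃ y' : κ → ℝ, y - y' ∈ box κ δ ∧ mkT y' ∉ Bad := by
  by_contra hcon
  push Not at hcon
  have h1 : volume ((fun x => mkT y + x) ⁻¹' Bad) = volume Bad := measure_preimage_add _ _ _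
  have hm : MeasurableSet ((fun x => mkT y + x) ⁻¹' Bad) := hB.preimage (by fun_prop)
  rw [← mp_mkT.measure_preimage hm.nullMeasurableSet,
    Measure.restrict_apply (hm.preimage measurable_mkT)] at h1
  have h2 : (Set.univ.pi fun _ : κ => Ico (0 : ℝ) δ) ⊆
      mkT ⁻¹' ((fun x => mkT y + x) ⁻¹' Bad) ∩ ucube κ := by
    intro r hr
    refine ⟨?_, fun c _ => ⟨(hr c trivial).1, lt_of_lt_of_le (hr c trivial).2 hδ'⟩⟩
    simp only [mem_preimage, ← mkT_add]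
    refine hcon _ fun c => ?_
    have := hr c trivial
    simp only [Pi.sub_apply, Pi.add_apply]
    rw [abs_le]; constructor <;> linarith [this.1, this.2]
  have h3 := measure_mono (μ := volume) h2
  rw [h1, Real.volume_pi_Ico] at h3
  simp only [sub_zero, Finset.prod_const, Finset.card_univ] at h3
  rw [← ENNReal.ofReal_pow hδ.le] at h3
  exact absurd h (not_lt.2 h3)

theorem vol_En_lift {S₁ S₂ S₃ S₀ : Set (κ → ℝ)} (h₁ : MeasurableSet S₁) (h₂ : MeasurableSet S₂)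
    (h₃ : MeasurableSet S₃) (h₀ : MeasurableSet S₀) (σ : Fin 3 → ℤ) (s : κ → T) :
    volume (En (liftT ⁻¹' S₁) (liftT ⁻¹' S₂) (liftT ⁻¹' S₃) (liftT ⁻¹' S₀) σ s) ≤
      volume (En S₁ S₂ S₃ (fr ⁻¹' S₀) σ (liftT s)) := by
  have hm : MeasurableSet (En S₁ S₂ S₃ (fr ⁻¹' S₀) σ (liftT s)) := by
    refine (h₁.preimage measurable_fst).inter ((h₂.preimage (by fun_prop)).inter
      ((h₃.preimage (by fun_prop)).inter ((h₀.preimage measurable_fr).preimage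
        (f := fun p : (κ → ℝ) × (κ → ℝ) × (κ → ℝ) => ssum σ p.1 p.2.1 p.2.2 + liftT s) ?_)))
    unfold ssum; fun_prop
  have hmp := (mp_liftT (κ := κ)).prod ((mp_liftT (κ := κ)).prod (mp_liftT (κ := κ)))
  have e : En (liftT ⁻¹' S₁) (liftT ⁻¹' S₂) (liftT ⁻¹' S₃) (liftT ⁻¹' S₀) σ s =
      Prod.map liftT (Prod.map liftT liftT) ⁻¹' En S₁ S₂ S₃ (fr ⁻¹' S₀) σ (liftT s) := by
    ext p
    simp only [En, mem_ofPred_eq, mem_preimage, Prod.map_fst, Prod.map_snd]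
    rw [← liftT_mkT, mkT_add, mkT_ssum, mkT_liftT, mkT_liftT, mkT_liftT, mkT_liftT]
  rw [e, Measure.volume_eq_prod, Measure.volume_eq_prod, hmp.measure_preimage hm.nullMeasurableSet,
    Measure.prod_restrict, Measure.prod_restrict]
  exact Measure.restrict_apply_le _ _

end

theorem leafF_le_one {ι φ κ : Type} [Fintype φ] (Z : (ι → ℤ) → Finset (φ → ℤ))
    (π : (ι → ℤ) → (φ → ℤ) → (κ → T) → ℝ) (a : ι → ℤ) (g : φ → κ → T) (y : κ → T) :
    leafF Z π a g y ≤ 1 := tsub_le_self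

theorem exists_sel {ι φ κ : Type} [Fintype φ] (Z : (ι → ℤ) → Finset (φ → ℤ))
    (π : (ι → ℤ) → (φ → ℤ) → (κ → T) → ℝ) (hπ0 : ∀ a z x, 0 ≤ π a z x) (a : ι → ℤ)
    (hZ : (Z a).Nonempty) (g : φ → κ → T) (y : κ → T) :
    ∃ z ∈ Z a, ENNReal.ofReal (1 - π a z (y + comb z g)) ≤ leafF Z π a g y := by
  obtain ⟨z, hz, hmax⟩ := Finset.exists_max_image (Z a) (fun z => π a z (y + comb z g)) hZ
  refine ⟨z, hz, ?_⟩
  rw [ENNReal.ofReal_sub _ (hπ0 _ _ _), ENNReal.ofReal_one]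
  exact tsub_le_tsub_left (iSup₂_le fun z' hz' => ENNReal.ofReal_le_ofReal (hmax z' hz')) _

theorem master_light {ι φ κ J : Type} [Fintype ι] [DecidableEq ι] [Fintype φ] [DecidableEq φ]
    [Fintype κ] (D : Finset κ) (L ρ : ℕ) (A : J → Finset (ι → ℤ))
    (Z : J → (ι → ℤ) → Finset (φ → ℤ)) (hZ : ∀ j a, ∀ z ∈ Z j a, ∀ l, |z l| ≤ L)
    (π : J → (ι → ℤ) → (φ → ℤ) → (κ → ℝ) → ℝ) (hπ : ∀ j a z, Measurable (π j a z))
    (hπ0 : ∀ j a z x, 0 ≤ π j a z x) (hπ1 : ∀ j a z, ∀ x ∈ ucube κ, π j a z x ≤ 1)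
    (S : J → (ι → ℤ) → (φ → ℤ) → Set (κ → ℝ)) (hS : ∀ j a z, MeasurableSet (S j a z))
    (hSu : ∀ j a z, S j a z ⊆ ucube κ)
    (hsupp : ∀ j a z, ∀ x ∈ ucube κ, π j a z x ≠ 0 → x ∈ S j a z)
    (hwin : ∀ j a z, ∀ x ∈ S j a z, ∀ c ∈ D, |x c - 1 / 2| < 1 / 8)
    {η V mmin εA : ℝ} (hη : 0 < η) (hη' : η ≤ 1 / 10) (hmm : 0 < mmin) (hε : 0 ≤ εA)
    (hleaf : ∀ j, ∀ a ∈ A j, (∀ z x, π j a z x = 0 ∨ π j a z x = 1) ∨
      ∑ z ∈ Z j a, volume.real (S j a z) ≤ η)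
    (hm : ∀ j, ∀ a ∈ A j, mmin ≤ ∑ z ∈ Z j a, ∫ x in ucube κ, π j a z x ∧
      ∑ z ∈ Z j a, ∫ x in ucube κ, π j a z x ≤ V)
    (hA : ∀ j, ∀ a₁ ∈ A j, ∀ a₂ ∈ A j, ∀ a₃ ∈ A j, ∀ a₀ ∈ A j, ∀ σ, IsSign σ →
      ∀ (z' : φ → ℤ) (s : κ → ℝ), ∑ z₁ ∈ Z j a₁, ∑ z₂ ∈ Z j a₂, ∑ z₃ ∈ Z j a₃,
        volume (En (S j a₁ z₁) (S j a₂ z₂) (S j a₃ z₃)
          (fr ⁻¹' S j a₀ (ssum σ z₁ z₂ z₃ + z')) σ s) ≤ ENNReal.ofReal εA)
    (hn2 : Real.exp (7 * V) * ((1 / 2) ^ ρ +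
      (ρ + 2) * (V / mmin * (2 * L + 1) ^ ρ) * (1 / 2) ^ D.card + 8 * ((V / mmin) ^ 3 * εA)) ≤ 1)
    (j : J) (N : Finset (ι → ℤ)) (hN : N ⊆ A j) (hne : N.Nonempty)
    (hV : ∑ a ∈ N, ∑ z ∈ Z j a, ∫ x in ucube κ, π j a z x ≤ V) :
    ((volume : Measure (ι → κ → T)).prod (volume : Measure (φ → κ → T)))
      {x | ENNReal.ofReal (Real.exp (-(1 - 2 * η) *
        ∑ a ∈ N, ∑ z ∈ Z j a, ∫ x in ucube κ, π j a z x)) <
        Psi (leafF (Z j) fun a z x => π j a z (liftT x)) N x} ≤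
      ENNReal.ofReal (2 * Real.exp (-η * V / 2)) := by
  have hint : ∀ a z, ∫ x, π j a z (liftT x) = ∫ x in ucube κ, π j a z x := fun a z => by
    rw [← mp_liftT.map_eq, integral_map measurable_liftT.aemeasurable
      (hπ j a z).aestronglyMeasurable]
  have hvol : ∀ a z, volume.real (liftT ⁻¹' S j a z) = volume.real (S j a z) := fun a z => by
    rw [measureReal_def, mp_liftT.measure_preimage (hS j a z).nullMeasurableSet,
      Measure.restrict_apply (hS j a z), inter_eq_left.2 (hSu j a z), measureReal_def]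
  have hw : ∀ a z, ∀ x ∈ liftT ⁻¹' S j a z, ∀ x' ∈ liftT ⁻¹' S j a z, ∀ c ∈ D,
      ‖x c - x' c‖ < 1 / 4 := fun a z x hx x' hx' c hc => by
    have h1 := abs_lt.1 (hwin j a z _ hx c hc)
    have h2 := abs_lt.1 (hwin j a z _ hx' c hc)
    have e : x c - x' c = ((liftT x c - liftT x' c : ℝ) : T) := by
      rw [AddCircle.coe_sub]
      exact congrArg₂ _ (congrFun (mkT_liftT x) c).symm (congrFun (mkT_liftT x') c).symm
    rw [e]
    refine lt_of_le_of_lt QuotientAddGroup.norm_mk_le_norm ?_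
    rw [Real.norm_eq_abs, abs_lt]
    constructor <;> linarith [h1.1, h1.2, h2.1, h2.2]
  have := light D L ρ N hne (Z j) (hZ j) (fun a z x => π j a z (liftT x))
    (fun a z => (hπ j a z).comp measurable_liftT) (fun a z x => hπ0 j a z _)
    (fun a z x => hπ1 j a z _ (liftT_mem x)) (fun a z => liftT ⁻¹' S j a z)
    (fun a z => (hS j a z).preimage measurable_liftT)
    (fun a z x h => hsupp j a z _ (liftT_mem x) h) hw hη hη' hmm hε
    (fun a ha => (hleaf j a (hN ha)).imp (fun h z x => h z _) (fun h => by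
      simpa only [hvol] using h))
    (fun a ha => by simpa only [hint] using (hm j a (hN ha)).1)
    (by simpa only [hint] using hV)
    (fun a₁ h₁ a₂ h₂ a₃ h₃ a₀ h₀ σ hσ z' s => le_trans
      (Finset.sum_le_sum fun z₁ _ => Finset.sum_le_sum fun z₂ _ => Finset.sum_le_sum
        fun z₃ _ => vol_En_lift (hS _ _ _) (hS _ _ _) (hS _ _ _) (hS _ _ _) σ s)
      (hA j a₁ (hN h₁) a₂ (hN h₂) a₃ (hN h₃) a₀ (hN h₀) σ hσ z' (liftT s))) hn2
  simpa only [hint] using this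

theorem master_pt {ι φ κ : Type} [Fintype ι] [Fintype φ] [Fintype κ] (N : Finset (ι → ℤ))
    (Z : (ι → ℤ) → Finset (φ → ℤ)) (hZ : ∀ a ∈ N, (Z a).Nonempty)
    (π : (ι → ℤ) → (φ → ℤ) → (κ → T) → ℝ) (hπ : ∀ a z, Measurable (π a z))
    (hπ0 : ∀ a z x, 0 ≤ π a z x) (hπ1 : ∀ a z x, π a z x ≤ 1) {δ b b' : ℝ} (hδ : 0 < δ)
    (hδ' : δ ≤ 1) (hb : Real.exp (b - b') < δ ^ Fintype.card κ) (v : ι → κ → T) (g : φ → κ → T)
    (hx : Psi (leafF Z π) N (v, g) ≤ ENNReal.ofReal (Real.exp b)) (y : κ → ℝ) :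
    ∃ y' : κ → ℝ, y - y' ∈ box κ δ ∧ ∃ sel : (ι → ℤ) → (φ → ℤ), (∀ a ∈ N, sel a ∈ Z a) ∧
      ∏ a ∈ N, (1 - π a (sel a) (mkT y' + comb a v + comb (sel a) g)) ≤ Real.exp b' := by
  have hfm : Measurable fun y => ∏ a ∈ N, leafF Z π a g (y + comb a v) := by
    refine Finset.measurable_prod _ fun a _ => ?_
    have h1 : Measurable fun y : κ → T => (g, y + comb a v) :=
      measurable_const.prodMk (measurable_id.add_const _)
    have h2 := (measurable_leafF Z π hπ a).comp h1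
    simpa only [Function.comp_def, Function.uncurry_apply_pair] using h2
  have hb0 : ENNReal.ofReal (Real.exp b') ≠ 0 := by
    simp [Real.exp_pos]
  have hB : volume {y | ENNReal.ofReal (Real.exp b') ≤ ∏ a ∈ N, leafF Z π a g (y + comb a v)} <
      ENNReal.ofReal (δ ^ Fintype.card κ) := by
    refine lt_of_le_of_lt (meas_ge_le_lintegral_div hfm.aemeasurable hb0 ENNReal.ofReal_ne_top) ?_
    refine lt_of_le_of_lt (ENNReal.div_le_div_right hx _) ?_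
    rw [← ENNReal.ofReal_div_of_pos (Real.exp_pos _), ← Real.exp_sub,
      ENNReal.ofReal_lt_ofReal_iff (by positivity)]
    exact hb
  obtain ⟨y', hy', hgood⟩ := exists_near (measurableSet_le measurable_const hfm) hδ hδ' hB y
  refine ⟨y', hy', ?_⟩
  have hsel : ∀ a, ∃ z, a ∈ N → z ∈ Z a ∧
      ENNReal.ofReal (1 - π a z (mkT y' + comb a v + comb z g)) ≤
        leafF Z π a g (mkT y' + comb a v) := fun a => by
    by_cases ha : a ∈ N
    · obtain ⟨z, hz, h⟩ := exists_sel Z π hπ0 a (hZ a ha) g (mkT y' + comb a v)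
      exact ⟨z, fun _ => ⟨hz, h⟩⟩
    · exact ⟨0, fun h => absurd h ha⟩
  choose sel hsel using hsel
  refine ⟨sel, fun a ha => (hsel a ha).1, ?_⟩
  rw [← ENNReal.ofReal_le_ofReal_iff (Real.exp_pos _).le, ENNReal.ofReal_prod_of_nonneg
    fun a _ => sub_nonneg.2 (hπ1 a _ _)]
  exact le_trans (Finset.prod_le_prod' fun a ha => (hsel a ha).2) (not_le.1 hgood).le

theorem master {ι φ κ J : Type} [Fintype ι] [DecidableEq ι] [Fintype φ] [DecidableEq φ]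
    [Fintype κ] [Fintype J] (D : Finset κ) (lv : ι → ℕ) (k L ρ : ℕ)
    (hlv : Function.Injective lv) (hlt : ∀ i, lv i < k) (A : J → Finset (ι → ℤ))
    (htree : ∀ j, IsTree lv (A j)) (hcard : ∀ j, (A j).card ≤ 2 ^ k)
    (Z : J → (ι → ℤ) → Finset (φ → ℤ)) (hZ : ∀ j a, ∀ z ∈ Z j a, ∀ l, |z l| ≤ L)
    (π : J → (ι → ℤ) → (φ → ℤ) → (κ → ℝ) → ℝ) (hπ : ∀ j a z, Measurable (π j a z))
    (hπ0 : ∀ j a z x, 0 ≤ π j a z x) (hπ1 : ∀ j a z, ∀ x ∈ ucube κ, π j a z x ≤ 1)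
    (S : J → (ι → ℤ) → (φ → ℤ) → Set (κ → ℝ)) (hS : ∀ j a z, MeasurableSet (S j a z))
    (hSu : ∀ j a z, S j a z ⊆ ucube κ)
    (hsupp : ∀ j a z, ∀ x ∈ ucube κ, π j a z x ≠ 0 → x ∈ S j a z)
    (hwin : ∀ j a z, ∀ x ∈ S j a z, ∀ c ∈ D, |x c - 1 / 2| < 1 / 8)
    {η V mmin εA δ : ℝ} (hη : 0 < η) (hη' : η ≤ 1 / 10) (hmm : 0 < mmin) (hε : 0 ≤ εA)
    (hδ : 0 < δ) (hδ' : δ ≤ 1)
    (hleaf : ∀ j, ∀ a ∈ A j, (∀ z x, π j a z x = 0 ∨ π j a z x = 1) ∨
      ∑ z ∈ Z j a, volume.real (S j a z) ≤ η)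
    (hm : ∀ j, ∀ a ∈ A j, mmin ≤ ∑ z ∈ Z j a, ∫ x in ucube κ, π j a z x ∧
      ∑ z ∈ Z j a, ∫ x in ucube κ, π j a z x ≤ V)
    (hA : ∀ j, ∀ a₁ ∈ A j, ∀ a₂ ∈ A j, ∀ a₃ ∈ A j, ∀ a₀ ∈ A j, ∀ σ, IsSign σ →
      ∀ (z' : φ → ℤ) (s : κ → ℝ), ∑ z₁ ∈ Z j a₁, ∑ z₂ ∈ Z j a₂, ∑ z₃ ∈ Z j a₃,
        volume (En (S j a₁ z₁) (S j a₂ z₂) (S j a₃ z₃)
          (fr ⁻¹' S j a₀ (ssum σ z₁ z₂ z₃ + z')) σ s) ≤ ENNReal.ofReal εA)
    (hn1 : 2 * (Fintype.card J : ℝ) * (k + 1) * 2 ^ k * Real.exp (-η * V / 2) < 1)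
    (hn2 : Real.exp (7 * V) * ((1 / 2) ^ ρ +
      (ρ + 2) * (V / mmin * (2 * L + 1) ^ ρ) * (1 / 2) ^ D.card + 8 * ((V / mmin) ^ 3 * εA)) ≤ 1)
    (hn3 : ∀ j, Real.exp (-η * ∑ a ∈ A j, ∑ z ∈ Z j a, ∫ x in ucube κ, π j a z x) <
      δ ^ Fintype.card κ) :
    ∃ (Vv : ι → κ → ℝ) (W : φ → κ → ℝ), ∀ j (y : κ → ℝ), ∃ y' : κ → ℝ, y - y' ∈ box κ δ ∧
      ∃ sel : (ι → ℤ) → (φ → ℤ), (∀ a ∈ A j, sel a ∈ Z j a) ∧
        ∏ a ∈ A j, (1 - π j a (sel a) (fr (y' + comb a Vv + comb (sel a) W))) ≤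
          Real.exp (-(1 - 4 * η) * ∑ a ∈ A j, ∑ z ∈ Z j a, ∫ x in ucube κ, π j a z x) := by
  have hπm : ∀ j a z, Measurable fun x => π j a z (liftT x) :=
    fun j a z => (hπ j a z).comp measurable_liftT
  obtain ⟨⟨v, g⟩, hx⟩ := tree_thm (volume : Measure (φ → κ → T)) lv k hlv hlt A htree hcard
    (fun j => leafF (Z j) fun a z x => π j a z (liftT x))
    (fun j a => measurable_leafF _ _ (hπm j) a) (fun j a ω y => leafF_le_one _ _ _ _ _)
    (fun j a => ∑ z ∈ Z j a, ∫ x in ucube κ, π j a z x) hη hη'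
    (fun j a ha => ⟨le_trans hmm.le (hm j a ha).1, (hm j a ha).2⟩)
    (master_light D L ρ A Z hZ π hπ hπ0 hπ1 S hS hSu hsupp hwin hη hη' hmm hε hleaf hm hA hn2) hn1
  refine ⟨fun i => liftT (v i), fun l => liftT (g l), fun j y => ?_⟩
  have hne : ∀ a ∈ A j, (Z j a).Nonempty := fun a ha => by
    rw [Finset.nonempty_iff_ne_empty]
    intro h0
    have := (hm j a ha).1
    rw [h0, Finset.sum_empty] at this
    linarith
  obtain ⟨y', hy', sel, hsel, h⟩ := master_pt (A j) (Z j) hne (fun a z x => π j a z (liftT x))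
    (hπm j) (fun a z x => hπ0 j a z _) (fun a z x => hπ1 j a z _ (liftT_mem x))
    (b' := -(1 - 4 * η) * ∑ a ∈ A j, ∑ z ∈ Z j a, ∫ x in ucube κ, π j a z x) hδ hδ'
    (lt_of_eq_of_lt (congrArg _ (by ring)) (hn3 j)) v g (hx j) y
  refine ⟨y', hy', sel, hsel, ?_⟩
  have e : ∀ a, fr (y' + comb a (fun i => liftT (v i)) + comb (sel a) fun l => liftT (g l)) =
      liftT (mkT y' + comb a v + comb (sel a) g) := fun a => by
    rw [← liftT_mkT, mkT_add, mkT_add, mkT_comb, mkT_comb]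
    simp only [mkT_liftT]
  simp only [e]
  exact h

end Vale.Agent.P230.L
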