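import Vale.Agent.P230.L.CellVar
import Vale.Agent.P230.L.BM

/-! Approximate log-concavity of the smoothed distribution of the radius.

Let m = card alpha, R x = sqrt (hsq x / m), F a = E [R^(-k) exp (-k a^2 / (2 R^2))], so that
E gk k a R = a^k exp (k/2) F a.  For a > 0 let M a G be the cellMass (gamma = Fin k, zeta = 0)
with lo = a sqrt m, hi = (a + d) sqrt m, and p a its mean.  cellMass_mean and gauss_Icc_bounds
give c F (a + d) <= p a <= c F a with c = (d / sqrt (2 pi))^k (if R x = 0 all three integrands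
vanish).  bm_mid applied to K inter cell gives M a G * M a' G <= M ((a + a')/2) G ^ 2 for every G.
With v = 32 (k+1)/w: E [M a * M a'] >= p a * p a' - v (since 2 |cov| <= var + var) and
E [M mid ^ 2] <= p mid ^ 2 + v.  Use a = a1 - d, a' = a2 - d. -/

namespace Vale.Agent.P230.L

open MeasureTheory ProbabilityTheory Set
open scoped ENNReal

theorem gk_nonneg (k : ℕ) {a r : ℝ} (ha : 0 ≤ a) (hr : 0 ≤ r) : 0 ≤ gk k a r := by
  unfold gk; positivity

lemma sh1_gk_eq (k : ℕ) (a r : ℝ) :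
    gk k a r = (a / r * Real.exp (1 / 2 - (a / r) ^ 2 / 2)) ^ k := by
  unfold gk
  rw [mul_pow, ← Real.exp_nat_mul]
  congr 2
  rw [div_pow]
  ring

theorem gk_le_one (k : ℕ) (hk : 1 ≤ k) {a r : ℝ} (ha : 0 ≤ a) (hr : 0 ≤ r) : gk k a r ≤ 1 := by
  have _ := hk
  rw [sh1_gk_eq]
  have ht : 0 ≤ a / r := div_nonneg ha hr
  refine pow_le_one₀ (by positivity) ?_
  set t := a / r
  have h1 := Real.add_one_le_exp (t ^ 2 / 2 - 1 / 2)
  have h2 : Real.exp (t ^ 2 / 2 - 1 / 2) * Real.exp (1 / 2 - t ^ 2 / 2) = 1 := by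
    rw [← Real.exp_add]; simp
  have h3 : t ≤ Real.exp (t ^ 2 / 2 - 1 / 2) := by nlinarith [sq_nonneg (t - 1)]
  exact (mul_le_mul_of_nonneg_right h3 (Real.exp_pos _).le).trans h2.le

theorem measurable_gk (k : ℕ) (a : ℝ) : Measurable (gk k a) := by
  unfold gk; fun_prop

/-- The normalising constant. -/
noncomputable def sh1c (k : ℕ) (d b : ℝ) : ℝ :=
  (d / (b * (Real.exp (1 / 2) * √(2 * Real.pi)))) ^ k

lemma sh1c_pos (k : ℕ) {d b : ℝ} (hd : 0 < d) (hb : 0 < b) : 0 < sh1c k d b := by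
  unfold sh1c
  have := Real.pi_pos
  positivity

lemma sh1_phi (k : ℕ) {d b R : ℝ} (hb : 0 < b) (hR : 0 < R) :
    (d / R * phi (b / R)) ^ k = sh1c k d b * gk k b R := by
  rw [sh1_gk_eq, sh1c, ← mul_pow]
  congr 1
  unfold phi
  have h1 : Real.exp (1 / 2 - (b / R) ^ 2 / 2) =
      Real.exp (1 / 2) * Real.exp (-(b / R) ^ 2 / 2) := by
    rw [← Real.exp_add]; congr 1; ring
  have h2 : 0 < √(2 * Real.pi) := Real.sqrt_pos.2 (by have := Real.pi_pos; positivity)
  have h3 := Real.exp_pos (1 / 2)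
  rw [h1]
  field_simp

lemma sh1_point {k : ℕ} (hk : 1 ≤ k) {m h a d : ℝ} (hm : 0 < m) (hh : 0 ≤ h) (ha : 0 < a)
    (hd : 0 < d) :
    sh1c k d (a + d) * gk k (a + d) √(h / m) ≤
        (gaussianReal 0 h.toNNReal).real (Icc (a * √m) ((a + d) * √m)) ^ k ∧
      (gaussianReal 0 h.toNNReal).real (Icc (a * √m) ((a + d) * √m)) ^ k ≤
        sh1c k d a * gk k a √(h / m) := by
  have hsm : 0 < √m := Real.sqrt_pos.2 hm
  rcases hh.eq_or_lt with h0 | h0
  · subst h0
    have e1 : ∀ b : ℝ, gk k b √(0 / m) = 0 := fun b => by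
      rw [zero_div, Real.sqrt_zero, gk, div_zero, zero_pow (by omega), zero_mul]
    have e2 : (gaussianReal 0 (0 : ℝ).toNNReal).real (Icc (a * √m) ((a + d) * √m)) = 0 := by
      rw [Real.toNNReal_zero, gaussianReal_zero_var, Measure.real,
        Measure.dirac_apply' _ measurableSet_Icc, indicator_of_notMem, ENNReal.toReal_zero]
      intro h1
      have := h1.1
      have h2 : 0 < a * √m := by positivity
      linarith
    rw [e1, e1, e2, zero_pow (by omega)]
    simp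
  · have hr : 0 < √h := Real.sqrt_pos.2 h0
    have hR : 0 < √(h / m) := Real.sqrt_pos.2 (div_pos h0 hm)
    have h1 := gauss_Icc_bounds (r := √h) (a := a * √m) (d := d * √m) hr (by positivity)
      (by positivity)
    rw [Real.sq_sqrt hh, ← add_mul] at h1
    have e : ∀ b : ℝ, b * √m / √h = b / √(h / m) := fun b => by
      rw [Real.sqrt_div hh]; field_simp
    rw [e, e, e] at h1
    have hp : ∀ x, 0 ≤ phi x := fun x => by unfold phi; positivity
    rw [← sh1_phi k (by linarith) hR, ← sh1_phi k ha hR]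
    exact ⟨pow_le_pow_left₀ (mul_nonneg (by positivity) (hp _)) h1.1 k,
      pow_le_pow_left₀ measureReal_nonneg h1.2 k⟩

lemma sh1_cov {Ω : Type} [MeasurableSpace Ω] (P : Measure Ω) [IsProbabilityMeasure P]
    {X Y : Ω → ℝ} (hX : Measurable X) (hY : Measurable Y) (hX0 : ∀ x, 0 ≤ X x)
    (hX1 : ∀ x, X x ≤ 1) (hY0 : ∀ x, 0 ≤ Y x) (hY1 : ∀ x, Y x ≤ 1) :
    ((∫ x, X x ∂P) + ∫ x, Y x ∂P) ^ 2 ≤
      (∫ x, X x ^ 2 ∂P) + (∫ x, Y x ^ 2 ∂P) + 2 * ∫ x, X x * Y x ∂P := by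
  have ib : ∀ {Z : Ω → ℝ}, Measurable Z → (∀ x, 0 ≤ Z x) → (∀ x, Z x ≤ 1) → Integrable Z P :=
    fun {Z} hZ h0 h1 => Integrable.of_bound hZ.aestronglyMeasurable 1
      (Filter.Eventually.of_forall fun x => by
        rw [Real.norm_eq_abs, abs_of_nonneg (h0 x)]; exact h1 x)
  have iX := ib hX hX0 hX1
  have iY := ib hY hY0 hY1
  have iXX : Integrable (fun x => X x ^ 2) P :=
    ib (hX.pow_const 2) (fun x => sq_nonneg _) fun x => pow_le_one₀ (hX0 x) (hX1 x)
  have iYY : Integrable (fun x => Y x ^ 2) P :=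
    ib (hY.pow_const 2) (fun x => sq_nonneg _) fun x => pow_le_one₀ (hY0 x) (hY1 x)
  have iXY : Integrable (fun x => X x * Y x) P :=
    ib (hX.mul hY) (fun x => mul_nonneg (hX0 x) (hY0 x))
      fun x => mul_le_one₀ (hX1 x) (hY0 x) (hY1 x)
  set c := (∫ x, X x ∂P) + ∫ x, Y x ∂P with hc
  have h0 : 0 ≤ ∫ x, (X x + Y x - c) ^ 2 ∂P := integral_nonneg fun x => sq_nonneg _
  have e : (fun x => (X x + Y x - c) ^ 2) = fun x =>
      (X x ^ 2 + Y x ^ 2 + 2 * (X x * Y x)) - (2 * c * X x + 2 * c * Y x) + c ^ 2 := by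
    funext x; ring
  have i1 : Integrable (fun x => X x ^ 2 + Y x ^ 2) P := iXX.add iYY
  have i2 : Integrable (fun x => 2 * (X x * Y x)) P := iXY.const_mul 2
  have i3 : Integrable (fun x => X x ^ 2 + Y x ^ 2 + 2 * (X x * Y x)) P := i1.add i2
  have i4 : Integrable (fun x => 2 * c * X x) P := iX.const_mul _
  have i5 : Integrable (fun x => 2 * c * Y x) P := iY.const_mul _
  have i6 : Integrable (fun x => 2 * c * X x + 2 * c * Y x) P := i4.add i5
  have i7 : Integrable (fun x => (X x ^ 2 + Y x ^ 2 + 2 * (X x * Y x)) -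
      (2 * c * X x + 2 * c * Y x)) P := i3.sub i6
  rw [e, integral_add i7 (integrable_const _), integral_sub i3 i6, integral_add i1 i2,
    integral_add iXX iYY, integral_add i4 i5, integral_const_mul, integral_const_mul,
    integral_const_mul, integral_const, probReal_univ, one_smul] at h0
  have e2 : 2 * c * ∫ x, X x ∂P + 2 * c * ∫ x, Y x ∂P = 2 * c ^ 2 := by rw [hc]; ring
  rw [e2] at h0
  linarith

section Cell

variable {α β : Type} [Fintype α] [Fintype β] {K : Set (α ⊕ β → ℝ)}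

/-- Mass of the cube cell with corner `a`. -/
noncomputable def sh1M (K : Set (α ⊕ β → ℝ)) (k : ℕ) (d a : ℝ) : (Fin k → α → ℝ) → ℝ :=
  cellMass K (fun _ _ => 0) (fun _ => a * √(Fintype.card α : ℝ))
    (fun _ => (a + d) * √(Fintype.card α : ℝ))

lemma sh1_mid (hK : Iso K) (k : ℕ) (d a a' : ℝ) (G : Fin k → α → ℝ) :
    sh1M K k d a G * sh1M K k d a' G ≤ sh1M K k d ((a + a') / 2) G ^ 2 := by
  set s := √(Fintype.card α : ℝ)
  set C : ℝ → Set (α ⊕ β → ℝ) := fun b =>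
    {x | ∀ i, G i ⬝ᵥ (x ∘ Sum.inl) + 0 ∈ Icc (b * s) ((b + d) * s)} with hC
  have hm : ∀ c : ℝ, MeasurableSet (K ∩ C c) := fun c => by
    refine hK.compact.measurableSet.inter ?_
    simp only [hC, Set.ofPred_forall]
    refine MeasurableSet.iInter fun i => ?_
    have : Measurable fun x : α ⊕ β → ℝ => G i ⬝ᵥ (x ∘ Sum.inl) + 0 := by
      unfold dotProduct
      simp only [Function.comp_apply]
      fun_prop
    exact this measurableSet_Icc
  have hf : ∀ c : ℝ, volume (K ∩ C c) ≠ ∞ := fun c =>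
    ((measure_mono inter_subset_left).trans_lt hK.compact.measure_lt_top).ne
  have h1 := bm_mid (hm a) (hm a') (hm ((a + a') / 2)) (hf _) (hf _) fun x hx y hy => by
    refine ⟨?_, fun i => ?_⟩
    · rw [smul_add]
      exact hK.convex hx.1 hy.1 (by norm_num) (by norm_num) (by norm_num)
    · have h2 := hx.2 i
      have h3 := hy.2 i
      have e : ((1 / 2 : ℝ) • (x + y)) ∘ Sum.inl =
          (1 / 2 : ℝ) • (x ∘ Sum.inl + y ∘ Sum.inl) := rfl
      rw [e, dotProduct_smul, dotProduct_add, smul_eq_mul]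
      constructor <;> linarith [h2.1, h2.2, h3.1, h3.2]
  have h2 := ENNReal.toReal_mono (ENNReal.pow_ne_top (hf _)) h1
  rw [ENNReal.toReal_mul, ENNReal.toReal_pow] at h2
  unfold sh1M cellMass
  rw [hK.real_eq, hK.real_eq, hK.real_eq, div_mul_div_comm, div_pow, ← sq]
  exact div_le_div_of_nonneg_right h2 (by positivity)

lemma sh1_mean (hK : Iso K) {k : ℕ} (hk : 1 ≤ k) (hm : (0 : ℝ) < Fintype.card α) {d a : ℝ}
    (hd : 0 < d) (ha : 0 < a) :
    sh1c k d (a + d) * ∫ x, gk k (a + d) √(hsq x / Fintype.card α) ∂(cond volume K) ≤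
        ∫ G, sh1M K k d a G ∂(gaussM (Fin k) α) ∧
      ∫ G, sh1M K k d a G ∂(gaussM (Fin k) α) ≤
        sh1c k d a * ∫ x, gk k a √(hsq x / Fintype.card α) ∂(cond volume K) := by
  have := hK.isProb
  have hz : ∀ i : Fin k, Measurable ((fun _ _ => 0 : Fin k → (α ⊕ β → ℝ) → ℝ) i) :=
    fun _ => measurable_const
  have hmp := measurable_cell_prod hz (fun _ => a * √(Fintype.card α : ℝ))
    (fun _ => (a + d) * √(Fintype.card α : ℝ))
  unfold sh1M
  rw [cellMass_mean hK hz]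
  simp only [sub_zero, Finset.prod_const, Finset.card_univ, Fintype.card_fin] at hmp ⊢
  have hh : ∀ x : α ⊕ β → ℝ, 0 ≤ hsq x := fun x => Finset.sum_nonneg fun _ _ => sq_nonneg _
  have hR : Measurable fun x : α ⊕ β → ℝ => √(hsq x / Fintype.card α) := by
    unfold hsq; fun_prop
  have ig : ∀ b : ℝ, 0 ≤ b → Integrable
      (fun x : α ⊕ β → ℝ => gk k b √(hsq x / Fintype.card α)) (cond volume K) := fun b hb =>
    Integrable.of_bound ((measurable_gk k b).comp hR).aestronglyMeasurable 1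
      (Filter.Eventually.of_forall fun x => by
        rw [Real.norm_eq_abs, abs_of_nonneg (gk_nonneg k hb (Real.sqrt_nonneg _))]
        exact gk_le_one k hk hb (Real.sqrt_nonneg _))
  have iq := Integrable.of_bound (μ := cond volume K) hmp.aestronglyMeasurable 1
      (Filter.Eventually.of_forall fun x => by
        rw [Real.norm_eq_abs, abs_of_nonneg (pow_nonneg measureReal_nonneg _)]
        exact pow_le_one₀ measureReal_nonneg measureReal_le_one)
  rw [← integral_const_mul, ← integral_const_mul]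
  exact ⟨integral_mono ((ig _ (by linarith)).const_mul _) iq
      fun x => (sh1_point hk hm (hh x) ha hd).1,
    integral_mono iq ((ig _ ha.le).const_mul _) fun x => (sh1_point hk hm (hh x) ha hd).2⟩

end Cell

theorem shell_mid {α β : Type} [Fintype α] [Fintype β] {K : Set (α ⊕ β → ℝ)} (hK : Iso K)
    {k : ℕ} (hk : 1 ≤ k) {w d a₁ a₂ : ℝ} (hw : 1 ≤ w) (hm : w ^ 7 ≤ Fintype.card α)
    (hd : 0 < d) (h₁ : d < a₁) (h₂ : d < a₂) :
    (∫ x, gk k a₁ √(hsq x / Fintype.card α) ∂(cond volume K)) *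
        (∫ x, gk k a₂ √(hsq x / Fintype.card α) ∂(cond volume K)) ≤
      (a₁ * a₂ / ((a₁ + a₂) / 2 - d) ^ 2) ^ k *
          (∫ x, gk k ((a₁ + a₂) / 2 - d) √(hsq x / Fintype.card α) ∂(cond volume K)) ^ 2 +
        64 * (k + 1) / w * (2 * Real.pi * Real.exp 1 * a₁ * a₂ / d ^ 2) ^ k := by
  have hm0 : (0 : ℝ) < Fintype.card α := lt_of_lt_of_le (by positivity) hm
  have hz : ∀ i : Fin k, Measurable ((fun _ _ => 0 : Fin k → (α ⊕ β → ℝ) → ℝ) i) :=
    fun _ => measurable_const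
  have hMm : ∀ a, Measurable (sh1M K k d a) := fun a => measurable_cellMass hK hz _ _
  have hM0 : ∀ a G, 0 ≤ sh1M K k d a G := fun a G => cellMass_nonneg _ _ _
  have hM1 : ∀ a G, sh1M K k d a G ≤ 1 := fun a G => cellMass_le_one hK _ _ _
  have hsq' : ∀ a, ∫ G, sh1M K k d a G ^ 2 ∂(gaussM (Fin k) α) ≤
      (∫ G, sh1M K k d a G ∂(gaussM (Fin k) α)) ^ 2 + 32 * (k + 1) / w := fun a => by
    have := cellMass_sq hK hz (fun _ => a * √(Fintype.card α : ℝ))
      (fun _ => (a + d) * √(Fintype.card α : ℝ)) hw hm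
    rw [Fintype.card_fin] at this
    exact this
  set b := (a₁ + a₂) / 2 - d with hb
  have hb0 : 0 < b := by rw [hb]; linarith
  have ha₁ : 0 < a₁ := by linarith
  have ha₂ : 0 < a₂ := by linarith
  have m1 := (sh1_mean hK hk hm0 hd (a := a₁ - d) (by linarith)).1
  have m2 := (sh1_mean hK hk hm0 hd (a := a₂ - d) (by linarith)).1
  have m3 := (sh1_mean hK hk hm0 hd hb0).2
  rw [sub_add_cancel] at m1 m2
  have c1 := sh1_cov (gaussM (Fin k) α) (hMm (a₁ - d)) (hMm (a₂ - d)) (hM0 _) (hM1 _) (hM0 _)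
    (hM1 _)
  have c2 : ∫ G, sh1M K k d (a₁ - d) G * sh1M K k d (a₂ - d) G ∂(gaussM (Fin k) α) ≤
      ∫ G, sh1M K k d b G ^ 2 ∂(gaussM (Fin k) α) := by
    refine integral_mono_of_nonneg
      (Filter.Eventually.of_forall fun G => mul_nonneg (hM0 _ _) (hM0 _ _))
      (Integrable.of_bound ((hMm b).pow_const 2).aestronglyMeasurable 1
        (Filter.Eventually.of_forall fun G => by
          rw [Real.norm_eq_abs, abs_of_nonneg (sq_nonneg _)]
          exact pow_le_one₀ (hM0 _ _) (hM1 _ _)))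
      (Filter.Eventually.of_forall fun G => ?_)
    have e : b = (a₁ - d + (a₂ - d)) / 2 := by rw [hb]; ring
    rw [e]
    exact sh1_mid hK k d _ _ G
  have s1 := hsq' (a₁ - d)
  have s2 := hsq' (a₂ - d)
  have s3 := hsq' b
  set p₁ := ∫ G, sh1M K k d (a₁ - d) G ∂(gaussM (Fin k) α)
  set p₂ := ∫ G, sh1M K k d (a₂ - d) G ∂(gaussM (Fin k) α)
  have hp3 : 0 ≤ ∫ G, sh1M K k d b G ∂(gaussM (Fin k) α) := integral_nonneg (hM0 b)
  set p₃ := ∫ G, sh1M K k d b G ∂(gaussM (Fin k) α)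
  have hI : ∀ a : ℝ, 0 < a →
      0 ≤ ∫ x, gk k a √(hsq x / Fintype.card α) ∂(cond volume K) := fun a ha =>
    integral_nonneg fun x => gk_nonneg k ha.le (Real.sqrt_nonneg _)
  have hI1 := hI a₁ ha₁
  have hI2 := hI a₂ ha₂
  set I₁ := ∫ x, gk k a₁ √(hsq x / Fintype.card α) ∂(cond volume K)
  set I₂ := ∫ x, gk k a₂ √(hsq x / Fintype.card α) ∂(cond volume K)
  set I₃ := ∫ x, gk k b √(hsq x / Fintype.card α) ∂(cond volume K)
  have hc1 := sh1c_pos k hd ha₁
  have hc2 := sh1c_pos k hd ha₂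
  have k1 : p₁ * p₂ ≤ p₃ ^ 2 + 64 * (k + 1) / w := by
    have e : 64 * ((k : ℝ) + 1) / w = 2 * (32 * (k + 1) / w) := by ring
    rw [e]
    nlinarith
  have k2 : sh1c k d a₁ * I₁ * (sh1c k d a₂ * I₂) ≤ p₁ * p₂ :=
    mul_le_mul m1 m2 (by positivity) ((by positivity : (0 : ℝ) ≤ _).trans m1)
  have k3 : p₃ ^ 2 ≤ (sh1c k d b * I₃) ^ 2 := pow_le_pow_left₀ hp3 m3 2
  have hE : (Real.exp (1 / 2) * √(2 * Real.pi)) ^ 2 = 2 * Real.pi * Real.exp 1 := by
    rw [mul_pow, Real.sq_sqrt (by have := Real.pi_pos; positivity), ← Real.exp_nat_mul]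
    norm_num [mul_comm]
  have hE0 : 0 < Real.exp (1 / 2) * √(2 * Real.pi) := by have := Real.pi_pos; positivity
  have e1 : sh1c k d a₁ * sh1c k d a₂ * (a₁ * a₂ / b ^ 2) ^ k = sh1c k d b ^ 2 := by
    unfold sh1c
    rw [← mul_pow, ← mul_pow, ← pow_mul, mul_comm k 2, pow_mul]
    congr 1
    generalize Real.exp (1 / 2) * √(2 * Real.pi) = E at hE0
    field_simp
  have e2 : sh1c k d a₁ * sh1c k d a₂ *
      (2 * Real.pi * Real.exp 1 * a₁ * a₂ / d ^ 2) ^ k = 1 := by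
    unfold sh1c
    rw [← mul_pow, ← mul_pow, ← hE]
    generalize Real.exp (1 / 2) * √(2 * Real.pi) = E at hE0
    have : d / (a₁ * E) * (d / (a₂ * E)) * (E ^ 2 * a₁ * a₂ / d ^ 2) = 1 := by field_simp
    rw [this, one_pow]
  refine le_of_mul_le_mul_left ?_ (mul_pos hc1 hc2)
  have e3 : sh1c k d a₁ * sh1c k d a₂ * ((a₁ * a₂ / b ^ 2) ^ k * I₃ ^ 2 +
      64 * (k + 1) / w * (2 * Real.pi * Real.exp 1 * a₁ * a₂ / d ^ 2) ^ k) =
      (sh1c k d b * I₃) ^ 2 + 64 * (k + 1) / w := by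
    rw [mul_add, ← mul_assoc, e1, mul_left_comm, e2]
    ring
  rw [e3]
  calc sh1c k d a₁ * sh1c k d a₂ * (I₁ * I₂) = sh1c k d a₁ * I₁ * (sh1c k d a₂ * I₂) := by ring
    _ ≤ _ := by linarith

end Vale.Agent.P230.L
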