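import Vale.Agent.P230.L.Defs

/-! Finite combinatorics for the sieve. -/

namespace Vale.Agent.P230.L

open MeasureTheory Set

/-- Bound a sum by a sum over a family that covers its terms. -/
theorem sum_le_cover {α β : Type} [Fintype α] (K : Finset β) (φ : β → α) (f : α → ℝ) (g : β → ℝ)
    (hg : ∀ k ∈ K, 0 ≤ g k) (h : ∀ a, f a ≤ 0 ∨ ∃ k ∈ K, φ k = a ∧ f a ≤ g k) :
    ∑ a, f a ≤ ∑ k ∈ K, g k := by
  classical
  rw [← Finset.sum_fiberwise K φ g]
  refine Finset.sum_le_sum fun a _ => ?_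
  have h0 : ∀ k ∈ K.filter (fun k => φ k = a), 0 ≤ g k :=
    fun k hk => hg k (Finset.mem_filter.1 hk).1
  rcases h a with h1 | ⟨k, hk, hφ, h1⟩
  · exact h1.trans (Finset.sum_nonneg h0)
  · exact h1.trans (Finset.single_le_sum h0 (Finset.mem_filter.2 ⟨hk, hφ⟩))

/-- The same with two families. -/
theorem sum_le_cover₂ {α β γ : Type} [Fintype α] (K : Finset β) (φ : β → α) (L : Finset γ)
    (ψ : γ → α) (f : α → ℝ) (g : β → ℝ) (g' : γ → ℝ)
    (hg : ∀ k ∈ K, 0 ≤ g k) (hg' : ∀ k ∈ L, 0 ≤ g' k)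
    (h : ∀ a, f a ≤ 0 ∨ (∃ k ∈ K, φ k = a ∧ f a ≤ g k) ∨ ∃ k ∈ L, ψ k = a ∧ f a ≤ g' k) :
    ∑ a, f a ≤ ∑ k ∈ K, g k + ∑ k ∈ L, g' k := by
  classical
  rw [← Finset.sum_fiberwise K φ g, ← Finset.sum_fiberwise L ψ g', ← Finset.sum_add_distrib]
  refine Finset.sum_le_sum fun a _ => ?_
  have h0 : ∀ k ∈ K.filter (fun k => φ k = a), 0 ≤ g k :=
    fun k hk => hg k (Finset.mem_filter.1 hk).1
  have h0' : ∀ k ∈ L.filter (fun k => ψ k = a), 0 ≤ g' k :=
    fun k hk => hg' k (Finset.mem_filter.1 hk).1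
  have s0 := Finset.sum_nonneg h0
  have s0' := Finset.sum_nonneg h0'
  rcases h a with h1 | ⟨k, hk, hφ, h1⟩ | ⟨k, hk, hφ, h1⟩
  · linarith
  · have := Finset.single_le_sum h0 (Finset.mem_filter.2 ⟨hk, hφ⟩)
    linarith
  · have := Finset.single_le_sum h0' (Finset.mem_filter.2 ⟨hk, hφ⟩)
    linarith

theorem real_le_sums {Ω α β : Type} [MeasurableSpace Ω] (μ : Measure Ω) [IsFiniteMeasure μ]
    [Fintype α] [Fintype β] {Z : Set Ω} (hZ : MeasurableSet Z) (E : α → Set Ω)
    (hE : ∀ a, MeasurableSet (E a)) (F : β → Set Ω) (hF : ∀ b, MeasurableSet (F b))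
    (g : α → ℝ) (h : β → ℝ)
    (hp : ∀ x, Z.indicator (1 : Ω → ℝ) x ≤
      ∑ a, g a * (E a).indicator (1 : Ω → ℝ) x + ∑ b, h b * (F b).indicator (1 : Ω → ℝ) x) :
    μ.real Z ≤ ∑ a, g a * μ.real (E a) + ∑ b, h b * μ.real (F b) := by
  have hi : ∀ s : Set Ω, MeasurableSet s → Integrable (s.indicator (1 : Ω → ℝ)) μ :=
    fun s hs => (integrable_const (1 : ℝ)).indicator hs
  have h1 : Integrable (fun x => ∑ a, g a * (E a).indicator (1 : Ω → ℝ) x) μ :=
    integrable_finsetSum _ fun a _ => (hi _ (hE a)).const_mul _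
  have h2 : Integrable (fun x => ∑ b, h b * (F b).indicator (1 : Ω → ℝ) x) μ :=
    integrable_finsetSum _ fun b _ => (hi _ (hF b)).const_mul _
  have h3 := integral_mono (hi Z hZ) (h1.add h2) hp
  rw [integral_indicator_one hZ] at h3
  refine h3.trans (le_of_eq ?_)
  have h4 : ∫ x, (∑ a, g a * (E a).indicator (1 : Ω → ℝ) x +
      ∑ b, h b * (F b).indicator (1 : Ω → ℝ) x) ∂μ = _ := integral_add h1 h2
  refine h4.trans ?_
  rw [integral_finsetSum _ fun a _ => (hi _ (hE a)).const_mul _,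
    integral_finsetSum _ fun b _ => (hi _ (hF b)).const_mul _]
  simp only [integral_const_mul, integral_indicator_one (hE _), integral_indicator_one (hF _)]

variable {I W : Type} [Fintype I] [DecidableEq I] [AddCommGroup W] [Module ℚ W]

omit [DecidableEq I] in
theorem sum_pow_prod (p : I → ℝ) (a : ℝ) :
    ∑ U : Finset I, a ^ U.card * ∏ t ∈ U, p t = ∏ i, (1 + a * p i) := by
  rw [Finset.prod_one_add, Finset.powerset_univ]
  refine Finset.sum_congr rfl fun U _ => ?_
  rw [Finset.prod_mul_distrib, Finset.prod_const]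

omit [DecidableEq I] in
theorem sum_pow_prod_le (p : I → ℝ) (a : ℝ) (h : ∀ i, 0 ≤ 1 + a * p i) :
    ∑ U : Finset I, a ^ U.card * ∏ t ∈ U, p t ≤ Real.exp (a * ∑ i, p i) := by
  rw [sum_pow_prod, Finset.mul_sum, Real.exp_sum]
  exact Finset.prod_le_prod (fun i _ => h i) fun i _ => by
    have := Real.add_one_le_exp (a * p i); linarith

open Classical in
/-- Weight of a set in the main term. -/
noncomputable def gw (v : I → W) (ρ : ℕ) (U : Finset I) : ℝ :=
  (if LinearIndepOn ℚ v U ∧ U.card ≤ ρ then (-1) ^ U.card else 0) +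
    if LinearIndepOn ℚ v U ∧ U.card = ρ then 1 else 0

/-- Small independent set with an outside point in its span. -/
def Hq (v : I → W) (ρ : ℕ) (q : Finset I × I) : Prop :=
  LinearIndepOn ℚ v q.1 ∧ q.1.card ≤ ρ ∧ q.2 ∉ q.1 ∧ v q.2 ∈ Submodule.span ℚ (v '' q.1)

open Classical in
/-- Indicator of `Hq`. -/
noncomputable def hw (v : I → W) (ρ : ℕ) (q : Finset I × I) : ℝ := if Hq v ρ q then 1 else 0

omit [Fintype I] [DecidableEq I] in
theorem hw_nonneg (v : I → W) (ρ : ℕ) (q : Finset I × I) : 0 ≤ hw v ρ q := by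
  unfold hw; split_ifs <;> norm_num

omit [Fintype I] in
theorem gw_step (v : I → W) (ρ : ℕ) (U : Finset I) {a : I} (ha : a ∉ U) :
    0 ≤ gw v ρ U + gw v ρ (insert a U) + hw v ρ (U, a) := by
  have hins : LinearIndepOn ℚ v (insert a U : Finset I) ↔
      LinearIndepOn ℚ v U ∧ v a ∉ Submodule.span ℚ (v '' U) := by
    rw [Finset.coe_insert]
    exact linearIndepOn_insert (by simpa using ha)
  have hc : (insert a U).card = U.card + 1 := Finset.card_insert_of_notMem ha
  have hs : (-1 : ℝ) ≤ (-1) ^ U.card := by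
    rcases neg_one_pow_eq_or ℝ U.card with h | h <;> linarith
  have hh := hw_nonneg v ρ (U, a)
  unfold gw
  rw [hc, hins]
  by_cases h1 : LinearIndepOn ℚ v U
  · rcases lt_trichotomy U.card ρ with h2 | h2 | h2
    · by_cases h3 : v a ∈ Submodule.span ℚ (v '' U)
      · have h4 : hw v ρ (U, a) = 1 := by
          unfold hw; rw [if_pos ⟨h1, h2.le, ha, h3⟩]
        rw [if_pos ⟨h1, h2.le⟩, if_neg fun h => h2.ne h.2, if_neg fun h => h.1.2 h3,
          if_neg fun h => h.1.2 h3, h4]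
        linarith
      · rw [if_pos ⟨h1, h2.le⟩, if_neg fun h => h2.ne h.2, if_pos ⟨⟨h1, h3⟩, h2⟩, pow_succ]
        split_ifs <;> linarith
    · rw [if_pos ⟨h1, h2.le⟩, if_pos ⟨h1, h2⟩, if_neg fun h => by omega,
        if_neg fun h => by omega]
      linarith
    · rw [if_neg fun h => by omega, if_neg fun h => by omega, if_neg fun h => by omega,
        if_neg fun h => by omega]
      linarith
  · rw [if_neg fun h => h1 h.1, if_neg fun h => h1 h.1, if_neg fun h => h1 h.1.1,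
      if_neg fun h => h1 h.1.1]
    linarith

/-- The pointwise inequality. -/
theorem sieve_pointwise (v : I → W) (ρ : ℕ) (A : Finset I) :
    (if A = ∅ then (1 : ℝ) else 0) ≤ ∑ U : Finset I, gw v ρ U * (if U ⊆ A then 1 else 0) +
      ∑ q : Finset I × I, hw v ρ q * (if insert q.2 q.1 ⊆ A then 1 else 0) := by
  have h1 : ∑ U : Finset I, gw v ρ U * (if U ⊆ A then (1 : ℝ) else 0) =
      ∑ U ∈ A.powerset, gw v ρ U := by
    simp only [mul_ite, mul_one, mul_zero]
    rw [← Finset.sum_filter]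
    refine Finset.sum_congr ?_ fun _ _ => rfl
    ext U; simp
  have h2 : ∀ q : Finset I × I, 0 ≤ hw v ρ q * (if insert q.2 q.1 ⊆ A then (1 : ℝ) else 0) :=
    fun q => mul_nonneg (hw_nonneg v ρ q) (by split_ifs <;> norm_num)
  rw [h1]
  rcases A.eq_empty_or_nonempty with rfl | ⟨a, ha⟩
  · have h3 := Finset.sum_nonneg fun q (_ : q ∈ Finset.univ) => h2 q
    have h4 : (1 : ℝ) ≤ gw v ρ ∅ := by
      unfold gw
      rw [if_pos ⟨by simp, by simp⟩]
      split_ifs <;> simp
    rw [if_pos rfl, Finset.powerset_empty, Finset.sum_singleton]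
    linarith
  · rw [if_neg (Finset.ne_empty_of_mem ha)]
    have h3 : ∑ U ∈ A.powerset, gw v ρ U = ∑ U ∈ (A.erase a).powerset, gw v ρ U +
        ∑ U ∈ (A.erase a).powerset, gw v ρ (insert a U) := by
      rw [← Finset.sum_powerset_insert (Finset.notMem_erase a A), Finset.insert_erase ha]
    have h4 : ∑ U ∈ (A.erase a).powerset, hw v ρ (U, a) ≤
        ∑ q : Finset I × I, hw v ρ q * (if insert q.2 q.1 ⊆ A then (1 : ℝ) else 0) := by
      rw [Fintype.sum_prod_type]
      refine le_trans (Finset.sum_le_sum fun U hU => ?_)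
        (Finset.sum_le_sum_of_subset_of_nonneg (Finset.subset_univ (A.erase a).powerset)
          fun U _ _ => Finset.sum_nonneg fun i _ => h2 (U, i))
      refine le_trans (le_of_eq ?_) (Finset.single_le_sum (fun i _ => h2 (U, i))
        (Finset.mem_univ a))
      have h5 : insert a U ⊆ A :=
        Finset.insert_subset ha ((Finset.mem_powerset.1 hU).trans (Finset.erase_subset a A))
      rw [if_pos h5, mul_one]
    have h5 : 0 ≤ ∑ U ∈ (A.erase a).powerset,
        (gw v ρ U + gw v ρ (insert a U) + hw v ρ (U, a)) :=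
      Finset.sum_nonneg fun U hU => gw_step v ρ U fun h =>
        Finset.notMem_erase a A (Finset.mem_powerset.1 hU h)
    rw [Finset.sum_add_distrib, Finset.sum_add_distrib] at h5
    linarith

open Classical in
/-- The main term. -/
theorem first_sum (v : I → W) (ρ : ℕ) (p : I → ℝ) (hp0 : ∀ i, 0 ≤ p i) (hp1 : ∀ i, p i ≤ 1)
    {η Lsp : ℝ} (hη0 : 0 ≤ η) (hη : ∀ i, p i ≤ η)
    (hspan : ∀ U : Finset I, U.card ≤ ρ →
      ((Finset.univ.filter fun i => v i ∈ Submodule.span ℚ (v '' U)).card : ℝ) ≤ Lsp) :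
    ∑ U : Finset I, gw v ρ U * ∏ t ∈ U, p t ≤ Real.exp (-∑ i, p i) +
      (1 / 2) ^ ρ * Real.exp (2 * ∑ i, p i) + Lsp * η * Real.exp (∑ i, p i) := by
  have hL : 0 ≤ Lsp := le_trans (Nat.cast_nonneg _) (hspan ∅ (by simp))
  have hP : ∀ U : Finset I, 0 ≤ ∏ t ∈ U, p t := fun U => Finset.prod_nonneg fun t _ => hp0 t
  have h1 : ∀ U : Finset I, gw v ρ U ≤ (-1) ^ U.card + (1 / 2) ^ ρ * 2 ^ U.card +
      if U.card ≤ ρ ∧ ¬ LinearIndepOn ℚ v U then 1 else 0 := by
    intro U
    have hs : (-1 : ℝ) ≤ (-1) ^ U.card := by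
      rcases neg_one_pow_eq_or ℝ U.card with h | h <;> linarith
    have h0 : (0 : ℝ) ≤ (1 / 2) ^ ρ * 2 ^ U.card := by positivity
    have hge : ρ ≤ U.card → (1 : ℝ) ≤ (1 / 2) ^ ρ * 2 ^ U.card := by
      intro h
      have h2 : (2 : ℝ) ^ ρ ≤ 2 ^ U.card := pow_le_pow_right₀ (by norm_num) h
      rw [one_div, inv_pow, inv_mul_eq_div, one_le_div (by positivity)]
      exact h2
    unfold gw
    by_cases hi : LinearIndepOn ℚ v U
    · rcases lt_trichotomy U.card ρ with h2 | h2 | h2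
      · rw [if_pos ⟨hi, h2.le⟩, if_neg fun h => h2.ne h.2, if_neg fun h => h.2 hi]
        linarith
      · rw [if_pos ⟨hi, h2.le⟩, if_pos ⟨hi, h2⟩, if_neg fun h => h.2 hi]
        have := hge h2.ge
        linarith
      · rw [if_neg fun h => by omega, if_neg fun h => by omega, if_neg fun h => h.2 hi]
        have := hge h2.le
        linarith
    · rw [if_neg fun h => hi h.1, if_neg fun h => hi h.1]
      by_cases h2 : U.card ≤ ρ
      · rw [if_pos ⟨h2, hi⟩]
        linarith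
      · rw [if_neg fun h => h2 h.1]
        have := hge (by omega)
        linarith
  have h2 := sum_pow_prod_le p (-1) fun i => by have := hp1 i; linarith
  have h3 := sum_pow_prod_le p 2 fun i => by have := hp0 i; linarith
  have h4 := sum_pow_prod_le p 1 fun i => by have := hp0 i; linarith
  simp only [one_pow, one_mul] at h4
  rw [neg_one_mul] at h2
  have h5 : ∑ U : Finset I, (if U.card ≤ ρ ∧ ¬ LinearIndepOn ℚ v U then (1 : ℝ) else 0) *
      ∏ t ∈ U, p t ≤ ∑ q ∈ (Finset.univ : Finset (Finset I × I)),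
        (if q.1.card ≤ ρ ∧ v q.2 ∈ Submodule.span ℚ (v '' q.1) then η * ∏ t ∈ q.1, p t
          else 0) := by
    refine sum_le_cover _ (fun q => insert q.2 q.1) _ _ (fun q _ => ?_) fun U => ?_
    · split_ifs
      · exact mul_nonneg hη0 (hP _)
      · exact le_rfl
    · by_cases h : U.card ≤ ρ ∧ ¬ LinearIndepOn ℚ v U
      · right
        have h6 := h.2
        rw [linearIndepOn_iff_notMem_span] at h6
        push Not at h6
        obtain ⟨i, hi, h7⟩ := h6
        have hi' : i ∈ U := hi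
        rw [← Finset.coe_erase] at h7
        refine ⟨(U.erase i, i), Finset.mem_univ _, Finset.insert_erase hi', ?_⟩
        rw [if_pos h, if_pos ⟨(Finset.card_le_card (Finset.erase_subset i U)).trans h.1, h7⟩,
          one_mul, ← Finset.mul_prod_erase U p hi']
        exact mul_le_mul_of_nonneg_right (hη i) (hP _)
      · left
        rw [if_neg h, zero_mul]
  have h6 : ∑ q ∈ (Finset.univ : Finset (Finset I × I)),
      (if q.1.card ≤ ρ ∧ v q.2 ∈ Submodule.span ℚ (v '' q.1) then η * ∏ t ∈ q.1, p t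
        else 0) ≤ Lsp * η * Real.exp (∑ i, p i) := by
    rw [Fintype.sum_prod_type]
    refine le_trans (Finset.sum_le_sum (g := fun U => Lsp * η * ∏ t ∈ U, p t) fun U _ => ?_) ?_
    · by_cases h : U.card ≤ ρ
      · simp only [h, true_and]
        rw [← Finset.sum_filter, Finset.sum_const, nsmul_eq_mul, mul_assoc]
        exact mul_le_mul_of_nonneg_right (hspan U h) (mul_nonneg hη0 (hP U))
      · simp only [h, false_and, if_false, Finset.sum_const_zero]
        exact mul_nonneg (mul_nonneg hL hη0) (hP U)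
    · rw [← Finset.mul_sum]
      exact mul_le_mul_of_nonneg_left h4 (mul_nonneg hL hη0)
  have h7 : ∑ U : Finset I, gw v ρ U * ∏ t ∈ U, p t ≤
      ∑ U : Finset I, ((-1) ^ U.card * ∏ t ∈ U, p t +
        (1 / 2) ^ ρ * (2 ^ U.card * ∏ t ∈ U, p t) +
        (if U.card ≤ ρ ∧ ¬ LinearIndepOn ℚ v U then (1 : ℝ) else 0) * ∏ t ∈ U, p t) := by
    refine Finset.sum_le_sum fun U _ => ?_
    refine (mul_le_mul_of_nonneg_right (h1 U) (hP U)).trans (le_of_eq ?_)
    ring
  rw [Finset.sum_add_distrib, Finset.sum_add_distrib, ← Finset.mul_sum] at h7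
  have h8 := mul_le_mul_of_nonneg_left h3 (show (0 : ℝ) ≤ (1 / 2) ^ ρ by positivity)
  linarith

theorem qv_inj {δ : Type} {a b : δ → ℤ} (h : qv a = qv b) : a = b := by
  funext l
  have := congrFun h l
  unfold qv at this
  exact_mod_cast this

theorem qv_sum {δ τ : Type} (U : Finset τ) (z : τ → ℤ) (a : τ → δ → ℤ) :
    qv (∑ t ∈ U, z t • a t) = ∑ t ∈ U, (z t : ℚ) • qv (a t) := by
  funext l
  simp [qv, Finset.sum_apply]

omit [Fintype I] in
/-- Exchange of a point with a large integer coefficient. -/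
theorem exchange (v : I → W) {U : Finset I} {i j : I} (hU : LinearIndepOn ℚ v U) (hi : i ∉ U)
    (hj : j ∈ U) (c : I → ℚ) (hc : v i = ∑ t ∈ U, c t • v t) (h0 : c j ≠ 0) :
    LinearIndepOn ℚ v (insert i (U.erase j) : Finset I) ∧
      v j = ∑ t ∈ insert i (U.erase j), (if t = i then (c j)⁻¹ else -((c j)⁻¹ * c t)) • v t := by
  have hi' : i ∉ U.erase j := fun h => hi (Finset.mem_of_mem_erase h)
  have h1 : v i = c j • v j + ∑ t ∈ U.erase j, c t • v t := by
    rw [hc, Finset.add_sum_erase U (fun t => c t • v t) hj]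
  have h2 : v j = (c j)⁻¹ • v i - (c j)⁻¹ • ∑ t ∈ U.erase j, c t • v t := by
    rw [h1, smul_add, smul_smul, inv_mul_cancel₀ h0, one_smul, add_sub_cancel_right]
  constructor
  · rw [Finset.coe_insert, linearIndepOn_insert (Finset.mem_coe.not.2 hi')]
    refine ⟨hU.mono (Finset.coe_subset.2 (Finset.erase_subset j U)), fun h => ?_⟩
    refine linearIndepOn_iff_notMem_span.1 hU j hj ?_
    rw [← Finset.coe_erase, h2]
    refine Submodule.sub_mem _ (Submodule.smul_mem _ _ h) (Submodule.smul_mem _ _ ?_)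
    exact Submodule.sum_mem _ fun t ht =>
      Submodule.smul_mem _ _ (Submodule.subset_span ⟨t, ht, rfl⟩)
  · rw [Finset.sum_insert hi', if_pos rfl, h2, sub_eq_add_neg, Finset.smul_sum,
      ← Finset.sum_neg_distrib]
    refine congrArg _ (Finset.sum_congr rfl fun t ht => ?_)
    have h3 : t ≠ i := fun h => hi' (h ▸ ht)
    rw [if_neg h3, smul_smul, neg_smul]

omit [Fintype I] in
/-- The two kinds of dependent pairs. -/
theorem dichotomy {δ : Type} [Fintype δ] (ι : I → δ → ℤ) (hinj : Function.Injective ι)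
    (ℓ : δ → ℤ) (hl : ∀ i, ℓ ⬝ᵥ ι i = 1) {U : Finset I} {i : I}
    (hU : LinearIndepOn ℚ (fun t => qv (ι t)) U) (hi : i ∉ U)
    (hsp : qv (ι i) ∈ Submodule.span ℚ ((fun t => qv (ι t)) '' U)) :
    (∃ (U' : Finset I) (j : I) (c : I → ℚ), LinearIndepOn ℚ (fun t => qv (ι t)) U' ∧
      insert j U' = insert i U ∧ U'.card = U.card ∧ qv (ι j) = ∑ t ∈ U', c t • qv (ι t) ∧
      ∃ k ∈ U', ∀ z : ℤ, c k ≠ z) ∨
    ∃ (U' : Finset I) (σ : Fin 3 → ℤ) (c : I → ℤ) (i₁ i₂ i₃ : I), IsSign σ ∧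
      (∀ t, c t ∈ if t ∈ U' then ({0, 1, -1} : Finset ℤ) else {0}) ∧
      i₁ ∉ U' ∧ i₂ ∉ U' ∧ i₃ ∉ U' ∧ i₁ ≠ i₂ ∧ i₁ ≠ i₃ ∧ i₂ ≠ i₃ ∧
      insert i₁ (insert i₂ (insert i₃ U')) = U ∧
      ι i = ssum σ (ι i₁) (ι i₂) (ι i₃) + ∑ t ∈ U', c t • ι t := by
  obtain ⟨c, hc⟩ := (Submodule.mem_span_image_finset_iff_exists_fun' ℚ).1 hsp
  by_cases hint : ∃ k ∈ U, ∀ z : ℤ, c k ≠ z
  · exact Or.inl ⟨U, i, c, hU, rfl, rfl, hc.symm, hint⟩
  push Not at hint
  choose! z hz using hint
  by_cases hbig : ∃ j ∈ U, z j ≠ 0 ∧ z j ≠ 1 ∧ z j ≠ -1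
  · obtain ⟨j, hj, h0, h1, h2⟩ := hbig
    have hc0 : c j ≠ 0 := by rw [hz j hj]; exact_mod_cast h0
    obtain ⟨e1, e2⟩ := exchange (fun t => qv (ι t)) hU hi hj c hc.symm hc0
    have hi' : i ∉ U.erase j := fun h => hi (Finset.mem_of_mem_erase h)
    refine Or.inl ⟨insert i (U.erase j), j, _, e1, ?_, ?_, e2, i, Finset.mem_insert_self _ _,
      fun m hm => ?_⟩
    · rw [Finset.insert_comm, Finset.insert_erase hj]
    · rw [Finset.card_insert_of_notMem hi', Finset.card_erase_add_one hj]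
    · simp only [if_true] at hm
      have h3 : (z j : ℚ) * m = 1 := by rw [← hm, ← hz j hj, mul_inv_cancel₀ hc0]
      have h4 : z j * m = 1 := by exact_mod_cast h3
      rcases Int.eq_one_or_neg_one_of_mul_eq_one h4 with h | h
      · exact h1 h
      · exact h2 h
  right
  have hsm : ∀ j ∈ U, z j = 0 ∨ z j = 1 ∨ z j = -1 := by
    intro j hj
    by_contra h
    push Not at h
    exact hbig ⟨j, hj, h⟩
  have he : ι i = ∑ t ∈ U, z t • ι t := by
    apply qv_inj
    rw [qv_sum, ← hc]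
    exact Finset.sum_congr rfl fun t ht => by rw [hz t ht]
  set T := U.filter fun t => z t ≠ 0 with hT
  have heT : ι i = ∑ t ∈ T, z t • ι t := by
    rw [he, hT, Finset.sum_filter_of_ne]
    intro t _ h h0
    exact h (by rw [h0, zero_smul])
  have hsum : ∑ t ∈ T, z t = 1 := by
    have h := hl i
    rw [heT, dotProduct_sum] at h
    rw [← h]
    exact Finset.sum_congr rfl fun t _ => by rw [dotProduct_smul, hl t, smul_eq_mul, mul_one]
  have hpm : ∀ t ∈ T, z t = 1 ∨ z t = -1 := fun t ht =>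
    (hsm t (Finset.mem_filter.1 ht).1).resolve_left (Finset.mem_filter.1 ht).2
  have hcard : 2 < T.card := by
    by_contra hlt
    have hle : T.card ≤ 2 := by omega
    have h3 : T.card = 0 ∨ T.card = 1 ∨ T.card = 2 := by omega
    rcases h3 with h | h | h
    · rw [Finset.card_eq_zero.1 h] at hsum
      simp at hsum
    · obtain ⟨a, ha⟩ := Finset.card_eq_one.1 h
      have haT : a ∈ T := by rw [ha]; exact Finset.mem_singleton_self a
      rw [ha, Finset.sum_singleton] at hsum heT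
      rw [hsum, one_smul] at heT
      exact hi (hinj heT ▸ (Finset.mem_filter.1 haT).1)
    · obtain ⟨a, b, hab, h4⟩ := Finset.card_eq_two.1 h
      have ha := hpm a (by rw [h4]; simp)
      have hb := hpm b (by rw [h4]; simp)
      rw [h4, Finset.sum_pair hab] at hsum
      omega
  obtain ⟨i₁, i₂, i₃, h1, h2, h3, h12, h13, h23⟩ := Finset.two_lt_card_iff.1 hcard
  have m1 : i₁ ∈ U := (Finset.mem_filter.1 h1).1
  have m2 : i₂ ∈ U.erase i₁ := Finset.mem_erase.2 ⟨h12.symm, (Finset.mem_filter.1 h2).1⟩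
  have m3 : i₃ ∈ (U.erase i₁).erase i₂ := Finset.mem_erase.2 ⟨h23.symm,
    Finset.mem_erase.2 ⟨h13.symm, (Finset.mem_filter.1 h3).1⟩⟩
  set U' := ((U.erase i₁).erase i₂).erase i₃ with hU'
  refine ⟨U', ![z i₁, z i₂, z i₃], fun t => if t ∈ U' then z t else 0, i₁, i₂, i₃, ?_, ?_, ?_,
    ?_, ?_, h12, h13, h23, ?_, ?_⟩
  · intro l
    fin_cases l
    · exact hpm _ h1
    · exact hpm _ h2
    · exact hpm _ h3
  · intro t
    by_cases ht : t ∈ U'
    · have := hsm t (Finset.mem_of_mem_erase (Finset.mem_of_mem_erase (Finset.mem_of_mem_erase ht)))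
      simp only [ht, if_true, Finset.mem_insert, Finset.mem_singleton]
      exact this
    · simp [ht]
  · simp [hU']
  · simp [hU']
  · simp [hU']
  · rw [hU', Finset.insert_erase m3, Finset.insert_erase m2, Finset.insert_erase m1]
  · have h4 : ∑ t ∈ U', (if t ∈ U' then z t else 0) • ι t = ∑ t ∈ U', z t • ι t :=
      Finset.sum_congr rfl fun t ht => by rw [if_pos ht]
    rw [h4, he, ← Finset.add_sum_erase U (fun t => z t • ι t) m1,
      ← Finset.add_sum_erase _ (fun t => z t • ι t) m2,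
      ← Finset.add_sum_erase _ (fun t => z t • ι t) m3]
    simp only [ssum, Matrix.cons_val_zero, Matrix.cons_val_one, Matrix.cons_val, add_assoc, hU']

end Vale.Agent.P230.L
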