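import Vale.Agent.P230.L.Equi
import Vale.Agent.P230.L.SieveAux

/-! The sieve for the probability that no random point hits its target.

p i = volume.real (S i), V = sum p, p U = prod over U.  For a finset A let N A be the sum of
(-1)^|U| over independent U in A with |U| <= rho.
Pointwise (min element involution U -> U symmDiff {a0} for a fixed a0 in A):
  1[A empty] <= N A + B A + C A,
B A = number of independent U in A with |U| = rho, C A = number of pairs (U, i), U independent
in A, |U| <= rho, i in A, i not in U, qv (iota i) in the span of U.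
E N = sum over independent small U of (-1)^|U| p U (prob_indep) and
sum over all U of (-1)^|U| p U = prod (1 - p i) <= exp (-V).  The sets with |U| >= rho contribute
at most 2^(-rho) prod (1 + 2 p) <= 2^(-rho) exp (2V) (this also covers E B).  A dependent U with
|U| <= rho contains a maximal independent U' and i outside it in its span, so these contribute at
most exp (2V) Lsp 2^(-|D|) (vol_window).
E C: write qv (iota i) = sum c t . qv (iota t); sum c t = 1 by hl.  If some c j is not an integer
use caseB.  If some c j is an integer with |c j| >= 2, use caseB for U' = insert i (U.erase j) and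
the point j (coefficient of i is 1 / c j); the pair (U, i) is recovered from (U', j, i), i in U'.
Together at most (rho + 1) Lsp 2^(-|D|) exp V.  Otherwise all c t are 0, 1, -1; the support has
at least three elements (its size is odd, and size one contradicts injectivity); pick three of
them and use caseA for U'' = U minus these, summing over 8 signs and over the functions
c : U'' -> {0, 1, -1}: at most 8 epsA sum 3^|U''| p U'' <= 8 epsA exp (3V). -/

namespace Vale.Agent.P230.L

open MeasureTheory ProbabilityTheory Set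
open scoped ENNReal

open Classical in
/-- The dependent pairs. -/
theorem second_sum {δ κ I : Type} [Fintype δ] [Fintype κ] [Fintype I] [DecidableEq I]
    [DecidableEq δ]
    (D : Finset κ) (ι : I → δ → ℤ) (hinj : Function.Injective ι) (ℓ : δ → ℤ)
    (hl : ∀ i, ℓ ⬝ᵥ ι i = 1) (S : I → Set (κ → T)) (hS : ∀ i, MeasurableSet (S i))
    (hwin : ∀ i, ∀ x ∈ S i, ∀ x' ∈ S i, ∀ c ∈ D, ‖x c - x' c‖ < 1 / 4) (ρ : ℕ) (Lsp : ℝ)
    (hspan : ∀ U : Finset I, U.card ≤ ρ →
      ((Finset.univ.filter fun i =>
        qv (ι i) ∈ Submodule.span ℚ ((fun t => qv (ι t)) '' U)).card : ℝ) ≤ Lsp)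
    {εA : ℝ} (hε : 0 ≤ εA)
    (hA : ∀ σ, IsSign σ → ∀ (w : δ → ℤ) (s : κ → T), ∑ i₁, ∑ i₂, ∑ i₃, ∑ i₀,
      (if ι i₀ = ssum σ (ι i₁) (ι i₂) (ι i₃) + w then
        volume (En (S i₁) (S i₂) (S i₃) (S i₀) σ s) else 0) ≤ ENNReal.ofReal εA) :
    ∑ q : Finset I × I, hw (fun t => qv (ι t)) ρ q *
        volume.real {x : δ → κ → T | ∀ t ∈ insert q.2 q.1, comb (ι t) x ∈ S t} ≤
      (ρ + 1) * Lsp * (1 / 2) ^ D.card * Real.exp (∑ i, volume.real (S i)) +
        8 * εA * Real.exp (3 * ∑ i, volume.real (S i)) := by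
  have hL : 0 ≤ Lsp := le_trans (Nat.cast_nonneg _) (hspan ∅ (by simp))
  have hp0 : ∀ i, 0 ≤ volume.real (S i) := fun i => measureReal_nonneg
  have hP : ∀ U : Finset I, 0 ≤ ∏ t ∈ U, volume.real (S t) :=
    fun U => Finset.prod_nonneg fun t _ => hp0 t
  have hη : (0 : ℝ) ≤ (1 / 2) ^ D.card := by positivity
  let Sg : Finset (Fin 3 → ℤ) := Fintype.piFinset fun _ => {1, -1}
  let Cf : Finset I → Finset (I → ℤ) := fun U =>
    Fintype.piFinset fun t => if t ∈ U then {0, 1, -1} else {0}
  have hSg : Sg.card = 8 := by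
    simp only [Sg, Fintype.card_piFinset]
    rfl
  have hCf : ∀ U, (Cf U).card = 3 ^ U.card := by
    intro U
    simp only [Cf, Fintype.card_piFinset, apply_ite Finset.card]
    rw [Finset.prod_ite]
    have h3 : ({0, 1, -1} : Finset ℤ).card = 3 := rfl
    simp [h3]
  let g : Finset I × I × I → ℝ := fun k =>
    if k.1.card ≤ ρ ∧ qv (ι k.2.1) ∈ Submodule.span ℚ ((fun t => qv (ι t)) '' k.1) ∧
      k.2.2 ∈ insert k.2.1 k.1 then (1 / 2) ^ D.card * ∏ t ∈ k.1, volume.real (S t) else 0
  let G : Finset I → (Fin 3 → ℤ) → (I → ℤ) → I → I → I → I → ℝ := fun U σ c i₁ i₂ i₃ i₀ =>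
    if i₁ ∉ U ∧ i₂ ∉ U ∧ i₃ ∉ U ∧ i₁ ≠ i₂ ∧ i₁ ≠ i₃ ∧ i₂ ≠ i₃ ∧
        LinearIndepOn ℚ (fun i => qv (ι i)) (insert i₁ (insert i₂ (insert i₃ U)) : Finset I) ∧
        ι i₀ = ssum σ (ι i₁) (ι i₂) (ι i₃) + ∑ t ∈ U, c t • ι t then
      volume.real {x : δ → κ → T | (∀ t ∈ U, comb (ι t) x ∈ S t) ∧ comb (ι i₁) x ∈ S i₁ ∧
        comb (ι i₂) x ∈ S i₂ ∧ comb (ι i₃) x ∈ S i₃ ∧ comb (ι i₀) x ∈ S i₀} else 0
  let L : Finset ((_ : Finset I) × ((Fin 3 → ℤ) × (I → ℤ) × I × I × I × I)) :=
    Finset.univ.sigma fun U => Sg ×ˢ Cf U ×ˢ Finset.univ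
  have key := sum_le_cover₂ (Finset.univ : Finset (Finset I × I × I))
    (fun k => ((insert k.2.1 k.1).erase k.2.2, k.2.2)) L
    (fun k => (insert k.2.2.2.1 (insert k.2.2.2.2.1 (insert k.2.2.2.2.2.1 k.1)), k.2.2.2.2.2.2))
    (fun q : Finset I × I => hw (fun t => qv (ι t)) ρ q *
      volume.real {x : δ → κ → T | ∀ t ∈ insert q.2 q.1, comb (ι t) x ∈ S t}) g
    (fun k => G k.1 k.2.1 k.2.2.1 k.2.2.2.1 k.2.2.2.2.1 k.2.2.2.2.2.1 k.2.2.2.2.2.2)
    (fun k _ => by
      simp only [g]
      split_ifs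
      · exact mul_nonneg hη (hP _)
      · exact le_rfl)
    (fun k _ => by
      simp only [G]
      split_ifs
      · exact measureReal_nonneg
      · exact le_rfl)
    (by
      rintro ⟨U, i⟩
      by_cases hq : Hq (fun t => qv (ι t)) ρ (U, i)
      swap
      · left
        simp only [hw, if_neg hq, zero_mul, le_refl]
      right
      have hw1 : hw (fun t => qv (ι t)) ρ (U, i) = 1 := if_pos hq
      obtain ⟨hU, hρ, hi, hsp⟩ := hq
      dsimp only at hU hρ hi hsp
      simp only [hw1, one_mul]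
      rcases dichotomy ι hinj ℓ hl hU hi hsp with ⟨U', j, c, h1, h2, h3, h4, k, hk, h5⟩ |
        ⟨U', σ, c, i₁, i₂, i₃, h1, h2, n1, n2, n3, h12, h13, h23, h3, h4⟩
      · left
        refine ⟨(U', j, i), Finset.mem_univ _, ?_, ?_⟩
        · simp only [h2]
          rw [Finset.erase_insert hi]
        · have h6 : U'.card ≤ ρ ∧ qv (ι j) ∈ Submodule.span ℚ ((fun t => qv (ι t)) '' U') ∧
              i ∈ insert j U' := by
            refine ⟨h3.le.trans hρ, ?_, by rw [h2]; exact Finset.mem_insert_self _ _⟩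
            rw [h4]
            exact Submodule.sum_mem _ fun t ht =>
              Submodule.smul_mem _ _ (Submodule.subset_span ⟨t, ht, rfl⟩)
          have h7 : g (U', j, i) = (1 / 2) ^ D.card * ∏ t ∈ U', volume.real (S t) := if_pos h6
          rw [h7]
          refine le_trans (le_of_eq (congrArg _ ?_)) (caseB D ι S hS U' h1 j (hwin j) c h4 hk h5)
          ext x
          simp only [← h2, mem_ofPred_eq, Finset.forall_mem_insert]
          exact and_comm
      · right
        refine ⟨⟨U', σ, c, i₁, i₂, i₃, i⟩, ?_, ?_, ?_⟩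
        · simp only [L, Sg, Cf, Finset.mem_sigma, Finset.mem_univ, Finset.mem_product, true_and,
            and_true, Fintype.mem_piFinset, Finset.mem_insert, Finset.mem_singleton]
          exact ⟨h1, h2⟩
        · simp only [h3]
        · have h5 : LinearIndepOn ℚ (fun i => qv (ι i))
              (insert i₁ (insert i₂ (insert i₃ U')) : Finset I) := by rw [h3]; exact hU
          have h7 : G U' σ c i₁ i₂ i₃ i = _ := if_pos ⟨n1, n2, n3, h12, h13, h23, h5, h4⟩
          refine le_trans (le_of_eq (congrArg _ ?_)) h7.ge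
          ext x
          simp only [← h3, mem_ofPred_eq, Finset.forall_mem_insert]
          exact ⟨fun h => ⟨h.2.2.2.2, h.2.1, h.2.2.1, h.2.2.2.1, h.1⟩,
            fun h => ⟨h.2.2.2.2, h.2.1, h.2.2.1, h.2.2.2.1, h.1⟩⟩)
  refine key.trans (add_le_add ?_ ?_)
  · have h4 := sum_pow_prod_le (fun i => volume.real (S i)) 1 fun i => by
      have := hp0 i; linarith
    simp only [one_pow, one_mul] at h4
    rw [Fintype.sum_prod_type]
    refine le_trans (Finset.sum_le_sum (g := fun U =>
      (ρ + 1) * Lsp * (1 / 2) ^ D.card * ∏ t ∈ U, volume.real (S t)) fun U _ => ?_) ?_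
    · have h0 : 0 ≤ (1 / 2) ^ D.card * ∏ t ∈ U, volume.real (S t) := mul_nonneg hη (hP U)
      by_cases h : U.card ≤ ρ
      · rw [Fintype.sum_prod_type]
        have h5 : ∀ j, ∑ i, g (U, j, i) ≤
            if qv (ι j) ∈ Submodule.span ℚ ((fun t => qv (ι t)) '' U) then
              (ρ + 1) * ((1 / 2) ^ D.card * ∏ t ∈ U, volume.real (S t)) else 0 := by
          intro j
          by_cases h6 : qv (ι j) ∈ Submodule.span ℚ ((fun t => qv (ι t)) '' U)
          · simp only [g, h, h6, true_and, if_true]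
            rw [← Finset.sum_filter, Finset.sum_const, nsmul_eq_mul, Finset.filter_mem_eq_inter,
              Finset.univ_inter]
            refine mul_le_mul_of_nonneg_right ?_ h0
            have h7 : (insert j U).card ≤ ρ + 1 :=
              (Finset.card_insert_le j U).trans (Nat.succ_le_succ h)
            exact_mod_cast h7
          · simp only [g, h6, false_and, and_false, if_false, Finset.sum_const_zero, le_refl]
        refine (Finset.sum_le_sum fun j _ => h5 j).trans ?_
        rw [← Finset.sum_filter, Finset.sum_const, nsmul_eq_mul]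
        refine (mul_le_mul_of_nonneg_right (hspan U h) (mul_nonneg (by positivity) h0)).trans
          (le_of_eq ?_)
        ring
      · simp only [g, h, false_and, if_false, Finset.sum_const_zero]
        exact mul_nonneg (mul_nonneg (mul_nonneg (by positivity) hL) hη) (hP U)
    · rw [← Finset.mul_sum]
      exact mul_le_mul_of_nonneg_left h4 (mul_nonneg (mul_nonneg (by positivity) hL) hη)
  · have h4 := sum_pow_prod_le (fun i => volume.real (S i)) 3 fun i => by
      have := hp0 i; linarith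
    rw [Finset.sum_sigma]
    refine le_trans (Finset.sum_le_sum (g := fun U =>
      8 * εA * (3 ^ U.card * ∏ t ∈ U, volume.real (S t))) fun U _ => ?_) ?_
    · rw [Finset.sum_product]
      refine le_trans (Finset.sum_le_sum (g := fun _ =>
        εA * (3 ^ U.card * ∏ t ∈ U, volume.real (S t))) fun σ hσ => ?_) ?_
      · have hσ' : IsSign σ := by
          intro l
          simpa using Fintype.mem_piFinset.1 hσ l
        rw [Finset.sum_product]
        refine le_trans (Finset.sum_le_sum (g := fun _ =>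
          εA * ∏ t ∈ U, volume.real (S t)) fun c _ => ?_) ?_
        · simp only [Fintype.sum_prod_type]
          exact caseA ι S hS hε U c fun s => hA σ hσ' _ s
        · rw [Finset.sum_const, hCf, nsmul_eq_mul]
          push_cast
          exact le_of_eq (by ring)
      · rw [Finset.sum_const, hSg, nsmul_eq_mul]
        push_cast
        exact le_of_eq (by ring)
    · rw [← Finset.mul_sum]
      exact mul_le_mul_of_nonneg_left h4 (by positivity)

open Classical in
theorem sieve {δ κ I : Type} [Fintype δ] [Fintype κ] [Fintype I] [DecidableEq I] [DecidableEq δ]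
    (D : Finset κ) (ι : I → δ → ℤ) (hinj : Function.Injective ι) (ℓ : δ → ℤ)
    (hl : ∀ i, ℓ ⬝ᵥ ι i = 1) (S : I → Set (κ → T)) (hS : ∀ i, MeasurableSet (S i))
    (hwin : ∀ i, ∀ x ∈ S i, ∀ x' ∈ S i, ∀ c ∈ D, ‖x c - x' c‖ < 1 / 4) (ρ : ℕ) (Lsp : ℝ)
    (hspan : ∀ U : Finset I, U.card ≤ ρ →
      ((Finset.univ.filter fun i =>
        qv (ι i) ∈ Submodule.span ℚ ((fun t => qv (ι t)) '' U)).card : ℝ) ≤ Lsp)
    {εA : ℝ} (hε : 0 ≤ εA)
    (hA : ∀ σ, IsSign σ → ∀ (w : δ → ℤ) (s : κ → T), ∑ i₁, ∑ i₂, ∑ i₃, ∑ i₀,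
      (if ι i₀ = ssum σ (ι i₁) (ι i₂) (ι i₃) + w then
        volume (En (S i₁) (S i₂) (S i₃) (S i₀) σ s) else 0) ≤ ENNReal.ofReal εA) :
    volume.real {x : δ → κ → T | ∀ i, comb (ι i) x ∉ S i} ≤
      Real.exp (-∑ i, volume.real (S i)) + Real.exp (3 * ∑ i, volume.real (S i)) *
        ((1 / 2) ^ ρ + (ρ + 2) * Lsp * (1 / 2) ^ D.card + 8 * εA) := by
  have hL : 0 ≤ Lsp := le_trans (Nat.cast_nonneg _) (hspan ∅ (by simp))
  have hp0 : ∀ i, 0 ≤ volume.real (S i) := fun i => measureReal_nonneg
  have hη : (0 : ℝ) ≤ (1 / 2) ^ D.card := by positivity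
  have hm : ∀ i, MeasurableSet {x : δ → κ → T | comb (ι i) x ∈ S i} :=
    fun i => (continuous_comb (ι i)).measurable (hS i)
  have hE : ∀ U : Finset I, MeasurableSet {x : δ → κ → T | ∀ t ∈ U, comb (ι t) x ∈ S t} := by
    intro U
    have h := Finset.measurableSet_biInter U fun t _ => hm t
    have h' : {x : δ → κ → T | ∀ t ∈ U, comb (ι t) x ∈ S t} =
        ⋂ t ∈ U, {x : δ → κ → T | comb (ι t) x ∈ S t} := by
      ext x; simp
    rw [h']; exact h
  have hZ : MeasurableSet {x : δ → κ → T | ∀ i, comb (ι i) x ∉ S i} := by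
    have h' : {x : δ → κ → T | ∀ i, comb (ι i) x ∉ S i} =
        ⋂ i, {x : δ → κ → T | comb (ι i) x ∈ S i}ᶜ := by
      ext x; simp
    rw [h']
    exact MeasurableSet.iInter fun i => (hm i).compl
  have h1 := real_le_sums volume hZ _ hE _ (fun q : Finset I × I => hE (insert q.2 q.1))
    (gw (fun t => qv (ι t)) ρ) (hw (fun t => qv (ι t)) ρ) (by
      intro x
      have h := sieve_pointwise (fun t => qv (ι t)) ρ
        (Finset.univ.filter fun i => comb (ι i) x ∈ S i)
      have e : ∀ U : Finset I,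
          {x : δ → κ → T | ∀ t ∈ U, comb (ι t) x ∈ S t}.indicator (1 : (δ → κ → T) → ℝ) x =
            if U ⊆ Finset.univ.filter fun i => comb (ι i) x ∈ S i then 1 else 0 := by
        intro U
        rw [indicator_apply]
        refine if_congr ?_ rfl rfl
        simp [Finset.subset_iff]
      simp only [e]
      refine le_trans (le_of_eq ?_) h
      rw [indicator_apply]
      refine if_congr ?_ rfl rfl
      simp [Finset.filter_eq_empty_iff])
  have h2 : ∑ U : Finset I, gw (fun t => qv (ι t)) ρ U *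
      volume.real {x : δ → κ → T | ∀ t ∈ U, comb (ι t) x ∈ S t} =
      ∑ U : Finset I, gw (fun t => qv (ι t)) ρ U * ∏ t ∈ U, volume.real (S t) := by
    refine Finset.sum_congr rfl fun U _ => ?_
    by_cases hU : LinearIndepOn ℚ (fun t => qv (ι t)) U
    · rw [prob_indep ι S hS U hU]
    · simp only [gw, hU, false_and, if_false, add_zero, zero_mul]
  have h3 := first_sum (fun t => qv (ι t)) ρ (fun i => volume.real (S i)) hp0
    (fun i => measureReal_le_one) hη (fun i => vol_window D (hwin i)) hspan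
  have h4 := second_sum D ι hinj ℓ hl S hS hwin ρ Lsp hspan hε hA
  have hV : 0 ≤ ∑ i, volume.real (S i) := Finset.sum_nonneg fun i _ => hp0 i
  generalize ∑ i, volume.real (S i) = V at h3 h4 hV ⊢
  have e1 : Real.exp V ≤ Real.exp (3 * V) := Real.exp_le_exp.2 (by linarith)
  have e2 : Real.exp (2 * V) ≤ Real.exp (3 * V) := Real.exp_le_exp.2 (by linarith)
  have e3 := mul_le_mul_of_nonneg_left e2 (show (0 : ℝ) ≤ (1 / 2) ^ ρ by positivity)
  have e4 := mul_le_mul_of_nonneg_left e1
    (show (0 : ℝ) ≤ (ρ + 2) * Lsp * (1 / 2) ^ D.card from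
      mul_nonneg (mul_nonneg (by positivity) hL) hη)
  rw [h2] at h1
  nlinarith

end Vale.Agent.P230.L
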