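import Vale.Agent.P230.L.BL

/-! Grid sums of slices against volumes.

The map (x, r) -> Sum.elim ((-eps) . cst z + r) (H . (x - half)), r in [0, eps)^phi, has
constant Jacobian H^card kappa, and the cells (-eps) . cst z + [0, eps)^phi are disjoint and cover.
slice_sum_ge: a point Y of E0 lies in the cell of z = - floor (Y / eps), z in boxZ L, and moving
its fine part to (-eps) . cst z gives a point of E1.
slice_energy: the sets {(Y1, Y2, Y3)} obtained from (z1, z2, z3) are pairwise disjoint subsets of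
En E1' E2' E3' E0' sigma s2 with s2 = Sum.elim ((-eps) . cst z') (H . (s - half + ssum sigma half
half half)), and each has volume (eps^card phi * H^card kappa)^3 * volume (En ...). -/

namespace Vale.Agent.P230.L

open MeasureTheory ProbabilityTheory Set
open scoped ENNReal

variable {φ κ : Type} [Fintype φ] [DecidableEq φ] [Fintype κ]

theorem measurableSet_slice (ε H : ℝ) {E : Set (φ ⊕ κ → ℝ)} (hE : MeasurableSet E) (z : φ → ℤ) :
    MeasurableSet (slice ε H E z) := by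
  have hm : Measurable fun x : κ → ℝ =>
      (Sum.elim ((-ε) • cst z) (H • (x - half κ)) : φ ⊕ κ → ℝ) := by
    refine measurable_pi_lambda _ fun i => ?_
    rcases i with i | c
    · exact measurable_const
    · simp only [Sum.elim_inr, Pi.smul_apply, Pi.sub_apply, smul_eq_mul]
      fun_prop
  exact hm hE

namespace SliceAux

/-- half open grid cell -/
def cell (ε : ℝ) (z : φ → ℤ) : Set (φ → ℝ) :=
  Set.univ.pi fun i => Ico (-ε * z i) (-ε * z i + ε)

/-- splitting and rescaling map -/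
noncomputable def spl (φ : Type) (H : ℝ) (Y : φ ⊕ κ → ℝ) : (φ → ℝ) × (κ → ℝ) :=
  (Y ∘ Sum.inl, H⁻¹ • (Y ∘ Sum.inr) + half κ)

omit [DecidableEq φ] in
theorem measurableSet_cell (ε : ℝ) (z : φ → ℤ) : MeasurableSet (cell ε z) :=
  MeasurableSet.univ_pi fun _ => measurableSet_Ico

omit [DecidableEq φ] in
theorem volume_cell {ε : ℝ} (hε : 0 < ε) (z : φ → ℤ) :
    volume (cell ε z) = ENNReal.ofReal (ε ^ Fintype.card φ) := by
  rw [cell, Real.volume_pi_Ico]
  simp only [add_sub_cancel_left, Finset.prod_const, Finset.card_univ]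
  rw [ENNReal.ofReal_pow hε.le]

omit [Fintype φ] [DecidableEq φ] in
theorem cell_inj {ε : ℝ} (hε : 0 < ε) {z z' : φ → ℤ} {x : φ → ℝ} (h : x ∈ cell ε z)
    (h' : x ∈ cell ε z') : z = z' := by
  funext i
  have h1 := h i (mem_univ i)
  have h2 := h' i (mem_univ i)
  have h3 : (z i : ℝ) < z' i + 1 := by
    refine lt_of_mul_lt_mul_left ?_ hε.le
    linarith [h1.1, h1.2, h2.1, h2.2]
  have h4 : (z' i : ℝ) < z i + 1 := by
    refine lt_of_mul_lt_mul_left ?_ hε.le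
    linarith [h1.1, h1.2, h2.1, h2.2]
  have h5 : z i < z' i + 1 := by exact_mod_cast h3
  have h6 : z' i < z i + 1 := by exact_mod_cast h4
  omega

omit [DecidableEq φ] in
theorem mp_spl {H : ℝ} (hH : 0 < H) : MeasurePreserving (spl (κ := κ) φ H) volume
    ((volume : Measure (φ → ℝ)).prod
      (ENNReal.ofReal (H ^ Fintype.card κ) • (volume : Measure (κ → ℝ)))) := by
  have q := volume_measurePreserving_sumPiEquivProdPi fun _ : φ ⊕ κ => ℝ
  have h1 : MeasurePreserving (fun x : κ → ℝ => H⁻¹ • x) volume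
      (ENNReal.ofReal (H ^ Fintype.card κ) • volume) := by
    refine ⟨by fun_prop, ?_⟩
    rw [Measure.map_addHaar_smul _ (inv_ne_zero hH.ne'), Module.finrank_fintype_fun_eq_card,
      inv_pow, inv_inv, abs_of_pos (by positivity)]
  have h2 := (measurePreserving_add_right (volume : Measure (κ → ℝ)) (half κ)).smul_measure
    (ENNReal.ofReal (H ^ Fintype.card κ))
  exact ((MeasurePreserving.id (volume : Measure (φ → ℝ))).prod (h2.comp h1)).comp q

omit [Fintype φ] [DecidableEq φ] [Fintype κ] in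
theorem sub_mem_box {ε H : ℝ} (hε : 0 < ε) (hH : 0 < H) {z : φ → ℤ} {Y : φ ⊕ κ → ℝ}
    (h : (spl φ H Y).1 ∈ cell ε z) :
    Y - Sum.elim ((-ε) • cst z) (H • ((spl φ H Y).2 - half κ)) ∈ box (φ ⊕ κ) ε := by
  intro i
  rcases i with i | c
  · have h1 := h i (mem_univ i)
    simp only [spl, Function.comp, mem_Ico] at h1
    simp only [Pi.sub_apply, Sum.elim_inl, Pi.smul_apply, cst, smul_eq_mul]
    rw [abs_le]
    constructor <;> linarith [h1.1, h1.2]
  · simp only [spl, Pi.sub_apply, Sum.elim_inr, Pi.smul_apply, Pi.add_apply, smul_eq_mul,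
      Function.comp, add_sub_cancel_right]
    rw [mul_inv_cancel_left₀ hH.ne', sub_self, abs_zero]
    exact hε.le

theorem ssum_mem_box {ι : Type} {ε : ℝ} {σ : Fin 3 → ℤ} (hσ : IsSign σ) {a b c : ι → ℝ}
    (ha : a ∈ box ι ε) (hb : b ∈ box ι ε) (hc : c ∈ box ι ε) : ssum σ a b c ∈ box ι (3 * ε) := by
  intro i
  have c1 := abs_le.1 (ha i)
  have c2 := abs_le.1 (hb i)
  have c3 := abs_le.1 (hc i)
  simp only [ssum, Pi.add_apply, zsmul_eq_mul, Pi.mul_apply, Pi.intCast_apply]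
  rw [abs_le]
  rcases hσ 0 with h0 | h0 <;> rcases hσ 1 with h1 | h1 <;> rcases hσ 2 with h2 | h2 <;>
    rw [h0, h1, h2] <;> push_cast <;> constructor <;>
    linarith [c1.1, c1.2, c2.1, c2.2, c3.1, c3.2]

end SliceAux

open SliceAux BLAux

theorem slice_sum_ge {ε H bd : ℝ} (hε : 0 < ε) (hH : 0 < H) {L : ℕ} (hL : bd / ε + 1 ≤ L)
    {E₀ E₁ : Set (φ ⊕ κ → ℝ)} (h₁ : MeasurableSet E₁) (hb : E₀ ⊆ box (φ ⊕ κ) bd)
    (h : ∀ y ∈ E₀, ∀ r ∈ box (φ ⊕ κ) ε, y + r ∈ E₁) :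
    volume E₀ ≤ ENNReal.ofReal (ε ^ Fintype.card φ * H ^ Fintype.card κ) *
      ∑ z ∈ boxZ φ L, volume (slice ε H E₁ z) := by
  have hsub : E₀ ⊆ ⋃ z ∈ boxZ φ L, spl φ H ⁻¹' (cell ε z ×ˢ slice ε H E₁ z) := by
    intro Y hY
    have hc : (spl φ H Y).1 ∈ cell ε fun i => -⌊Y (Sum.inl i) / ε⌋ := by
      intro i _
      have a1 := Int.floor_le (Y (Sum.inl i) / ε)
      have a2 := Int.lt_floor_add_one (Y (Sum.inl i) / ε)
      rw [le_div_iff₀ hε] at a1
      rw [div_lt_iff₀ hε] at a2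
      simp only [spl, Function.comp, mem_Ico]
      push_cast
      constructor <;> linarith
    refine mem_iUnion₂.mpr ⟨fun i => -⌊Y (Sum.inl i) / ε⌋, ?_, hc, ?_⟩
    · refine Fintype.mem_piFinset.mpr fun i => Finset.mem_Icc.mpr ?_
      have a0 := abs_le.1 (hb hY (Sum.inl i))
      have a1 := Int.floor_le (Y (Sum.inl i) / ε)
      have a2 := Int.lt_floor_add_one (Y (Sum.inl i) / ε)
      have a3 : Y (Sum.inl i) / ε ≤ bd / ε := div_le_div_of_nonneg_right a0.2 hε.le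
      have a4 : -bd / ε ≤ Y (Sum.inl i) / ε := div_le_div_of_nonneg_right a0.1 hε.le
      rw [neg_div] at a4
      have a5 : ((⌊Y (Sum.inl i) / ε⌋ : ℤ) : ℝ) ≤ L := by linarith
      have a6 : -(L : ℝ) ≤ ((⌊Y (Sum.inl i) / ε⌋ : ℤ) : ℝ) := by linarith
      have a7 : ⌊Y (Sum.inl i) / ε⌋ ≤ L := by exact_mod_cast a5
      have a8 : -(L : ℤ) ≤ ⌊Y (Sum.inl i) / ε⌋ := by exact_mod_cast a6
      constructor <;> omega
    · have a1 := h Y hY (-_) fun i => by
        rw [Pi.neg_apply, abs_neg]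
        exact sub_mem_box hε hH hc i
      rw [neg_sub, add_sub_cancel] at a1
      exact a1
  refine (measure_mono hsub).trans ((measure_biUnion_finset_le _ _).trans (le_of_eq ?_))
  rw [Finset.mul_sum]
  refine Finset.sum_congr rfl fun z _ => ?_
  rw [(mp_spl hH).measure_preimage
    ((measurableSet_cell ε z).prod (measurableSet_slice ε H h₁ z)).nullMeasurableSet,
    Measure.prod_prod, volume_cell hε, Measure.smul_apply, smul_eq_mul,
    ENNReal.ofReal_mul (by positivity), mul_assoc]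

theorem slice_energy {ε H : ℝ} (hε : 0 < ε) (hH : 0 < H) {E₁ E₂ E₃ E₀ F₁ F₂ F₃ F₀ : Set (φ ⊕ κ → ℝ)}
    (m₁ : MeasurableSet E₁) (m₂ : MeasurableSet E₂) (m₃ : MeasurableSet E₃)
    (m₀ : MeasurableSet E₀)
    (h₁ : ∀ y ∈ E₁, ∀ r ∈ box (φ ⊕ κ) ε, y + r ∈ F₁)
    (h₂ : ∀ y ∈ E₂, ∀ r ∈ box (φ ⊕ κ) ε, y + r ∈ F₂)
    (h₃ : ∀ y ∈ E₃, ∀ r ∈ box (φ ⊕ κ) ε, y + r ∈ F₃)
    (h₀ : ∀ y ∈ E₀, ∀ r ∈ box (φ ⊕ κ) (3 * ε), y + r ∈ F₀) {σ : Fin 3 → ℤ} (hσ : IsSign σ)
    (z' : φ → ℤ) (s : κ → ℝ) (Z₁ Z₂ Z₃ : Finset (φ → ℤ)) :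
    ∃ s₂ : φ ⊕ κ → ℝ, ENNReal.ofReal ((ε ^ Fintype.card φ * H ^ Fintype.card κ) ^ 3) *
      ∑ z₁ ∈ Z₁, ∑ z₂ ∈ Z₂, ∑ z₃ ∈ Z₃,
        volume (En (slice ε H E₁ z₁) (slice ε H E₂ z₂) (slice ε H E₃ z₃)
          (slice ε H E₀ (ssum σ z₁ z₂ z₃ + z')) σ s) ≤ volume (En F₁ F₂ F₃ F₀ σ s₂) := by
  refine ⟨Sum.elim ((-ε) • cst z') (H • (s - half κ + ssum σ (half κ) (half κ) (half κ))), ?_⟩
  have q := mp_spl (φ := φ) (κ := κ) hH
  have hp := (mp_three (volume : Measure (φ → ℝ))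
    (ENNReal.ofReal (H ^ Fintype.card κ) • (volume : Measure (κ → ℝ)))).comp (q.prod (q.prod q))
  set B : (φ → ℤ) × (φ → ℤ) × (φ → ℤ) →
      Set (((φ → ℝ) × (φ → ℝ) × (φ → ℝ)) × ((κ → ℝ) × (κ → ℝ) × (κ → ℝ))) := fun z =>
    (cell ε z.1 ×ˢ cell ε z.2.1 ×ˢ cell ε z.2.2) ×ˢ
      En (slice ε H E₁ z.1) (slice ε H E₂ z.2.1) (slice ε H E₃ z.2.2)
        (slice ε H E₀ (ssum σ z.1 z.2.1 z.2.2 + z')) σ s with hB
  have mB : ∀ z, MeasurableSet (B z) := fun z =>
    ((measurableSet_cell ε _).prod ((measurableSet_cell ε _).prod (measurableSet_cell ε _))).prod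
      (measurableSet_En (measurableSet_slice ε H m₁ _) (measurableSet_slice ε H m₂ _)
        (measurableSet_slice ε H m₃ _) (measurableSet_slice ε H m₀ _) σ s)
  have hd : Set.PairwiseDisjoint (↑(Z₁ ×ˢ Z₂ ×ˢ Z₃) : Set ((φ → ℤ) × (φ → ℤ) × (φ → ℤ))) B := by
    intro z _ w _ hzw
    refine Set.disjoint_left.mpr fun p hz hw => hzw ?_
    exact Prod.ext (cell_inj hε hz.1.1 hw.1.1)
      (Prod.ext (cell_inj hε hz.1.2.1 hw.1.2.1) (cell_inj hε hz.1.2.2 hw.1.2.2))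
  have hU := hp.measure_preimage
    (Finset.measurableSet_biUnion (Z₁ ×ˢ Z₂ ×ˢ Z₃) fun z _ => mB z).nullMeasurableSet
  rw [measure_biUnion_finset hd fun z _ => mB z] at hU
  refine le_trans (le_of_eq ?_) (hU.symm.le.trans (measure_mono ?_))
  · rw [Finset.sum_product, Finset.mul_sum]
    refine Finset.sum_congr rfl fun z₁ _ => ?_
    rw [Finset.sum_product, Finset.mul_sum]
    refine Finset.sum_congr rfl fun z₂ _ => ?_
    rw [Finset.mul_sum]
    refine Finset.sum_congr rfl fun z₃ _ => ?_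
    simp only [hB]
    rw [Measure.prod_prod, Measure.prod_prod, Measure.prod_prod, volume_cell hε, volume_cell hε,
      volume_cell hε, Measure.prod_smul_left, Measure.prod_smul_left, Measure.prod_smul_right,
      Measure.prod_smul_right, Measure.prod_smul_right, ENNReal.ofReal_pow (by positivity),
      ENNReal.ofReal_mul (by positivity)]
    simp only [Measure.smul_apply, smul_eq_mul]
    rw [Measure.volume_eq_prod, Measure.volume_eq_prod]
    ring
  · rintro ⟨Y₁, Y₂, Y₃⟩ hY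
    obtain ⟨⟨z₁, z₂, z₃⟩, -, ⟨c1, c2, c3⟩, a1, a2, a3, a0⟩ := mem_iUnion₂.mp hY
    have b1 := sub_mem_box (Y := Y₁) hε hH c1
    have b2 := sub_mem_box (Y := Y₂) hε hH c2
    have b3 := sub_mem_box (Y := Y₃) hε hH c3
    have d1 := h₁ _ a1 _ b1
    have d2 := h₂ _ a2 _ b2
    have d3 := h₃ _ a3 _ b3
    have d0 := h₀ _ a0 _ (ssum_mem_box hσ b1 b2 b3)
    refine ⟨by simpa using d1, by simpa using d2, by simpa using d3, ?_⟩
    refine mem_of_eq_of_mem ?_ d0
    funext i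
    rcases i with i | c
    · simp [ssum, cst]
      ring
    · simp [ssum]
      ring

theorem greedy {X : Type} (Z₀ : Finset X) (p : X → ℝ) {τ t : ℝ} (hτ : 0 ≤ τ)
    (hp : ∀ z ∈ Z₀, p z ≤ τ) (ht : 0 ≤ t) (h : t ≤ ∑ z ∈ Z₀, p z) :
    ∃ Z ⊆ Z₀, t ≤ ∑ z ∈ Z, p z ∧ ∑ z ∈ Z, p z ≤ t + τ := by
  classical
  induction Z₀ using Finset.induction_on with
  | empty => exact ⟨∅, Finset.Subset.refl _, h, by simp only [Finset.sum_empty]; linarith⟩
  | insert a Z ha ih =>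
    by_cases h1 : t ≤ ∑ z ∈ Z, p z
    · obtain ⟨W, hW, h2⟩ := ih (fun z hz => hp z (Finset.mem_insert_of_mem hz)) h1
      exact ⟨W, hW.trans (Finset.subset_insert _ _), h2⟩
    · refine ⟨insert a Z, Finset.Subset.refl _, h, ?_⟩
      rw [Finset.sum_insert ha]
      linarith [hp a (Finset.mem_insert_self _ _), not_le.mp h1]

theorem mem_ucube_of_win {x : κ → ℝ} (h : ∀ c, |x c - 1 / 2| < 1 / 8) : x ∈ ucube κ := by
  intro c _
  have h1 := abs_lt.1 (h c)
  constructor <;> linarith [h1.1, h1.2]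

theorem vol_le_of_win {S : Set (κ → ℝ)} (h : ∀ x ∈ S, ∀ c, |x c - 1 / 2| < 1 / 8) :
    volume.real S ≤ (1 / 2) ^ Fintype.card κ := by
  have h1 : S ⊆ Set.univ.pi fun _ : κ => Ico (1 / 4 : ℝ) (3 / 4) := by
    intro x hx c _
    have h1 := abs_lt.1 (h x hx c)
    constructor <;> linarith [h1.1, h1.2]
  refine ENNReal.toReal_le_of_le_ofReal (by positivity) ((measure_mono h1).trans (le_of_eq ?_))
  rw [Real.volume_pi_Ico, Finset.prod_const, Finset.card_univ, ENNReal.ofReal_pow (by norm_num)]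
  norm_num

theorem dil_add {ι : Type} {K : Set (ι → ℝ)} (hK : Convex ℝ K) {ρ t l : ℝ}
    (hb : box ι ρ ⊆ K) (ht : 0 < t) (hl : 0 < l) {y r : ι → ℝ}
    (hy : y ∈ (fun x => t • x) '' K) (hr : r ∈ box ι (l * ρ)) :
    y + r ∈ (fun x => (t + l) • x) '' K := by
  obtain ⟨x, hx, rfl⟩ := hy
  have h1 : l⁻¹ • r ∈ K := hb fun i => by
    rw [Pi.smul_apply, smul_eq_mul, abs_mul, abs_of_pos (inv_pos.mpr hl), inv_mul_le_iff₀ hl]
    exact hr i
  have h2 : 0 < t + l := by positivity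
  refine ⟨_, hK hx h1 (a := t / (t + l)) (b := l / (t + l)) (by positivity) (by positivity)
    (by field_simp), ?_⟩
  simp only [smul_add, smul_smul]
  rw [mul_div_cancel₀ _ h2.ne', ← mul_assoc, mul_div_cancel₀ _ h2.ne', mul_inv_cancel₀ hl.ne',
    one_smul]

end Vale.Agent.P230.L
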