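import Vale.Agent.P230.L.BM

/-! Size of isotropic bodies and small ball estimates.  P = cond volume K, n = card.

abs_dot_le (theta unit, D = theta . x, n >= 1): K0 = K inter {theta . a >= -2} has P >= 3/4
(Chebyshev); the homothetic copy (1 - 1/(2n)) K0 + x/(2n) lies in
K inter {theta . a >= D/(2n) - 2} and has P >= 3/8 (Bernoulli); Chebyshev gives D <= 8 n.
box_subset: separate x from K by a unit theta, r = theta . x <= 1/(10 n); on K the product
(r - y)(y + 8n) with y = theta . a is nonnegative; integrating gives 8 n r >= 1, absurd.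
small_ball: p = P(|y| <= eta), t 0 = P(y >= -eta), t j = P(y > (2j-1) eta); bm_mid gives
t (j-1) * t (j+1) <= (t j)^2 and t 1 <= (1-p) t 0, so t j <= (1-p)^j; same for -theta.  Then
1 = E y^2 <= eta^2 (1 + sum 16 j (1-p)^j) <= 17 eta^2 / p^2.
hsq_small: if hsq x < eta^2 m then more than 3m/4 coordinates have |x a| <= 2 eta; Markov. -/

namespace Vale.Agent.P230.L

open MeasureTheory ProbabilityTheory Set
open scoped ENNReal

theorem Iso.isProb {ι : Type} [Fintype ι] {K : Set (ι → ℝ)} (hK : Iso K) :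
    IsProbabilityMeasure (cond volume K) :=
  cond_isProbabilityMeasure_of_finite hK.vol_ne hK.compact.measure_lt_top.ne

theorem Iso.integrable_of_continuous {ι : Type} [Fintype ι] {K : Set (ι → ℝ)} (hK : Iso K)
    {f : (ι → ℝ) → ℝ} (hf : Continuous f) : Integrable f (cond volume K) := by
  unfold ProbabilityTheory.cond
  exact (hf.continuousOn.integrableOn_compact hK.compact).smul_measure
    (ENNReal.inv_ne_top.2 hK.vol_ne)

section Aux

variable {ι : Type} [Fintype ι] {K : Set (ι → ℝ)}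

lemma Iso.vol_pos (hK : Iso K) : 0 < volume.real K :=
  ENNReal.toReal_pos hK.vol_ne hK.compact.measure_lt_top.ne

lemma Iso.real_eq (hK : Iso K) (S : Set (ι → ℝ)) :
    (cond volume K).real S = volume.real (K ∩ S) / volume.real K := by
  rw [Measure.real, cond_apply hK.compact.measurableSet, ENNReal.toReal_mul, ENNReal.toReal_inv,
    div_eq_inv_mul]
  rfl

lemma Iso.ae_mem (hK : Iso K) : ∀ᵐ x ∂(cond volume K), x ∈ K :=
  ae_cond_mem hK.compact.measurableSet

lemma small_continuous_dot (θ : ι → ℝ) : Continuous fun x : ι → ℝ => θ ⬝ᵥ x := by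
  unfold dotProduct
  fun_prop

lemma Iso.cheb (hK : Iso K) {θ : ι → ℝ} (hθ : θ ⬝ᵥ θ = 1) {S : Set (ι → ℝ)}
    (hS : ∀ x ∈ S, 2 ≤ |θ ⬝ᵥ x|) : (cond volume K).real S ≤ 1 / 4 := by
  have := hK.isProb
  have h1 := mul_meas_ge_le_integral_of_nonneg (μ := cond volume K)
    (f := fun x => (θ ⬝ᵥ x) ^ 2) (Filter.Eventually.of_forall fun x => sq_nonneg _)
    (hK.integrable_of_continuous ((small_continuous_dot θ).pow 2)) 4
  rw [hK.cov, hθ] at h1
  have h2 : (cond volume K).real S ≤ (cond volume K).real {x | 4 ≤ (θ ⬝ᵥ x) ^ 2} := by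
    refine measureReal_mono fun x hx => ?_
    have h3 := pow_le_pow_left₀ zero_le_two (hS x hx) 2
    rw [sq_abs] at h3
    change 4 ≤ (θ ⬝ᵥ x) ^ 2
    linarith
  linarith

lemma small_card_pos {θ : ι → ℝ} (hθ : θ ⬝ᵥ θ = 1) : 1 ≤ Fintype.card ι := by
  rcases isEmpty_or_nonempty ι with h | h
  · simp [dotProduct] at hθ
  · exact Fintype.card_pos

lemma Iso.dot_le (hK : Iso K) (θ : ι → ℝ) (hθ : θ ⬝ᵥ θ = 1) {x : ι → ℝ} (hx : x ∈ K) :
    θ ⬝ᵥ x ≤ 8 * Fintype.card ι := by
  have := hK.isProb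
  have hn : (1 : ℝ) ≤ Fintype.card ι := by exact_mod_cast small_card_pos hθ
  by_contra hD
  push Not at hD
  obtain ⟨l, hl⟩ : ∃ l : ℝ, l = 1 / (2 * Fintype.card ι) := ⟨_, rfl⟩
  have hl0 : 0 < l := by rw [hl]; positivity
  have hln : l * Fintype.card ι = 1 / 2 := by rw [hl]; field_simp
  have hl1 : l ≤ 1 / 2 := by nlinarith
  have hm : MeasurableSet {a : ι → ℝ | -2 ≤ θ ⬝ᵥ a} :=
    measurableSet_le measurable_const (small_continuous_dot θ).measurable
  have h1 : 3 / 4 ≤ (cond volume K).real {a | -2 ≤ θ ⬝ᵥ a} := by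
    have h2 := probReal_compl_eq_one_sub (μ := cond volume K) hm
    have h3 := hK.cheb hθ (S := {a : ι → ℝ | -2 ≤ θ ⬝ᵥ a}ᶜ) fun a ha => by
      have h4 : ¬ (-2 ≤ θ ⬝ᵥ a) := ha
      linarith [neg_le_abs (θ ⬝ᵥ a)]
    linarith
  have h2 := hK.cheb hθ (S := {a : ι → ℝ | 2 ≤ θ ⬝ᵥ a}) fun a ha => by
    have h4 : 2 ≤ θ ⬝ᵥ a := ha
    linarith [le_abs_self (θ ⬝ᵥ a)]
  have hsub : AffineMap.homothety x (1 - l) '' (K ∩ {a | -2 ≤ θ ⬝ᵥ a}) ⊆
      K ∩ {a | 2 ≤ θ ⬝ᵥ a} := by
    rintro _ ⟨a, ⟨ha, ha2⟩, rfl⟩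
    have h3 : AffineMap.homothety x (1 - l) a = (1 - l) • a + l • x := by
      rw [AffineMap.homothety_apply, vsub_eq_sub, vadd_eq_add]
      module
    rw [h3]
    refine ⟨hK.convex ha hx (by linarith) hl0.le (by ring), ?_⟩
    change 2 ≤ θ ⬝ᵥ ((1 - l) • a + l • x)
    have h4 : -2 ≤ θ ⬝ᵥ a := ha2
    rw [dotProduct_add, dotProduct_smul, dotProduct_smul, smul_eq_mul, smul_eq_mul]
    have h5 := mul_le_mul_of_nonneg_left h4 (show 0 ≤ 1 - l by linarith)
    have h6 := mul_le_mul_of_nonneg_left hD.le hl0.le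
    linarith
  have h3 : volume.real (AffineMap.homothety x (1 - l) '' (K ∩ {a | -2 ≤ θ ⬝ᵥ a})) =
      (1 - l) ^ Fintype.card ι * volume.real (K ∩ {a | -2 ≤ θ ⬝ᵥ a}) := by
    rw [Measure.real, Measure.addHaar_image_homothety, ENNReal.toReal_mul,
      ENNReal.toReal_ofReal (abs_nonneg _), Module.finrank_pi,
      abs_of_nonneg (pow_nonneg (by linarith) _)]
    rfl
  have h4 := measureReal_mono (μ := volume) hsub
    ((measure_mono inter_subset_left).trans_lt hK.compact.measure_lt_top).ne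
  have h5 : 1 / 2 ≤ (1 - l) ^ Fintype.card ι := by
    have := one_add_mul_le_pow (a := -l) (by linarith) (Fintype.card ι)
    rw [← sub_eq_add_neg] at this
    linarith
  rw [hK.real_eq, le_div_iff₀ hK.vol_pos] at h1
  rw [hK.real_eq, div_le_iff₀ hK.vol_pos] at h2
  have h6 := mul_le_mul_of_nonneg_right h5
    (measureReal_nonneg (μ := volume) (s := K ∩ {a | -2 ≤ θ ⬝ᵥ a}))
  linarith [hK.vol_pos]

lemma Iso.tail_mid (hK : Iso K) (θ : ι → ℝ) (c₁ c₂ : ℝ) :
    (cond volume K).real {x | c₁ ≤ θ ⬝ᵥ x} * (cond volume K).real {x | c₂ ≤ θ ⬝ᵥ x} ≤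
      (cond volume K).real {x | (c₁ + c₂) / 2 ≤ θ ⬝ᵥ x} ^ 2 := by
  have hm : ∀ c : ℝ, MeasurableSet (K ∩ {x | c ≤ θ ⬝ᵥ x}) := fun c =>
    hK.compact.measurableSet.inter
      (measurableSet_le measurable_const (small_continuous_dot θ).measurable)
  have hf : ∀ c : ℝ, volume (K ∩ {x | c ≤ θ ⬝ᵥ x}) ≠ ∞ := fun c =>
    ((measure_mono inter_subset_left).trans_lt hK.compact.measure_lt_top).ne
  have h1 := bm_mid (hm c₁) (hm c₂) (hm ((c₁ + c₂) / 2)) (hf _) (hf _) fun a ha b hb => by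
    refine ⟨?_, ?_⟩
    · rw [smul_add]
      exact hK.convex ha.1 hb.1 (by norm_num) (by norm_num) (by norm_num)
    · have h2 : c₁ ≤ θ ⬝ᵥ a := ha.2
      have h3 : c₂ ≤ θ ⬝ᵥ b := hb.2
      change (c₁ + c₂) / 2 ≤ θ ⬝ᵥ ((1 / 2 : ℝ) • (a + b))
      rw [dotProduct_smul, dotProduct_add, smul_eq_mul]
      linarith
  have h2 := ENNReal.toReal_mono (ENNReal.pow_ne_top (hf _)) h1
  rw [ENNReal.toReal_mul, ENNReal.toReal_pow] at h2
  rw [hK.real_eq, hK.real_eq, hK.real_eq, div_mul_div_comm, div_pow, ← sq]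
  exact div_le_div_of_nonneg_right h2 (by positivity)

lemma Iso.tail_geom (hK : Iso K) (θ : ι → ℝ) {η η' : ℝ} (hη : η < η') (hη' : 0 < η') (j : ℕ) :
    (cond volume K).real {x | (2 * j - 1) * η' ≤ θ ⬝ᵥ x} ≤
      (1 - (cond volume K).real {x | |θ ⬝ᵥ x| ≤ η}) ^ j := by
  have := hK.isProb
  obtain ⟨p, hp⟩ : ∃ p, p = (cond volume K).real {x | |θ ⬝ᵥ x| ≤ η} := ⟨_, rfl⟩
  obtain ⟨t, ht⟩ : ∃ t : ℕ → ℝ, ∀ j, t j = (cond volume K).real {x | (2 * j - 1) * η' ≤ θ ⬝ᵥ x} :=
    ⟨_, fun _ => rfl⟩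
  rw [← hp, ← ht]
  have hp0 : 0 ≤ p := hp ▸ measureReal_nonneg
  have hp1 : p ≤ 1 := hp ▸ measureReal_le_one
  have ht0 : ∀ j, 0 ≤ t j := fun j => ht j ▸ measureReal_nonneg
  have ht1 : t 0 ≤ 1 := ht 0 ▸ measureReal_le_one
  have hmono : ∀ j, t (j + 1) ≤ t j := fun j => by
    rw [ht, ht]
    refine measureReal_mono fun x hx => ?_
    have h1 : (2 * ((j + 1 : ℕ) : ℝ) - 1) * η' ≤ θ ⬝ᵥ x := hx
    change (2 * (j : ℝ) - 1) * η' ≤ θ ⬝ᵥ x
    push_cast at h1
    linarith
  have hmid : ∀ j, t j * t (j + 2) ≤ t (j + 1) ^ 2 := fun j => by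
    rw [ht, ht, ht]
    refine (hK.tail_mid θ _ _).trans (le_of_eq ?_)
    congr 4
    push_cast
    ring_nf
  have h01 : t 1 + p ≤ t 0 := by
    rw [ht, ht, hp, ← measureReal_union]
    · refine measureReal_mono fun x hx => ?_
      change (2 * ((0 : ℕ) : ℝ) - 1) * η' ≤ θ ⬝ᵥ x
      rcases hx with hx | hx
      · have h1 : (2 * ((1 : ℕ) : ℝ) - 1) * η' ≤ θ ⬝ᵥ x := hx
        push_cast at h1 ⊢
        linarith
      · have h1 : |θ ⬝ᵥ x| ≤ η := hx
        push_cast
        linarith [neg_abs_le (θ ⬝ᵥ x)]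
    · refine Set.disjoint_left.2 fun x h1 h2 => ?_
      have h1 : (2 * ((1 : ℕ) : ℝ) - 1) * η' ≤ θ ⬝ᵥ x := h1
      have h2 : |θ ⬝ᵥ x| ≤ η := h2
      push_cast at h1
      linarith [le_abs_self (θ ⬝ᵥ x)]
    · exact measurableSet_le (small_continuous_dot θ).measurable.abs measurable_const
  have hrat : ∀ j, t (j + 1) ≤ (1 - p) * t j := by
    intro j
    induction j with
    | zero => nlinarith
    | succ j ih =>
      rcases (ht0 j).eq_or_lt with h | h
      · have h1 := hmono j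
        have h2 := hmono (j + 1)
        have h3 := mul_nonneg (sub_nonneg.2 hp1) (ht0 (j + 1))
        linarith
      · refine le_of_mul_le_mul_left ((hmid j).trans ?_) h
        have := mul_le_mul_of_nonneg_left ih (ht0 (j + 1))
        nlinarith
  induction j with
  | zero => simpa using ht1
  | succ j ih =>
    rw [pow_succ']
    exact (hrat j).trans (mul_le_mul_of_nonneg_left ih (sub_nonneg.2 hp1))

lemma small_sq_le {η : ℝ} (hη : 0 < η) (y : ℝ) (J : ℕ) :
    min (y ^ 2) (((2 * J + 1) * η) ^ 2) ≤ η ^ 2 * (1 + ∑ j ∈ Finset.range (J + 1),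
      8 * (j : ℝ) * ((if (2 * j - 1) * η ≤ y then 1 else 0) +
        (if (2 * j - 1) * η ≤ -y then 1 else 0))) := by
  induction J with
  | zero => simp
  | succ J ih =>
    rw [Finset.sum_range_succ, ← add_assoc, mul_add]
    have e : (2 * ((J + 1 : ℕ) : ℝ) - 1) * η = (2 * J + 1) * η := by push_cast; ring
    have h0 : 0 ≤ (2 * J + 1) * η := by positivity
    rw [e]
    by_cases h : (2 * J + 1) * η ≤ |y|
    · have h1 : ((2 * J + 1) * η) ^ 2 ≤ y ^ 2 := by
        rw [← sq_abs y]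
        exact pow_le_pow_left₀ h0 h 2
      rw [min_eq_right h1] at ih
      have h2 : (1 : ℝ) ≤ (if (2 * J + 1) * η ≤ y then 1 else 0) +
          (if (2 * J + 1) * η ≤ -y then 1 else 0) := by
        rcases le_abs.1 h with h3 | h3
        · rw [if_pos h3]; split_ifs <;> norm_num
        · rw [if_pos h3]; split_ifs <;> norm_num
      have h3 := mul_le_mul_of_nonneg_left h2
        (show 0 ≤ η ^ 2 * (8 * ((J + 1 : ℕ) : ℝ)) by positivity)
      refine (min_le_right _ _).trans ?_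
      push_cast at h3 ⊢
      nlinarith
    · push Not at h
      have h1 : y ^ 2 ≤ ((2 * J + 1) * η) ^ 2 := by
        rw [← sq_abs y]
        exact pow_le_pow_left₀ (abs_nonneg _) h.le 2
      rw [min_eq_left h1] at ih
      refine (min_le_left _ _).trans (ih.trans (le_add_of_nonneg_right ?_))
      split_ifs <;> positivity

lemma small_integral_ite {Ω : Type} [MeasurableSpace Ω] (P : Measure Ω) [IsFiniteMeasure P]
    {q : Ω → Prop} [DecidablePred q] (hq : MeasurableSet {x | q x}) :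
    Integrable (fun x => if q x then (1 : ℝ) else 0) P ∧
      ∫ x, (if q x then (1 : ℝ) else 0) ∂P = P.real {x | q x} := by
  have : (fun x => if q x then (1 : ℝ) else 0) = indicator {x | q x} 1 := by
    funext x
    simp [indicator]
  rw [this]
  exact ⟨(integrable_const 1).indicator hq, integral_indicator_one hq⟩

end Aux

theorem Iso.abs_dot_le {ι : Type} [Fintype ι] {K : Set (ι → ℝ)} (hK : Iso K) (θ : ι → ℝ)
    (hθ : θ ⬝ᵥ θ = 1) {x : ι → ℝ} (hx : x ∈ K) : |θ ⬝ᵥ x| ≤ 8 * Fintype.card ι := by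
  refine abs_le.2 ⟨?_, hK.dot_le θ hθ hx⟩
  have := hK.dot_le (-θ) (by simpa using hθ) hx
  rw [neg_dotProduct] at this
  linarith

theorem Iso.subset_box {ι : Type} [Fintype ι] {K : Set (ι → ℝ)} (hK : Iso K) :
    K ⊆ box ι (8 * Fintype.card ι) := by
  classical
  intro x hx i
  simpa using hK.abs_dot_le (Pi.single i 1) (by simp) hx

theorem Iso.box_subset {ι : Type} [Fintype ι] {K : Set (ι → ℝ)} (hK : Iso K) :
    box ι (1 / (10 * (Fintype.card ι : ℝ) ^ 2)) ⊆ K := by
  classical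
  have := hK.isProb
  intro x hx
  by_contra hxK
  obtain ⟨f, u, hf1, hf2⟩ := geometric_hahn_banach_closed_point hK.convex hK.compact.isClosed hxK
  obtain ⟨a₀, ha₀⟩ : K.Nonempty := nonempty_of_measure_ne_zero hK.vol_ne
  obtain ⟨v, hv⟩ : ∃ v : ι → ℝ, ∀ a, f a = v ⬝ᵥ a := by
    refine ⟨fun i => f (Pi.single i 1), fun a => ?_⟩
    have h1 : a = ∑ i, a i • Pi.single i (1 : ℝ) := by
      ext j
      simp [Finset.sum_apply, Pi.single_apply]
    conv_lhs => rw [h1]
    simp [dotProduct, mul_comm]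
  have hv0 : 0 < v ⬝ᵥ v := by
    have h1 : 0 ≤ v ⬝ᵥ v := Finset.sum_nonneg fun i _ => mul_self_nonneg _
    refine h1.lt_of_ne fun h => ?_
    have h2 : v = 0 := dotProduct_self_eq_zero.1 h.symm
    have h3 := (hf1 a₀ ha₀).trans hf2
    rw [hv, hv, h2] at h3
    simp at h3
  obtain ⟨c, hc0, hc⟩ : ∃ c : ℝ, 0 < c ∧ c * (c * (v ⬝ᵥ v)) = 1 := by
    refine ⟨(√(v ⬝ᵥ v))⁻¹, by positivity, ?_⟩
    have h1 := Real.mul_self_sqrt hv0.le
    have h2 := Real.sqrt_pos.2 hv0
    field_simp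
    linarith
  have hθ : (c • v) ⬝ᵥ (c • v) = 1 := by
    rw [smul_dotProduct, dotProduct_smul, smul_eq_mul, smul_eq_mul, hc]
  have hsep : ∀ a ∈ K, (c • v) ⬝ᵥ a ≤ (c • v) ⬝ᵥ x := fun a ha => by
    rw [smul_dotProduct, smul_dotProduct, ← hv, ← hv]
    exact mul_le_mul_of_nonneg_left ((hf1 a ha).trans hf2).le hc0.le
  generalize c • v = θ at hθ hsep
  have hn : (1 : ℝ) ≤ Fintype.card ι := by exact_mod_cast small_card_pos hθ
  have hr : θ ⬝ᵥ x ≤ 1 / (10 * Fintype.card ι) := by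
    have h1 : ∀ i, |θ i| ≤ 1 := fun i => by
      have h2 : θ i * θ i ≤ θ ⬝ᵥ θ :=
        Finset.single_le_sum (f := fun i => θ i * θ i) (fun i _ => mul_self_nonneg _)
          (Finset.mem_univ i)
      rw [← sq_le_one_iff_abs_le_one]
      linarith
    have h2 : ∀ i ∈ Finset.univ, θ i * x i ≤ 1 / (10 * (Fintype.card ι : ℝ) ^ 2) := fun i _ => by
      refine (le_abs_self _).trans ?_
      rw [abs_mul]
      exact (mul_le_mul (h1 i) (hx i) (abs_nonneg _) zero_le_one).trans (one_mul _).le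
    refine (Finset.sum_le_card_nsmul _ _ _ h2).trans (le_of_eq ?_)
    rw [Finset.card_univ, nsmul_eq_mul]
    field_simp
  have i1 := hK.integrable_of_continuous (small_continuous_dot θ)
  have i2 := hK.integrable_of_continuous ((small_continuous_dot θ).pow 2)
  have h1 : ∫ a, (θ ⬝ᵥ a) ^ 2 ∂(cond volume K) ≤
      ∫ a, ((θ ⬝ᵥ x - 8 * Fintype.card ι) * (θ ⬝ᵥ a) + 8 * Fintype.card ι * (θ ⬝ᵥ x))
        ∂(cond volume K) := by
    refine integral_mono_ae i2 ((i1.const_mul _).add (integrable_const _)) ?_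
    filter_upwards [hK.ae_mem] with a ha
    have h2 := (abs_le.1 (hK.abs_dot_le θ hθ ha)).1
    nlinarith [mul_nonneg (sub_nonneg.2 (hsep a ha)) (sub_nonneg.2 h2)]
  rw [integral_add (i1.const_mul _) (integrable_const _), integral_const_mul, hK.mean, hK.cov, hθ,
    integral_const] at h1
  simp only [mul_zero, zero_add, probReal_univ, smul_eq_mul, one_mul] at h1
  rw [le_div_iff₀ (by positivity)] at hr
  linarith

theorem Iso.small_ball {ι : Type} [Fintype ι] {K : Set (ι → ℝ)} (hK : Iso K) (θ : ι → ℝ)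
    (hθ : θ ⬝ᵥ θ = 1) {η : ℝ} (hη : 0 < η) :
    (cond volume K).real {x | |θ ⬝ᵥ x| ≤ η} ≤ 5 * η := by
  have := hK.isProb
  obtain ⟨η', hη'⟩ : ∃ η' : ℝ, η' = 5 / 4 * η := ⟨_, rfl⟩
  have h0 : 0 < η' := by linarith
  have hlt : η < η' := by linarith
  have t1 := hK.tail_geom θ hlt h0
  have t2 := hK.tail_geom (-θ) hlt h0
  simp only [neg_dotProduct, abs_neg] at t2
  obtain ⟨p, hp⟩ : ∃ p, p = (cond volume K).real {x | |θ ⬝ᵥ x| ≤ η} := ⟨_, rfl⟩
  have hp1 : p ≤ 1 := hp ▸ measureReal_le_one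
  rw [← hp] at t1 t2 ⊢
  by_contra hcon
  push Not at hcon
  have hp0 : 0 < p := by linarith
  obtain ⟨J, hJ⟩ := exists_nat_ge (8 * Fintype.card ι / η')
  rw [div_le_iff₀ h0] at hJ
  have hm := (small_continuous_dot θ).measurable
  have I1 := fun j : ℕ => small_integral_ite (cond volume K)
    (q := fun x => (2 * j - 1) * η' ≤ θ ⬝ᵥ x) (measurableSet_le measurable_const hm)
  have I2 := fun j : ℕ => small_integral_ite (cond volume K)
    (q := fun x => (2 * j - 1) * η' ≤ -(θ ⬝ᵥ x)) (measurableSet_le measurable_const hm.neg)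
  have I3 := fun j : ℕ => ((I1 j).1.add (I2 j).1).const_mul (8 * (j : ℝ))
  have I4 := integrable_finsetSum (Finset.range (J + 1)) fun j _ => I3 j
  simp only [Pi.add_apply] at I3 I4
  have h1 := integral_mono_ae (hK.integrable_of_continuous ((small_continuous_dot θ).pow 2))
    (((integrable_const (1 : ℝ)).add I4).const_mul (η' ^ 2)) (by
      filter_upwards [hK.ae_mem] with a ha
      have h2 := small_sq_le h0 (θ ⬝ᵥ a) J
      have h3 : (θ ⬝ᵥ a) ^ 2 ≤ ((2 * J + 1) * η') ^ 2 := by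
        rw [← sq_abs (θ ⬝ᵥ a)]
        refine pow_le_pow_left₀ (abs_nonneg _) ((hK.abs_dot_le θ hθ ha).trans ?_) 2
        have : 0 ≤ J * η' := by positivity
        linarith
      rw [min_eq_left h3] at h2
      exact h2)
  simp only [Pi.add_apply, Pi.pow_apply] at h1
  rw [hK.cov, hθ, integral_const_mul, integral_add (integrable_const _) I4,
    integral_finsetSum _ fun j _ => I3 j] at h1
  have h2 : ∀ j ∈ Finset.range (J + 1), ∫ x, 8 * (j : ℝ) *
      ((if (2 * j - 1) * η' ≤ θ ⬝ᵥ x then 1 else 0) +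
        (if (2 * j - 1) * η' ≤ -(θ ⬝ᵥ x) then 1 else 0)) ∂(cond volume K) ≤
      16 * (j * (1 - p) ^ j) := by
    intro j _
    rw [integral_const_mul, integral_add (I1 j).1 (I2 j).1, (I1 j).2, (I2 j).2]
    have := mul_le_mul_of_nonneg_left (add_le_add (t1 j) (t2 j))
      (show 0 ≤ 8 * (j : ℝ) by positivity)
    linarith
  have h3 := Finset.sum_le_sum h2
  rw [← Finset.mul_sum] at h3
  have h4 := sum_le_hasSum (Finset.range (J + 1))
    (fun j _ => mul_nonneg (Nat.cast_nonneg j) (pow_nonneg (sub_nonneg.2 hp1) j))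
    (hasSum_coe_mul_geometric_of_norm_lt_one (r := 1 - p)
      (by rw [Real.norm_eq_abs, abs_lt]; constructor <;> linarith))
  simp only [integral_const, probReal_univ, smul_eq_mul, mul_one, sub_sub_cancel] at h1 h4
  have h5 : 1 ≤ η' ^ 2 * (1 + 16 * ((1 - p) / p ^ 2)) :=
    h1.trans (mul_le_mul_of_nonneg_left (by linarith) (sq_nonneg _))
  have h6 : η' ^ 2 * (1 + 16 * ((1 - p) / p ^ 2)) = η' ^ 2 * (p ^ 2 + 16 * (1 - p)) / p ^ 2 := by
    field_simp
  rw [h6, le_div_iff₀ (by positivity)] at h5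
  have h7 : η' ^ 2 * (p ^ 2 + 16 * (1 - p)) ≤ η' ^ 2 * 16 :=
    mul_le_mul_of_nonneg_left (by nlinarith) (sq_nonneg _)
  have h8 : (4 * η') ^ 2 < p ^ 2 := pow_lt_pow_left₀ (by linarith) (by positivity) two_ne_zero
  nlinarith

theorem Iso.hsq_small {α β : Type} [Fintype α] [Fintype β] {K : Set (α ⊕ β → ℝ)} (hK : Iso K)
    {η : ℝ} (hη : 0 < η) :
    (cond volume K).real {x | hsq x < η ^ 2 * Fintype.card α} ≤ 14 * η := by
  classical
  have := hK.isProb
  rcases Nat.eq_zero_or_pos (Fintype.card α) with h0 | h0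
  · have : {x : α ⊕ β → ℝ | hsq x < η ^ 2 * Fintype.card α} = ∅ := by
      refine eq_empty_of_forall_notMem fun x hx => ?_
      have h1 : hsq x < η ^ 2 * Fintype.card α := hx
      have h2 : 0 ≤ hsq x := Finset.sum_nonneg fun _ _ => sq_nonneg _
      rw [h0] at h1
      simp at h1
      linarith
    rw [this, measureReal_empty]
    positivity
  have hm : (0 : ℝ) < Fintype.card α := by exact_mod_cast h0
  have I1 := fun a : α => small_integral_ite (cond volume K)
    (q := fun x : α ⊕ β → ℝ => |x (Sum.inl a)| ≤ 2 * η)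
    (measurableSet_le (measurable_pi_apply _).abs measurable_const)
  have h1 := mul_meas_ge_le_integral_of_nonneg (μ := cond volume K)
    (f := fun x => ∑ a : α, if |x (Sum.inl a)| ≤ 2 * η then (1 : ℝ) else 0)
    (Filter.Eventually.of_forall fun x => Finset.sum_nonneg fun a _ => by split_ifs <;> norm_num)
    (integrable_finsetSum _ fun a _ => (I1 a).1) (3 / 4 * Fintype.card α)
  rw [integral_finsetSum _ fun a _ => (I1 a).1] at h1
  have h2 : ∀ a ∈ Finset.univ, ∫ x, (if |x (Sum.inl a)| ≤ 2 * η then (1 : ℝ) else 0)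
      ∂(cond volume K) ≤ 10 * η := by
    intro a _
    have h3 := hK.small_ball (Pi.single (Sum.inl a) 1) (by simp) (η := 2 * η) (by positivity)
    simp only [single_dotProduct, one_mul] at h3
    rw [(I1 a).2]
    linarith
  have h3 := Finset.sum_le_card_nsmul _ _ _ h2
  rw [Finset.card_univ, nsmul_eq_mul] at h3
  have h4 : (cond volume K).real {x | hsq x < η ^ 2 * Fintype.card α} ≤ (cond volume K).real
      {x | 3 / 4 * (Fintype.card α : ℝ) ≤
        ∑ a : α, if |x (Sum.inl a)| ≤ 2 * η then (1 : ℝ) else 0} := by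
    refine measureReal_mono fun x hx => ?_
    have h5 : hsq x < η ^ 2 * Fintype.card α := hx
    have h6 : ∀ a ∈ Finset.univ, 1 - x (Sum.inl a) ^ 2 / (4 * η ^ 2) ≤
        if |x (Sum.inl a)| ≤ 2 * η then (1 : ℝ) else 0 := by
      intro a _
      split_ifs with h
      · have : 0 ≤ x (Sum.inl a) ^ 2 / (4 * η ^ 2) := by positivity
        linarith
      · push Not at h
        have h7 := pow_le_pow_left₀ (by positivity) h.le 2
        rw [sq_abs] at h7
        rw [sub_nonpos, le_div_iff₀ (by positivity)]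
        linarith
    refine le_trans ?_ (Finset.sum_le_sum h6)
    rw [Finset.sum_sub_distrib, ← Finset.sum_div, Finset.sum_const, Finset.card_univ, nsmul_eq_mul,
      mul_one]
    have h7 : hsq x / (4 * η ^ 2) ≤ Fintype.card α / 4 := by
      rw [div_le_iff₀ (by positivity)]
      linarith
    unfold hsq at h7
    linarith
  have h5 := mul_le_mul_of_nonneg_left h4 (show 0 ≤ 3 / 4 * (Fintype.card α : ℝ) by positivity)
  refine le_of_mul_le_mul_left ?_ hm
  nlinarith [mul_pos hm hη]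

theorem Iso.integral_hsq {α β : Type} [Fintype α] [Fintype β] {K : Set (α ⊕ β → ℝ)}
    (hK : Iso K) : ∫ x, hsq x ∂(cond volume K) = Fintype.card α := by
  classical
  unfold hsq
  rw [integral_finsetSum _ fun a _ => hK.integrable_of_continuous (by fun_prop)]
  have : ∀ a : α, ∫ x, x (Sum.inl a) ^ 2 ∂(cond volume K) = 1 := fun a => by
    simpa using hK.cov (Pi.single (Sum.inl a) 1)
  simp [this]

theorem Iso.hsq_mid {α β : Type} [Fintype α] [Fintype β] {K : Set (α ⊕ β → ℝ)} (hK : Iso K)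
    (hα : 0 < Fintype.card α) :
    3 / 5 ≤ (cond volume K).real
      {x | 1 / 100 ≤ √(hsq x / Fintype.card α) ∧ √(hsq x / Fintype.card α) ≤ 2} := by
  have := hK.isProb
  have hm : (0 : ℝ) < Fintype.card α := by exact_mod_cast hα
  have hcont : Continuous (hsq : (α ⊕ β → ℝ) → ℝ) := by
    unfold hsq
    fun_prop
  have hR : Measurable fun x : α ⊕ β → ℝ => √(hsq x / Fintype.card α) :=
    (hcont.measurable.div_const _).sqrt
  have h1 := hK.hsq_small (η := 1 / 100) (by norm_num)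
  have h2 := mul_meas_ge_le_integral_of_nonneg (μ := cond volume K) (f := hsq)
    (Filter.Eventually.of_forall fun x => Finset.sum_nonneg fun _ _ => sq_nonneg _)
    (hK.integrable_of_continuous hcont) (4 * Fintype.card α)
  rw [hK.integral_hsq] at h2
  have h3 : (cond volume K).real {x | 4 * (Fintype.card α : ℝ) ≤ hsq x} ≤ 1 / 4 := by
    refine le_of_mul_le_mul_left ?_ hm
    linarith
  have h4 := probReal_compl_eq_one_sub (μ := cond volume K)
    (s := {x | 1 / 100 ≤ √(hsq x / Fintype.card α) ∧ √(hsq x / Fintype.card α) ≤ 2})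
    ((measurableSet_le measurable_const hR).inter (measurableSet_le hR measurable_const))
  have h5 : (cond volume K).real
      {x | 1 / 100 ≤ √(hsq x / Fintype.card α) ∧ √(hsq x / Fintype.card α) ≤ 2}ᶜ ≤
      (cond volume K).real ({x | hsq x < (1 / 100) ^ 2 * Fintype.card α} ∪
        {x | 4 * (Fintype.card α : ℝ) ≤ hsq x}) := by
    refine measureReal_mono fun x hx => ?_
    simp only [mem_compl_iff, mem_ofPred_eq, not_and_or, not_le] at hx
    rcases hx with hx | hx
    · left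
      rw [Real.sqrt_lt' (by norm_num), div_lt_iff₀ hm] at hx
      exact hx
    · right
      rw [Real.lt_sqrt (by norm_num), lt_div_iff₀ hm] at hx
      change 4 * (Fintype.card α : ℝ) ≤ hsq x
      linarith
  have h6 := h5.trans (measureReal_union_le _ _)
  linarith

end Vale.Agent.P230.L
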